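import Vale.Agent.P132.Calc

/-! Finite time averages and the mean ergodic theorem for the modular group. -/

set_option linter.unusedSectionVars false

open MeasureTheory Filter Topology
open scoped InnerProductSpace ComplexConjugate

namespace Vale.Agent.P132

/-- sampling times -/
noncomputable def tm (s : ℝ) (n k : ℕ) : ℝ := s * k / 2 ^ n

section av
variable {E E' : Type*} [NormedAddCommGroup E] [NormedSpace ℂ E] [NormedAddCommGroup E']
  [NormedSpace ℂ E']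

/-- time average -/
noncomputable def av (s : ℝ) (n : ℕ) (f : ℝ → E) : E :=
  ((4 : ℂ) ^ n)⁻¹ • ∑ k : Fin (4 ^ n), f (tm s n k)

lemma av_le (s : ℝ) (n : ℕ) {f : ℝ → E} {C : ℝ} (h : ∀ t, ‖f t‖ ≤ C) : ‖av s n f‖ ≤ C := by
  have := (norm_sum_le Finset.univ _).trans
    (Finset.sum_le_sum fun (k : Fin (4 ^ n)) _ => h (tm s n k))
  rw [av, norm_smul, norm_inv, norm_pow, inv_mul_le_iff₀ (by simp)]
  simpa using this

lemma av_map (s : ℝ) (n : ℕ) (f : ℝ → E) (L : E →L[ℂ] E') :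
    L (av s n f) = av s n fun t => L (f t) := by simp [av]

@[simp] lemma av_const (s : ℝ) (n : ℕ) (c : E) : av s n (fun _ => c) = c := by
  simp [av, ← Nat.cast_smul_eq_nsmul ℂ, smul_smul]

lemma av_smul (s : ℝ) (n : ℕ) (c : ℂ) (f : ℝ → E) : av s n (fun t => c • f t) = c • av s n f := by
  simp [av, ← Finset.smul_sum, smul_comm c]

lemma av_shift (s : ℝ) (l : ℕ) {f : ℝ → E} {C : ℝ} (h : ∀ t, ‖f t‖ ≤ C) :
    Tendsto (fun n => av s n (fun t => f (t + s / 2 ^ l)) - av s n f) atTop (𝓝 0) := by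
  have h0 : 0 ≤ C := (norm_nonneg _).trans (h 0)
  refine squeeze_zero_norm' ?_ (by simpa using
    (tendsto_pow_atTop_nhds_zero_of_lt_one (r := (2 : ℝ)⁻¹) (by norm_num) (by norm_num)).const_mul (2 * C))
  filter_upwards [eventually_ge_atTop l] with n hn
  obtain ⟨j, rfl⟩ := Nat.exists_eq_add_of_le hn
  let g : ℕ → E := fun k => f (tm s (l + j) k)
  have e : ∀ k : ℕ, f (tm s (l + j) k + s / 2 ^ l) = g (2 ^ j + k) := fun k => by
    simp only [g, tm]; congr 1; push_cast; field_simp; ring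
  simp only [av, e]
  rw [Fin.sum_univ_eq_sum_range (fun k => g (2 ^ j + k)), Fin.sum_univ_eq_sum_range g, ← smul_sub]
  have h1 := Finset.sum_range_add g (2 ^ j) (4 ^ (l + j))
  rw [add_comm, Finset.sum_range_add] at h1
  have h2 : ∑ k ∈ Finset.range (4 ^ (l + j)), g (2 ^ j + k) - ∑ k ∈ Finset.range (4 ^ (l + j)), g k
      = ∑ k ∈ Finset.range (2 ^ j), (g (4 ^ (l + j) + k) - g k) := by
    rw [Finset.sum_sub_distrib, sub_eq_sub_iff_add_eq_add, add_comm, ← h1, add_comm]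
  have h3 := (norm_sum_le _ _).trans (Finset.sum_le_sum fun k (_ : k ∈ Finset.range (2 ^ j)) =>
    (norm_sub_le (g (4 ^ (l + j) + k)) (g k)).trans (add_le_add (h _) (h _)))
  rw [h2, norm_smul, norm_inv, norm_pow, inv_mul_le_iff₀ (by simp)]
  refine h3.trans ?_
  have : (1 : ℝ) ≤ 2 ^ l := one_le_pow₀ (by norm_num)
  simp only [Finset.sum_const, Finset.card_range, nsmul_eq_mul, Complex.norm_ofNat,
    show (4 : ℝ) = 2 * 2 by norm_num, mul_pow]
  field_simp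
  push_cast
  rw [pow_add]
  nlinarith [mul_nonneg (mul_nonneg h0 (sub_nonneg.2 this)) (pow_nonneg (zero_le_two (α := ℝ)) j)]

lemma nn_av (s : ℝ) (n : ℕ) (g : ℝ → E) :
    nn (fun k : Fin (4 ^ n) => ((2 : ℂ) ^ n)⁻¹ • g (tm s n k)) ^ 2 =
      (av s n fun t => ((‖g t‖ ^ 2 : ℝ) : ℂ)).re := by
  rw [nn_smul, mul_pow, nn_sq, av, ← Complex.ofReal_sum, show ((4 : ℂ) ^ n)⁻¹ =
    (((4 : ℝ) ^ n)⁻¹ : ℝ) by simp, smul_eq_mul, ← Complex.ofReal_mul, Complex.ofReal_re]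
  congr 1
  rw [norm_inv, norm_pow, inv_pow, ← pow_mul, mul_comm, pow_mul]
  norm_num

lemma nn_av_le (s : ℝ) (n : ℕ) {g : ℝ → E} {C : ℝ} (h : ∀ t, ‖g t‖ ≤ C) :
    nn (fun k : Fin (4 ^ n) => ((2 : ℂ) ^ n)⁻¹ • g (tm s n k)) ≤ C := by
  refine le_of_sq_le_sq ?_ ((norm_nonneg _).trans (h 0))
  rw [nn_av]
  refine (Complex.re_le_norm _).trans (av_le s n fun t => ?_)
  rw [Complex.norm_real, norm_pow, norm_norm]
  gcongr
  exact h t

end av

lemma all_of_dyadic {s : ℝ} (hs : s ≠ 0) (S : AddSubgroup ℝ) (hc : IsClosed (S : Set ℝ))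
    (h : ∀ l : ℕ, s / 2 ^ l ∈ S) (u : ℝ) : u ∈ S := by
  have : Dense (S : Set ℝ) := S.dense_of_not_isolated_zero fun ε hε => by
    obtain ⟨l, hl⟩ := pow_unbounded_of_one_lt (|s| / ε) (one_lt_two (α := ℝ))
    refine ⟨|s| / 2 ^ l, ?_, by positivity, ?_⟩
    · rcases abs_choice s with h' | h' <;> rw [h']
      exacts [h l, neg_div _ s ▸ neg_mem (h l)]
    · rw [div_lt_iff₀ hε] at hl
      rw [div_lt_iff₀ (by positivity)]
      linarith
  exact hc.closure_subset (this u)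

lemma av_ch {s : ℝ} (hs : s ≠ 0) {d : ℝ} (hd : d ≠ 0) :
    Tendsto (fun n => av s n fun t => ch t d) atTop (𝓝 0) := by
  obtain ⟨l, hl⟩ : ∃ l : ℕ, ch (s / 2 ^ l) d ≠ 1 := by
    by_contra! h
    have := all_of_dyadic hs ⟨⟨⟨{u | ch u d = 1}, fun {a b} ha hb => by
      simp_all [ch_add]⟩, by simp⟩, fun {a} ha => by simp_all [← conj_ch]⟩
      (isClosed_eq (by fun_prop) continuous_const) h (Real.pi / d)
    change ch _ _ = 1 at this
    rw [ch, div_mul_cancel₀ _ hd, Complex.exp_pi_mul_I] at this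
    norm_num at this
  have := (av_shift s l (f := fun t => ch t d) fun t => (norm_ch t d).le).const_mul
    (ch (s / 2 ^ l) d - 1)⁻¹
  rw [mul_zero] at this
  refine this.congr fun n => ?_
  simp only [ch_add, mul_comm _ (ch (s / 2 ^ l) d)]
  rw [inv_mul_eq_iff_eq_mul₀ (sub_ne_zero.2 hl), sub_mul, one_mul]
  congr 1
  exact av_smul s n _ _

variable {H : Type*} [NormedAddCommGroup H] [InnerProductSpace ℂ H] [CompleteSpace H]

lemma av_apply (s : ℝ) (n : ℕ) (f : ℝ → H →L[ℂ] H) (η : H) :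
    av s n f η = av s n fun t => f t η := av_map s n f (ContinuousLinearMap.apply ℂ H η)

lemma av_inner (s : ℝ) (n : ℕ) (f : ℝ → H) (η : H) :
    ⟪η, av s n f⟫_ℂ = av s n fun t => ⟪η, f t⟫_ℂ := av_map s n f (innerSL ℂ η)

lemma av_mem {A : VonNeumannAlgebra H} (s : ℝ) (n : ℕ) {f : ℝ → H →L[ℂ] H} (h : ∀ t, f t ∈ A) :
    av s n f ∈ A := vsmul _ (sum_mem fun _ _ => h _)

namespace Mod

variable (D : Mod H)

/-- twisted average of the modular group -/
noncomputable def avσ (s ν : ℝ) (x : H →L[ℂ] H) (n : ℕ) : H →L[ℂ] H :=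
  av s n fun t => ch (-t) ν • D.σ t x

lemma avσ_le (s ν : ℝ) (x : H →L[ℂ] H) (n : ℕ) : ‖D.avσ s ν x n‖ ≤ ‖x‖ :=
  av_le s n fun t => by simpa [norm_smul] using D.σ_le t x

lemma avσ_inner (s : ℝ) (x : H →L[ℂ] H) (n : ℕ) (η ζ : H) :
    ⟪η, D.avσ s 0 x n ζ⟫_ℂ = av s n fun t => ⟪D.V (-t) η, x (D.V (-t) ζ)⟫_ℂ := by
  simp [avσ, av_apply, av_inner, σ_apply, V_inner]

lemma avσ_inv {s : ℝ} (hs : s ≠ 0) (ν : ℝ) {x y : H →L[ℂ] H} {l : Filter ℕ} [l.NeBot]
    (hl : l ≤ atTop) (h : ∀ η ζ, Tendsto (fun n => ⟪η, D.avσ s ν x n ζ⟫_ℂ) l (𝓝 ⟪η, y ζ⟫_ℂ))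
    (u : ℝ) (η : H) : D.V u (y η) = ch u ν • y (D.V u η) := by
  revert η
  refine all_of_dyadic hs ⟨⟨⟨{u | ∀ η, D.V u (y η) = ch u ν • y (D.V u η)}, fun {a b} ha hb η => ?_⟩,
    by simp⟩, fun {a} ha η => ?_⟩ ?_ (fun k η => ext_inner_left ℂ fun ζ => ?_) u
  · rw [← V_V, hb, map_smul, ha, V_V, smul_smul, ch_add, mul_comm]
  · have := congrArg (fun ζ => ch (-a) ν • D.V (-a) ζ) (ha (D.V (-a) η))
    simpa [smul_smul, ← ch_add] using this.symm
  · simp only [AddSubgroup.coe_set_mk, AddSubmonoid.coe_set_mk, AddSubsemigroup.coe_set_mk,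
      Set.ofPred_forall]
    exact isClosed_iInter fun η => isClosed_eq (D.V_cont _)
      (.smul (by fun_prop) (y.continuous.comp (D.V_cont _)))
  · set u := s / 2 ^ k
    have h1 := (av_shift s k (f := fun t => ⟪ζ, (ch (-t) ν • D.σ t x) (D.V u η)⟫_ℂ)
      (C := ‖ζ‖ * (‖x‖ * ‖η‖)) fun t => (norm_inner_le_norm _ _).trans (by
        gcongr
        simpa [norm_smul] using (D.σ t x).le_of_opNorm_le (D.σ_le t x) (D.V u η))).mono_left hl
    have h2 := ((h (D.V (-u) ζ) η).const_mul (ch (-u) ν)).sub (h ζ (D.V u η))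
    have h3 := tendsto_nhds_unique h2 (h1.congr fun n => by
      simp only [avσ, av_apply, av_inner, ← smul_eq_mul (ch (-u) ν), ← av_smul]
      congr 2
      ext t
      rw [V_inner, neg_neg, show s / 2 ^ k = u from rfl]
      simp [σ_apply, V_V, ch_add, add_comm t]
      ring)
    rw [inner_smul_right, ← sub_eq_zero.1 h3, ← mul_assoc, ← ch_add, V_inner]
    simp

lemma exists_E {s : ℝ} (hs : s ≠ 0) (ν : ℝ) {x : H →L[ℂ] H} (hx : x ∈ D.M) :
    ∃ y : H →L[ℂ] H, ‖y‖ ≤ ‖x‖ ∧ (∀ u η, D.V u (y η) = ch u ν • y (D.V u η)) ∧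
      (∀ η, Tendsto (fun n => D.avσ s ν x n η) atTop (𝓝 (y η))) ∧
      ∀ A : VonNeumannAlgebra H, (∀ t, D.σ t x ∈ A) → y ∈ A := by
  let a : ℕ → ℝ → ℂ := fun n z => av s n fun t => ch t (z - ν)
  have a1 : ∀ n z, ‖a n z‖ ≤ 1 := fun n z => av_le s n fun t => (norm_ch _ _).le
  have a2 : ∀ n, Cb (a n) := fun n => ⟨by unfold a av; fun_prop, 1, a1 n⟩
  have a3 : ∀ n, D.avσ s ν x n D.ξ = D.F (a n) (x D.ξ) := fun n => by
    have : D.F (a n) = av s n fun t => ch (-t) ν • D.V t := op_ext fun η => by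
      simp only [D.F_inner _ (a2 n), av_apply, av_inner, smul_apply, inner_smul_right, V,
        D.F_inner _ (.ch _), ← integral_const_mul]
      simp only [a, av]
      rw [integral_smul, integral_finsetSum _ fun k _ => Cb.integrable
        ⟨by fun_prop, 1, fun _ => (norm_ch _ _).le⟩ _]
      simp [sub_eq_add_neg, ch_add', ch_neg, mul_comm]
    simp [this, avσ, av_apply]
  have a4 : CauchySeq fun n => D.avσ s ν x n D.ξ := by
    rw [cauchySeq_iff_tendsto_dist_atTop_0]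
    have := D.F_tendsto (l := atTop) (p := fun (n : ℕ × ℕ) z => a n.1 z - a n.2 z)
      (fun n => (a2 _).sub (a2 _)) (.const 0) (C := 1 + 1)
      (fun n z => (norm_sub_le _ _).trans (add_le_add (a1 _ _) (a1 _ _))) (fun z => by
        by_cases h : z - ν = 0
        · simp [a, h]
        · rw [← prod_atTop_atTop_eq]
          simpa using ((av_ch hs h).comp tendsto_fst).sub ((av_ch hs h).comp tendsto_snd))
      (x D.ξ)
    simpa [dist_eq_norm, a3, D.F_sub (a2 _) (a2 _), D.F_const] using this.norm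
  obtain ⟨α, hα⟩ := cauchySeq_tendsto_of_complete a4
  obtain ⟨y, y1, y2⟩ := exists_wlim (hyperfilter ℕ) (norm_nonneg x) (D.avσ_le s ν x)
  have hl : (hyperfilter ℕ : Filter ℕ) ≤ atTop := Nat.hyperfilter_le_atTop
  have y3 : ∀ A : VonNeumannAlgebra H, (∀ t, D.σ t x ∈ A) → y ∈ A := fun A h =>
    mem_of_wlim (fun n => av_mem s n fun t => vsmul _ (h t)) y2
  have y4 : y D.ξ = α := ext_inner_left ℂ fun η =>
    tendsto_nhds_unique (y2 η _) ((tendsto_const_nhds.inner hα).mono_left hl)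
  refine ⟨y, y1, D.avσ_inv hs ν hl y2, fun η => tendsto_sub_nhds_zero_iff.1 ?_, y3⟩
  exact strong (x := fun n => D.avσ s ν x n - y) (C := ‖x‖ + ‖x‖)
    (fun n => sub_mem (av_mem s n fun t => vsmul _ (σ_mem hx t)) (y3 _ (σ_mem hx)))
    (fun n => (norm_sub_le _ _).trans (add_le_add (D.avσ_le ..) y1))
    (tendsto_sub_nhds_zero_iff.2 (y4 ▸ hα)) η

end Mod

end Vale.Agent.P132
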