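import Mathlib

/-! Operator toolbox. -/

set_option linter.unusedSectionVars false

namespace Vale.Agent.P132

open scoped ComplexConjugate InnerProductSpace BigOperators
open Filter Topology

section nn
variable {E F : Type*} [NormedAddCommGroup E] [NormedAddCommGroup F] {ι : Type*} [Fintype ι]

/-- square sum norm -/
noncomputable def nn (v : ι → E) : ℝ := ‖(WithLp.toLp 2 v : PiLp 2 fun _ : ι => E)‖

lemma nn_nonneg (v : ι → E) : 0 ≤ nn v := norm_nonneg _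

lemma nn_sq (v : ι → E) : nn v ^ 2 = ∑ i, ‖v i‖ ^ 2 := PiLp.norm_sq_eq_of_L2 _ _

lemma nn_add (u v : ι → E) : nn (fun i => u i + v i) ≤ nn u + nn v :=
  norm_add_le (WithLp.toLp 2 u : PiLp 2 fun _ : ι => E) (WithLp.toLp 2 v)

lemma nn_sub (u v : ι → E) : nn (fun i => u i - v i) ≤ nn u + nn v :=
  norm_sub_le (WithLp.toLp 2 u : PiLp 2 fun _ : ι => E) (WithLp.toLp 2 v)

lemma nn_tri (u v : ι → E) : nn u ≤ nn v + nn (fun i => u i - v i) := by
  simpa using nn_add v fun i => u i - v i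

lemma nn_le {v : ι → E} {c : ℝ} (hc : 0 ≤ c) (h : ∑ i, ‖v i‖ ^ 2 ≤ c ^ 2) : nn v ≤ c :=
  le_of_sq_le_sq (nn_sq v ▸ h) hc

lemma nn_mono {u : ι → E} {v : ι → F} {c : ℝ} (hc : 0 ≤ c) (h : ∀ i, ‖u i‖ ≤ c * ‖v i‖) :
    nn u ≤ c * nn v := by
  refine nn_le (mul_nonneg hc (nn_nonneg _)) ?_
  rw [mul_pow, nn_sq, Finset.mul_sum]
  exact Finset.sum_le_sum fun i _ => by rw [← mul_pow]; gcongr; exact h i

lemma nn_congr {u : ι → E} {v : ι → F} (h : ∀ i, ‖u i‖ = ‖v i‖) : nn u = nn v := by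
  rw [← sq_eq_sq₀ (nn_nonneg _) (nn_nonneg _), nn_sq, nn_sq]; simp [h]

lemma nn_sigma {κ : ι → Type*} [∀ i, Fintype (κ i)] (v : (Σ i, κ i) → E) :
    nn v = nn fun i => nn fun j => v ⟨i, j⟩ := by
  rw [← sq_eq_sq₀ (nn_nonneg _) (nn_nonneg _), nn_sq, nn_sq, Fintype.sum_sigma]
  simp [nn_sq]

lemma nn_swap {κ : Type*} [Fintype κ] (v : ι → κ → E) :
    (nn fun i => nn fun j => v i j) = nn fun j => nn fun i => v i j := by
  rw [← sq_eq_sq₀ (nn_nonneg _) (nn_nonneg _), nn_sq, nn_sq]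
  simpa [nn_sq] using Finset.sum_comm

lemma nn_unit (v : Unit → E) : nn v = ‖v ()‖ := by
  rw [← sq_eq_sq₀ (nn_nonneg _) (norm_nonneg _), nn_sq]; simp

lemma nn_prod {κ : Type*} [Fintype κ] (v : ι × κ → E) :
    nn v = nn fun i => nn fun j => v (i, j) := by
  rw [← sq_eq_sq₀ (nn_nonneg _) (nn_nonneg _), nn_sq, nn_sq, Fintype.sum_prod_type]
  simp [nn_sq]

lemma nn_prod' {κ : Type*} [Fintype κ] (v : ι × κ → E) :
    nn v = nn fun j => nn fun i => v (i, j) := by rw [nn_prod, nn_swap]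

lemma nn_sum_sq {κ : Type*} [Fintype κ] (v : ι ⊕ κ → E) :
    nn v ^ 2 = nn (fun i => v (.inl i)) ^ 2 + nn (fun j => v (.inr j)) ^ 2 := by
  simp [nn_sq]

lemma nn_smul [NormedSpace ℂ E] (c : ℂ) (v : ι → E) : nn (fun i => c • v i) = ‖c‖ * nn v :=
  norm_smul c (WithLp.toLp 2 v : PiLp 2 fun _ : ι => E)

lemma nn_le_one {u : ι → E} {v : ι → F} (h : ∀ i, ‖u i‖ ≤ ‖v i‖) : nn u ≤ nn v := by
  simpa using nn_mono zero_le_one (v := v) (by simpa using h)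

lemma norm_nn (v : ι → E) : ‖nn v‖ = nn v := Real.norm_of_nonneg (nn_nonneg v)

@[simp] lemma abs_nn (v : ι → E) : |nn v| = nn v := abs_of_nonneg (nn_nonneg v)

lemma nn_tendsto {α : Type*} {l : Filter α} {v : α → ι → E} {u : ι → E}
    (h : ∀ i, Tendsto (fun a => v a i) l (𝓝 (u i))) : Tendsto (fun a => nn (v a)) l (𝓝 (nn u)) :=
  (((PiLp.continuous_toLp 2 _).tendsto _).comp (tendsto_pi_nhds.2 h)).norm

end nn

variable {H : Type*} [NormedAddCommGroup H] [InnerProductSpace ℂ H] {ι : Type*} [Fintype ι]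

lemma nn_inner (u v : ι → H) : ‖∑ i, ⟪u i, v i⟫_ℂ‖ ≤ nn u * nn v :=
  norm_inner_le_norm (𝕜 := ℂ) (WithLp.toLp 2 u : PiLp 2 fun _ : ι => H) (WithLp.toLp 2 v)

lemma sq_eq_re (η : H) : ‖η‖ ^ 2 = (⟪η, η⟫_ℂ).re := (inner_self_eq_norm_sq (𝕜 := ℂ) η).symm

lemma le_of_inner {η : H} {c : ℝ} (hc : 0 ≤ c) (h : ‖⟪η, η⟫_ℂ‖ ≤ c * ‖η‖) : ‖η‖ ≤ c := by
  rw [inner_self_eq_norm_sq_to_K, norm_pow, RCLike.norm_ofReal, abs_norm] at h
  by_contra h'
  nlinarith [norm_nonneg η]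

variable [CompleteSpace H]

lemma inner_star_left (x : H →L[ℂ] H) (η ζ : H) : ⟪(star x) η, ζ⟫_ℂ = ⟪η, x ζ⟫_ℂ :=
  ContinuousLinearMap.adjoint_inner_left _ _ _

lemma inner_star_right (x : H →L[ℂ] H) (η ζ : H) : ⟪η, (star x) ζ⟫_ℂ = ⟪x η, ζ⟫_ℂ :=
  ContinuousLinearMap.adjoint_inner_right _ _ _

lemma sa_inner {x : H →L[ℂ] H} (hx : IsSelfAdjoint x) (η ζ : H) : ⟪x η, ζ⟫_ℂ = ⟪η, x ζ⟫_ℂ := by
  rw [← inner_star_left, hx.star_eq]

lemma sa_of {x : H →L[ℂ] H} (h : ∀ η ζ, ⟪x η, ζ⟫_ℂ = ⟪η, x ζ⟫_ℂ) : IsSelfAdjoint x :=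
  ContinuousLinearMap.isSelfAdjoint_iff_isSymmetric.2 h

lemma row_le {x : ι → H →L[ℂ] H} {C : ℝ} (hC : 0 ≤ C)
    (h : ∀ η, nn (fun i => star (x i) η) ≤ C * ‖η‖) (ζ : ι → H) : ‖∑ i, x i (ζ i)‖ ≤ C * nn ζ := by
  refine le_of_inner (mul_nonneg hC (nn_nonneg _)) ?_
  generalize hη : ∑ i, x i (ζ i) = η
  nth_rw 2 [← hη]
  rw [inner_sum]
  simp only [← inner_star_left (x _)]
  refine (nn_inner _ _).trans ?_
  rw [mul_right_comm]
  gcongr
  exacts [nn_nonneg _, h _]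

lemma re_nonneg {x : H →L[ℂ] H} (hx : 0 ≤ x) (η : H) : 0 ≤ (⟪η, x η⟫_ℂ).re :=
  ((ContinuousLinearMap.nonneg_iff_isPositive x).1 hx).re_inner_nonneg_right η

lemma nonneg_of {x : H →L[ℂ] H} (hx : IsSelfAdjoint x) (h : ∀ η, 0 ≤ (⟪η, x η⟫_ℂ).re) : 0 ≤ x :=
  (ContinuousLinearMap.nonneg_iff_isPositive x).2
    ⟨hx.isSymmetric, fun η => by simpa [ContinuousLinearMap.reApplyInnerSelf, sa_inner hx] using h η⟩

lemma re_le {x y : H →L[ℂ] H} (h : x ≤ y) (η : H) : (⟪η, x η⟫_ℂ).re ≤ (⟪η, y η⟫_ℂ).re := by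
  simpa [inner_sub_right] using re_nonneg (sub_nonneg.2 h) η

lemma norm_sq_apply (x : H →L[ℂ] H) (η : H) : ‖x η‖ ^ 2 = (⟪η, (star x * x) η⟫_ℂ).re := by
  rw [sq_eq_re, ← inner_star_right]; rfl

lemma exists_wlim {α : Type*} (U : Ultrafilter α) {x : α → H →L[ℂ] H} {C : ℝ} (hC : 0 ≤ C)
    (hx : ∀ n, ‖x n‖ ≤ C) :
    ∃ y : H →L[ℂ] H, ‖y‖ ≤ C ∧ ∀ η ζ, Tendsto (fun n => ⟪η, x n ζ⟫_ℂ) U (𝓝 ⟪η, y ζ⟫_ℂ) := by
  have key : ∀ ξ : H, ∃ ζ : H, ‖ζ‖ ≤ C * ‖ξ‖ ∧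
      ∀ η, Tendsto (fun n => ⟪x n ξ, η⟫_ℂ) U (𝓝 ⟪ζ, η⟫_ℂ) := fun ξ => by
    obtain ⟨_, ⟨g, hg, rfl⟩, h⟩ := (ContinuousLinearMap.isCompact_image_coe_closedBall
      (0 : StrongDual ℂ H) (C * ‖ξ‖)).ultrafilter_le_nhds' (U.map fun n => innerSL ℂ (x n ξ))
      (Ultrafilter.mem_map.2 (univ_mem' fun n => ⟨_, by
        simpa using (x n).le_of_opNorm_le (hx n) ξ, rfl⟩))
    exact ⟨(InnerProductSpace.toDual ℂ H).symm g, by simpa using hg, fun η => by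
      simpa using tendsto_pi_nhds.1 (show Tendsto (fun n => ⇑(innerSL ℂ (x n ξ))) U _ from h) η⟩
  choose y h1 h2 using key
  refine ⟨LinearMap.mkContinuous ⟨⟨y, fun a b => ext_inner_right ℂ fun η => ?_⟩,
    fun c a => ext_inner_right ℂ fun η => ?_⟩ C h1, LinearMap.mkContinuous_norm_le _ hC _,
    fun η ξ => ?_⟩
  · exact tendsto_nhds_unique (h2 _ η) (by simpa [inner_add_left] using (h2 a η).add (h2 b η))
  · exact tendsto_nhds_unique (h2 _ η) (by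
      simpa only [map_smul, inner_smul_left, RingHom.id_apply] using (h2 a η).const_mul _)
  · simpa [Function.comp_def] using (Complex.continuous_conj.tendsto _).comp (h2 ξ η)

lemma mem_of_comm {M : VonNeumannAlgebra H} {x : H →L[ℂ] H}
    (h : ∀ y ∈ M.commutant, y * x = x * y) : x ∈ M := by
  rw [← M.commutant_commutant]; exact VonNeumannAlgebra.mem_commutant_iff.2 h

lemma comm_of_mem {M : VonNeumannAlgebra H} {x y : H →L[ℂ] H} (hx : x ∈ M) (hy : y ∈ M.commutant)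
    (η : H) : x (y η) = y (x η) :=
  congr($(VonNeumannAlgebra.mem_commutant_iff.1 hy x hx) η)

lemma mem_of_wlim {M : VonNeumannAlgebra H} {α : Type*} {l : Filter α} [l.NeBot]
    {x : α → H →L[ℂ] H} {y : H →L[ℂ] H} (hx : ∀ n, x n ∈ M)
    (h : ∀ η ζ, Tendsto (fun n => ⟪η, x n ζ⟫_ℂ) l (𝓝 ⟪η, y ζ⟫_ℂ)) : y ∈ M :=
  mem_of_comm fun c hc => ContinuousLinearMap.ext fun ζ => ext_inner_left ℂ fun η => by
    refine tendsto_nhds_unique ?_ (h η (c ζ))
    have := h (star c η) ζ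
    simp only [inner_star_left, ← comm_of_mem (hx _) hc] at this
    exact this

lemma vsmul {M : VonNeumannAlgebra H} {x : H →L[ℂ] H} (c : ℂ) (hx : x ∈ M) : c • x ∈ M :=
  M.toStarSubalgebra.smul_mem hx c

instance (M : VonNeumannAlgebra H) : IsClosed (M.toStarSubalgebra : Set (H →L[ℂ] H)) :=
  M.centralizer_centralizer ▸ Set.isClosed_centralizer _

lemma cfc_mem_vn {M : VonNeumannAlgebra H} {x : H →L[ℂ] H} (hx : x ∈ M) (f : ℝ → ℝ) :
    cfc f x ∈ M := cfc_mem (s := M.toStarSubalgebra) f hx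

/-- projection on the closed span -/
noncomputable def pr (S : Set H) : H →L[ℂ] H :=
  (Submodule.span ℂ S).topologicalClosure.starProjection

lemma pr_proj (S : Set H) : IsStarProjection (pr S) := isStarProjection_starProjection

lemma pr_mem (S : Set H) (η : H) : pr S η ∈ closure (Submodule.span ℂ S : Set H) :=
  (Submodule.span ℂ S).topologicalClosure.starProjection_apply_mem η

lemma pr_fix' {S : Set H} {η : H} (h : η ∈ closure (Submodule.span ℂ S : Set H)) : pr S η = η :=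
  Submodule.starProjection_eq_self_iff.2 h

lemma pr_fix {S : Set H} {η : H} (h : η ∈ S) : pr S η = η :=
  pr_fix' (subset_closure (Submodule.subset_span h))

lemma pr_ext {S : Set H} {x y : H →L[ℂ] H} (h : ∀ η ∈ S, x η = y η) : x * pr S = y * pr S := by
  ext η
  exact closure_minimal (t := {η | x η = y η}) 
    (Submodule.span_le (p := LinearMap.eqLocus x.toLinearMap y.toLinearMap) |>.2 fun η hη => h η hη)
    (isClosed_eq x.continuous y.continuous) (pr_mem S η)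

lemma pr_comm {S : Set H} {x : H →L[ℂ] H} (h : ∀ η ∈ S, pr S (x η) = x η)
    (h' : ∀ η ∈ S, pr S (star x η) = star x η) : x * pr S = pr S * x := by
  have h1 := pr_ext (x := pr S * x) (y := x) h
  have h2 := congrArg star (pr_ext (x := pr S * star x) (y := star x) h')
  simp only [star_mul, star_star, (pr_proj S).isSelfAdjoint.star_eq] at h2
  rw [← h1, mul_assoc, h2]

lemma exists_rp {M : VonNeumannAlgebra H} {k : H →L[ℂ] H} (hk : k ∈ M) :
    ∃ e ∈ M, IsStarProjection e ∧ e * k = k ∧ ∀ η, e η ∈ closure (Set.range k) := by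
  have hc : ∀ y ∈ M.commutant, ∀ η ∈ Set.range k, pr (Set.range k) (y η) = y η := by
    rintro y hy _ ⟨η, rfl⟩
    exact pr_fix ⟨y η, comm_of_mem hk hy η⟩
  refine ⟨pr (Set.range k), mem_of_comm fun y hy => pr_comm (hc y hy) (hc _ (star_mem hy)),
    pr_proj _, ContinuousLinearMap.ext fun η => pr_fix ⟨η, rfl⟩, fun η => ?_⟩
  have := pr_mem (Set.range k) η
  rwa [show Set.range k = (LinearMap.range k.toLinearMap : Set H) from rfl, Submodule.span_eq] at this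

lemma exists_pos {d : H →L[ℂ] H} (hd : IsSelfAdjoint d) :
    ∃ k : H →L[ℂ] H, 0 ≤ k ∧ d ≤ k ∧ d * k = k * k ∧ ∀ M : VonNeumannAlgebra H, d ∈ M → k ∈ M := by
  refine ⟨d⁺, CFC.posPart_nonneg d, CFC.le_posPart hd, ?_, fun M h => mem_of_comm fun y hy => ?_⟩
  · nth_rw 1 [← CFC.posPart_sub_negPart d hd]
    rw [sub_mul, CFC.negPart_mul_posPart, sub_zero]
  · rw [CFC.posPart_def]
    exact (Commute.cfcₙ_real (VonNeumannAlgebra.mem_commutant_iff.1 hy d h) _).symm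

lemma top_proj {M : VonNeumannAlgebra H} {d : H →L[ℂ] H} (hM : d ∈ M) (hd : IsSelfAdjoint d)
    {η₀ : H} (h0 : 0 < (⟪η₀, d η₀⟫_ℂ).re) :
    ∃ e ∈ M, IsStarProjection e ∧ e ≠ 0 ∧ (∀ η, 0 ≤ (⟪e η, d (e η)⟫_ℂ).re) ∧
      ∀ p : H →L[ℂ] H, p * d = d → p * e = e := by
  obtain ⟨k, k0, k1, k2, k3⟩ := exists_pos hd
  obtain ⟨e, he, e1, e2, e3⟩ := exists_rp (k3 M hM)
  refine ⟨e, he, e1, ?_, fun η => ?_, fun p hp => ?_⟩
  · rintro rfl
    rw [zero_mul] at e2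
    have := re_le k1 η₀
    simp [← e2] at this
    linarith
  · refine closure_minimal (t := {η | 0 ≤ (⟪η, d η⟫_ℂ).re}) ?_
      (isClosed_le (by fun_prop) (by fun_prop)) (e3 η)
    rintro _ ⟨η, rfl⟩
    have : d (k η) = k (k η) := congr($k2 η)
    simpa [this] using re_nonneg k0 (k η)
  · have h1 : (1 - p) * k * star ((1 - p) * k) = 0 := by
      rw [star_mul, k0.isSelfAdjoint.star_eq, ← mul_assoc, mul_assoc _ k k, ← k2, ← mul_assoc,
        sub_mul, hp, one_mul, sub_self, zero_mul, zero_mul]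
    have h2 := (CStarRing.mul_star_self_eq_zero_iff _).1 h1
    ext η
    refine closure_minimal (t := {η | p η = η}) ?_ (isClosed_eq (by fun_prop) (by fun_prop)) (e3 η)
    rintro _ ⟨η, rfl⟩
    have : k η - p (k η) = 0 := by simpa using congr($h2 η)
    exact (sub_eq_zero.1 this).symm

lemma exists_res {Z : H →L[ℂ] H} (hZ : 0 ≤ Z) :
    ∃ f : H →L[ℂ] H, IsSelfAdjoint f ∧ (∀ η, f η + f (Z η) = η) ∧ (∀ η, f η + Z (f η) = η) ∧
      (∀ η, ‖f η‖ ≤ ‖η‖) ∧ ∀ M : VonNeumannAlgebra H, Z ∈ M → f ∈ M := by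
  obtain ⟨u, hu⟩ : IsUnit (1 + Z) :=
    CStarAlgebra.isUnit_of_le 1 (le_add_of_nonneg_right hZ)
  have h1 : ∀ η, (↑u⁻¹ : H →L[ℂ] H) η + (↑u⁻¹ : H →L[ℂ] H) (Z η) = η := fun η => by
    have := congr($(u.inv_mul) η)
    rw [hu] at this
    simpa using this
  have h2 : ∀ η, (↑u⁻¹ : H →L[ℂ] H) η + Z ((↑u⁻¹ : H →L[ℂ] H) η) = η := fun η => by
    have := congr($(u.mul_inv) η)
    rw [hu] at this
    simpa using this
  refine ⟨↑u⁻¹, sa_of fun η ζ => ?_, h1, h2, fun η => ?_, fun M h => mem_of_comm fun y hy => ?_⟩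
  · conv_lhs => rw [← h2 ζ]
    conv_rhs => rw [← h2 η]
    rw [inner_add_left, inner_add_right, sa_inner hZ.isSelfAdjoint]
  · refine le_of_inner (norm_nonneg _) ?_
    have h3 := re_nonneg hZ ((↑u⁻¹ : H →L[ℂ] H) η)
    have h4 := congrArg (fun ζ => (⟪(↑u⁻¹ : H →L[ℂ] H) η, ζ⟫_ℂ).re) (h2 η)
    have h5 := (Complex.re_le_norm _).trans (norm_inner_le_norm (𝕜 := ℂ) ((↑u⁻¹ : H →L[ℂ] H) η) η)
    simp only [inner_add_right, Complex.add_re, ← sq_eq_re] at h4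
    rw [inner_self_eq_norm_sq_to_K, norm_pow, RCLike.norm_ofReal, abs_norm]
    linarith
  · have : Commute y (u : H →L[ℂ] H) := by
      rw [hu]
      exact (Commute.one_right y).add_right (VonNeumannAlgebra.mem_commutant_iff.1 hy Z h).symm
    exact this.units_inv_right

/-- the von Neumann algebra of operators commuting with `S` and `S*` -/
noncomputable def vnOf (S : Set (H →L[ℂ] H)) : VonNeumannAlgebra H where
  toStarSubalgebra := StarSubalgebra.centralizer ℂ S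
  centralizer_centralizer' := by simp

lemma mem_vnOf {S : Set (H →L[ℂ] H)} {x : H →L[ℂ] H} :
    x ∈ vnOf S ↔ ∀ g ∈ S, g * x = x * g ∧ star g * x = x * star g :=
  StarSubalgebra.mem_centralizer_iff ℂ

lemma exists_sint {A : ℝ → H →L[ℂ] H} (hA : ∀ η, Continuous fun t => A t η) {C : ℝ}
    (hC : ∀ t, ‖A t‖ ≤ C) (a b : ℝ) :
    ∃ S : H →L[ℂ] H, (∀ η, S η = ∫ t in a..b, A t η) ∧ ‖S‖ ≤ C * |b - a| ∧
      ∀ M : VonNeumannAlgebra H, (∀ t, A t ∈ M) → S ∈ M := by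
  have h0 : 0 ≤ C := (norm_nonneg _).trans (hC 0)
  have hb : ∀ η, ‖∫ t in a..b, A t η‖ ≤ C * |b - a| * ‖η‖ := fun η => by
    rw [mul_right_comm]
    exact intervalIntegral.norm_integral_le_of_norm_le_const fun t _ =>
      (A t).le_of_opNorm_le (hC t) η
  refine ⟨LinearMap.mkContinuous ⟨⟨fun η => ∫ t in a..b, A t η, fun η ζ => ?_⟩, fun c η => ?_⟩ _ hb,
    fun η => rfl, LinearMap.mkContinuous_norm_le _ (by positivity) _,
    fun M h => mem_of_comm fun y hy => ContinuousLinearMap.ext fun η => ?_⟩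
  · simp only [map_add]
    exact intervalIntegral.integral_add ((hA η).intervalIntegrable _ _) ((hA ζ).intervalIntegrable _ _)
  · simp
  · change y (∫ t in a..b, A t η) = ∫ t in a..b, A t (y η)
    rw [← y.intervalIntegral_comp_comm ((hA η).intervalIntegrable _ _)]
    simp only [comm_of_mem (h _) hy]

omit [CompleteSpace H] in
lemma parseval {κ : Type*} [Fintype κ] [DecidableEq ι] {u : κ → ι → ℂ} {h : ι → ℝ}
    (hu : ∀ j j', ∑ k, conj (u k j) * u k j' = if j = j' then (h j : ℂ) else 0) (X Y : ι → H) :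
    ∑ k, ⟪∑ j, u k j • X j, ∑ j, u k j • Y j⟫_ℂ = ∑ j, h j * ⟪X j, Y j⟫_ℂ := by
  simp only [sum_inner, inner_sum, inner_smul_left, inner_smul_right, Finset.mul_sum]
  rw [Finset.sum_comm]
  refine Finset.sum_congr rfl fun j _ => ?_
  simp only [← mul_assoc]
  rw [Finset.sum_comm]
  simp only [← Finset.sum_mul, mul_comm (u _ j), hu]
  simp

omit [CompleteSpace H] in
lemma parseval_sq {κ : Type*} [Fintype κ] [DecidableEq ι] {u : κ → ι → ℂ} {h : ι → ℝ}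
    (hu : ∀ j j', ∑ k, conj (u k j) * u k j' = if j = j' then (h j : ℂ) else 0) (X : ι → H) :
    ∑ k, ‖∑ j, u k j • X j‖ ^ 2 = ∑ j, h j * ‖X j‖ ^ 2 := by
  simpa [sq_eq_re] using congrArg Complex.re (parseval hu X X)

omit [CompleteSpace H] in
lemma strong_of_dense {α : Type*} {l : Filter α} {x : α → H →L[ℂ] H} {C : ℝ}
    (hx : ∀ n, ‖x n‖ ≤ C) {D : Set H} (hD : Dense D)
    (h : ∀ η ∈ D, Tendsto (fun n => x n η) l (𝓝 0)) (η : H) : Tendsto (fun n => x n η) l (𝓝 0) := by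
  refine NormedAddGroup.tendsto_nhds_zero.2 fun ε hε => ?_
  obtain ⟨ζ, hζ, h1⟩ := hD.exists_dist_lt η (show 0 < ε / 2 / (|C| + 1) by positivity)
  filter_upwards [NormedAddGroup.tendsto_nhds_zero.1 (h ζ hζ) _ (half_pos hε)] with n hn
  rw [dist_eq_norm, lt_div_iff₀ (by positivity)] at h1
  have h2 := (x n).le_of_opNorm_le ((hx n).trans (le_abs_self C)) (η - ζ)
  have h3 := norm_le_norm_add_norm_sub' (x n η) (x n ζ)
  rw [← map_sub] at h3
  nlinarith [norm_nonneg (η - ζ)]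

end Vale.Agent.P132
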