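import Vale.Agent.P132.Exist

/-! The relation `Rel` and the bicentralizer algebra. -/

set_option linter.unusedSectionVars false

open Filter Topology
open scoped InnerProductSpace ComplexConjugate

namespace Vale.Agent.P132

variable {H : Type*} [NormedAddCommGroup H] [InnerProductSpace ℂ H] [CompleteSpace H]

namespace Mod

variable {D : Mod H} {m m' : ℝ} {a b c a' b' : H →L[ℂ] H}

lemma Rel.add (h : D.Rel m a b) (h' : D.Rel m a' b') : D.Rel m (a + a') (b + b') := by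
  refine ⟨add_mem h.1 h'.1, add_mem h.2.1 h'.2.1, fun ε hε => ?_⟩
  obtain ⟨P, P0, hP⟩ := h.2.2 _ (half_pos hε)
  obtain ⟨Q, Q0, hQ⟩ := h'.2.2 _ (half_pos hε)
  refine ⟨P + Q, by positivity, fun v hv v1 => ?_⟩
  simp only [add_apply, map_add, add_sub_add_comm]
  linarith [hP v hv v1, hQ v hv v1,
    norm_add_le (b (v D.ξ) - v (a D.ξ)) (b' (v D.ξ) - v (a' D.ξ))]

lemma Rel.smul (h : D.Rel m a b) (z : ℂ) : D.Rel m (z • a) (z • b) := by
  refine ⟨vsmul _ h.1, vsmul _ h.2.1, fun ε hε => ?_⟩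
  obtain ⟨P, P0, hP⟩ := h.2.2 (ε / (‖z‖ + 1)) (by positivity)
  refine ⟨‖z‖ * P, by positivity, fun v hv v1 => ?_⟩
  simp only [smul_apply, map_smul, ← smul_sub, norm_smul]
  have h1 := mul_le_mul_of_nonneg_left (hP v hv v1) (norm_nonneg z)
  have h2 : ‖z‖ * (ε / (‖z‖ + 1)) ≤ ε := by
    rw [mul_div_assoc', div_le_iff₀ (by positivity)]; nlinarith
  linarith

lemma Rel.sub (h : D.Rel m a b) (h' : D.Rel m a' b') : D.Rel m (a - a') (b - b') := by
  simpa [sub_eq_add_neg] using h.add (h'.smul (-1))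

lemma Rel.one (m : ℝ) : D.Rel m 1 1 :=
  ⟨one_mem _, one_mem _, fun ε hε => ⟨0, le_rfl, fun v _ _ => by simp [hε.le]⟩⟩

lemma Rel.σ (h : D.Rel m a b) (t : ℝ) : D.Rel m (D.σ t a) (D.σ t b) := by
  refine ⟨σ_mem h.1 t, σ_mem h.2.1 t, fun ε hε => ?_⟩
  obtain ⟨P, P0, hP⟩ := h.2.2 ε hε
  refine ⟨P, P0, fun v hv v1 => ?_⟩
  have := hP _ (σ_mem hv (-t)) ((D.σ_le _ _).trans v1)
  rw [cc_σ, norm_V, ← D.norm_V t] at this
  simpa [σ_apply] using this

lemma Rel.vec (h : D.Rel m a b) (η : H) {ε : ℝ} (hε : 0 < ε) : ∃ P ≥ 0, ∀ v ∈ D.M, ‖v‖ ≤ 1 →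
    ‖b (v η) - v (a η)‖ ≤ ε + P * ‖D.cc m v‖ := by
  obtain ⟨L, L0, hL⟩ := D.sep_le η (show 0 < ε / 2 / (‖b‖ + ‖a‖ + 1) by positivity)
  obtain ⟨P, P0, hP⟩ := h.2.2 (ε / 2 / (L + 1)) (by positivity)
  refine ⟨L * P, by positivity, fun v hv v1 => ?_⟩
  have h1 := hL _ (sub_mem (mul_mem h.2.1 hv) (mul_mem hv h.1))
  have h2 : ‖b * v - v * a‖ ≤ ‖b‖ + ‖a‖ + 1 := (norm_sub_le _ _).trans (by
    nlinarith [norm_mul_le b v, norm_mul_le v a, norm_nonneg a, norm_nonneg b])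
  have h3 := mul_le_mul_of_nonneg_left (hP v hv v1) L0
  have h4 := mul_le_mul_of_nonneg_left h2 (show 0 ≤ ε / 2 / (‖b‖ + ‖a‖ + 1) by positivity)
  have h5 : L * (ε / 2 / (L + 1)) ≤ ε / 2 := by
    rw [mul_div_assoc', div_le_iff₀ (by positivity)]; nlinarith
  rw [div_mul_cancel₀ _ (by positivity)] at h4
  simp only [sub_apply, mul_apply_eq_comp] at h1
  linarith

lemma Rel.mul (h : D.Rel m a b) (h' : D.Rel m a' b') : D.Rel m (a * a') (b * b') := by
  refine ⟨mul_mem h.1 h'.1, mul_mem h.2.1 h'.2.1, fun ε hε => ?_⟩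
  obtain ⟨P, P0, hP⟩ := h.vec (a' D.ξ) (half_pos hε)
  obtain ⟨Q, Q0, hQ⟩ := (h'.smul ‖b‖).2.2 _ (half_pos hε)
  refine ⟨P + Q, by positivity, fun v hv v1 => ?_⟩
  have h1 := hQ v hv v1
  simp only [smul_apply, map_smul, ← smul_sub, norm_smul, Complex.norm_real, norm_norm] at h1
  have h2 := b.le_opNorm (b' (v D.ξ) - v (a' D.ξ))
  have h3 := norm_sub_le_norm_sub_add_norm_sub (b (b' (v D.ξ))) (b (v (a' D.ξ))) (v (a (a' D.ξ)))
  rw [map_sub] at h2
  simp only [mul_apply_eq_comp]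
  linarith [hP v hv v1]

lemma low (θ : H) {ε : ℝ} (hε : 0 < ε) : ∃ δ > 0, ∀ (ι : Type) [Fintype ι] (w : ι → H →L[ℂ] H),
    (∀ i, w i ∈ D.M) → Col 1 w → ‖col w D.ξ - D.ξ‖ ≤ δ → ‖θ‖ ≤ nn (fun i => w i θ) + ε := by
  obtain ⟨L, L0, hL⟩ := D.sep_le θ (show 0 < ε / 4 by positivity)
  refine ⟨ε / 2 / (L + 1), by positivity, fun ι _ w hw c1 c2 => ?_⟩
  have h1 := hL _ (sub_mem (col_mem hw) (one_mem _))
  have h2 : ‖col w - 1‖ ≤ 2 := ContinuousLinearMap.opNorm_le_bound _ zero_le_two fun η =>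
    (norm_sub_le (col w η) η).trans (by linarith [c1.col_le zero_le_one η])
  have h3 := c1.row zero_le_one fun i => w i θ
  have h4 := mul_le_mul_of_nonneg_left c2 L0
  have h5 : L * (ε / 2 / (L + 1)) ≤ ε / 2 := by
    rw [mul_div_assoc', div_le_iff₀ (by positivity)]; nlinarith
  have h6 := norm_le_norm_add_norm_sub (col w θ) θ
  rw [← col_apply] at h3
  simp only [sub_apply, one_apply_eq_self] at h1
  nlinarith

lemma good_norm {d : H →L[ℂ] H} (hd : d ∈ D.M) (m : ℝ) {ε : ℝ} (hε : 0 < ε) :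
    ∃ δ > 0, ∀ (ι : Type) [Fintype ι] (w : ι → H →L[ℂ] H), D.Good m δ w →
      ‖d D.ξ‖ ≤ nn (fun i => d (w i D.ξ)) + ε ∧ nn (fun i => d (w i D.ξ)) ≤ ‖d D.ξ‖ + ε := by
  obtain ⟨δ, δ0, h⟩ := low (D := D) (D.J (d D.ξ)) (half_pos hε)
  refine ⟨min δ (ε / 2 / (‖d‖ + 1)), by positivity, fun ι _ w ⟨w1, _, w3, w4, _, w6⟩ => ?_⟩
  have h1 := h ι _ (fun i => fl_mem m (w1 i)) w3 (w6.trans (min_le_left _ _))
  have h2 := w3 (D.J (d D.ξ))
  rw [← D.nn_r fun _ => m, norm_J] at h1 h2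
  have h3 : nn (fun i => d (D.cc m (w i))) ≤ ε / 2 := by
    have := (nn_mono (norm_nonneg d) fun i => d.le_opNorm (D.cc m (w i))).trans
      (mul_le_mul_of_nonneg_left (w4.trans (min_le_right _ _)) (norm_nonneg _))
    refine this.trans ?_
    rw [mul_div_assoc', div_le_iff₀ (by positivity)]; nlinarith
  have e : ∀ i, d (D.cc m (w i)) = ex m • D.r (w i) (d D.ξ) - d (w i D.ξ) := fun i => by
    simp [cc, r_comm hd (w1 i)]
  simp only [e] at h3
  have h4 := nn_tri (fun i => ex m • D.r (w i) (d D.ξ)) fun i => d (w i D.ξ)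
  have h5 := nn_tri (fun i => d (w i D.ξ)) fun i => ex m • D.r (w i) (d D.ξ)
  rw [nn_congr fun i => norm_sub_rev (d (w i D.ξ)) _] at h5
  constructor <;> linarith

lemma Good.mono {ι : Type*} [Fintype ι] {w : ι → H →L[ℂ] H} {δ δ' : ℝ} (h : D.Good m δ w)
    (h' : δ ≤ δ') : D.Good m δ' w :=
  ⟨h.1, h.2.1, h.2.2.1, h.2.2.2.1.trans h', h.2.2.2.2.1.trans h', h.2.2.2.2.2.trans h'⟩

lemma Rel.good (h : D.Rel m a b) {ε : ℝ} (hε : 0 < ε) :
    ∃ δ > 0, ∀ (ι : Type) [Fintype ι] (w : ι → H →L[ℂ] H), D.Good m δ w →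
      nn (fun i => b (w i D.ξ) - w i (a D.ξ)) ≤ ε := by
  obtain ⟨P, P0, hP⟩ := h.fam one_pos (half_pos hε)
  refine ⟨ε / 2 / (P + 1), by positivity, fun ι _ w ⟨w1, w2, w3, w4, _⟩ =>
    (hP ι w w1 w2 (by simpa [D.unit] using w3.col_le zero_le_one D.ξ)).trans ?_⟩
  have h5 : P * (ε / 2 / (P + 1)) ≤ ε / 2 := by
    rw [mul_div_assoc', div_le_iff₀ (by positivity)]; nlinarith
  linarith [mul_le_mul_of_nonneg_left w4 P0]

section good
variable (hG : ∀ m ε, 0 < ε → ∃ (κ : Type) (_ : Fintype κ) (w : κ → H →L[ℂ] H), D.Good m ε w)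
include hG

lemma Rel.le (h : D.Rel m a b) : ‖b D.ξ‖ ≤ ‖a D.ξ‖ := by
  refine le_of_forall_pos_le_add fun ε hε => ?_
  obtain ⟨δ, δ0, h1⟩ := good_norm h.2.1 m (half_pos hε)
  obtain ⟨δ', δ1, h2⟩ := h.good (half_pos hε)
  obtain ⟨ι, _, w, hw⟩ := hG m _ (lt_min δ0 δ1)
  linarith [(h1 ι w (hw.mono (min_le_left _ _))).1, h2 ι w (hw.mono (min_le_right _ _)),
    nn_tri (fun i => b (w i D.ξ)) fun i => w i (a D.ξ), hw.2.1 (a D.ξ)]

lemma Rel.pull (h : D.Rel m a b) (h' : D.Rel (m' + m) a c) : D.Rel m' b c := by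
  refine ⟨h.2.1, h'.2.1, fun ε hε => ?_⟩
  obtain ⟨P, P0, hP⟩ := h'.fam (C := 1 + ‖ex m'‖ ^ 2) (by positivity) (show 0 < ε / 4 by positivity)
  refine ⟨P, P0, fun v hv v1 => ?_⟩
  obtain ⟨δ, δ0, h1⟩ := good_norm (sub_mem (mul_mem h'.2.1 hv) (mul_mem hv h.2.1)) m
    (show 0 < ε / 4 by positivity)
  obtain ⟨δ', δ1, h2⟩ := h.good (show 0 < ε / 4 by positivity)
  obtain ⟨ι, _, w, hw⟩ := hG m _ (lt_min (lt_min δ0 δ1) (show 0 < ε / 4 / (P + 1) by positivity))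
  have v2 : ∀ η, ‖v η‖ ≤ ‖η‖ := fun η => by simpa using v.le_of_opNorm_le v1 η
  have a1 := (h1 ι w (hw.mono ((min_le_left _ _).trans (min_le_left _ _)))).1
  have a2 := h2 ι w (hw.mono ((min_le_left _ _).trans (min_le_right _ _)))
  have a3 := hP ι (fun i => v * w i) (fun i => mul_mem hv (hw.1 i))
    (Col.mono (fun η => (nn_le_one fun i => v2 _).trans (hw.2.1 η)) (by nlinarith)) (by
      have : Col ‖ex m'‖ fun i => fl (m' + m) (v * w i) := fun η => by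
        simp only [fl_mul, mul_apply_eq_comp]
        refine (hw.2.2.1 _).trans ?_
        rw [one_mul, fl_apply, norm_smul]
        gcongr
        exact ((star v).le_of_opNorm_le ((norm_star v).trans_le v1) η).trans (one_mul _).le
      have := this.col_le (norm_nonneg _) D.ξ
      rw [D.unit] at this
      nlinarith)
  have a4 : nn (fun i => D.cc (m' + m) (v * w i)) ≤ ‖D.cc m' v‖ + ε / 4 / (P + 1) := by
    simp only [cc_mul hv (hw.1 _)]
    refine (nn_add _ _).trans (add_le_add ?_ ((nn_le_one fun i => v2 _).trans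
      (hw.2.2.2.1.trans (min_le_right _ _))))
    simpa [D.nn_r fun _ => m] using hw.2.2.1 (D.J (D.cc m' v))
  have a5 : nn (fun i => (c * v - v * b) (w i D.ξ)) ≤ _ :=
    (nn_congr fun i => by simp).trans_le (nn_sub (fun i => c ((v * w i) D.ξ) - (v * w i) (a D.ξ))
      fun i => v (b (w i D.ξ) - w i (a D.ξ)))
  have a6 : nn (fun i => v (b (w i D.ξ) - w i (a D.ξ))) ≤ _ := nn_le_one fun i => v2 _
  have a7 : P * (ε / 4 / (P + 1)) ≤ ε / 4 := by
    rw [mul_div_assoc', div_le_iff₀ (by positivity)]; nlinarith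
  have a8 := mul_le_mul_of_nonneg_left a4 P0
  simp only [sub_apply, mul_apply_eq_comp] at a1 a3 a5
  linarith

lemma Rel.push (h : D.Rel 0 a a) (m : ℝ) : ∃ b, D.Rel m a b := by
  choose κ _ u hu using fun n : ℕ => hG (-m) (1 / (n + 1)) (by positivity)
  have hb : ∀ n, ‖∑ j, star (u n j) * a * u n j‖ ≤ ‖a‖ := fun n =>
    ContinuousLinearMap.opNorm_le_bound _ (norm_nonneg _) fun η => by
      have := (hu n).2.1.row zero_le_one fun j => a (u n j η)
      have h2 := (nn_mono (norm_nonneg a) fun j => a.le_opNorm (u n j η)).trans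
        (mul_le_mul_of_nonneg_left ((hu n).2.1 η) (norm_nonneg _))
      simp only [one_mul] at this h2
      simpa using this.trans h2
  obtain ⟨b, -, b2⟩ := exists_wlim (hyperfilter ℕ) (norm_nonneg a) hb
  have hl : (hyperfilter ℕ : Filter ℕ) ≤ atTop := Nat.hyperfilter_le_atTop
  have t0 := tendsto_one_div_add_atTop_nhds_zero_nat (𝕜 := ℝ)
  have t1 := strong (l := atTop) (x := fun n => col (u n) - 1) (C := 2)
    (fun n => sub_mem (col_mem (hu n).1) (one_mem _))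
    (fun n => ContinuousLinearMap.opNorm_le_bound _ zero_le_two fun η =>
      (norm_sub_le (col (u n) η) η).trans (by linarith [(hu n).2.1.col_le zero_le_one η]))
    (squeeze_zero_norm (fun n => (hu n).2.2.2.2.1) t0)
  refine ⟨b, h.1, mem_of_wlim (fun n => sum_mem fun j _ =>
    mul_mem (mul_mem (star_mem ((hu n).1 j)) h.1) ((hu n).1 j)) b2, fun ε hε => ?_⟩
  obtain ⟨P, P0, hP⟩ := h.fam (C := 1 + ‖ex m‖ ^ 2) (by positivity) hε
  refine ⟨P, P0, fun v hv v1 => le_of_inner (by positivity) ?_⟩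
  have v2 : ∀ η, ‖v η‖ ≤ ‖η‖ := fun η => by simpa using v.le_of_opNorm_le v1 η
  set ζ := b (v D.ξ) - v (a D.ξ) with hζ
  have t2 := (b2 ζ (v D.ξ)).sub (((tendsto_const_nhds (x := ζ)).inner (𝕜 := ℂ)
    (tendsto_sub_nhds_zero_iff.1 (t1 (v (a D.ξ))))).mono_left hl)
  rw [← inner_sub_right] at t2
  change Tendsto (fun n => _ - ⟪ζ, col (u n) (v (a D.ξ))⟫_ℂ) _ (𝓝 ⟪ζ, ζ⟫_ℂ) at t2
  have t3 := ((((t0.const_mul ‖ex m‖).add_const ‖D.cc m v‖).const_mul P).const_add ε).mul_const ‖ζ‖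
  rw [mul_zero, zero_add] at t3
  refine le_of_tendsto_of_tendsto' t2.norm (t3.mono_left hl) fun n => ?_
  have a3 := hP _ (fun j => u n j * v) (fun j => mul_mem ((hu n).1 j) hv)
    (Col.mono (C := 1) (fun η => ((hu n).2.1 _).trans (by simpa using v2 η)) (by nlinarith)) (by
      have : Col ‖ex m‖ fun j => fl (-m + m) (u n j * v) := fun η => by
        simp only [fl_mul, mul_apply_eq_comp]
        refine (nn_mono (norm_nonneg (ex m)) fun j => ?_).trans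
          (mul_le_mul_of_nonneg_left (by simpa using (hu n).2.2.1 η) (norm_nonneg _))
        rw [fl_apply, norm_smul]
        gcongr
        exact ((star v).le_of_opNorm_le ((norm_star v).trans_le v1) _).trans (one_mul _).le
      have := this.col_le (norm_nonneg _) D.ξ
      rw [D.unit, neg_add_cancel] at this
      nlinarith)
  have a4 : nn (fun j => D.cc (-m + m) (u n j * v)) ≤ ‖ex m‖ * (1 / (n + 1)) + ‖D.cc m v‖ := by
    simp only [cc_mul ((hu n).1 _) hv]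
    refine (nn_add _ _).trans (add_le_add ((nn_mono (norm_nonneg (ex m)) fun j => ?_).trans
      (mul_le_mul_of_nonneg_left (hu n).2.2.2.1 (norm_nonneg _))) (by simpa using (hu n).2.1 _))
    rw [norm_smul]
    gcongr
    exact (D.r_le _ _).trans (mul_le_of_le_one_left (norm_nonneg _) v1)
  rw [neg_add_cancel] at a4
  have a5 := (hu n).2.1.row zero_le_one fun j => a ((u n j * v) D.ξ) - (u n j * v) (a D.ξ)
  rw [← inner_sub_right, mul_comm]
  refine (norm_inner_le_norm _ _).trans (mul_le_mul_of_nonneg_left ?_ (norm_nonneg _))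
  simp only [map_sub, Finset.sum_sub_distrib, mul_apply_eq_comp, one_mul] at a5 a3
  simp only [sum_apply, mul_apply_eq_comp, col_apply]
  linarith [mul_le_mul_of_nonneg_left a4 P0]

lemma Rel.near (h : D.Rel 0 a a) {ε : ℝ} (hε : 0 < ε) :
    ∀ᶠ m in 𝓝 (0 : ℝ), ∀ b, D.Rel m a b → ‖b D.ξ - a D.ξ‖ ≤ ε := by
  obtain ⟨P, P0, hP⟩ := h.fam (C := 4) (by positivity) (show 0 < ε / 5 by positivity)
  have t : Tendsto (fun m => ‖ex (-m) - 1‖) (𝓝 0) (𝓝 0) :=
    Continuous.tendsto' (by fun_prop) _ _ (by simp)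
  have e0 : 0 < ε / 5 / (P + 1) := by positivity
  filter_upwards [t.eventually_le_const (lt_min one_pos e0)] with m hm b hb
  obtain ⟨δ, δ0, h1⟩ := good_norm (sub_mem hb.2.1 h.1) m (show 0 < ε / 5 by positivity)
  obtain ⟨δ', δ1, h2⟩ := hb.good (show 0 < ε / 5 by positivity)
  obtain ⟨ι, _, w, hw⟩ := hG m _ (lt_min (lt_min δ0 δ1) e0)
  have a1 := (h1 ι w (hw.mono ((min_le_left _ _).trans (min_le_left _ _)))).1
  have a2 := h2 ι w (hw.mono ((min_le_left _ _).trans (min_le_right _ _)))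
  have a3 := hP ι w hw.1 (hw.2.1.mono (by norm_num)) (by
    have : Col 2 fun i => fl 0 (w i) := fun η => by
      have e : ∀ i, fl 0 (w i) η = ex (-m) • fl m (w i) η := fun i => by simp [fl_apply, smul_smul]
      have := norm_le_norm_add_norm_sub' (ex (-m)) 1
      simp only [e, nn_smul]
      exact mul_le_mul (by linarith [norm_one (α := ℂ), hm.trans (min_le_left _ _)])
        (by simpa using hw.2.2.1 η) (nn_nonneg _) zero_le_two
    have := this.col_le zero_le_two D.ξ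
    rw [D.unit] at this
    linarith)
  have a4 : nn (fun i => D.cc 0 (w i)) ≤ ε / 5 / (P + 1) + ε / 5 / (P + 1) := by
    have e : ∀ i, D.cc 0 (w i) = D.cc m (w i) + (ex (-m) - 1) • ex m • D.r (w i) D.ξ := fun i => by
      simp [cc, sub_mul, sub_smul, smul_smul]
    simp only [e]
    refine (nn_add _ _).trans (add_le_add (hw.2.2.2.1.trans (min_le_right _ _)) ?_)
    rw [nn_smul, D.nn_r fun _ => m]
    refine (mul_le_mul (hm.trans (min_le_right _ _)) (hw.2.2.1 _) (nn_nonneg _) e0.le).trans ?_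
    simp [D.unit]
  have a5 : nn (fun i => (b - a) (w i D.ξ)) ≤ _ :=
    (nn_congr fun i => by simp).trans_le (nn_sub (fun i => b (w i D.ξ) - w i (a D.ξ))
      fun i => a (w i D.ξ) - w i (a D.ξ))
  have a7 : P * (ε / 5 / (P + 1)) ≤ ε / 5 := by
    rw [mul_div_assoc', div_le_iff₀ (by positivity)]; nlinarith
  have a8 := mul_le_mul_of_nonneg_left a4 P0
  rw [sub_apply] at a1
  linarith

end good

variable (D) in
/-- vectors commuting with approximately central contractions -/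
def KV : Set H :=
  {η | ∀ ε > 0, ∃ P ≥ 0, ∀ v ∈ D.M, ‖v‖ ≤ 1 → ‖D.r v η - v η‖ ≤ ε + P * ‖D.cc 0 v‖}

lemma rel_iff (ha : a ∈ D.M) : D.Rel 0 a a ↔ a D.ξ ∈ D.KV := by
  have e : ∀ v ∈ D.M, D.r v (a D.ξ) - v (a D.ξ) = (a (v D.ξ) - v (a D.ξ)) + a (D.cc 0 v) :=
    fun v hv => by simp [cc, r_comm ha hv]
  refine ⟨fun h ε hε => ?_, fun h => ⟨ha, ha, fun ε hε => ?_⟩⟩
  · obtain ⟨P, P0, hP⟩ := h.2.2 ε hε
    refine ⟨P + ‖a‖, by positivity, fun v hv v1 => ?_⟩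
    rw [e v hv]
    linarith [hP v hv v1, norm_add_le (a (v D.ξ) - v (a D.ξ)) (a (D.cc 0 v)),
      a.le_opNorm (D.cc 0 v)]
  · obtain ⟨P, P0, hP⟩ := h ε hε
    refine ⟨P + ‖a‖, by positivity, fun v hv v1 => ?_⟩
    rw [← sub_eq_iff_eq_add.2 (e v hv)]
    linarith [hP v hv v1, norm_sub_le (D.r v (a D.ξ) - v (a D.ξ)) (a (D.cc 0 v)),
      a.le_opNorm (D.cc 0 v)]

lemma KV_closed : IsClosed D.KV := by
  refine isClosed_of_closure_subset fun η hη ε hε => ?_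
  obtain ⟨ζ, h1, h2⟩ := Metric.mem_closure_iff.1 hη (ε / 3) (by positivity)
  obtain ⟨P, P0, hP⟩ := h1 (ε / 3) (by positivity)
  refine ⟨P, P0, fun v hv v1 => ?_⟩
  have e : D.r v η - v η = D.r v ζ - v ζ + (D.r v (η - ζ) - v (η - ζ)) := by
    simp only [map_sub]; abel
  have a1 := (D.r_le v (η - ζ)).trans (mul_le_of_le_one_left (norm_nonneg _) v1)
  rw [dist_eq_norm] at h2
  rw [e]
  linarith [hP v hv v1, norm_add_le (D.r v ζ - v ζ) (D.r v (η - ζ) - v (η - ζ)),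
    norm_sub_le (D.r v (η - ζ)) (v (η - ζ)), v.le_of_opNorm_le v1 (η - ζ)]

lemma KV_J {η : H} (h : η ∈ D.KV) : D.J η ∈ D.KV := fun ε hε => by
  obtain ⟨P, P0, hP⟩ := h ε hε
  refine ⟨P, P0, fun v hv v1 => ?_⟩
  have h1 := hP _ (star_mem hv) (by simpa using v1)
  have h2 := D.norm_cc_fl 0 v
  rw [neg_zero, fl, ex_zero, one_smul] at h2
  rwa [h2, ← norm_J, map_sub, J_r, J_apply, star_star, norm_sub_rev] at h1

variable (D) in
/-- the bicentralizer as a subspace -/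
def NS : Submodule ℂ (H →L[ℂ] H) where
  carrier := {a | D.Rel 0 a a}
  add_mem' := Rel.add
  zero_mem' := by simpa using (Rel.one (D := D) 0).smul 0
  smul_mem' z _ h := h.smul z

lemma Rel.star (h : D.Rel 0 a a) : D.Rel 0 (star a) (star a) := by
  rw [rel_iff (star_mem h.1), ← D.JJ (Star.star a D.ξ), ← r_ξ]
  refine KV_J (KV_closed.mem_of_tendsto (D.cut_tendsto _) (.of_forall fun n => ?_))
  have hw : (0 : ℝ) < n + 1 := by positivity
  obtain ⟨y, y1, y2, -⟩ := D.approx D.NS (fun t x hx => Rel.σ hx t) h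
    (Cb.mul_bump (g := fun s => (Real.exp (s / 2) : ℂ)) (by fun_prop) 0 hw)
  rw [F_r h.1 (.bump 0 hw) (.mul_bump (by fun_prop) 0 hw)]
  exact KV_closed.mem_of_tendsto y2 (.of_forall fun k => (rel_iff (y1 k).1).1 (y1 k))

variable (D) in
/-- the bicentralizer as a von Neumann algebra -/
noncomputable def NB : VonNeumannAlgebra H := vnOf (vnOf (D.NS : Set (H →L[ℂ] H)) : Set _)

lemma mem_NB : a ∈ D.NB ↔ D.Rel 0 a a := by
  rw [NB, mem_vnOf]
  refine ⟨fun h => ?_, fun h g hg => ⟨((mem_vnOf.1 hg) a h).1.symm,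
    ((mem_vnOf.1 (star_mem hg)) a h).1.symm⟩⟩
  have aM : a ∈ D.M := mem_of_comm fun y hy => (h y (mem_vnOf.2 fun g hg =>
    ⟨VonNeumannAlgebra.mem_commutant_iff.1 hy g hg.1,
      VonNeumannAlgebra.mem_commutant_iff.1 hy _ (star_mem hg.1)⟩)).1
  set S := {η | ∃ a, D.Rel 0 a a ∧ η = a D.ξ}
  have h1 : ∀ g, D.Rel 0 g g → ∀ η ∈ S, pr S (g η) = g η := by
    rintro g hg _ ⟨x, hx, rfl⟩
    exact pr_fix ⟨g * x, hg.mul hx, rfl⟩
  have h2 := congr($((h (pr S) (mem_vnOf.2 fun g hg => ⟨pr_comm (h1 g hg) (h1 _ hg.star),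
    pr_comm (h1 _ hg.star) (by simpa using h1 g hg)⟩)).1) D.ξ)
  rw [mul_apply_eq_comp, mul_apply_eq_comp, pr_fix (S := S) (η := D.ξ) ⟨1, .one 0, rfl⟩] at h2
  rw [rel_iff aM, ← h2]
  refine closure_minimal (fun η hη => ?_) KV_closed (pr_mem S _)
  obtain ⟨x, hx, rfl⟩ := (Submodule.span_le (p := D.NS.map
    (ContinuousLinearMap.apply ℂ H D.ξ).toLinearMap)).2 (by
      rintro _ ⟨x, hx, rfl⟩; exact ⟨x, hx, rfl⟩) hη
  exact (rel_iff hx.1).1 hx

lemma Bic.rel (h : D.Bic a) : D.Rel 0 a a := by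
  refine ⟨h.1, h.1, fun ε hε => ?_⟩
  by_contra! h1
  choose v v1 v2 v3 using fun n : ℕ => h1 (n + 1) (by positivity)
  have a1 : ∀ n, ‖a (v n D.ξ) - v n (a D.ξ)‖ ≤ 2 * ‖a‖ := fun n => by
    have b1 := (v n).le_of_opNorm_le (v2 n) D.ξ
    have b2 := a.le_opNorm D.ξ
    rw [D.unit] at b1 b2
    nlinarith [norm_sub_le (a (v n D.ξ)) (v n (a D.ξ)), a.le_opNorm (v n D.ξ), norm_nonneg a,
      (v n).le_of_opNorm_le (v2 n) (a D.ξ)]
  have := h.2 v v1 v2 (squeeze_zero (fun _ => norm_nonneg _) (fun n => ?_)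
    (by simpa using (tendsto_one_div_add_atTop_nhds_zero_nat (𝕜 := ℝ)).const_mul (2 * ‖a‖)))
  · obtain ⟨n, hn⟩ := (this.eventually_lt_const hε).exists
    have : (0 : ℝ) ≤ (n + 1) * ‖D.cc 0 (v n)‖ := by positivity
    simp only [sub_apply, mul_apply_eq_comp] at hn
    linarith [v3 n]
  · have := v3 n
    rw [cc, ex_zero, one_smul, norm_sub_rev (D.r _ _)] at this
    rw [le_mul_inv_iff₀ (by positivity)]
    exact (mul_comm _ _).trans_le (show _ * ‖v n D.ξ - D.r (v n) D.ξ‖ ≤ _ by linarith [a1 n])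

end Mod

end Vale.Agent.P132
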