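import Vale.Agent.P132.Mod
import Vale.Agent.P132.Basic

/-! Consequences of the modular data: calculus, right action, modular group. -/

set_option linter.unusedSectionVars false

open MeasureTheory Filter Topology
open scoped InnerProductSpace ComplexConjugate

namespace Vale.Agent.P132

lemma Cb.const (c : ℂ) : Cb fun _ => c := ⟨continuous_const, ‖c‖, fun _ => le_rfl⟩

lemma Cb.add {f g : ℝ → ℂ} (hf : Cb f) (hg : Cb g) : Cb fun s => f s + g s := by
  obtain ⟨h1, C, h2⟩ := hf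
  obtain ⟨h3, C', h4⟩ := hg
  exact ⟨h1.add h3, C + C', fun s => (norm_add_le _ _).trans (add_le_add (h2 s) (h4 s))⟩

lemma Cb.mul {f g : ℝ → ℂ} (hf : Cb f) (hg : Cb g) : Cb fun s => f s * g s := by
  obtain ⟨h1, C, h2⟩ := hf
  obtain ⟨h3, C', h4⟩ := hg
  exact ⟨h1.mul h3, C * C', fun s => (norm_mul_le _ _).trans
    (mul_le_mul (h2 s) (h4 s) (norm_nonneg _) ((norm_nonneg _).trans (h2 s)))⟩

lemma Cb.sub {f g : ℝ → ℂ} (hf : Cb f) (hg : Cb g) : Cb fun s => f s - g s := by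
  simpa [sub_eq_add_neg] using hf.add ((Cb.const (-1)).mul hg)

lemma Cb.star {f : ℝ → ℂ} (hf : Cb f) : Cb fun s => conj (f s) := by
  obtain ⟨h1, C, h2⟩ := hf
  exact ⟨by fun_prop, C, fun s => by simpa using h2 s⟩

lemma Cb.of_supp {f : ℝ → ℂ} (hf : Continuous f) {R : ℝ} (h : ∀ s, R < |s| → f s = 0) : Cb f := by
  obtain ⟨C, hC⟩ := hf.bounded_above_of_compact_support (HasCompactSupport.intro
    (isCompact_Icc (a := -R) (b := R)) fun s hs => h s (by simpa [← abs_le] using hs))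
  exact ⟨hf, C, hC⟩

lemma Cb.integrable {f : ℝ → ℂ} (hf : Cb f) (μ : Measure ℝ) [IsFiniteMeasure μ] :
    Integrable f μ := by
  obtain ⟨h1, C, h2⟩ := hf
  exact .of_bound h1.aestronglyMeasurable C (.of_forall h2)

lemma ch_add (t t' s : ℝ) : ch (t + t') s = ch t s * ch t' s := by
  simp [ch, ← Complex.exp_add, add_mul]

lemma ch_add' (t s s' : ℝ) : ch t (s + s') = ch t s * ch t s' := by
  simp [ch, ← Complex.exp_add, add_mul, mul_add]

@[simp] lemma ch_zero (s : ℝ) : ch 0 s = 1 := by simp [ch]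

@[simp] lemma ch_zero' (t : ℝ) : ch t 0 = 1 := by simp [ch]

@[simp] lemma norm_ch (t s : ℝ) : ‖ch t s‖ = 1 := Complex.norm_exp_ofReal_mul_I _

lemma conj_ch (t s : ℝ) : conj (ch t s) = ch (-t) s := by simp [ch, ← Complex.exp_conj]

lemma ch_neg (t s : ℝ) : ch t (-s) = ch (-t) s := by simp [ch]

@[fun_prop] lemma continuous_ch {X : Type*} [TopologicalSpace X] {t s : X → ℝ} (ht : Continuous t)
    (hs : Continuous s) : Continuous fun x => ch (t x) (s x) := by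
  unfold ch; fun_prop

lemma Cb.ch (t : ℝ) : Cb (ch t) := ⟨by fun_prop, 1, fun s => (norm_ch t s).le⟩

/-- tent function -/
noncomputable def bump (m w s : ℝ) : ℂ := (max 0 (1 - |s - m| / w) : ℝ)

@[fun_prop] lemma continuous_bump (m w : ℝ) : Continuous (bump m w) := by unfold bump; fun_prop

@[simp] lemma bump_self (m w : ℝ) : bump m w m = 1 := by simp [bump]

lemma bump_zero {m w s : ℝ} (hw : 0 < w) (h : w ≤ |s - m|) : bump m w s = 0 := by
  simp [bump, one_le_div, hw, h]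

lemma norm_bump {m w : ℝ} (hw : 0 < w) (s : ℝ) : ‖bump m w s‖ ≤ 1 := by
  have : 0 ≤ |s - m| / w := by positivity
  simp [bump, abs_le, this]

lemma Cb.mul_bump {g : ℝ → ℂ} (hg : Continuous g) (m : ℝ) {w : ℝ} (hw : 0 < w) :
    Cb fun s => g s * bump m w s :=
  .of_supp (by fun_prop) (R := |m| + w) fun s hs => by
    rw [bump_zero hw (by linarith [abs_sub_abs_le_abs_sub s m]), mul_zero]

lemma Cb.bump (m : ℝ) {w : ℝ} (hw : 0 < w) : Cb (bump m w) :=
  ⟨by fun_prop, 1, norm_bump hw⟩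

lemma bump_tendsto (s : ℝ) : Tendsto (fun n : ℕ => bump 0 (n + 1) s) atTop (𝓝 1) := by
  have h : Tendsto (fun n : ℕ => |s - 0| / ((n : ℝ) + 1)) atTop (𝓝 0) :=
    tendsto_const_nhds.div_atTop (tendsto_atTop_add_const_right _ _ tendsto_natCast_atTop_atTop)
  have := (Complex.continuous_ofReal.tendsto _).comp
    ((tendsto_const_nhds (x := (0 : ℝ))).max ((tendsto_const_nhds (x := (1 : ℝ))).sub h))
  simpa [Function.comp_def, bump] using this

/-- trigonometric polynomials -/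
def TP : Submodule ℂ (ℝ → ℂ) := Submodule.span ℂ (Set.range ch)

lemma ch_mem (t : ℝ) : ch t ∈ TP := Submodule.subset_span ⟨t, rfl⟩

lemma TP.mul {p q : ℝ → ℂ} (hp : p ∈ TP) (hq : q ∈ TP) : p * q ∈ TP := by
  induction hp, hq using Submodule.span_induction₂ with
  | mem_mem x y hx hy =>
    obtain ⟨t, rfl⟩ := hx
    obtain ⟨t', rfl⟩ := hy
    exact (funext (ch_add t t') : _ = ch t * ch t') ▸ ch_mem _
  | zero_left => simp
  | zero_right => simp
  | add_left _ _ _ _ _ _ h h' => exact add_mul _ _ (_ : ℝ → ℂ) ▸ add_mem h h'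
  | add_right _ _ _ _ _ _ h h' => exact mul_add _ _ (_ : ℝ → ℂ) ▸ add_mem h h'
  | smul_left c _ _ _ _ h => exact smul_mul_assoc c _ (_ : ℝ → ℂ) ▸ TP.smul_mem c h
  | smul_right c _ _ _ _ h => exact mul_smul_comm c _ (_ : ℝ → ℂ) ▸ TP.smul_mem c h

lemma TP.cb {p : ℝ → ℂ} (hp : p ∈ TP) : Cb p := by
  induction hp using Submodule.span_induction with
  | mem x hx => obtain ⟨t, rfl⟩ := hx; exact .ch t
  | zero => exact .const 0
  | add _ _ _ _ h h' => exact h.add h'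
  | smul c _ _ h => exact (Cb.const c).mul h

lemma TP.poly (a : ℝ) (P : Polynomial ℝ) :
    (fun s => ((P.eval (Real.sin (a * s)) : ℝ) : ℂ)) ∈ TP := by
  have h1 : (fun s => (Real.sin (a * s) : ℂ)) ∈ TP := by
    convert TP.smul_mem (Complex.I / 2) (sub_mem (ch_mem (-a)) (ch_mem a)) using 1
    ext s
    simp [ch, Complex.sin]
    ring
  induction P using Polynomial.induction_on with
  | C c => convert TP.smul_mem c (ch_mem 0) using 1; ext; simp
  | add p q hp hq => convert add_mem hp hq using 1; ext; simp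
  | monomial n c h => convert TP.mul h h1 using 1; ext; simp; ring

lemma exists_trig {g : ℝ → ℂ} (hg : Cb g) : ∃ (p : ℕ → ℝ → ℂ) (C : ℝ), (∀ n, p n ∈ TP) ∧
    (∀ n s, ‖p n s‖ ≤ C) ∧ ∀ s, Tendsto (fun n => p n s) atTop (𝓝 (g s)) := by
  obtain ⟨h1, C, h2⟩ := hg
  have key : ∀ n : ℕ, ∃ p ∈ TP, ∀ s,
      ‖p s - g ((n + 1) * Real.arcsin (Real.sin ((n + 1 : ℝ)⁻¹ * s)))‖ ≤ 2 * (1 / (n + 1)) := by
    intro n
    have hn : (0 : ℝ) < 1 / (n + 1) := by positivity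
    obtain ⟨P, hP⟩ := exists_polynomial_near_of_continuousOn (-1) 1
      (fun y => (g ((n + 1) * Real.arcsin y)).re) (by fun_prop) _ hn
    obtain ⟨Q, hQ⟩ := exists_polynomial_near_of_continuousOn (-1) 1
      (fun y => (g ((n + 1) * Real.arcsin y)).im) (by fun_prop) _ hn
    refine ⟨_, add_mem (TP.poly (n + 1)⁻¹ P) (TP.smul_mem Complex.I (TP.poly (n + 1)⁻¹ Q)),
      fun s => (Complex.norm_le_abs_re_add_abs_im _).trans ?_⟩
    have a := hP _ (Real.sin_mem_Icc ((n + 1 : ℝ)⁻¹ * s))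
    have b := hQ _ (Real.sin_mem_Icc ((n + 1 : ℝ)⁻¹ * s))
    simp only [Pi.add_apply, Pi.smul_apply, smul_eq_mul, Complex.sub_re, Complex.add_re,
      Complex.ofReal_re, Complex.mul_re, Complex.I_re, zero_mul, Complex.I_im, Complex.ofReal_im,
      mul_zero, sub_self, add_zero, Complex.sub_im, Complex.add_im, Complex.mul_im, one_mul,
      zero_add]
    linarith
  choose p hp hp' using key
  refine ⟨p, C + 2, hp, fun n s => ?_, fun s => ?_⟩
  · have h3 := norm_le_norm_add_norm_sub' (p n s)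
      (g ((n + 1) * Real.arcsin (Real.sin ((n + 1 : ℝ)⁻¹ * s))))
    have h4 : (1 : ℝ) / (n + 1) ≤ 1 := by rw [div_le_one (by positivity)]; simp
    linarith [hp' n s, h2 ((n + 1) * Real.arcsin (Real.sin ((n + 1 : ℝ)⁻¹ * s)))]
  · rw [tendsto_iff_norm_sub_tendsto_zero]
    refine squeeze_zero' (.of_forall fun _ => norm_nonneg _) ?_
      (by simpa using tendsto_one_div_add_atTop_nhds_zero_nat.const_mul (2 : ℝ))
    filter_upwards [tendsto_natCast_atTop_atTop.eventually_ge_atTop |s|] with n hn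
    have h5 : |(n + 1 : ℝ)⁻¹ * s| ≤ 1 := by
      rw [abs_mul, abs_of_pos (by positivity), inv_mul_le_iff₀ (by positivity)]; linarith
    have := hp' n s
    rw [Real.arcsin_sin (by linarith [abs_le.1 h5, Real.one_le_pi_div_two])
      (by linarith [abs_le.1 h5, Real.one_le_pi_div_two]), mul_inv_cancel_left₀ (by positivity)]
      at this
    simpa using this

variable {H : Type*} [NormedAddCommGroup H] [InnerProductSpace ℂ H] [CompleteSpace H]

lemma op_ext {A B : H →L[ℂ] H} (h : ∀ η, ⟪η, A η⟫_ℂ = ⟪η, B η⟫_ℂ) : A = B := by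
  have := (inner_map_self_eq_zero (A - B).toLinearMap).1 fun η => by
    rw [← inner_conj_symm]; simp [inner_sub_right, h]
  exact sub_eq_zero.1 (ContinuousLinearMap.coe_injective this)

namespace Mod

variable (D : Mod H)

instance (η : H) : IsFiniteMeasure (D.mu η) := D.mu_fin η

section F
variable {f g : ℝ → ℂ}

lemma F_add (hf : Cb f) (hg : Cb g) : D.F (fun s => f s + g s) = D.F f + D.F g :=
  op_ext fun η => by
    simp [D.F_inner, hf, hg, hf.add hg,
      integral_add (hf.integrable _) (hg.integrable _)]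

lemma F_smul (c : ℂ) (hf : Cb f) : D.F (fun s => c * f s) = c • D.F f :=
  op_ext fun η => by
    simp [D.F_inner, hf, (Cb.const c).mul hf, integral_const_mul]

lemma F_sub (hf : Cb f) (hg : Cb g) : D.F (fun s => f s - g s) = D.F f - D.F g :=
  op_ext fun η => by
    simp [D.F_inner, hf, hg, hf.sub hg,
      integral_sub (hf.integrable _) (hg.integrable _)]

lemma F_const (c : ℂ) : D.F (fun _ => c) = c • 1 := by
  simpa [D.F_one] using D.F_smul c (.const 1)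

lemma F_star (hf : Cb f) : D.F (fun s => conj (f s)) = star (D.F f) :=
  op_ext fun η => by
    rw [inner_star_right, ← inner_conj_symm (D.F f η), D.F_inner _ hf, D.F_inner _ hf.star,
      integral_conj]

lemma F_mul_apply (hf : Cb f) (hg : Cb g) (η : H) :
    D.F (fun s => f s * g s) η = D.F f (D.F g η) := by rw [D.F_mul f g hf hg]; rfl

lemma F_comm (hf : Cb f) (hg : Cb g) (η : H) : D.F f (D.F g η) = D.F g (D.F f η) := by
  simp only [← D.F_mul_apply, hf, hg, mul_comm]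

lemma F_sq (hf : Cb f) (η : H) : ‖D.F f η‖ ^ 2 = ∫ s, ‖f s‖ ^ 2 ∂D.mu η := by
  rw [norm_sq_apply, ← D.F_star hf, ← D.F_mul _ _ hf.star hf, D.F_inner _ (hf.star.mul hf)]
  simp only [Complex.conj_mul', ← Complex.ofReal_pow, integral_complex_ofReal, Complex.ofReal_re]

lemma int_sq (hf : Cb f) (η : H) : Integrable (fun s => ‖f s‖ ^ 2) (D.mu η) := by
  simpa [sq] using ((hf.mul hf).integrable (D.mu η)).norm

lemma F_le (hf : Cb f) (hg : Cb g) (h : ∀ s, ‖f s‖ ≤ ‖g s‖) (η : H) : ‖D.F f η‖ ≤ ‖D.F g η‖ := by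
  refine le_of_sq_le_sq ?_ (norm_nonneg _)
  rw [D.F_sq hf, D.F_sq hg]
  exact integral_mono (D.int_sq hf η) (D.int_sq hg η) fun s => by simp only; gcongr; exact h s

lemma F_le' (hf : Cb f) (hg : Cb g) {C : ℝ} (hC : 0 ≤ C) (h : ∀ s, ‖f s‖ ≤ C * ‖g s‖) (η : H) :
    ‖D.F f η‖ ≤ C * ‖D.F g η‖ := by
  simpa [D.F_smul _ hg, norm_smul, abs_of_nonneg hC] using
    D.F_le hf ((Cb.const C).mul hg) (by simpa [abs_of_nonneg hC] using h) η

lemma F_norm (hf : Cb f) {C : ℝ} (h : ∀ s, ‖f s‖ ≤ C) (η : H) : ‖D.F f η‖ ≤ C * ‖η‖ := by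
  simpa [D.F_one] using D.F_le' hf (.const 1) ((norm_nonneg _).trans (h 0)) (by simpa using h) η

lemma F_tendsto {α : Type*} {l : Filter α} [l.IsCountablyGenerated] {p : α → ℝ → ℂ}
    (hp : ∀ n, Cb (p n)) (hf : Cb f) {C : ℝ} (hC : ∀ n s, ‖p n s‖ ≤ C)
    (h : ∀ s, Tendsto (fun n => p n s) l (𝓝 (f s))) (η : H) :
    Tendsto (fun n => D.F (p n) η) l (𝓝 (D.F f η)) := by
  obtain ⟨C', hC'⟩ := hf.2
  have := tendsto_integral_filter_of_dominated_convergence (μ := D.mu η) (l := l)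
    (F := fun n s => ‖p n s - f s‖ ^ 2) (f := fun _ => 0) (fun _ => (C + C') ^ 2)
    (.of_forall fun n => (D.int_sq ((hp n).sub hf) η).1)
    (.of_forall fun n => .of_forall fun s => by
      rw [norm_pow, norm_norm]
      gcongr
      exact (norm_sub_le _ _).trans (add_le_add (hC n s) (hC' s)))
    (integrable_const _) (.of_forall fun s => by
      simpa using (tendsto_iff_norm_sub_tendsto_zero.1 (h s)).pow 2)
  rw [tendsto_iff_norm_sub_tendsto_zero]
  have h2 := (Real.continuous_sqrt.tendsto _).comp this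
  simp only [integral_zero, Real.sqrt_zero] at h2
  refine h2.congr fun n => ?_
  simp [← D.F_sq ((hp n).sub hf), D.F_sub (hp n) hf]

lemma cut_tendsto (η : H) : Tendsto (fun n : ℕ => D.F (bump 0 (n + 1)) η) atTop (𝓝 η) := by
  simpa [D.F_one] using D.F_tendsto (fun n : ℕ => .bump 0 (w := n + 1) (by positivity)) (.const 1)
    (fun n => norm_bump (by positivity)) bump_tendsto η

lemma eq_of_cut {η ζ : H} (h : ∀ w, 0 < w → D.F (bump 0 w) η = D.F (bump 0 w) ζ) : η = ζ :=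
  tendsto_nhds_unique (D.cut_tendsto η) ((D.cut_tendsto ζ).congr fun n => (h _ (by positivity)).symm)

end F

/-- modular unitary group -/
noncomputable def V (t : ℝ) : H →L[ℂ] H := D.F (ch t)

lemma V_add (t t' : ℝ) : D.V (t + t') = D.V t * D.V t' := by
  rw [V, funext (ch_add t t'), D.F_mul _ _ (.ch t) (.ch t')]; rfl

lemma V_V (t t' : ℝ) (η : H) : D.V t (D.V t' η) = D.V (t + t') η := by rw [V_add]; rfl

@[simp] lemma V_zero : D.V 0 = 1 := by rw [V, funext ch_zero, D.F_one]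

lemma star_V (t : ℝ) : star (D.V t) = D.V (-t) := by rw [V, ← D.F_star (.ch t)]; simp [conj_ch, V]

@[simp] lemma V_neg_V (t : ℝ) (η : H) : D.V (-t) (D.V t η) = η := by simp [V_V]

@[simp] lemma V_V_neg (t : ℝ) (η : H) : D.V t (D.V (-t) η) = η := by simp [V_V]

lemma V_inner (t : ℝ) (η ζ : H) : ⟪D.V t η, ζ⟫_ℂ = ⟪η, D.V (-t) ζ⟫_ℂ := by
  rw [← star_V, inner_star_right]

@[simp] lemma V_inner_V (t : ℝ) (η ζ : H) : ⟪D.V t η, D.V t ζ⟫_ℂ = ⟪η, ζ⟫_ℂ := by simp [V_inner]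

@[simp] lemma norm_V (t : ℝ) (η : H) : ‖D.V t η‖ = ‖η‖ := by
  rw [← sq_eq_sq₀ (norm_nonneg _) (norm_nonneg _), sq_eq_re, sq_eq_re, V_inner_V]

@[simp] lemma V_ξ (t : ℝ) : D.V t D.ξ = D.ξ := by simp [V, D.F_ξ _ (.ch t)]

lemma V_cont (η : H) : Continuous fun t => D.V t η :=
  continuous_iff_continuousAt.2 fun t => D.F_tendsto (fun t => .ch t) (.ch t)
    (fun t s => (norm_ch t s).le) (fun s => Continuous.continuousAt (by fun_prop)) η

lemma V_J (t : ℝ) (η : H) : D.V t (D.J η) = D.J (D.V t η) := by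
  simp [V, D.F_J _ (.ch t), ch_neg, conj_ch]

lemma V_F {f : ℝ → ℂ} (hf : Cb f) (t : ℝ) (η : H) : D.V t (D.F f η) = D.F f (D.V t η) :=
  D.F_comm (.ch t) hf η

@[simp] lemma norm_J (η : H) : ‖D.J η‖ = ‖η‖ := by
  rw [← sq_eq_sq₀ (norm_nonneg _) (norm_nonneg _), sq_eq_re, sq_eq_re, D.Jinner]

lemma inner_ξ : ⟪D.ξ, D.ξ⟫_ℂ = 1 := by simp [D.unit]

/-- right multiplication -/
noncomputable def r (x : H →L[ℂ] H) : H →L[ℂ] H := rJ D.J x

lemma r_apply (x : H →L[ℂ] H) (η : H) : D.r x η = D.J (star x (D.J η)) := rfl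

lemma r_ξ (x : H →L[ℂ] H) : D.r x D.ξ = D.J (star x D.ξ) := by rw [r_apply, D.Jξ]

lemma J_apply (x : H →L[ℂ] H) (η : H) : D.J (x η) = D.r (star x) (D.J η) := by
  simp [r_apply, D.JJ]

lemma J_r (x : H →L[ℂ] H) (η : H) : D.J (D.r x η) = star x (D.J η) := by simp [r_apply, D.JJ]

lemma r_mul (x y : H →L[ℂ] H) : D.r (x * y) = D.r y * D.r x := by ext; simp [r_apply, D.JJ]

lemma r_mul_apply (x y : H →L[ℂ] H) (η : H) : D.r (x * y) η = D.r y (D.r x η) := by
  rw [r_mul]; rfl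

lemma r_add (x y : H →L[ℂ] H) : D.r (x + y) = D.r x + D.r y := by ext; simp [r_apply]

lemma r_sub (x y : H →L[ℂ] H) : D.r (x - y) = D.r x - D.r y := by ext; simp [r_apply]

lemma r_smul (c : ℂ) (x : H →L[ℂ] H) : D.r (c • x) = c • D.r x := by ext; simp [r_apply]

@[simp] lemma r_one : D.r 1 = 1 := by ext; simp [r_apply, D.JJ]

@[simp] lemma r_zero : D.r 0 = 0 := by ext; simp [r_apply]

lemma r_sum {ι : Type*} (s : Finset ι) (x : ι → H →L[ℂ] H) :
    D.r (∑ i ∈ s, x i) = ∑ i ∈ s, D.r (x i) := by ext; simp [r_apply, star_sum]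

lemma r_star (x : H →L[ℂ] H) : D.r (star x) = star (D.r x) := by
  ext η
  refine ext_inner_left ℂ fun ζ => ?_
  rw [inner_star_right, r_apply, r_apply, star_star, ← D.Jinner, D.JJ, ← D.Jinner η, D.JJ,
    inner_star_right]

lemma r_r (x : H →L[ℂ] H) : D.r (D.r x) = x := by
  ext η; rw [r_apply, ← r_star, r_apply, D.JJ, D.JJ, star_star]

lemma norm_r_apply (x : H →L[ℂ] H) (η : H) : ‖D.r x η‖ = ‖star x (D.J η)‖ := by
  rw [r_apply, norm_J]

lemma norm_r_ξ (x : H →L[ℂ] H) : ‖D.r x D.ξ‖ = ‖star x D.ξ‖ := by rw [r_ξ, norm_J]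

lemma r_le (x : H →L[ℂ] H) (η : H) : ‖D.r x η‖ ≤ ‖x‖ * ‖η‖ := by
  simpa [norm_r_apply] using (star x).le_opNorm (D.J η)

lemma r_nonneg {x : H →L[ℂ] H} (hx : 0 ≤ x) : 0 ≤ D.r x :=
  nonneg_of (by rw [IsSelfAdjoint, ← r_star, hx.isSelfAdjoint.star_eq]) fun η => by
    rw [r_apply, ← D.Jinner, D.JJ, inner_star_left]
    exact re_nonneg hx _

variable {D} in
lemma r_comm {x y : H →L[ℂ] H} (hx : x ∈ D.M) (hy : y ∈ D.M) (η : H) :
    x (D.r y η) = D.r y (x η) := comm_of_mem hx (D.r_mem y hy) η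

lemma exists_l (η : H) {ε : ℝ} (hε : 0 < ε) : ∃ x ∈ D.M, ‖η - x D.ξ‖ ≤ ε := by
  obtain ⟨_, ⟨x, hx, rfl⟩, h⟩ := D.cyc.exists_dist_lt η hε
  exact ⟨x, hx, by rw [← dist_eq_norm]; exact h.le⟩

lemma exists_r (η : H) {ε : ℝ} (hε : 0 < ε) : ∃ y ∈ D.M, ‖η - D.r y D.ξ‖ ≤ ε := by
  obtain ⟨x, hx, h⟩ := D.exists_l (D.J η) hε
  exact ⟨star x, star_mem hx, by rwa [r_ξ, star_star, ← D.JJ η, ← map_sub, norm_J]⟩

lemma sep_le (η : H) {ε : ℝ} (hε : 0 < ε) : ∃ L, 0 ≤ L ∧ ∀ x ∈ D.M,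
    ‖x η‖ ≤ L * ‖x D.ξ‖ + ε * ‖x‖ := by
  obtain ⟨y, hy, h⟩ := D.exists_r η hε
  refine ⟨‖y‖, norm_nonneg _, fun x hx => ?_⟩
  have h1 := norm_le_norm_add_norm_sub' (x η) (x (D.r y D.ξ))
  rw [← map_sub, r_comm hx hy] at h1
  have h2 := x.le_opNorm_of_le h
  linarith [D.r_le y (x D.ξ)]

variable {D} in
lemma strong {α : Type*} {l : Filter α} {x : α → H →L[ℂ] H} {C : ℝ} (hM : ∀ n, x n ∈ D.M)
    (hx : ∀ n, ‖x n‖ ≤ C) (h : Tendsto (fun n => x n D.ξ) l (𝓝 0)) (η : H) :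
    Tendsto (fun n => x n η) l (𝓝 0) := by
  refine strong_of_dense hx (D := {η | ∃ y ∈ D.M, η = D.r y D.ξ}) ?_ ?_ η
  · refine Metric.dense_iff.2 fun η ε hε => ?_
    obtain ⟨y, hy, h⟩ := D.exists_r η (half_pos hε)
    exact ⟨_, by rw [mem_ball_iff_norm']; linarith, y, hy, rfl⟩
  · rintro _ ⟨y, hy, rfl⟩
    simpa [Function.comp_def, r_comm (hM _) hy] using ((D.r y).continuous.tendsto _).comp h

variable {D} in
lemma sep {x y : H →L[ℂ] H} (hx : x ∈ D.M) (hy : y ∈ D.M) (h : x D.ξ = y D.ξ) : x = y := by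
  ext η
  have := strong (l := (atTop : Filter ℕ)) (fun _ => sub_mem hx hy) (fun _ => le_rfl)
    (by simp [h]) η
  simpa [sub_eq_zero] using this

/-- modular automorphism group -/
noncomputable def σ (t : ℝ) (x : H →L[ℂ] H) : H →L[ℂ] H := D.V t * x * D.V (-t)

lemma σ_apply (t : ℝ) (x : H →L[ℂ] H) (η : H) : D.σ t x η = D.V t (x (D.V (-t) η)) := rfl

variable {D} in
lemma σ_mem {x : H →L[ℂ] H} (hx : x ∈ D.M) (t : ℝ) : D.σ t x ∈ D.M := D.sig_mem t x hx

@[simp] lemma σ_ξ (t : ℝ) (x : H →L[ℂ] H) : D.σ t x D.ξ = D.V t (x D.ξ) := by simp [σ_apply]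

lemma σ_mul (t : ℝ) (x y : H →L[ℂ] H) : D.σ t (x * y) = D.σ t x * D.σ t y := by
  ext; simp [σ_apply]

lemma σ_star (t : ℝ) (x : H →L[ℂ] H) : D.σ t (star x) = star (D.σ t x) := by
  simp [σ, star_V, mul_assoc]

lemma σ_σ (t t' : ℝ) (x : H →L[ℂ] H) : D.σ t (D.σ t' x) = D.σ (t + t') x := by
  ext; simp [σ_apply, V_V, add_comm]

@[simp] lemma σ_zero (x : H →L[ℂ] H) : D.σ 0 x = x := by simp [σ]

lemma σ_le (t : ℝ) (x : H →L[ℂ] H) : ‖D.σ t x‖ ≤ ‖x‖ :=
  ContinuousLinearMap.opNorm_le_bound _ (norm_nonneg _) fun η => by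
    simpa [σ_apply] using x.le_opNorm (D.V (-t) η)

lemma r_σ (t : ℝ) (x : H →L[ℂ] H) : D.r (D.σ t x) = D.σ t (D.r x) := by
  ext; simp [r_apply, ← σ_star, σ_apply, V_J]

lemma σ_cont (x : H →L[ℂ] H) (η : H) : Continuous fun t => D.σ t x η := by
  refine continuous_iff_continuousAt.2 fun t => tendsto_iff_norm_sub_tendsto_zero.2 ?_
  have h1 := tendsto_iff_norm_sub_tendsto_zero.1 ((D.V_cont (x (D.V (-t) η))).tendsto t)
  have h2 := tendsto_iff_norm_sub_tendsto_zero.1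
    ((x.continuous.comp ((D.V_cont η).comp continuous_neg)).tendsto t)
  refine squeeze_zero (fun _ => norm_nonneg _) (fun u => ?_) (by simpa using h1.add h2)
  refine (norm_sub_le_norm_sub_add_norm_sub _ (D.V u (x (D.V (-t) η))) _).trans ?_
  simp [σ_apply, ← map_sub, add_comm]

lemma comm_F {T : H →L[ℂ] H} (h : ∀ t η, T (D.V t η) = D.V t (T η)) {g : ℝ → ℂ} (hg : Cb g)
    (η : H) : T (D.F g η) = D.F g (T η) := by
  obtain ⟨p, C, p1, p2, p3⟩ := exists_trig hg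
  have key : ∀ p ∈ TP, T (D.F p η) = D.F p (T η) := fun p hp => by
    induction hp using Submodule.span_induction with
    | mem x hx => obtain ⟨t, rfl⟩ := hx; exact h t η
    | zero => simp [show (0 : ℝ → ℂ) = fun _ => 0 from rfl, D.F_const]
    | add x y hx hy h h' =>
      simp [show x + y = fun s => x s + y s from rfl, D.F_add (TP.cb hx) (TP.cb hy), h, h']
    | smul c x hx h => simp [show c • x = fun s => c * x s from rfl, D.F_smul c (TP.cb hx), h]
  refine tendsto_nhds_unique ((T.continuous.tendsto _).comp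
    (D.F_tendsto (fun n => TP.cb (p1 n)) hg p2 p3 η)) ?_
  exact (D.F_tendsto (fun n => TP.cb (p1 n)) hg p2 p3 (T η)).congr fun n => (key _ (p1 n)).symm

lemma approx (S : Submodule ℂ (H →L[ℂ] H)) (hS : ∀ t, ∀ x ∈ S, D.σ t x ∈ S) {x : H →L[ℂ] H}
    (hx : x ∈ S) {g : ℝ → ℂ} (hg : Cb g) : ∃ y : ℕ → H →L[ℂ] H, (∀ n, y n ∈ S) ∧
      Tendsto (fun n => y n D.ξ) atTop (𝓝 (D.F g (x D.ξ))) ∧
      Tendsto (fun n => D.r (y n) D.ξ) atTop (𝓝 (D.F g (D.r x D.ξ))) := by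
  obtain ⟨p, C, p1, p2, p3⟩ := exists_trig hg
  have key : ∀ p ∈ TP, ∃ y ∈ S, y D.ξ = D.F p (x D.ξ) ∧ D.r y D.ξ = D.F p (D.r x D.ξ) := by
    intro p hp
    induction hp using Submodule.span_induction with
    | mem x hx' => obtain ⟨t, rfl⟩ := hx'; exact ⟨_, hS t _ hx, D.σ_ξ _ _, by simp [r_σ, V]⟩
    | zero => exact ⟨0, zero_mem _, by simp [show (0 : ℝ → ℂ) = fun _ => 0 from rfl, D.F_const]⟩
    | add x y hx hy h h' =>
      obtain ⟨a, a1, a2, a3⟩ := h
      obtain ⟨b, b1, b2, b3⟩ := h'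
      exact ⟨a + b, add_mem a1 b1, by simp [show x + y = fun s => x s + y s from rfl,
        D.F_add (TP.cb hx) (TP.cb hy), r_add, *]⟩
    | smul c x hx h =>
      obtain ⟨a, a1, a2, a3⟩ := h
      exact ⟨c • a, S.smul_mem c a1, by simp [show c • x = fun s => c * x s from rfl,
        D.F_smul c (TP.cb hx), r_smul, *]⟩
  choose y y1 y2 y3 using fun n => key _ (p1 n)
  exact ⟨y, y1, by simpa [y2] using D.F_tendsto (fun n => TP.cb (p1 n)) hg p2 p3 _,
    by simpa [y3] using D.F_tendsto (fun n => TP.cb (p1 n)) hg p2 p3 _⟩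

lemma eig {η : H} {ν : ℝ} (h : ∀ t, D.V t η = ch t ν • η) {g : ℝ → ℂ} (hg : Cb g) :
    D.F g η = g ν • η := by
  obtain ⟨p, C, p1, p2, p3⟩ := exists_trig hg
  have key : ∀ p ∈ TP, D.F p η = p ν • η := fun p hp => by
    induction hp using Submodule.span_induction with
    | mem x hx => obtain ⟨t, rfl⟩ := hx; exact h t
    | zero => simp [show (0 : ℝ → ℂ) = fun _ => 0 from rfl, D.F_const]
    | add x y hx hy h h' =>
      simp [show x + y = fun s => x s + y s from rfl, D.F_add (TP.cb hx) (TP.cb hy), h, h', add_smul]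
    | smul c x hx h =>
      simp [show c • x = fun s => c * x s from rfl, D.F_smul c (TP.cb hx), h, mul_smul]
  refine tendsto_nhds_unique (D.F_tendsto (fun n => TP.cb (p1 n)) hg p2 p3 η) ?_
  simpa [key _ (p1 _)] using (p3 ν).smul_const η

variable {D} in
lemma F_r {x : H →L[ℂ] H} (hx : x ∈ D.M) {f : ℝ → ℂ} (hf : Cb f)
    (hf' : Cb fun s => (Real.exp (s / 2) : ℂ) * f s) :
    D.F f (D.r x D.ξ) = D.F (fun s => (Real.exp (s / 2) : ℂ) * f s) (x D.ξ) := by
  rw [r_ξ]; exact D.half _ _ hf hf' (fun _ => rfl) x hx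

variable {D} in
lemma eig_r {x : H →L[ℂ] H} (hx : x ∈ D.M) {ν : ℝ} (h : ∀ t, D.V t (x D.ξ) = ch t ν • x D.ξ) :
    D.r x D.ξ = (Real.exp (ν / 2) : ℂ) • x D.ξ :=
  D.eq_of_cut fun w hw => by
    rw [F_r hx (.bump 0 hw) (.mul_bump (by fun_prop) 0 hw), map_smul, D.eig h (.bump 0 hw),
      D.eig h (.mul_bump (by fun_prop) 0 hw), mul_smul]

end Mod

end Vale.Agent.P132
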