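import Vale.Agent.P132.CharA

open scoped InnerProductSpace ComplexConjugate
open Filter Topology

namespace Vale.Agent.P132

variable {H : Type*} [NormedAddCommGroup H] [InnerProductSpace ℂ H] [CompleteSpace H]

namespace CharAux

omit [CompleteSpace H] in
lemma exists_W (U : ℝ → H →L[ℂ] H) (hn : ∀ r, ‖U r‖ ≤ 1) (hcont : ∀ η, Continuous fun r => U r η)
    (h : ℝ) : ∃ W : H →L[ℂ] H, ∀ η, W η = ∫ r in (0 : ℝ)..h, U r η :=
  ⟨LinearMap.mkContinuous
    { toFun := fun η => ∫ r in (0 : ℝ)..h, U r η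
      map_add' := fun x y => by
        simp only [map_add]
        exact intervalIntegral.integral_add ((hcont x).intervalIntegrable _ _)
          ((hcont y).intervalIntegrable _ _)
      map_smul' := fun c x => by simp [intervalIntegral.integral_smul] } |h| fun η => by
      have := intervalIntegral.norm_integral_le_of_norm_le_const (a := 0) (b := h)
        (f := fun r => U r η) (C := ‖η‖) fun r _ => ((U r).le_opNorm η).trans
          (mul_le_of_le_one_left (norm_nonneg _) (hn r))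
      simpa [mul_comm] using this, fun _ => rfl⟩

/-- bump function -/
noncomputable def bump (ν w : ℝ) (s : ℝ) : ℂ := (max (1 - |s - ν| / w) 0 : ℝ)

lemma Cb.bump (ν : ℝ) {w : ℝ} (hw : 0 < w) : Cb (bump ν w) :=
  ⟨by unfold CharAux.bump; fun_prop, 1, fun s => by
    rw [CharAux.bump, Complex.norm_real, Real.norm_of_nonneg (le_max_right _ _)]
    exact max_le (sub_le_self _ (by positivity)) zero_le_one⟩

lemma bump_zero {ν w s : ℝ} (hw : 0 < w) (h : w ≤ |s - ν|) : bump ν w s = 0 := by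
  rw [bump, max_eq_right (sub_nonpos.2 ((one_le_div hw).2 h)), Complex.ofReal_zero]

lemma appr {A : StarSubalgebra ℂ (H →L[ℂ] H)} (G : Gel A) (χ : G.X) {P : H →L[ℂ] H} (hP : P ∈ A)
    (hP1 : G.ev χ P = 1) {S : Set H} (hS : ∀ η, P η ∈ closure S) (s : Finset (H →L[ℂ] H))
    (hs : ∀ x ∈ s, x ∈ A) : ∃ α : ℕ → H, (∀ n, α n ∈ S) ∧ Tendsto (fun n => ‖α n‖) atTop (𝓝 1) ∧
      ∀ x ∈ s, Tendsto (fun n => x (α n) - G.ev χ x • α n) atTop (𝓝 0) := by
  classical
  choose a ha ha' using fun n : ℕ => G.approx χ (insert P s) (by simpa [hP] using hs) _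
    (Nat.one_div_pos_of_nat (n := n))
  choose α hα hα' using fun n : ℕ => Metric.mem_closure_iff.1 (hS (a n)) _
    (Nat.one_div_pos_of_nat (n := n))
  have t1 : ∀ x ∈ insert P s, Tendsto (fun n => x (a n) - G.ev χ x • a n) atTop (𝓝 0) :=
    fun x hx => squeeze_zero_norm (fun n => ha' n x hx) tendsto_one_div_add_atTop_nhds_zero_nat
  have t2 : Tendsto (fun n => P (a n) - α n) atTop (𝓝 0) :=
    squeeze_zero_norm (fun n => by rw [← dist_eq_norm]; exact (hα' n).le)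
      tendsto_one_div_add_atTop_nhds_zero_nat
  have t3 : Tendsto (fun n => α n - a n) atTop (𝓝 0) := by
    simpa [hP1] using (t1 P (by simp)).sub t2
  refine ⟨α, hα, ?_, fun x hx => ?_⟩
  · rw [tendsto_iff_norm_sub_tendsto_zero]
    exact squeeze_zero (fun _ => norm_nonneg _) (fun n => by
      rw [← ha n]; exact abs_norm_sub_norm_le _ _) (tendsto_zero_iff_norm_tendsto_zero.1 t3)
  · have := ((t1 x (by simp [hx])).add ((x.continuous.tendsto 0).comp t3)).sub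
      (t3.const_smul (G.ev χ x))
    simp only [map_zero, add_zero, smul_zero, sub_zero] at this
    refine this.congr fun n => ?_
    simp only [Function.comp, map_sub, smul_sub]; abel

end CharAux

open CharAux in
/-- A flow `U` (unitary on the range of the projection `U 0`) commuting with the modular
calculus and satisfying the resonance inequality is trivial. -/
theorem flow_trivial (D : Mod H) (U : ℝ → H →L[ℂ] H)
    (hadd : ∀ r r', U (r + r') = U r * U r') (hstar : ∀ r, star (U r) = U (-r))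
    (hcont : ∀ η, Continuous fun r => U r η)
    (hcomm : ∀ r g, Cb g → U r * D.F g = D.F g * U r)
    (hξ : ∀ r, U r D.ξ = D.ξ)
    (heig : ∀ (η : H) (ν : ℝ), U 0 η = η → (∀ t, D.F (ch t) η = ch t ν • η) →
      ∃ c : ℂ, η = c • D.ξ)
    (S : Set H) (hS : ∀ η, U 0 η ∈ closure S)
    (hres : ∀ α ∈ S, ∀ β ∈ S, ∀ (μ ν w a b : ℝ) (γ γ' : ℝ → ℂ), Cb γ → Cb γ' →
      (∀ s, w < |s - ν| → γ s = 0) → (∀ s, w < |s - μ| → γ' s = 0) →
      (∀ r, |r| ≤ w → ‖U r α - α‖ ≤ a) → (∀ r, |r| ≤ w → ‖U r β - β‖ ≤ b) →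
      2 * ‖α‖ ^ 2 * ‖β‖ ^ 2 - 2 * (⟪β, U ν β⟫_ℂ * ⟪α, U μ α⟫_ℂ).re ≤
        (a * ‖β‖ + 2 * ‖α‖ * ‖β - D.F γ' β‖ + b * ‖α‖ + 2 * ‖β‖ * ‖α - D.F γ α‖) ^ 2)
    (r : ℝ) : U r = U 0 := by
  classical
  have hn : ∀ r, ‖U r‖ ≤ 1 := by
    have h1 : ∀ r, ‖U r‖ * ‖U r‖ = ‖U 0‖ := fun r => by
      rw [← CStarRing.norm_star_mul_self, hstar, ← hadd, neg_add_cancel]
    have h2 : ‖U 0‖ ≤ 1 := by nlinarith [h1 0, norm_nonneg (U 0)]
    exact fun r => by nlinarith [h1 r, norm_nonneg (U r)]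
  by_contra hne
  set G0 : Set (H →L[ℂ] H) := Set.range U ∪ D.F '' {f | Cb f} with hG0
  have g1 : ∀ x ∈ G0, star x ∈ G0 := by
    rintro _ (⟨r, rfl⟩ | ⟨f, hf, rfl⟩)
    exacts [Or.inl ⟨_, (hstar r).symm⟩, Or.inr ⟨_, Cb.star hf, (F_star D hf).symm⟩]
  have g2 : ∀ x ∈ G0, ∀ y ∈ G0, x * y = y * x := by
    rintro _ (⟨r, rfl⟩ | ⟨f, hf, rfl⟩) _ (⟨r', rfl⟩ | ⟨f', hf', rfl⟩)
    · rw [← hadd, add_comm, hadd]
    · exact hcomm _ _ hf'
    · exact (hcomm _ _ hf).symm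
    · rw [← D.F_mul _ _ hf hf', ← D.F_mul _ _ hf' hf]; simp only [mul_comm]
  set A := StarSubalgebra.centralizer ℂ (StarSubalgebra.centralizer ℂ G0 : Set (H →L[ℂ] H))
  have mA : ∀ x, (∀ T, (∀ y ∈ G0, y * T = T * y) → T * x = x * T) → x ∈ A := fun x h =>
    (StarSubalgebra.mem_centralizer_iff ℂ).2 fun T hT =>
      ⟨h T fun y hy => ((StarSubalgebra.mem_centralizer_iff ℂ).1 hT y hy).1,
        h _ fun y hy => ((StarSubalgebra.mem_centralizer_iff ℂ).1 (star_mem hT) y hy).1⟩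
  have hU : ∀ r, U r ∈ A := fun r => mA _ fun T h => (h _ (Or.inl ⟨r, rfl⟩)).symm
  have hF : ∀ f, Cb f → D.F f ∈ A := fun f hf => mA _ fun T h => (h _ (Or.inr ⟨f, hf, rfl⟩)).symm
  obtain ⟨G⟩ := exists_gel A (Set.isClosed_centralizer _) fun x hx y hy => by
    have a1 : ∀ z ∈ G0, z ∈ StarSubalgebra.centralizer ℂ G0 := fun z hz =>
      (StarSubalgebra.mem_centralizer_iff ℂ).2 fun g hg => ⟨g2 _ hg _ hz, g2 _ (g1 _ hg) _ hz⟩
    exact ((StarSubalgebra.mem_centralizer_iff ℂ).1 hy x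
      (StarSubalgebra.centralizer_le ℂ _ _ a1 hx)).1
  choose W0 hW0 using exists_W U hn hcont
  have ii := fun η a b => (hcont η).intervalIntegrable (μ := MeasureTheory.volume) a b
  obtain ⟨h, hh⟩ : ∃ h, (U r - U 0) * W0 h * D.F g0 ≠ 0 := by
    by_contra hc
    push Not at hc
    refine hne (ContinuousLinearMap.ext fun η => ?_)
    have a1 : (fun h => (U r - U 0) (∫ s in (0 : ℝ)..h, U s η)) = fun _ => 0 := funext fun h => by
      have : D.F g0 * ((U r - U 0) * W0 h) = 0 := by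
        rw [← hc h, ← mul_assoc, mul_sub, ← hcomm _ _ Cb.g0, ← hcomm _ _ Cb.g0, ← sub_mul,
          mul_assoc, mul_assoc]
        congr 1
        ext ζ
        simp only [mul_apply_eq_comp, hW0, ← (D.F g0).intervalIntegral_comp_comm (ii _ _ _)]
        simp only [← mul_apply_eq_comp, hcomm _ _ Cb.g0]
      rw [← hW0]
      exact F_g0 D (congrArg (fun T => T η) this)
    have a2 := (U r - U 0).hasFDerivAt.restrictScalars ℝ |>.comp_hasDerivAt (0 : ℝ)
      (intervalIntegral.integral_hasDerivAt_right (ii η 0 0)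
        ((hcont η).stronglyMeasurableAtFilter _ _) (hcont η).continuousAt)
    have a3 := a2.unique (a1 ▸ hasDerivAt_const (0 : ℝ) (0 : H))
    have a4 : (U r - U 0) (U 0 η) = 0 := a3
    rwa [← mul_apply_eq_comp, sub_mul, ← hadd, ← hadd, add_zero, add_zero, sub_apply,
      sub_eq_zero] at a4
  set W := W0 h
  have hWA : W ∈ A := mA _ fun T hT => ContinuousLinearMap.ext fun ζ => by
    simp only [W, mul_apply_eq_comp, hW0, ← T.intervalIntegral_comp_comm (ii _ _ _)]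
    simp only [← mul_apply_eq_comp, hT _ (Or.inl ⟨_, rfl⟩)]
  have hUW : ∀ r ζ, U r (W ζ) = ∫ s in r..r + h, U s ζ := fun r ζ => by
    simp only [W, hW0, ← (U r).intervalIntegral_comp_comm (ii _ _ _)]
    simp only [← mul_apply_eq_comp, ← hadd]
    rw [intervalIntegral.integral_comp_add_left (fun s => U s ζ), add_zero]
  have hW1 : U 0 * W = W := ContinuousLinearMap.ext fun ζ => by
    rw [mul_apply_eq_comp, hUW, zero_add, hW0]
  have hW2 : ∀ r, ‖(U r - U 0) * W‖ ≤ 2 * |r| := fun r =>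
    ContinuousLinearMap.opNorm_le_bound _ (by positivity) fun ζ => by
      have b := fun a b => intervalIntegral.norm_integral_le_of_norm_le_const (a := a) (b := b)
        (f := fun r => U r ζ) (C := ‖ζ‖) fun r _ => ((U r).le_opNorm ζ).trans
          (mul_le_of_le_one_left (norm_nonneg _) (hn r))
      rw [mul_apply_eq_comp, sub_apply, hUW, hUW, zero_add,
        intervalIntegral.integral_interval_sub_interval_comm (ii _ _ _) (ii _ _ _) (ii _ _ _)]
      have b1 := b r 0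
      have b2 := b (r + h) h
      rw [zero_sub, abs_neg] at b1
      rw [sub_add_cancel_right, abs_neg] at b2
      linarith [norm_sub_le (∫ s in r..0, U s ζ) (∫ s in r + h..h, U s ζ)]
  have c0 : ∀ χ, G.ev χ W ≠ 0 → G.ev χ (U 0) = 1 := fun χ hχ =>
    mul_right_cancel₀ hχ (by rw [← G.mul _ _ (hU 0) _ hWA, hW1, one_mul])
  have c1 : ∀ χ r r', G.ev χ (U (r + r')) = G.ev χ (U r) * G.ev χ (U r') := fun χ r r' => by
    rw [hadd, G.mul _ _ (hU _) _ (hU _)]
  have c2 : ∀ χ r, ‖G.ev χ (U r)‖ ≤ 1 := fun χ r => (G.le _ _ (hU r)).trans (hn r)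
  have c3 : ∀ χ, G.ev χ W ≠ 0 → ∀ r, ‖G.ev χ (U r) - 1‖ * ‖G.ev χ W‖ ≤ 2 * |r| := fun χ hχ r => by
    rw [← c0 χ hχ, ← norm_mul, ← G.sub _ _ (hU _) _ (hU _),
      ← G.mul _ _ (sub_mem (hU _) (hU _)) _ hWA]
    exact (G.le _ _ (mul_mem (sub_mem (hU _) (hU _)) hWA)).trans (hW2 r)
  have ap : ∀ χ, G.ev χ W ≠ 0 → ∀ (ν μ w : ℝ), 0 < w → (∀ f, Cb f → G.ev χ (D.F f) = f ν) →
      ∃ (α : ℕ → H) (a : ℕ → ℝ), (∀ n, α n ∈ S) ∧ Tendsto (fun n => ‖α n‖) atTop (𝓝 1) ∧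
      Tendsto (fun n => ⟪α n, U μ (α n)⟫_ℂ) atTop (𝓝 (G.ev χ (U μ))) ∧
      Tendsto (fun n => ‖α n - D.F (bump ν w) (α n)‖) atTop (𝓝 0) ∧
      Tendsto a atTop (𝓝 (2 * w / ‖G.ev χ W‖)) ∧ ∀ n r, |r| ≤ w → ‖U r (α n) - α n‖ ≤ a n := by
    intro χ hχ ν μ w hw hν
    obtain ⟨α, h1, h2, h3⟩ := appr G χ (hU 0) (c0 χ hχ) hS {W, U μ, U 0, D.F (bump ν w)}
      (by simp [hWA, hU, hF _ (Cb.bump ν hw)])
    have t1 := tendsto_zero_iff_norm_tendsto_zero.1 (h3 W (by simp))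
    have t2 := tendsto_zero_iff_norm_tendsto_zero.1 (h3 (U μ) (by simp))
    have t3 := tendsto_zero_iff_norm_tendsto_zero.1 (h3 (U 0) (by simp))
    have t4 := tendsto_zero_iff_norm_tendsto_zero.1 (h3 (D.F (bump ν w)) (by simp))
    rw [c0 χ hχ] at t3
    refine ⟨α, fun n => (2 * w * ‖α n‖ + 2 * ‖W (α n) - G.ev χ W • α n‖) / ‖G.ev χ W‖ +
      ‖U 0 (α n) - (1 : ℂ) • α n‖, h1, h2, ?_, ?_, ?_, fun n r hr => ?_⟩
    · have s1 : Tendsto (fun n => ⟪α n, U μ (α n) - G.ev χ (U μ) • α n⟫_ℂ) atTop (𝓝 0) :=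
        squeeze_zero_norm (fun n => norm_inner_le_norm _ _) (by simpa using h2.mul t2)
      have s2 := (((Complex.continuous_ofReal.tendsto 1).comp h2).pow 2).const_mul (G.ev χ (U μ))
      have := s1.add s2
      simp only [Complex.ofReal_one, one_pow, mul_one, zero_add] at this
      refine this.congr fun n => ?_
      simp
    · simpa [hν _ (Cb.bump ν hw), bump, norm_sub_rev] using t4
    · simpa using (((h2.const_mul (2 * w)).add (t1.const_mul 2)).div_const ‖G.ev χ W‖).add t3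
    · have hp := norm_pos_iff.2 hχ
      beta_reduce
      rw [one_smul, show U r (α n) - α n = (U r - U 0) (α n) + (U 0 (α n) - α n) by simp]
      refine (norm_add_le _ _).trans (add_le_add_left ?_ _)
      rw [le_div_iff₀' hp, ← norm_smul, ← map_smul, show G.ev χ W • α n =
        W (α n) - (W (α n) - G.ev χ W • α n) by simp, map_sub, sub_sub_cancel]
      refine (norm_sub_le _ _).trans (add_le_add ?_ ?_)
      · exact (((U r - U 0) * W).le_opNorm _).trans (mul_le_mul_of_nonneg_right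
          ((hW2 r).trans (by linarith)) (norm_nonneg _))
      · exact ((U r - U 0).le_opNorm _).trans (mul_le_mul_of_nonneg_right
          ((norm_sub_le _ _).trans (by linarith [hn r, hn 0])) (norm_nonneg _))
  have res : ∀ χ χ', G.ev χ W ≠ 0 → G.ev χ' W ≠ 0 → ∀ ν μ : ℝ, (∀ f, Cb f → G.ev χ (D.F f) = f ν) →
      (∀ f, Cb f → G.ev χ' (D.F f) = f μ) → G.ev χ' (U ν) * G.ev χ (U μ) = 1 := by
    intro χ χ' h1 h2 ν μ hν hμ
    have k : ∀ w : ℝ, 0 < w → 2 - 2 * (G.ev χ' (U ν) * G.ev χ (U μ)).re ≤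
        (2 * w / ‖G.ev χ W‖ + 2 * w / ‖G.ev χ' W‖) ^ 2 := fun w hw => by
      obtain ⟨α, a, a1, a2, a3, a4, a5, a6⟩ := ap χ h1 ν μ w hw hν
      obtain ⟨β, b, b1, b2, b3, b4, b5, b6⟩ := ap χ' h2 μ ν w hw hμ
      have := le_of_tendsto_of_tendsto' ((((a2.pow 2).const_mul 2).mul (b2.pow 2)).sub
        (((Complex.continuous_re.tendsto _).comp (b3.mul a3)).const_mul 2))
        (((((a5.mul b2).add ((a2.const_mul 2).mul b4)).add (b5.mul a2)).add
          ((b2.const_mul 2).mul a4)).pow 2) fun n => hres _ (a1 n) _ (b1 n) μ ν w _ _ _ _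
          (Cb.bump ν hw) (Cb.bump μ hw) (fun s hs => bump_zero hw hs.le)
          (fun s hs => bump_zero hw hs.le) (a6 n) (b6 n)
      simpa using this
    have k2 : Tendsto (fun w : ℝ => (2 * w / ‖G.ev χ W‖ + 2 * w / ‖G.ev χ' W‖) ^ 2) (𝓝[>] 0)
        (𝓝 0) := tendsto_nhdsWithin_of_tendsto_nhds (Continuous.tendsto' (by fun_prop) _ _ (by simp))
    have k3 := ge_of_tendsto k2 (eventually_mem_nhdsWithin.mono k)
    set z := G.ev χ' (U ν) * G.ev χ (U μ)
    have k4 : ‖z‖ ≤ 1 := (norm_mul_le _ _).trans (mul_le_one₀ (c2 _ _) (norm_nonneg _) (c2 _ _))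
    have k5 : z.re ^ 2 + z.im ^ 2 ≤ 1 := by
      have := Complex.sq_norm z
      rw [Complex.normSq_apply] at this
      nlinarith [norm_nonneg z]
    exact Complex.ext (by simp; nlinarith) (by simp; nlinarith)
  obtain ⟨χ0, hχ0⟩ : ∃ χ, G.ev χ ((U r - U 0) * W * D.F g0) ≠ 0 := by
    by_contra hc
    push Not at hc
    exact hh (G.sep _ (mul_mem (mul_mem (sub_mem (hU _) (hU _)) hWA) (hF _ Cb.g0)) hc)
  rw [G.mul _ _ (mul_mem (sub_mem (hU _) (hU _)) hWA) _ (hF _ Cb.g0),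
    G.mul _ _ (sub_mem (hU _) (hU _)) _ hWA] at hχ0
  have w0 : G.ev χ0 W ≠ 0 := right_ne_zero_of_mul (left_ne_zero_of_mul hχ0)
  have u0 : G.ev χ0 (U r - U 0) ≠ 0 := left_ne_zero_of_mul (left_ne_zero_of_mul hχ0)
  obtain ⟨ν0, hν0⟩ := point D G hF χ0 (right_ne_zero_of_mul hχ0)
  set κ := ‖G.ev χ0 W‖ / 2 with hκ
  have hκ0 : 0 < κ := half_pos (norm_pos_iff.2 w0)
  have c4 : ∀ χ, κ ≤ ‖G.ev χ W‖ → ∀ r, ‖G.ev χ (U r) - 1‖ ≤ 2 / κ * |r| := fun χ hχ r => by
    rw [div_mul_eq_mul_div, le_div_iff₀ hκ0]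
    exact (mul_le_mul_of_nonneg_left hχ (norm_nonneg _)).trans
      (c3 χ (norm_pos_iff.1 (hκ0.trans_le hχ)) r)
  have k0 : κ ≤ ‖G.ev χ0 W‖ := by linarith
  have iso : ∀ χ, κ ≤ ‖G.ev χ W‖ → ∀ ν : ℝ, (∀ f, Cb f → G.ev χ (D.F f) = f ν) →
      |ν - ν0| < κ / 8 → ν = ν0 := by
    intro χ hχ ν hν hlt
    by_contra hd
    have w1 : G.ev χ W ≠ 0 := norm_pos_iff.1 (hκ0.trans_le hχ)
    have r1 := res χ χ w1 w1 ν ν hν hν
    have r2 := res χ0 χ0 w0 w0 ν0 ν0 hν0 hν0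
    have r3 := res χ χ0 w1 w0 ν ν0 hν hν0
    have r4 := c1 χ0 (ν - ν0) ν0
    have r5 := c1 χ (-(ν - ν0)) ν
    rw [sub_add_cancel] at r4
    rw [neg_sub, sub_add_cancel, ← neg_sub] at r5
    have := nss (fun r => G.ev χ0 (U r) * G.ev χ (U (-r))) (fun r r' => by
        simp only [neg_add, c1]; ring) (d := ν - ν0 + (ν - ν0)) (L := 4 / κ)
      (fun e => hd (by linarith)) (by
        simp only [neg_add, c1]
        rw [r4, r5] at r3
        linear_combination (G.ev χ0 (U (ν - ν0)) * G.ev χ0 (U ν0) *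
          (G.ev χ (U (-(ν - ν0))) * G.ev χ (U ν)) + 1) * r3 -
          (G.ev χ0 (U (ν - ν0)) * G.ev χ (U (-(ν - ν0)))) ^ 2 * (G.ev χ (U ν) * G.ev χ (U ν) * r2 + r1))
      (fun r => by
        have a1 := c4 χ0 k0 r
        have a2 := c4 χ hχ (-r)
        rw [abs_neg] at a2
        rw [show G.ev χ0 (U r) * G.ev χ (U (-r)) - 1 = (G.ev χ0 (U r) - 1) * G.ev χ (U (-r)) +
          (G.ev χ (U (-r)) - 1) by ring]
        refine (norm_add_le _ _).trans ?_
        have a3 := (norm_mul_le (G.ev χ0 (U r) - 1) _).trans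
          (mul_le_of_le_one_right (norm_nonneg _) (c2 χ (-r)))
        have : 4 / κ * |r| = 2 / κ * |r| + 2 / κ * |r| := by ring
        linarith)
      (by
        rw [← two_mul, abs_mul, abs_two, div_mul_eq_mul_div, div_lt_one hκ0]
        linarith) (by positivity)
    have r6 := this (-ν0)
    have r7 := c1 χ0 ν0 (-ν0)
    rw [neg_neg] at r6
    rw [add_neg_cancel, c0 χ0 w0] at r7
    have r8 : G.ev χ0 (U (ν - ν0)) = 1 := by
      rw [r4] at r3
      linear_combination r3 - G.ev χ0 (U (ν - ν0)) * G.ev χ0 (U ν0) ^ 2 * r6 -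
        G.ev χ0 (U (ν - ν0)) * r2 - G.ev χ0 (U (ν - ν0)) * G.ev χ0 (U ν0) * G.ev χ (U ν0) * r7
    have := nss (fun r => G.ev χ0 (U r)) (c1 χ0) (sub_ne_zero.2 hd) r8 (c4 χ0 k0) (by
      rw [div_mul_eq_mul_div, div_lt_one hκ0]; linarith) (by positivity) r
    exact u0 (by rw [G.sub _ _ (hU _) _ (hU _), this, c0 χ0 w0, sub_self])
  obtain ⟨Y0, hY0, eY0⟩ := G.cut W hWA κ
  have cb := Cb.mul (Cb.bump ν0 (show 0 < κ / 8 by positivity)) Cb.g0
  set Y := Y0 * D.F fun s => bump ν0 (κ / 8) s * g0 s with hY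
  have hYA : Y ∈ A := mul_mem hY0 (hF _ cb)
  have kill : ∀ Z ∈ A, (∀ χ, G.ev χ W ≠ 0 → (∀ f, Cb f → G.ev χ (D.F f) = f ν0) → G.ev χ Z = 0) →
      Z * Y = 0 := fun Z hZ h => G.sep _ (mul_mem hZ hYA) fun χ => by
    rw [G.mul _ _ hZ _ hYA]
    by_contra hc
    have a1 := right_ne_zero_of_mul hc
    rw [hY, G.mul _ _ hY0 _ (hF _ cb), eY0] at a1
    have a2 : κ ≤ ‖G.ev χ W‖ := by
      by_contra a3
      exact left_ne_zero_of_mul a1 (by rw [max_eq_right (by linarith)]; simp)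
    have a3 := right_ne_zero_of_mul a1
    obtain ⟨ν, hν⟩ := point D G hF χ fun e => a3 (by
      rw [D.F_mul _ _ (Cb.bump ν0 (by positivity)) Cb.g0,
        G.mul _ _ (hF _ (Cb.bump ν0 (by positivity))) _ (hF _ Cb.g0), e, mul_zero])
    rw [hν _ cb] at a3
    obtain rfl := iso χ a2 ν hν (lt_of_not_ge fun a4 =>
      left_ne_zero_of_mul a3 (bump_zero (by positivity) a4))
    exact left_ne_zero_of_mul hc (h χ (norm_pos_iff.1 (hκ0.trans_le a2)) hν)
  have z1 := kill (U 0 - 1) (sub_mem (hU 0) (one_mem A)) fun χ h1 _ => by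
    rw [G.sub _ _ (hU 0) _ (one_mem A), c0 χ h1, G.one, sub_self]
  have z2 := fun t => kill (D.F (ch t) - ch t ν0 • 1)
    (sub_mem (hF _ (Cb.ch t)) (SMulMemClass.smul_mem _ (one_mem A))) fun χ _ h2 => by
    rw [G.sub _ _ (hF _ (Cb.ch t)) _ (SMulMemClass.smul_mem _ (one_mem A)), h2 _ (Cb.ch t),
      G.smul _ _ _ (one_mem A), G.one, mul_one, sub_self]
  have z3 : (U r - U 0) * Y = 0 := ContinuousLinearMap.ext fun η => by
    obtain ⟨c, hc⟩ := heig (Y η) ν0 (by simpa [sub_eq_zero] using congrArg (fun T => T η) z1)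
      fun t => by simpa [sub_eq_zero] using congrArg (fun T => T η) (z2 t)
    simp [hc, hξ]
  have z4 := G.mul χ0 _ (sub_mem (hU r) (hU 0)) _ hYA
  have z5 := G.smul χ0 0 _ (one_mem A)
  rw [zero_smul, zero_mul] at z5
  rw [z3, z5, hY, G.mul _ _ hY0 _ (hF _ cb), eY0, hν0 _ cb, max_eq_left (by linarith)] at z4
  refine mul_ne_zero u0 (mul_ne_zero (Complex.ofReal_ne_zero.2 ?_)
    (mul_ne_zero ?_ (g0_ne _))) z4.symm
  · linarith
  · simp [bump]

end Vale.Agent.P132
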