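import Vale.Agent.P132.Mod

open scoped InnerProductSpace ComplexConjugate
open MeasureTheory Filter Topology

namespace Vale.Agent.P132.CharAux

universe u
variable {H : Type u} [NormedAddCommGroup H] [InnerProductSpace ℂ H] [CompleteSpace H]

/-- characters of a commutative algebra of operators -/
structure Gel (A : StarSubalgebra ℂ (H →L[ℂ] H)) where
  X : Type u
  ev : X → (H →L[ℂ] H) → ℂ
  sub : ∀ χ, ∀ x ∈ A, ∀ y ∈ A, ev χ (x - y) = ev χ x - ev χ y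
  mul : ∀ χ, ∀ x ∈ A, ∀ y ∈ A, ev χ (x * y) = ev χ x * ev χ y
  smul : ∀ χ (c : ℂ), ∀ x ∈ A, ev χ (c • x) = c * ev χ x
  one : ∀ χ, ev χ 1 = 1
  le : ∀ χ, ∀ x ∈ A, ‖ev χ x‖ ≤ ‖x‖
  sep : ∀ x ∈ A, (∀ χ, ev χ x = 0) → x = 0
  cut : ∀ x ∈ A, ∀ k : ℝ, ∃ y ∈ A, ∀ χ, ev χ y = (max (‖ev χ x‖ - k) 0 : ℝ)
  approx : ∀ χ (s : Finset (H →L[ℂ] H)), (∀ x ∈ s, x ∈ A) → ∀ ε : ℝ, 0 < ε →
    ∃ a, ‖a‖ = 1 ∧ ∀ x ∈ s, ‖x a - ev χ x • a‖ ≤ ε

theorem exists_gel (A : StarSubalgebra ℂ (H →L[ℂ] H)) (hA : IsClosed (A : Set (H →L[ℂ] H)))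
    (hc : ∀ x ∈ A, ∀ y ∈ A, x * y = y * x) : Nonempty (Gel A) := by
  classical
  let _ : CommCStarAlgebra A := { (inferInstance : CStarAlgebra A) with
    mul_comm := fun x y => Subtype.ext (hc _ x.2 _ y.2) }
  let ev : WeakDual.characterSpace ℂ A → (H →L[ℂ] H) → ℂ := fun χ x =>
    if h : x ∈ A then χ ⟨x, h⟩ else 0
  have e : ∀ χ x (h : x ∈ A), ev χ x = χ ⟨x, h⟩ := fun χ x h => dif_pos h
  refine ⟨⟨_, ev, fun χ x hx y hy => ?_, fun χ x hx y hy => ?_, fun χ c x hx => ?_, fun χ => ?_,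
    fun χ x hx => ?_, fun x hx h => ?_, fun x hx k => ?_, fun χ s hs ε hε => ?_⟩⟩
  · rw [e _ _ hx, e _ _ hy, e _ _ (sub_mem hx hy), ← map_sub]; rfl
  · rw [e _ _ hx, e _ _ hy, e _ _ (mul_mem hx hy), ← map_mul]; rfl
  · rw [e _ _ hx, e _ _ (SMulMemClass.smul_mem c hx), ← smul_eq_mul, ← map_smul]; rfl
  · rw [e _ _ (one_mem A)]; exact map_one χ
  · rw [e _ _ hx]
    exact ((WeakDual.gelfandTransform ℂ A ⟨x, hx⟩).norm_coe_le_norm χ).trans_eq
      ((gelfandTransform_isometry A).norm_map_of_map_zero (map_zero _) _)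
  · have : gelfandStarTransform A ⟨x, hx⟩ = 0 := ContinuousMap.ext fun χ => (e χ x hx).symm.trans (h χ)
    exact congrArg Subtype.val ((map_eq_zero_iff _ (gelfandStarTransform A).injective).1 this)
  · obtain ⟨y, hy⟩ := (gelfandStarTransform A).surjective
      ⟨fun χ => (max (‖gelfandStarTransform A ⟨x, hx⟩ χ‖ - k) 0 : ℝ), by fun_prop⟩
    refine ⟨y, y.2, fun χ => ?_⟩
    rw [e _ _ y.2, e _ _ hx]
    exact congrArg (fun f : C(_, ℂ) => f χ) hy
  · by_contra hn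
    push Not at hn
    let z : s → A := fun x => ⟨x, hs x x.2⟩ - ev χ x • 1
    have h1 : χ (∑ x, star (z x) * z x) = 0 := by
      simp [z, e _ _ (hs _ (Subtype.prop _))]
    have h2 : IsUnit (∑ x, star (z x) * z x) := by
      rw [← StarSubalgebra.coe_isUnit]
      refine ContinuousLinearMap.isUnit_of_forall_le_norm_inner_map _ (c := ⟨ε ^ 2, sq_nonneg ε⟩)
        (pow_pos hε 2) fun v => ?_
      have h3 : ⟪((∑ x, star (z x) * z x : A) : H →L[ℂ] H) v, v⟫_ℂ =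
          ((∑ x : s, ‖(x : H →L[ℂ] H) v - ev χ x • v‖ ^ 2 : ℝ) : ℂ) := by
        rw [AddSubmonoidClass.coe_finsetSum, _root_.sum_apply, sum_inner, Complex.ofReal_sum]
        refine Finset.sum_congr rfl fun x _ => ?_
        show ⟪star (z x : H →L[ℂ] H) ((z x : H →L[ℂ] H) v), v⟫_ℂ = _
        rw [ContinuousLinearMap.star_eq_adjoint, ContinuousLinearMap.adjoint_inner_left,
          inner_self_eq_norm_sq_to_K, Complex.ofReal_pow]
        rfl
      rw [h3, Complex.norm_real, Real.norm_of_nonneg (by positivity)]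
      by_cases hv : v = 0
      · simp [hv]
      have hv' := norm_pos_iff.2 hv
      obtain ⟨x, hx, hlt⟩ := hn ((‖v‖⁻¹ : ℂ) • v) (by simp [norm_smul, hv])
      rw [map_smul, smul_comm, ← smul_sub, norm_smul, norm_inv, Complex.norm_real, norm_norm,
        lt_inv_mul_iff₀ hv'] at hlt
      refine le_trans ?_ (Finset.single_le_sum (f := fun x : s =>
        ‖(x : H →L[ℂ] H) v - ev χ x • v‖ ^ 2) (fun _ _ => sq_nonneg _) (Finset.mem_univ ⟨x, hx⟩))
      show ‖v‖ ^ 2 * ε ^ 2 ≤ _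
      rw [← mul_pow]
      exact pow_le_pow_left₀ (by positivity) hlt.le 2
    exact (h2.map χ).ne_zero h1

lemma Cb.const (c : ℂ) : Cb fun _ => c := ⟨continuous_const, ‖c‖, fun _ => le_rfl⟩

lemma Cb.mul {f g : ℝ → ℂ} (hf : Cb f) (hg : Cb g) : Cb fun s => f s * g s := by
  obtain ⟨h1, C, hC⟩ := hf
  obtain ⟨h2, C', hC'⟩ := hg
  exact ⟨h1.mul h2, C * C', fun s => (norm_mul_le _ _).trans
    (mul_le_mul (hC s) (hC' s) (norm_nonneg _) ((norm_nonneg _).trans (hC s)))⟩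

lemma Cb.sub {f g : ℝ → ℂ} (hf : Cb f) (hg : Cb g) : Cb fun s => f s - g s := by
  obtain ⟨h1, C, hC⟩ := hf
  obtain ⟨h2, C', hC'⟩ := hg
  exact ⟨h1.sub h2, C + C', fun s => (norm_sub_le _ _).trans (add_le_add (hC s) (hC' s))⟩

lemma Cb.star {f : ℝ → ℂ} (hf : Cb f) : Cb fun s => conj (f s) := by
  obtain ⟨h1, C, hC⟩ := hf
  exact ⟨Complex.continuous_conj.comp h1, C, by simpa using hC⟩

lemma Cb.ch (t : ℝ) : Cb (ch t) :=
  ⟨by unfold P132.ch; fun_prop, 1, fun s => (Complex.norm_exp_ofReal_mul_I _).le⟩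

lemma Cb.int {f : ℝ → ℂ} (hf : Cb f) (μ : Measure ℝ) [IsFiniteMeasure μ] : Integrable f μ := by
  obtain ⟨h1, C, hC⟩ := hf
  exact Integrable.of_bound h1.aestronglyMeasurable C (Eventually.of_forall hC)

omit [CompleteSpace H] in
lemma op_ext {S T : H →L[ℂ] H} (h : ∀ η, ⟪η, S η⟫_ℂ = ⟪η, T η⟫_ℂ) : S = T :=
  ContinuousLinearMap.coe_injective ((ext_inner_map (S : H →ₗ[ℂ] H) T).1 fun η => by
    simpa using congrArg conj (h η))

variable (D : Mod H)

lemma F_sub {f g : ℝ → ℂ} (hf : Cb f) (hg : Cb g) : D.F (fun s => f s - g s) = D.F f - D.F g :=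
  op_ext fun η => by
    have := D.mu_fin η
    rw [sub_apply, inner_sub_right, D.F_inner _ (Cb.sub hf hg), D.F_inner _ hf, D.F_inner _ hg,
      integral_sub (Cb.int hf _) (Cb.int hg _)]

lemma F_const (c : ℂ) : D.F (fun _ => c) = c • 1 := op_ext fun η => by
  rw [← D.F_one, smul_apply, inner_smul_right, D.F_inner _ (Cb.const c), D.F_inner _ (Cb.const 1),
    ← integral_const_mul, mul_one]

lemma F_star {f : ℝ → ℂ} (hf : Cb f) : star (D.F f) = D.F fun s => conj (f s) := op_ext fun η => by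
  rw [ContinuousLinearMap.star_eq_adjoint, ContinuousLinearMap.adjoint_inner_right,
    ← inner_conj_symm, D.F_inner _ hf, D.F_inner _ (Cb.star hf), integral_conj]

lemma mu_univ (η : H) : (D.mu η).real Set.univ = ‖η‖ ^ 2 := by
  have := D.F_inner _ (Cb.const 1) η
  rw [D.F_one, one_apply_eq_self, inner_self_eq_norm_sq_to_K, integral_const] at this
  apply Complex.ofReal_injective
  simpa using this.symm

lemma F_norm {f : ℝ → ℂ} (hf : Cb f) {C : ℝ} (hC : ∀ s, ‖f s‖ ≤ C) : ‖D.F f‖ ≤ C := by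
  have h0 : 0 ≤ C := (norm_nonneg _).trans (hC 0)
  refine ContinuousLinearMap.opNorm_le_bound _ h0 fun η => ?_
  have := D.mu_fin η
  have h1 := D.F_inner _ (Cb.mul (Cb.star hf) hf) η
  rw [D.F_mul _ _ (Cb.star hf) hf, ← F_star D hf, mul_apply_eq_comp,
    ContinuousLinearMap.star_eq_adjoint, ContinuousLinearMap.adjoint_inner_right,
    inner_self_eq_norm_sq_to_K] at h1
  have h2 := norm_integral_le_of_norm_le_const (μ := D.mu η) (f := fun s => conj (f s) * f s)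
    (C := C ^ 2) (Eventually.of_forall fun s => by
      rw [norm_mul, RCLike.norm_conj, ← sq]; exact pow_le_pow_left₀ (norm_nonneg _) (hC s) 2)
  rw [← h1, mu_univ, ← mul_pow] at h2
  exact le_of_sq_le_sq (by simpa using h2) (by positivity)

/-- a positive weight -/
noncomputable def g0 (s : ℝ) : ℂ := ((1 + s ^ 2)⁻¹ : ℝ)

lemma g0_ne (s : ℝ) : g0 s ≠ 0 := Complex.ofReal_ne_zero.2 (by positivity)

lemma g0_cont : Continuous fun s : ℝ => (1 + s ^ 2)⁻¹ :=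
  Continuous.inv₀ (by fun_prop) fun s => by positivity

lemma Cb.g0 : Cb g0 := ⟨Complex.continuous_ofReal.comp g0_cont, 1, fun s => by
  rw [CharAux.g0, Complex.norm_real, Real.norm_of_nonneg (by positivity)]
  exact inv_le_one_of_one_le₀ (by nlinarith)⟩

lemma Cb.sg0 : Cb fun s => s * CharAux.g0 s :=
  ⟨Complex.continuous_ofReal.mul Cb.g0.1, 1, fun s => by
    rw [norm_mul, CharAux.g0, Complex.norm_real, Complex.norm_real,
      Real.norm_of_nonneg (by positivity : 0 ≤ (1 + s ^ 2)⁻¹), ← div_eq_mul_inv,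
      div_le_one (by positivity), Real.norm_eq_abs]
    nlinarith [sq_abs s, sq_nonneg (|s| - 1)]⟩

lemma F_g0 {ζ : H} (h : D.F g0 ζ = 0) : ζ = 0 := by
  have := D.mu_fin ζ
  have h1 := D.F_inner _ Cb.g0 ζ
  simp only [h, inner_zero_right, g0, integral_complex_ofReal] at h1
  have h2 := (integral_eq_zero_iff_of_nonneg (f := fun s : ℝ => (1 + s ^ 2)⁻¹)
    (fun s => inv_nonneg.2 (by positivity))
    (Cb.int Cb.g0 (D.mu ζ)).re).1 (Complex.ofReal_eq_zero.1 h1.symm)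
  have h3 : D.mu ζ = 0 := by
    rw [← ae_eq_bot, ← eventually_false_iff_eq_bot]
    filter_upwards [h2] with s hs
    exact inv_ne_zero (by positivity) hs
  have := mu_univ D ζ
  rw [h3] at this
  simpa using this.symm

lemma point {A : StarSubalgebra ℂ (H →L[ℂ] H)} (G : Gel A) (hF : ∀ f, Cb f → D.F f ∈ A) (χ : G.X)
    (h : G.ev χ (D.F g0) ≠ 0) : ∃ ν : ℝ, ∀ f, Cb f → G.ev χ (D.F f) = f ν := by
  set z := G.ev χ (D.F fun s => s * g0 s) / G.ev χ (D.F g0) with hz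
  have m : ∀ f g, Cb f → Cb g → G.ev χ (D.F fun s => f s * g s) =
      G.ev χ (D.F f) * G.ev χ (D.F g) := fun f g hf hg => by
    rw [D.F_mul _ _ hf hg, G.mul _ _ (hF _ hf) _ (hF _ hg)]
  have sb : ∀ f g, Cb f → Cb g → G.ev χ (D.F fun s => f s - g s) =
      G.ev χ (D.F f) - G.ev χ (D.F g) := fun f g hf hg => by
    rw [F_sub D hf hg, G.sub _ _ (hF _ hf) _ (hF _ hg)]
  have ct : ∀ c, G.ev χ (D.F fun _ => c) = c := fun c => by
    rw [F_const, G.smul _ _ _ (one_mem A), G.one, mul_one]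
  have c1 := Cb.sub Cb.sg0 (Cb.mul (Cb.const z) Cb.g0)
  have e1 : G.ev χ (D.F fun s => s * g0 s - z * g0 s) = 0 := by
    rw [sb _ _ Cb.sg0 (Cb.mul (Cb.const z) Cb.g0), m _ _ (Cb.const z) Cb.g0, ct, hz,
      div_mul_cancel₀ _ h, sub_self]
  refine ⟨z.re, fun f hf => ?_⟩
  have c2 := Cb.sub hf (Cb.const (f z.re))
  rw [← sub_eq_zero, ← ct (f z.re), ← sb _ _ hf (Cb.const _), ← norm_le_zero_iff]
  refine le_of_forall_pos_le_add fun ε hε => ?_
  obtain ⟨δ, hδ, hd⟩ := Metric.continuous_iff.1 hf.1 z.re ε hε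
  obtain ⟨C, hC⟩ := c2.2
  have hC0 : 0 ≤ C := (norm_nonneg _).trans (hC 0)
  set η := ε * δ ^ 2 / (C + 1) with hη
  have hη0 : 0 < η := by positivity
  have q0 : ∀ s : ℝ, 0 < ‖s - z‖ ^ 2 + η := fun s => by positivity
  have q1 : Continuous fun s : ℝ => (((‖s - z‖ ^ 2 + η)⁻¹ : ℝ) : ℂ) :=
    Complex.continuous_ofReal.comp (Continuous.inv₀ (by fun_prop) fun s => (q0 s).ne')
  have c3 : Cb fun s : ℝ => conj (s - z) * (((‖s - z‖ ^ 2 + η)⁻¹ : ℝ) : ℂ) :=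
    ⟨(Complex.continuous_conj.comp (by fun_prop)).mul q1, 1 + 1 / η, fun s => by
      rw [norm_mul, RCLike.norm_conj, Complex.norm_real, Real.norm_of_nonneg (inv_pos.2 (q0 s)).le,
        ← div_eq_mul_inv, div_le_iff₀ (q0 s), add_mul, one_div, mul_add η⁻¹, inv_mul_cancel₀ hη0.ne']
      have : 0 ≤ η⁻¹ * ‖s - z‖ ^ 2 := by positivity
      nlinarith [sq_nonneg (‖s - z‖ - 1)]⟩
  have b4 : ∀ s : ℝ, ‖(f s - f z.re) * (η * (((‖s - z‖ ^ 2 + η)⁻¹ : ℝ) : ℂ))‖ ≤ ε := fun s => by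
    rw [norm_mul, ← Complex.ofReal_mul, Complex.norm_real, Real.norm_of_nonneg (by positivity),
      ← div_eq_mul_inv, ← mul_div_assoc, div_le_iff₀ (q0 s)]
    rcases lt_or_ge (dist s z.re) δ with h1 | h1
    · have := hd s h1
      rw [dist_eq_norm] at this
      exact mul_le_mul this.le (le_add_of_nonneg_left (sq_nonneg _)) hη0.le hε.le
    · have h2 : δ ≤ ‖s - z‖ := h1.trans (by
        simpa [Real.dist_eq] using Complex.abs_re_le_norm (s - z))
      have h3 : δ ^ 2 ≤ ‖s - z‖ ^ 2 := pow_le_pow_left₀ hδ.le h2 2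
      have h4 : (C + 1) * η = ε * δ ^ 2 := by rw [hη]; field_simp
      nlinarith [hC s, mul_le_mul_of_nonneg_left h3 hε.le, mul_pos hε hη0]
  have c4 : Cb fun s : ℝ => (f s - f z.re) * (η * (((‖s - z‖ ^ 2 + η)⁻¹ : ℝ) : ℂ)) :=
    ⟨c2.1.mul (continuous_const.mul q1), ε, b4⟩
  have e2 := sb _ _ (Cb.mul c2 Cb.g0) (Cb.mul c4 Cb.g0)
  have e3 := m _ _ c1 (Cb.mul c2 c3)
  rw [e1, zero_mul] at e3
  rw [m _ _ c2 Cb.g0, m _ _ c4 Cb.g0, ← sub_mul] at e2
  have e4 : (fun s : ℝ => (f s - f z.re) * g0 s -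
      (f s - f z.re) * (η * (((‖s - z‖ ^ 2 + η)⁻¹ : ℝ) : ℂ)) * g0 s) = fun s : ℝ =>
      (s * g0 s - z * g0 s) * ((f s - f z.re) * (conj (s - z) * (((‖s - z‖ ^ 2 + η)⁻¹ : ℝ) : ℂ))) := by
    funext s
    have a1 := Complex.mul_conj' (s - z)
    have a2 : ((‖s - z‖ : ℂ) ^ 2 + η) * (((‖s - z‖ ^ 2 + η)⁻¹ : ℝ) : ℂ) = 1 := by
      exact_mod_cast mul_inv_cancel₀ (q0 s).ne'
    linear_combination -(f s - f z.re) * g0 s * a2 -
      (f s - f z.re) * g0 s * (((‖s - z‖ ^ 2 + η)⁻¹ : ℝ) : ℂ) * a1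
  rw [e4, e3, eq_comm, mul_eq_zero, sub_eq_zero] at e2
  rw [e2.resolve_right h, zero_add]
  exact (G.le _ _ (hF _ c4)).trans (F_norm D c4 b4)

lemma nss (e : ℝ → ℂ) (he : ∀ r r', e (r + r') = e r * e r') {d L : ℝ} (hd : d ≠ 0) (h1 : e d = 1)
    (hL : ∀ r, ‖e r - 1‖ ≤ L * |r|) (hLd : L * |d| < 1) (hL0 : 0 ≤ L) (r : ℝ) : e r = 1 := by
  have hp : Function.Periodic e d := fun r => by rw [he, h1, mul_one]
  have hp' : Function.Periodic e |d| := by
    rcases abs_choice d with h | h <;> rw [h]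
    exacts [hp, hp.neg]
  have b : ∀ r, ‖e r - 1‖ ≤ L * |d| := fun r => by
    obtain ⟨y, hy, e1⟩ := hp'.exists_mem_Ico₀ (abs_pos.2 hd) r
    rw [e1]
    exact (hL y).trans (mul_le_mul_of_nonneg_left (by rw [abs_of_nonneg hy.1]; exact hy.2.le) hL0)
  have k : ∀ n : ℕ, ∀ r, ‖e r - 1‖ * (2 - L * |d|) ^ n ≤ 1 := by
    intro n
    induction n with
    | zero => intro r; simpa using (b r).trans hLd.le
    | succ n ih =>
      intro r
      refine le_trans ?_ (ih (r + r))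
      rw [pow_succ', ← mul_assoc, he, show e r * e r - 1 = (e r - 1) * (2 + (e r - 1)) by ring,
        norm_mul]
      have := norm_sub_norm_le (2 : ℂ) (-(e r - 1))
      rw [norm_neg, sub_neg_eq_add, Complex.norm_two] at this
      have h2 : 0 ≤ 2 - L * |d| := by linarith
      gcongr
      linarith [b r]
  by_contra hne
  have h2 := norm_pos_iff.2 (sub_ne_zero.2 hne)
  obtain ⟨n, hn⟩ := pow_unbounded_of_one_lt ‖e r - 1‖⁻¹ (show 1 < 2 - L * |d| by linarith)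
  rw [inv_lt_iff_one_lt_mul₀' h2] at hn
  exact hn.not_ge (k n r)

end Vale.Agent.P132.CharAux
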