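import Vale.Agent.P132.Key

/-! The bicentralizer algebra and its flow: interface. -/

set_option linter.unusedSectionVars false

open Filter Topology
open scoped InnerProductSpace ComplexConjugate

namespace Vale.Agent.P132

variable {H : Type*} [NormedAddCommGroup H] [InnerProductSpace ℂ H] [CompleteSpace H]
  {ι : Type*} [Fintype ι]

namespace Mod

variable (D : Mod H)

/-- elements of `A` fixed by the modular group -/
noncomputable def fix (A : VonNeumannAlgebra H) : VonNeumannAlgebra H :=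
  vnOf ((A.commutant : Set (H →L[ℂ] H)) ∪ Set.range D.V)

/-- almost unitary families of frequency `m` -/
def Good (m ε : ℝ) (w : ι → H →L[ℂ] H) : Prop :=
  (∀ i, w i ∈ D.M) ∧ Col 1 w ∧ Col 1 (fun i => fl m (w i)) ∧ nn (fun i => D.cc m (w i)) ≤ ε ∧
    ‖col w D.ξ - D.ξ‖ ≤ ε ∧ ‖col (fun i => fl m (w i)) D.ξ - D.ξ‖ ≤ ε

variable {D}

lemma mem_fix {A : VonNeumannAlgebra H} {x : H →L[ℂ] H} :
    x ∈ D.fix A ↔ x ∈ A ∧ ∀ t η, D.V t (x η) = x (D.V t η) := by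
  rw [fix, mem_vnOf]
  refine ⟨fun h => ⟨mem_of_comm fun y hy => (h y (.inl hy)).1, fun t η =>
    congr($((h _ (.inr ⟨t, rfl⟩)).1) η)⟩, fun ⟨h1, h2⟩ => ?_⟩
  rintro g (hg | ⟨t, rfl⟩)
  · exact ⟨(VonNeumannAlgebra.mem_commutant_iff.1 hg x h1).symm,
      (VonNeumannAlgebra.mem_commutant_iff.1 (star_mem hg) x h1).symm⟩
  · rw [star_V]
    exact ⟨ContinuousLinearMap.ext (h2 t), ContinuousLinearMap.ext (h2 _)⟩

lemma fix_r {x : H →L[ℂ] H} (hx : x ∈ D.fix D.M) : D.r x D.ξ = x D.ξ := by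
  simpa using eig_r (mem_fix.1 hx).1 (ν := 0) fun t => by simp [(mem_fix.1 hx).2]

lemma fix_σ {A : VonNeumannAlgebra H} {x : H →L[ℂ] H} (hx : x ∈ D.fix A) (t : ℝ) : D.σ t x = x := by
  ext η; simp [σ_apply, (mem_fix.1 hx).2]

lemma fix_F {A : VonNeumannAlgebra H} {x : H →L[ℂ] H} (hx : x ∈ D.fix A) {g : ℝ → ℂ} (hg : Cb g)
    (η : H) : x (D.F g η) = D.F g (x η) :=
  D.comm_F (fun t η => ((mem_fix.1 hx).2 t η).symm) hg η

lemma fix_rF {A : VonNeumannAlgebra H} {x : H →L[ℂ] H} (hx : x ∈ D.fix A) {g : ℝ → ℂ} (hg : Cb g)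
    (η : H) : D.r x (D.F g η) = D.F g (D.r x η) :=
  D.comm_F (fun t η => by
    conv_rhs => rw [← D.V_neg_V t η, ← σ_apply, ← r_σ, fix_σ hx]) hg η

lemma cc_loc {x : H →L[ℂ] H} (hx : x ∈ D.M) {m w : ℝ} {g : ℝ → ℂ} (hg : Continuous g)
    (h : ∀ s, w < |s - m| → g s = 0) :
    ‖ex m • D.F g (D.r x D.ξ) - D.F g (x D.ξ)‖ ≤ (Real.exp (|w| / 2) - 1) * ‖D.F g (x D.ξ)‖ := by
  have h0 : ∀ s, |m| + w < |s| → g s = 0 := fun s hs =>
    h s (by linarith [abs_sub_abs_le_abs_sub s m])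
  have c1 : Cb g := .of_supp hg h0
  have c2 : Cb fun s => (Real.exp (s / 2) : ℂ) * g s :=
    .of_supp (by fun_prop) fun s hs => by rw [h0 s hs, mul_zero]
  have e1 : 0 ≤ Real.exp (|w| / 2) - 1 := sub_nonneg.2 (Real.one_le_exp (by positivity))
  rw [F_r hx c1 c2, ← smul_apply, ← D.F_smul _ c2, ← sub_apply,
    ← D.F_sub ((Cb.const _).mul c2) c1]
  refine D.F_le' (((Cb.const _).mul c2).sub c1) c1 e1 (fun s => ?_) _
  by_cases hs : w < |s - m|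
  · simp [h s hs]
  rw [← mul_assoc, ← sub_one_mul, norm_mul, ex, ← Complex.ofReal_mul, ← Real.exp_add,
    ← Complex.ofReal_one, ← Complex.ofReal_sub, Complex.norm_real, Real.norm_eq_abs]
  gcongr
  have h1 := abs_le.1 ((not_lt.1 hs).trans (le_abs_self w))
  have h2 := Real.exp_le_exp.2 (show -m / 2 + s / 2 ≤ |w| / 2 by linarith)
  have h3 := Real.add_one_le_exp (-m / 2 + s / 2)
  have h4 := Real.add_one_le_exp (|w| / 2)
  rw [abs_le]
  constructor <;> linarith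

/-- The bicentralizer algebra `N` with its flow, implemented by `U`. -/
structure Core (D : Mod H) where
  N : VonNeumannAlgebra H
  mem_N : ∀ a, a ∈ N ↔ D.Rel 0 a a
  σ_N : ∀ a ∈ N, ∀ t, D.σ t a ∈ N
  good : ∀ m ε, 0 < ε → ∃ (κ : Type) (_ : Fintype κ) (w : κ → H →L[ℂ] H), D.Good m ε w
  erg : ∀ x ∈ D.fix N, ∃ c : ℂ, x = c • 1
  U : ℝ → H →L[ℂ] H
  U_zero : U 0 = pr {η | ∃ a ∈ N, η = a D.ξ}
  U_add : ∀ r r', U (r + r') = U r * U r'
  U_star : ∀ r, star (U r) = U (-r)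
  U_cont : ∀ η, Continuous fun r => U r η
  U_V : ∀ r t η, U r (D.V t η) = D.V t (U r η)
  U_ξ : ∀ r, U r D.ξ = D.ξ
  U_rel : ∀ a ∈ N, ∀ m, ∃ b ∈ N, D.Rel m a b ∧ b D.ξ = U m (a D.ξ)

end Mod

end Vale.Agent.P132
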