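import Mathlib

/-!
Definitions for Connes' bicentralizer problem, for a von Neumann algebra `M` acting on a Hilbert
space `H`. Functionals on `M` are given as functions on all bounded operators, of which only the
values on `M` are used.
-/

open Filter Topology
open scoped InnerProductSpace

namespace Vale.Agent.P132

universe u

variable {H : Type u} [NormedAddCommGroup H] [InnerProductSpace ℂ H] [CompleteSpace H]

/-- `φ` is a faithful normal state on `M`: `φ x = ∑ ⟪ξ n, x (ξ n)⟫` on `M`, `φ 1 = 1`, and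
`φ (x* x) = 0` only for `x = 0`. -/
structure IsFNState (M : VonNeumannAlgebra H) (φ : (H →L[ℂ] H) → ℂ) : Prop where
  normal : ∃ ξ : ℕ → H, ∀ x ∈ M, HasSum (fun n => ⟪ξ n, x (ξ n)⟫_ℂ) (φ x)
  unital : φ 1 = 1
  faithful : ∀ x ∈ M, φ (star x * x) = 0 → x = 0

/-- `M` is a factor: its centre consists of the scalars. -/
def IsFactor (M : VonNeumannAlgebra H) : Prop :=
  ∀ x ∈ M, x ∈ M.commutant → ∃ c : ℂ, x = c • 1

/-- The projection `e` is finite in `M`: it is not equivalent to a proper subprojection. -/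
def IsFiniteProj (M : VonNeumannAlgebra H) (e : H →L[ℂ] H) : Prop :=
  ∀ f ∈ M, IsStarProjection f → f ≤ e → (∃ v ∈ M, star v * v = e ∧ v * star v = f) → f = e

/-- `M` is of type III: it has no nonzero finite projection. -/
def IsTypeIII (M : VonNeumannAlgebra H) : Prop :=
  ∀ e ∈ M, IsStarProjection e → IsFiniteProj M e → e = 0

section Modular

variable {K : Type u} [NormedAddCommGroup K] [InnerProductSpace ℂ K]

/-- `Λ` is a GNS map of `ψ`: `⟪Λ x, Λ y⟫ = ψ (x* y)` on `M`, and `Λ (M)` is dense in `K`. -/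
def IsGNS (M : VonNeumannAlgebra H) (ψ : (H →L[ℂ] H) → ℂ) (Λ : (H →L[ℂ] H) → K) : Prop :=
  (∀ x ∈ M, ∀ y ∈ M, ⟪Λ x, Λ y⟫_ℂ = ψ (star x * y)) ∧ Dense (Λ '' M)

/-- The graph of Tomita's operator `S`, the closure of `Λ x ↦ Λ (x*)`. -/
def graphS (M : VonNeumannAlgebra H) (Λ : (H →L[ℂ] H) → K) : Set (K × K) :=
  closure {p | ∃ x ∈ M, p = (Λ x, Λ (star x))}

/-- The graph of the modular operator `Δ = S* S`: `(ζ, θ)` lies in it iff `ζ` is in the domain of
`S` and `⟪θ, η⟫ = ⟪S η, S ζ⟫` for all `η` in the domain of `S`. -/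
def graphΔ (M : VonNeumannAlgebra H) (Λ : (H →L[ℂ] H) → K) : Set (K × K) :=
  {p | ∃ s, (p.1, s) ∈ graphS M Λ ∧ ∀ q ∈ graphS M Λ, ⟪p.2, q.1⟫_ℂ = ⟪q.2, s⟫_ℂ}

/-- The spectrum of the operator `T` with graph `G`: those `z` for which `T - z` has no bounded
everywhere defined two-sided inverse. -/
def graphSpectrum (G : Set (K × K)) : Set ℂ :=
  {z | ¬ ∃ R : K →L[ℂ] K, (∀ η, (R η, η + z • R η) ∈ G) ∧ ∀ p ∈ G, R (p.2 - z • p.1) = p.1}

end Modular

/-- The intersection of the spectra of the modular operators `Δ_ψ` over all faithful normal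
states `ψ` on `M`. -/
def stateS (M : VonNeumannAlgebra H) : Set ℂ :=
  {z | ∀ ψ, IsFNState M ψ → ∀ (K : Type u) [NormedAddCommGroup K] [InnerProductSpace ℂ K]
    [CompleteSpace K] (Λ : (H →L[ℂ] H) → K), IsGNS M ψ Λ → z ∈ graphSpectrum (graphΔ M Λ)}

/-- `‖w n φ - φ w n‖ → 0` in the predual, where `(w φ) y = φ (y w)` and `(φ w) y = φ (w y)`. -/
def AsympCentralizes (M : VonNeumannAlgebra H) (φ : (H →L[ℂ] H) → ℂ) (w : ℕ → H →L[ℂ] H) : Prop :=
  ∀ ε : ℝ, 0 < ε → ∀ᶠ n in atTop, ∀ y ∈ M, ‖φ (y * w n) - φ (w n * y)‖ ≤ ε * ‖y‖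

/-- The bicentralizer `B(M, φ)`. -/
def bicentralizer (M : VonNeumannAlgebra H) (φ : (H →L[ℂ] H) → ℂ) : Set (H →L[ℂ] H) :=
  {a | a ∈ M ∧ ∀ w : ℕ → H →L[ℂ] H, (∀ n, w n ∈ M) → (∃ C : ℝ, ∀ n, ‖w n‖ ≤ C) →
    AsympCentralizes M φ w → ∀ η : H, Tendsto (fun n => (a * w n - w n * a) η) atTop (𝓝 0)}

end Vale.Agent.P132
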