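import Vale.Agent.P132.Off

/-! Existence of large families of approximate eigenoperators. -/

set_option linter.unusedSectionVars false

open Filter Topology
open scoped InnerProductSpace ComplexConjugate

namespace Vale.Agent.P132

lemma exists_near {E : Type*} [NormedAddCommGroup E] [InnerProductSpace ℝ E] [CompleteSpace E]
    {K : Set (E × E)} (h0 : K.Nonempty) (h1 : IsClosed K) (h2 : Convex ℝ K) (a : E) :
    ∃ z ∈ K, ∀ y ∈ K, ‖a - z.1‖ ^ 2 + ‖a - z.2‖ ^ 2 ≤ ‖a - y.1‖ ^ 2 + ‖a - y.2‖ ^ 2 := by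
  let e := WithLp.prodContinuousLinearEquiv 2 ℝ E E
  obtain ⟨v, hv, h⟩ := exists_norm_eq_iInf_of_complete_convex (K := e ⁻¹' K)
    (h0.preimage e.surjective) (h1.preimage e.continuous).isComplete
    (h2.linear_preimage e.toLinearMap) (e.symm (a, a))
  refine ⟨e v, hv, fun y hy => ?_⟩
  have := h.trans_le (ciInf_le ⟨0, Set.forall_mem_range.2 fun _ => norm_nonneg _⟩
    ⟨e.symm y, by simpa using hy⟩)
  have := pow_le_pow_left₀ (norm_nonneg _) this 2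
  simpa [WithLp.prod_norm_sq_eq_of_L2, e] using this

variable {H : Type*} [NormedAddCommGroup H] [InnerProductSpace ℂ H] [CompleteSpace H]

lemma sq_le_re {a : H →L[ℂ] H} (a0 : 0 ≤ a) (a1 : a ≤ 1) (η : H) :
    ‖a η‖ ^ 2 ≤ (⟪η, a η⟫_ℂ).re := by
  have := re_nonneg (Commute.mul_nonneg a0 (sub_nonneg.2 a1) (by simp [Commute, SemiconjBy, mul_sub,
    sub_mul])) η
  rw [sq_eq_re, sa_inner a0.isSelfAdjoint]
  simpa [inner_sub_right] using this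

lemma nonneg_of_wlim {α : Type*} {l : Filter α} [l.NeBot] {x : α → H →L[ℂ] H} {y : H →L[ℂ] H}
    (hx : ∀ n, 0 ≤ x n) (h : ∀ η ζ, Tendsto (fun n => ⟪η, x n ζ⟫_ℂ) l (𝓝 ⟪η, y ζ⟫_ℂ)) : 0 ≤ y := by
  refine nonneg_of (sa_of fun η ζ => tendsto_nhds_unique ?_ (h η ζ)) fun η =>
    ge_of_tendsto' ((Complex.continuous_re.tendsto _).comp (h η η)) fun n => re_nonneg (hx n) η
  simpa [Function.comp_def, sa_inner (hx _).isSelfAdjoint] using
    (Complex.continuous_conj.tendsto _).comp (h ζ η)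

namespace Mod

variable (D : Mod H)

/-- averaged family -/
noncomputable def avf (s : ℝ) (n : ℕ) (x : H →L[ℂ] H) (k : Fin (4 ^ n)) : H →L[ℂ] H :=
  ((2 : ℂ) ^ n)⁻¹ • D.σ (tm s n k) x

lemma col_avf (s : ℝ) (n : ℕ) (x : H →L[ℂ] H) :
    col (D.avf s n x) = D.avσ s 0 (star x * x) n := by
  simp only [col, avf, avσ, av, ch_zero', one_smul, Finset.smul_sum, star_smul, smul_mul_smul_comm,
    σ_mul, σ_star]
  congr
  ext1
  congr 1
  rw [show (4 : ℂ) = 2 * 2 by norm_num, mul_pow, mul_inv]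
  simp

lemma fl_avf (s m : ℝ) (n : ℕ) (x : H →L[ℂ] H) (k : Fin (4 ^ n)) :
    fl m (D.avf s n x k) = D.avf s n (fl m x) k := by
  ext η; simp [fl, avf, σ_apply, ← σ_star, smul_comm (ex m)]

lemma nn_avV (s : ℝ) (n : ℕ) (η : H) :
    nn (fun k : Fin (4 ^ n) => ((2 : ℂ) ^ n)⁻¹ • D.V (tm s n k) η) = ‖η‖ := by
  rw [← sq_eq_sq₀ (nn_nonneg _) (norm_nonneg _), nn_av s n fun t => D.V t η]
  simp only [norm_V, av_const, Complex.ofReal_re]

lemma avf_ξ (s : ℝ) (n : ℕ) (x : H →L[ℂ] H) : nn (fun k => D.avf s n x k D.ξ) = ‖x D.ξ‖ := by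
  simpa [avf] using D.nn_avV s n _

lemma avf_cc (s m : ℝ) (n : ℕ) (x : H →L[ℂ] H) :
    nn (fun k => D.cc m (D.avf s n x k)) = ‖D.cc m x‖ := by
  simpa [avf, cc_smul, cc_σ] using D.nn_avV s n _

/-- positive elements of the centralizer below `p` -/
def K1 (p : H →L[ℂ] H) : Set H := {α | ∃ A ∈ D.fix D.M, 0 ≤ A ∧ A ≤ p ∧ α = A D.ξ}

/-- columns and rows of families in a corner -/
def K0 (p q : H →L[ℂ] H) (m δ : ℝ) : Set (H × H) :=
  {z | ∃ (ι : Type) (_ : Fintype ι) (u : ι → H →L[ℂ] H),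
    (∀ i, u i ∈ D.M ∧ q * u i = u i ∧ u i * p = u i) ∧
    nn (fun i => D.cc m (u i)) ≤ δ * nn (fun i => u i D.ξ) ∧
    z = (col u D.ξ, col (fun i => fl m (u i)) D.ξ)}

variable {D}

lemma K1_closed (p : H →L[ℂ] H) : IsClosed (D.K1 p) := by
  refine isClosed_of_closure_subset fun α hα => ?_
  obtain ⟨a, h1, h2⟩ := mem_closure_iff_seq_limit.1 hα
  choose A A1 A2 A3 A4 using h1
  obtain ⟨y, -, y2⟩ := exists_wlim (hyperfilter ℕ) (norm_nonneg p)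
    fun n => CStarAlgebra.norm_le_norm_of_nonneg_of_le (A2 n) (A3 n)
  refine ⟨y, mem_of_wlim A1 y2, nonneg_of_wlim A2 y2, sub_nonneg.1 (nonneg_of_wlim
    (fun n => sub_nonneg.2 (A3 n)) (l := hyperfilter ℕ) fun η ζ => ?_),
    ext_inner_left ℂ fun η => tendsto_nhds_unique ?_ (y2 η _)⟩
  · simpa [inner_sub_right] using (y2 η ζ).const_sub _
  · simpa [A4] using ((tendsto_const_nhds (x := η)).inner (𝕜 := ℂ) h2).mono_left
      Nat.hyperfilter_le_atTop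

lemma K1_convex (p : H →L[ℂ] H) : Convex ℝ (D.K1 p) := by
  rintro _ ⟨A, A1, A2, A3, rfl⟩ _ ⟨B, B1, B2, B3, rfl⟩ a b ha hb hab
  refine ⟨a • A + b • B, add_mem (vsmul (a : ℂ) A1) (vsmul (b : ℂ) B1),
    add_nonneg (smul_nonneg ha A2) (smul_nonneg hb B2), ?_, by simp⟩
  rw [← Convex.combo_self hab p]
  exact add_le_add (smul_le_smul_of_nonneg_left A3 ha) (smul_le_smul_of_nonneg_left B3 hb)

lemma K0_add {p q : H →L[ℂ] H} {m δ : ℝ} (hδ : 0 ≤ δ) {z z' : H × H} (h : z ∈ D.K0 p q m δ)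
    (h' : z' ∈ D.K0 p q m δ) : z + z' ∈ D.K0 p q m δ := by
  obtain ⟨ι, _, u, u1, u2, rfl⟩ := h
  obtain ⟨κ, _, v, v1, v2, rfl⟩ := h'
  refine ⟨ι ⊕ κ, inferInstance, Sum.elim u v, Sum.forall.2 ⟨u1, v1⟩,
    le_of_sq_le_sq ?_ (mul_nonneg hδ (nn_nonneg _)), by simp [col]⟩
  have a := pow_le_pow_left₀ (nn_nonneg _) u2 2
  have b := pow_le_pow_left₀ (nn_nonneg _) v2 2
  rw [mul_pow] at a b
  rw [mul_pow, nn_sum_sq, nn_sum_sq, mul_add]
  exact add_le_add a b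

lemma K0_smul {p q : H →L[ℂ] H} {m δ : ℝ} {z : H × H} (h : z ∈ D.K0 p q m δ) {t : ℝ}
    (ht : 0 ≤ t) : t • z ∈ D.K0 p q m δ := by
  obtain ⟨ι, _, u, u1, u2, rfl⟩ := h
  have e : (√t : ℂ) * √t = t := by rw [← Complex.ofReal_mul, Real.mul_self_sqrt ht]
  refine ⟨ι, inferInstance, fun i => (√t : ℂ) • u i, fun i => ⟨vsmul _ (u1 i).1,
    by rw [mul_smul_comm, (u1 i).2.1], by rw [smul_mul_assoc, (u1 i).2.2]⟩, ?_, ?_⟩
  · simp only [cc_smul, smul_apply, nn_smul, mul_left_comm δ]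
    gcongr
  · have key : ∀ v : ι → H →L[ℂ] H, col (fun i => (√t : ℂ) • v i) D.ξ = t • col v D.ξ := fun v => by
      simp only [col_apply, star_smul, smul_apply, map_smul, RCLike.star_def, Complex.conj_ofReal,
        smul_smul, e, ← Finset.smul_sum]
      rfl
    rw [key, Prod.smul_mk, ← key fun i => fl m (u i)]
    simp only [fl, star_smul, RCLike.star_def, Complex.conj_ofReal, smul_comm (ex m)]

theorem exists_max (hF : D.Full) (hc : D.Fac) {p q : H →L[ℂ] H} (hp : p ∈ D.fix D.M)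
    (hq : q ∈ D.fix D.M) (p1 : IsStarProjection p) (q1 : IsStarProjection q) (m : ℝ) {δ : ℝ}
    (hδ : 0 < δ) : ∃ A ∈ D.fix D.M, ∃ Z ∈ D.fix D.M, 0 ≤ A ∧ A ≤ p ∧ 0 ≤ Z ∧ Z ≤ q ∧
      (A D.ξ, Z D.ξ) ∈ closure (D.K0 p q m δ) ∧ (A = p ∨ Z = q) := by
  let : InnerProductSpace ℝ H := InnerProductSpace.complexToReal
  obtain ⟨⟨_, _⟩, ⟨⟨⟨A, A1, A2, A3, rfl⟩, Z, Z1, Z2, Z3, rfl⟩, h1⟩, h2⟩ := exists_near
    (K := (D.K1 p ×ˢ D.K1 q) ∩ closure (D.K0 p q m δ))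
    ⟨0, ⟨⟨0, zero_mem _, le_rfl, p1.nonneg, rfl⟩, 0, zero_mem _, le_rfl, q1.nonneg, rfl⟩,
      subset_closure ⟨Empty, inferInstance, fun _ => 0, by simp,
        (nn_le le_rfl (by simp)).trans (mul_nonneg hδ.le (nn_nonneg _)), by simp [col, Prod.ext_iff]⟩⟩
    (((K1_closed p).prod (K1_closed q)).inter isClosed_closure)
    (((K1_convex p).prod (K1_convex q)).inter (Convex.closure fun _ h _ h' _ _ ha hb _ =>
      K0_add hδ.le (K0_smul h ha) (K0_smul h' hb))) ((2 : ℂ) • D.ξ)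
  refine ⟨A, A1, Z, Z1, A2, A3, Z2, Z3, h1, ?_⟩
  by_contra! h
  have aM := sub_mem hp A1
  have bM := sub_mem hq Z1
  have a0 := sub_nonneg.2 A3
  have b0 := sub_nonneg.2 Z3
  have a1 : p - A ≤ 1 := (sub_le_self _ A2).trans p1.le_one
  have b1 : q - Z ≤ 1 := (sub_le_self _ Z2).trans q1.le_one
  obtain ⟨y₀, hy₀, h3⟩ := nz hF hc aM bM a0.isSelfAdjoint (sub_ne_zero.2 h.1.symm)
    (sub_ne_zero.2 h.2.symm) m hδ
  obtain ⟨y, hy, y1, y2, h3⟩ : ∃ y ∈ D.M, ‖y‖ ≤ 1 ∧ ‖fl m y‖ ≤ 1 ∧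
      ‖D.cc m ((q - Z) * y * (p - A))‖ < δ * ‖((q - Z) * y * (p - A)) D.ξ‖ := by
    have e0 := norm_nonneg (fl m y₀)
    have : 0 < (‖y₀‖ + ‖fl m y₀‖ + 1)⁻¹ := by positivity
    refine ⟨((‖y₀‖ + ‖fl m y₀‖ + 1)⁻¹ : ℝ) • y₀, vsmul (_ : ℝ) hy₀, ?_, ?_, ?_⟩
    · rw [norm_smul, Real.norm_of_nonneg this.le, inv_mul_le_iff₀ (by positivity)]; linarith
    · rw [fl, star_smul, smul_comm, star_trivial, norm_smul, Real.norm_of_nonneg this.le,
        inv_mul_le_iff₀ (by positivity), ← fl]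
      linarith [norm_nonneg y₀]
    · rw [← Complex.coe_smul, mul_smul_comm, smul_mul_assoc, cc_smul, smul_apply, norm_smul,
        norm_smul, mul_left_comm]
      exact mul_lt_mul_of_pos_left h3 (norm_pos_iff.2 (Complex.ofReal_ne_zero.2 this.ne'))
  set x := (q - Z) * y * (p - A) with hx
  have xM : x ∈ D.M := mul_mem (mul_mem (mem_fix.1 bM).1 hy) (mem_fix.1 aM).1
  have key : ∀ (x a A p : H →L[ℂ] H), x ∈ D.M → A ∈ D.fix D.M → 0 ≤ A → A ≤ p → p ≤ 1 →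
      p ∈ D.fix D.M → (∀ η, ‖x η‖ ≤ ‖(p - A) η‖) → ∃ E : H →L[ℂ] H, (A + E) D.ξ ∈ D.K1 p ∧
        Tendsto (fun n => col (D.avf 1 n x) D.ξ) atTop (𝓝 (E D.ξ)) ∧
        ‖(2 : ℂ) • D.ξ - (A + E) D.ξ‖ ^ 2 + ‖x D.ξ‖ ^ 2 ≤ ‖(2 : ℂ) • D.ξ - A D.ξ‖ ^ 2 := by
    intro x a A p xM A1 A2 A3 p1 hp h
    obtain ⟨E, -, E1, E2, E3⟩ := D.exists_E one_ne_zero 0 (mul_mem (star_mem xM) xM)
    have EM : E ∈ D.fix D.M :=
      mem_fix.2 ⟨E3 _ (σ_mem (mul_mem (star_mem xM) xM)), by simpa using E1⟩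
    simp only [← col_avf] at E2
    have E4 := fun η ζ => (tendsto_const_nhds (x := η)).inner (𝕜 := ℂ) (E2 ζ)
    have E0 := nonneg_of_wlim (fun n => col_nonneg _) E4
    have E5 : E ≤ p - A := sub_nonneg.1 (nonneg_of ((sub_nonneg.2 A3).isSelfAdjoint.sub
      E0.isSelfAdjoint) fun η => by
        have h1 := sq_le_re (sub_nonneg.2 A3) ((sub_le_self _ A2).trans p1) η
        have h2 := le_of_tendsto' ((Complex.continuous_re.tendsto _).comp (E4 η η)) fun n =>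
          (col_re _ η).symm.trans_le (pow_le_pow_left₀ (nn_nonneg _) (nn_av_le 1 n
            (g := fun t => D.σ t x η) (C := ‖(p - A) η‖) fun t => by
              rw [σ_apply, norm_V]
              refine (h _).trans ?_
              rw [← (mem_fix.1 (sub_mem hp A1)).2, norm_V]) 2)
        rw [sub_apply, inner_sub_right, Complex.sub_re]
        linarith)
    refine ⟨E, ⟨_, add_mem A1 EM, add_nonneg A2 E0, le_sub_iff_add_le'.1 E5, rfl⟩, E2 _, ?_⟩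
    have h1 := sq_le_re E0 (E5.trans ((sub_le_self _ A2).trans p1)) D.ξ
    have h2 := pair_nonneg (mem_fix.1 EM).1 (sub_mem (one_mem _) (mem_fix.1 A1).1) E0
      (sub_nonneg.2 (A3.trans p1)) (fix_r (sub_mem (one_mem _) A1))
    have h3 : (⟪D.ξ, E D.ξ⟫_ℂ).re = ‖x D.ξ‖ ^ 2 :=
      tendsto_nhds_unique ((Complex.continuous_re.tendsto _).comp (E4 D.ξ D.ξ))
        (by simp [Function.comp_def, ← col_re, avf_ξ])
    rw [add_apply, ← sub_sub, norm_sub_sq (𝕜 := ℂ) _ (E D.ξ), ← inner_conj_symm]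
    simp only [sub_apply, one_apply_eq_self, inner_sub_right, inner_smul_right, Complex.sub_re,
      sa_inner E0.isSelfAdjoint D.ξ D.ξ, RCLike.re_to_complex, Complex.conj_re,
      Complex.mul_re, Complex.re_ofNat, Complex.im_ofNat] at h2 ⊢
    linarith
  have n1 : ∀ {a : H →L[ℂ] H}, 0 ≤ a → a ≤ 1 → ∀ η, ‖a η‖ ≤ ‖η‖ := fun a0 a1 η => by
    simpa using ContinuousLinearMap.le_of_opNorm_le _
      ((CStarAlgebra.norm_le_one_iff_of_nonneg _ a0).2 a1) η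
  obtain ⟨E, E1, E2, E3⟩ := key x 0 A p xM A1 A2 A3 p1.le_one hp fun η =>
    (n1 b0 b1 _).trans ((y.le_of_opNorm_le y1 _).trans (one_mul _).le)
  obtain ⟨E', E1', E2', E3'⟩ := key (fl m x) 0 Z q (fl_mem m xM) Z1 Z2 Z3 q1.le_one hq fun η => by
    have : fl m x = (p - A) * fl m y * (q - Z) := by
      simp only [hx, fl, star_mul, a0.isSelfAdjoint.star_eq, b0.isSelfAdjoint.star_eq, mul_assoc,
        smul_mul_assoc, mul_smul_comm]
    rw [this]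
    exact (n1 a0 a1 _).trans (((fl m y).le_of_opNorm_le y2 _).trans (one_mul _).le)
  have h4 : (E D.ξ, E' D.ξ) ∈ closure (D.K0 p q m δ) :=
    mem_closure_of_tendsto (E2.prodMk_nhds E2') (.of_forall fun n => ⟨_, inferInstance,
      D.avf 1 n x, fun k => ⟨vsmul _ (σ_mem xM _), ?_, ?_⟩, by simpa [avf_ξ, avf_cc] using h3.le,
      by simp [fl_avf]⟩)
  · have h5 := h2 ((A + E) D.ξ, (Z + E') D.ξ) ⟨⟨E1, E1'⟩,
      map_mem_closure₂ (f := fun x y => x + y) continuous_add h1 h4 fun _ h _ h' => K0_add hδ.le h h'⟩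
    have : 0 < ‖x D.ξ‖ := (mul_pos_iff_of_pos_left hδ).1 ((norm_nonneg _).trans_lt h3)
    simp only at h5
    nlinarith [sq_nonneg ‖fl m x D.ξ‖]
  · rw [avf, mul_smul_comm, ← fix_σ hq, ← σ_mul, hx, ← mul_assoc, ← mul_assoc,
      (q1.mul_right_and_mul_left_of_nonneg_of_le b0 (sub_le_self _ Z2)).2]
  · rw [avf, smul_mul_assoc, ← fix_σ hp, ← σ_mul, hx, mul_assoc _ _ p,
      (p1.mul_right_and_mul_left_of_nonneg_of_le a0 (sub_le_self _ A2)).1]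

theorem exists_fam (hF : D.Full) (hc : D.Fac) {p q : H →L[ℂ] H} (hp : p ∈ D.fix D.M)
    (hq : q ∈ D.fix D.M) (p1 : IsStarProjection p) (q1 : IsStarProjection q) (m : ℝ) {ε : ℝ}
    (hε : 0 < ε) : ∃ (ι : Type) (_ : Fintype ι) (u w : ι → H →L[ℂ] H),
      (∀ i, u i ∈ D.M ∧ q * u i = u i ∧ u i * p = u i) ∧ (∀ i, w i ∈ D.M) ∧ Col 1 w ∧
      Col 1 (fun i => fl m (w i)) ∧ nn (fun i => D.cc m (w i)) ≤ ε ∧
      nn (fun i => u i D.ξ - w i D.ξ) ≤ ε ∧ min ‖p D.ξ‖ ‖q D.ξ‖ ≤ nn (fun i => u i D.ξ) + ε := by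
  obtain ⟨ρ, ρ0, ρ1, ρ2⟩ : ∃ ρ, 0 < ρ ∧ ρ ≤ 1 ∧ 18 * ρ ≤ ε :=
    ⟨min 1 (ε / 18), by positivity, min_le_left _ _, by linarith [min_le_right 1 (ε / 18)]⟩
  obtain ⟨A, A1, Z, Z1, A2, A3, Z2, Z3, h1, h2⟩ := exists_max hF hc hp hq p1 q1 m ρ0
  obtain ⟨_, ⟨ι, _, u, u1, u2, rfl⟩, h3⟩ := Metric.mem_closure_iff.1 h1 _ (pow_pos ρ0 2)
  rw [Prod.dist_eq, max_lt_iff, dist_eq_norm', dist_eq_norm'] at h3
  obtain ⟨w, w1, w2, w3, w4, w5⟩ := good2 (fun i => (u1 i).1) m (mem_fix.1 A1).1 A2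
    (A3.trans p1.le_one) (fix_r A1) (mem_fix.1 Z1).1 Z2 (Z3.trans q1.le_one) (fix_r Z1) ρ0.le ρ1
    h3.1.le h3.2.le
  have key : ∀ (v : ι → H →L[ℂ] H) (B : H →L[ℂ] H), ‖col v D.ξ - B D.ξ‖ < ρ ^ 2 →
      |nn (fun i => v i D.ξ) ^ 2 - (⟪D.ξ, B D.ξ⟫_ℂ).re| ≤ ρ ^ 2 := fun v B h => by
    rw [col_re, ← Complex.sub_re, ← inner_sub_right]
    refine (Complex.abs_re_le_norm _).trans ((norm_inner_le_norm _ _).trans ?_)
    simpa [D.unit] using h.le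
  have pr : ∀ {p : H →L[ℂ] H}, IsStarProjection p → (⟪D.ξ, p D.ξ⟫_ℂ).re = ‖p D.ξ‖ ^ 2 := fun h => by
    rw [norm_sq_apply, h.isSelfAdjoint.star_eq, h.isIdempotentElem.eq]
  have a1 := abs_le.1 (key _ _ h3.1)
  have a2 := abs_le.1 (key _ _ h3.2)
  have a3 : nn (fun i => u i D.ξ) ≤ 2 := by
    have := re_le (A3.trans p1.le_one) D.ξ
    simp only [one_apply_eq_self, D.inner_ξ, Complex.one_re] at this
    nlinarith
  have a4 : nn (fun i => D.cc m (u i)) ≤ 2 * ρ := by nlinarith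
  refine ⟨ι, inferInstance, u, w, u1, w1, w2, w3, by linarith, by linarith, ?_⟩
  have n0 := nn_nonneg fun i => u i D.ξ
  rcases h2 with rfl | rfl
  · refine (min_le_left _ _).trans (le_of_sq_le_sq ?_ (by positivity))
    rw [pr p1] at a1
    nlinarith
  · have a5 : nn (fun i => fl m (u i) D.ξ) ≤ _ :=
      (nn_congr fun i => by rw [norm_fl_ξ, cc, sub_add_cancel]).trans_le
        (nn_add (fun i => D.cc m (u i)) fun i => u i D.ξ)
    have a6 : ‖Z D.ξ‖ ≤ nn (fun i => fl m (u i) D.ξ) + ρ := by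
      have := nn_nonneg fun i => fl m (u i) D.ξ
      refine le_of_sq_le_sq ?_ (by positivity)
      rw [pr q1] at a2
      nlinarith
    linarith [min_le_right ‖p D.ξ‖ ‖Z D.ξ‖]

lemma full_of {ι : Type*} [Fintype ι] {w : ι → H →L[ℂ] H} (h : Col 1 w) {ε : ℝ} (hε : 0 < ε)
    (h1 : 1 - ε ^ 2 / 2 ≤ nn fun i => w i D.ξ) : ‖col w D.ξ - D.ξ‖ ≤ ε := by
  have h2 := h.row zero_le_one fun i => w i D.ξ
  have h3 := h D.ξ
  rw [← col_apply, one_mul] at h2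
  rw [D.unit] at h3
  refine le_of_sq_le_sq ?_ hε.le
  rw [norm_sub_rev, norm_sub_sq (𝕜 := ℂ), RCLike.re_to_complex, ← col_re, D.unit]
  nlinarith [norm_nonneg (col w D.ξ), nn_nonneg fun i => w i D.ξ]

theorem exists_good (hF : D.Full) (hc : D.Fac) (m : ℝ) {ε : ℝ} (hε : 0 < ε) :
    ∃ (κ : Type) (_ : Fintype κ) (w : κ → H →L[ℂ] H), D.Good m ε w := by
  have h0 : 0 < min ε (ε ^ 2 / 6) := by positivity
  obtain ⟨ι, _, u, w, -, w1, w2, w3, w4, w5, w6⟩ :=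
    exists_fam hF hc (one_mem _) (one_mem _) (.one _) (.one _) m h0
  have a1 := nn_tri (fun i => u i D.ξ) fun i => w i D.ξ
  have a2 := min_le_right ε (ε ^ 2 / 6)
  have a3 : nn (fun i => w i D.ξ) ≤ _ := (nn_congr fun i => by rw [cc, sub_sub_cancel]).trans_le
    (nn_sub (fun i => ex m • D.r (w i) D.ξ) fun i => D.cc m (w i))
  simp only [one_apply_eq_self, min_self, D.unit] at w6
  refine ⟨ι, inferInstance, w, w1, w2, w3, w4.trans (min_le_left _ _), full_of w2 hε (by nlinarith),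
    full_of w3 hε ?_⟩
  rw [nn_congr fun i => D.norm_fl_ξ m (w i)]
  linarith

end Mod

end Vale.Agent.P132
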