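import Vale.Agent.P132.Av

/-! Finite families, approximate eigenoperators, truncations. -/

set_option linter.unusedSectionVars false

open Filter Topology
open scoped InnerProductSpace ComplexConjugate

namespace Vale.Agent.P132

/-- `exp (-m/2)` -/
noncomputable def ex (m : ℝ) : ℂ := (Real.exp (-m / 2) : ℝ)

lemma ex_add (m m' : ℝ) : ex (m + m') = ex m * ex m' := by
  rw [ex, ex, ex, ← Complex.ofReal_mul, ← Real.exp_add]; congr 2; ring

@[simp] lemma ex_zero : ex 0 = 1 := by simp [ex]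

@[simp] lemma conj_ex (m : ℝ) : conj (ex m) = ex m := Complex.conj_ofReal _

@[simp] lemma ex_neg_mul (m : ℝ) : ex (-m) * ex m = 1 := by simp [← ex_add]

@[simp] lemma ex_mul_neg (m : ℝ) : ex m * ex (-m) = 1 := by simp [← ex_add]

lemma norm_ex (m : ℝ) : ‖ex m‖ = Real.exp (-m / 2) := by
  rw [ex, Complex.norm_real, Real.norm_of_nonneg (Real.exp_pos _).le]

lemma ex_pos (m : ℝ) : 0 < ‖ex m‖ := norm_ex m ▸ Real.exp_pos _

@[fun_prop] lemma continuous_ex : Continuous ex := by unfold ex; fun_prop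

variable {H : Type*} [NormedAddCommGroup H] [InnerProductSpace ℂ H] [CompleteSpace H]
  {ι : Type*} [Fintype ι]

/-- weighted adjoint -/
noncomputable def fl (m : ℝ) (x : H →L[ℂ] H) : H →L[ℂ] H := ex m • star x

lemma fl_apply (m : ℝ) (x : H →L[ℂ] H) (η : H) : fl m x η = ex m • star x η := rfl

@[simp] lemma fl_fl (m : ℝ) (x : H →L[ℂ] H) : fl (-m) (fl m x) = x := by simp [fl, smul_smul]

lemma star_fl (m : ℝ) (x : H →L[ℂ] H) : star (fl m x) = ex m • x := by simp [fl]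

lemma fl_mem {A : VonNeumannAlgebra H} {x : H →L[ℂ] H} (m : ℝ) (hx : x ∈ A) : fl m x ∈ A :=
  vsmul _ (star_mem hx)

lemma fl_mul (m m' : ℝ) (x y : H →L[ℂ] H) : fl (m + m') (x * y) = fl m' y * fl m x := by
  simp [fl, ex_add, smul_smul]

/-- `∑ w* w` -/
noncomputable def col (w : ι → H →L[ℂ] H) : H →L[ℂ] H := ∑ i, star (w i) * w i

/-- column bound -/
def Col (C : ℝ) (w : ι → H →L[ℂ] H) : Prop := ∀ η, nn (fun i => w i η) ≤ C * ‖η‖

lemma col_apply (w : ι → H →L[ℂ] H) (η : H) : col w η = ∑ i, star (w i) (w i η) := by simp [col]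

lemma col_inner (w : ι → H →L[ℂ] H) (η ζ : H) : ⟪η, col w ζ⟫_ℂ = ∑ i, ⟪w i η, w i ζ⟫_ℂ := by
  simp [col_apply, inner_star_right]

lemma col_re (w : ι → H →L[ℂ] H) (η : H) : nn (fun i => w i η) ^ 2 = (⟪η, col w η⟫_ℂ).re := by
  simp only [col_inner, nn_sq, Complex.re_sum, sq_eq_re]

lemma col_nonneg (w : ι → H →L[ℂ] H) : 0 ≤ col w :=
  Finset.sum_nonneg fun _ _ => star_mul_self_nonneg _

lemma col_mem {A : VonNeumannAlgebra H} {w : ι → H →L[ℂ] H} (h : ∀ i, w i ∈ A) : col w ∈ A :=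
  sum_mem fun i _ => mul_mem (star_mem (h i)) (h i)

lemma Col.row {C : ℝ} {w : ι → H →L[ℂ] H} (h : Col C w) (hC : 0 ≤ C) (ζ : ι → H) :
    ‖∑ i, star (w i) (ζ i)‖ ≤ C * nn ζ := row_le hC (fun η => by simpa using h η) ζ

lemma Col.col_le {C : ℝ} {w : ι → H →L[ℂ] H} (h : Col C w) (hC : 0 ≤ C) (η : H) :
    ‖col w η‖ ≤ C * (C * ‖η‖) := by
  rw [col_apply]; exact (h.row hC _).trans (mul_le_mul_of_nonneg_left (h η) hC)

lemma Col.mono {C C' : ℝ} {w : ι → H →L[ℂ] H} (h : Col C w) (hC : C ≤ C') : Col C' w :=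
  fun η => (h η).trans (by gcongr)

lemma re_le_mul (η ζ : H) : (⟪η, ζ⟫_ℂ).re ≤ ‖η‖ * ‖ζ‖ :=
  (Complex.re_le_norm _).trans (norm_inner_le_norm _ _)

lemma nn_res {x : ι → H →L[ℂ] H} {k f : H →L[ℂ] H} (hk : col x ≤ 1 + k)
    (f2 : ∀ η, f η + k (f η) = η) (f3 : ∀ η, ‖f η‖ ≤ ‖η‖) (η : H) :
    nn (fun i => x i (f η)) ≤ ‖η‖ := by
  refine le_of_sq_le_sq ?_ (norm_nonneg _)
  have := re_le hk (f η)
  rw [add_apply, one_apply_eq_self, f2] at this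
  nlinarith [col_re x (f η), re_le_mul (f η) η, f3 η, norm_nonneg η]

lemma nn_res2 {x : ι → H →L[ℂ] H} {f : H →L[ℂ] H} (f2 : ∀ η, f η + col x (f η) = η) (θ : ι → H) :
    nn (fun j => x j (f (∑ i, star (x i) (θ i)))) ≤ nn θ := by
  generalize hη : ∑ i, star (x i) (θ i) = η
  have h1 := congrArg (fun ζ => (⟪f η, ζ⟫_ℂ).re) (f2 η)
  have h2 : (⟪f η, η⟫_ℂ).re ≤ nn (fun j => x j (f η)) * nn θ := by
    nth_rw 2 [← hη]
    simp only [inner_sum, inner_star_right]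
    exact (Complex.re_le_norm _).trans (nn_inner _ _)
  simp only [inner_add_right, Complex.add_re, ← sq_eq_re, ← col_re] at h1
  by_contra h
  nlinarith [nn_nonneg θ, sq_nonneg ‖f η‖]

namespace Mod

variable (D : Mod H)

/-- defect of `x` from being an eigenoperator of frequency `m` -/
noncomputable def cc (m : ℝ) (x : H →L[ℂ] H) : H := ex m • D.r x D.ξ - x D.ξ

lemma cc_fl (m : ℝ) (x : H →L[ℂ] H) : D.cc (-m) (fl m x) = -D.J (D.cc m x) := by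
  simp [cc, fl, r_smul, smul_smul, r_ξ, D.JJ]

lemma norm_cc_fl (m : ℝ) (x : H →L[ℂ] H) : ‖D.cc (-m) (fl m x)‖ = ‖D.cc m x‖ := by simp [cc_fl]

lemma cc_smul (m : ℝ) (c : ℂ) (x : H →L[ℂ] H) : D.cc m (c • x) = c • D.cc m x := by
  simp [cc, r_smul, smul_sub, smul_comm c]

lemma cc_sub (m : ℝ) (x y : H →L[ℂ] H) : D.cc m (x - y) = D.cc m x - D.cc m y := by
  simp only [cc, r_sub, sub_apply, smul_sub]; abel

lemma cc_add (m : ℝ) (x y : H →L[ℂ] H) : D.cc m (x + y) = D.cc m x + D.cc m y := by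
  simp only [cc, r_add, add_apply, smul_add]; abel

lemma cc_sum (m : ℝ) (x : ι → H →L[ℂ] H) : D.cc m (∑ i, x i) = ∑ i, D.cc m (x i) := by
  simp [cc, r_sum, Finset.smul_sum]

lemma cc_σ (m t : ℝ) (x : H →L[ℂ] H) : D.cc m (D.σ t x) = D.V t (D.cc m x) := by simp [cc, r_σ]

lemma norm_fl_ξ (m : ℝ) (x : H →L[ℂ] H) : ‖fl m x D.ξ‖ = ‖ex m • D.r x D.ξ‖ := by
  simp [fl_apply, norm_smul, norm_r_ξ]

lemma norm_ex_r (m : ℝ) (x : H →L[ℂ] H) (η : H) : ‖ex m • D.r x η‖ = ‖fl m x (D.J η)‖ := by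
  simp [fl_apply, norm_smul, norm_r_apply]

lemma nn_r (m : ι → ℝ) (w : ι → H →L[ℂ] H) (η : H) :
    nn (fun i => ex (m i) • D.r (w i) η) = nn fun i => fl (m i) (w i) (D.J η) :=
  nn_congr fun _ => D.norm_ex_r ..

variable {D}

lemma cc_mul {x y : H →L[ℂ] H} (hx : x ∈ D.M) (hy : y ∈ D.M) (m m' : ℝ) :
    D.cc (m + m') (x * y) = ex m' • D.r y (D.cc m x) + x (D.cc m' y) := by
  simp [cc, r_mul, ex_add, smul_sub, smul_smul, r_comm hx hy, mul_comm]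

lemma nn_cc_mul {κ : Type*} [Fintype κ] {x : ι → H →L[ℂ] H} {y : κ → H →L[ℂ] H}
    (hx : ∀ i, x i ∈ D.M) (hy : ∀ j, y j ∈ D.M) {m m' C C' : ℝ} (hC : 0 ≤ C) (hC' : 0 ≤ C')
    (h1 : Col C x) (h2 : Col C' fun j => fl m' (y j)) :
    nn (fun p : ι × κ => D.cc (m + m') (x p.1 * y p.2)) ≤
      C' * nn (fun i => D.cc m (x i)) + C * nn fun j => D.cc m' (y j) := by
  simp only [cc_mul (hx _) (hy _)]
  refine (nn_add _ _).trans (add_le_add ?_ ?_)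
  · rw [nn_prod]
    refine nn_mono hC' fun i => ?_
    simpa [norm_nn, D.nn_r fun _ => m'] using h2 (D.J (D.cc m (x i)))
  · rw [nn_prod']
    exact nn_mono hC fun j => by simpa [norm_nn] using h1 _

lemma trunc {w : ι → H →L[ℂ] H} (hw : ∀ i, w i ∈ D.M) (m : ι → ℝ) :
    ∃ f : H →L[ℂ] H, (∀ A : VonNeumannAlgebra H, (∀ i, w i ∈ A) → f ∈ A) ∧ (∀ η, ‖f η‖ ≤ ‖η‖) ∧
      Col 1 (fun i => fl (m i) (f * w i)) ∧ ‖D.ξ - f D.ξ‖ ≤ nn (fun i => fl (m i) (w i) D.ξ) ∧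
      nn (fun i => D.cc (m i) (f * w i)) ≤ 3 * nn fun i => D.cc (m i) (w i) := by
  set x : ι → H →L[ℂ] H := fun i => fl (m i) (w i) with hx
  have xM : ∀ i, x i ∈ D.M := fun i => fl_mem _ (hw i)
  obtain ⟨f, f0, f1, f2, f3, f4⟩ := exists_res (col_nonneg x)
  have fM := f4 _ (col_mem xM)
  have a1 := nn_res (le_add_of_nonneg_left zero_le_one) f2 f3
  refine ⟨f, fun A h => f4 A (col_mem fun i => fl_mem _ (h i)), f3, fun η => ?_, ?_, ?_⟩
  · simpa [fl, f0.star_eq, x] using a1 η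
  · refine le_of_sq_le_sq ?_ (nn_nonneg _)
    have h1 : D.ξ - f D.ξ = col x (f D.ξ) := by rw [sub_eq_iff_eq_add', f2]
    have h2 := re_nonneg (col_nonneg x) (f D.ξ)
    have h3 := re_nonneg (col_nonneg x) (col x (f D.ξ))
    change _ ≤ nn (fun i => x i D.ξ) ^ 2
    rw [col_re, h1]
    nth_rw 2 3 [← f2 D.ξ]
    simp only [map_add, inner_add_left, inner_add_right, Complex.add_re, ← sq_eq_re,
      ← sa_inner (col_nonneg x).isSelfAdjoint (f D.ξ) (col x _)]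
    nlinarith
  · set c : ι → H := fun i => D.cc (m i) (w i)
    have e1 : col x D.ξ - D.r (col x) D.ξ =
        ∑ i, star (x i) (D.J (c i)) - ∑ i, D.r (x i) (c i) := by
      simp only [col, r_sum, sum_apply, ← Finset.sum_sub_distrib]
      refine Finset.sum_congr rfl fun i _ => ?_
      simp [x, c, cc, fl, r_mul, r_smul, D.r_ξ (star _), ← r_comm (hw i) (star_mem (hw i)), D.J_r,
        D.Jξ, smul_sub]
    have e2 : D.r f D.ξ - f D.ξ = f (D.r f (col x D.ξ - D.r (col x) D.ξ)) := by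
      have h1 : f + col x * f = 1 := ContinuousLinearMap.ext f2
      have h2 := congr(f (D.r $h1 D.ξ))
      have h3 := f1 (D.r f D.ξ)
      simp only [r_add, r_mul_apply, add_apply, map_add, r_one, one_apply_eq_self] at h2
      rw [map_sub, map_sub, ← r_comm (col_mem xM) fM, ← h2]
      nth_rw 1 [← h3]
      abel
    have e3 : ∀ j, D.cc (m j) (f * w j) = f (c j) +
        (ex (m j) • D.r (w j) (D.r f (f (∑ i, star (x i) (D.J (c i))))) -
        f (ex (m j) • D.r (w j) (D.r f (∑ i, D.r (x i) (c i))))) := fun j => by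
      rw [map_smul, r_comm fM (hw j), ← r_comm fM fM, ← smul_sub, ← map_sub, ← map_sub, ← map_sub,
        ← e1, ← e2]
      simp [c, cc, r_mul, r_comm fM (hw j), smul_sub]
    simp only [e3]
    have b1 : nn (fun j => f (c j)) ≤ nn c := nn_le_one fun j => f3 _
    have b2 : nn (fun j => ex (m j) • D.r (w j) (D.r f (f (∑ i, star (x i) (D.J (c i)))))) ≤ nn c := by
      rw [nn_r, J_r, f0.star_eq]
      refine (a1 _).trans ?_
      rw [norm_J, map_sum]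
      have := Col.row (C := 1) (w := fun i => x i * f) (fun η => by simpa using a1 η) zero_le_one
        fun i => D.J (c i)
      simpa [f0.star_eq, nn_congr fun i => D.norm_J (c i)] using this
    have b3 : nn (fun j => f (ex (m j) • D.r (w j) (D.r f (∑ i, D.r (x i) (c i))))) ≤ nn c := by
      refine (nn_le_one fun j => f3 _).trans ?_
      rw [nn_r, J_r, f0.star_eq]
      simpa [J_r, nn_congr fun i => D.norm_J (c i)] using nn_res2 f2 fun i => D.J (c i)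
    refine (nn_add _ _).trans ?_
    linarith [nn_sub (fun j => ex (m j) • D.r (w j) (D.r f (f (∑ i, star (x i) (D.J (c i))))))
      fun j => f (ex (m j) • D.r (w j) (D.r f (∑ i, D.r (x i) (c i))))]

lemma pair_nonneg {x y : H →L[ℂ] H} (hx : x ∈ D.M) (hy : y ∈ D.M) (x0 : 0 ≤ x) (y0 : 0 ≤ y)
    (h : D.r y D.ξ = y D.ξ) : 0 ≤ (⟪x D.ξ, y D.ξ⟫_ℂ).re := by
  rw [sa_inner x0.isSelfAdjoint, ← h]
  exact re_nonneg (Commute.mul_nonneg x0 (D.r_nonneg y0)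
    (ContinuousLinearMap.ext (r_comm hx hy))) D.ξ

lemma good1 {u : ι → H →L[ℂ] H} (hu : ∀ i, u i ∈ D.M) (m : ℝ) {Q : H →L[ℂ] H} (hQ : Q ∈ D.M)
    (Q0 : 0 ≤ Q) (Q1 : Q ≤ 1) (Q2 : D.r Q D.ξ = Q D.ξ) {ρ : ℝ} (ρ0 : 0 ≤ ρ) (ρ1 : ρ ≤ 1)
    (h : ‖col (fun i => fl m (u i)) D.ξ - Q D.ξ‖ ≤ ρ ^ 2) :
    ∃ f ∈ D.M, IsSelfAdjoint f ∧ (∀ η, ‖f η‖ ≤ ‖η‖) ∧ (∀ η, nn (fun i => fl m (u i) (f η)) ≤ ‖η‖) ∧
      nn (fun i => fl m (u i) (D.ξ - f D.ξ)) ≤ ρ ∧
      nn (fun i => u i D.ξ - f (u i D.ξ)) ≤ 2 * ρ + 2 * nn fun i => D.cc m (u i) := by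
  set Z := col fun i => fl m (u i)
  have ZM : Z ∈ D.M := col_mem fun i => fl_mem _ (hu i)
  have Z0 : IsSelfAdjoint Z := (col_nonneg _).isSelfAdjoint
  obtain ⟨k, k0, k1, k2, k3⟩ := exists_pos (Z0.sub (.one _))
  have kM := k3 _ (sub_mem ZM (one_mem _))
  obtain ⟨f, f0, f1, f2, f3, f4⟩ := exists_res k0
  have fM := f4 _ kM
  have a1 := nn_res (sub_le_iff_le_add'.1 k1) f2 f3
  have a2 : ‖k D.ξ‖ ≤ ρ ^ 2 := by
    have h1 := pair_nonneg kM (sub_mem (one_mem _) hQ) k0 (sub_nonneg.2 Q1) (by simp [r_sub, Q2])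
    have h2 : ⟪k D.ξ, (Z - 1) D.ξ⟫_ℂ = ⟪k D.ξ, k D.ξ⟫_ℂ := by
      rw [← sa_inner (Z0.sub (.one _)), ← mul_apply_eq_comp, k2, mul_apply_eq_comp,
        sa_inner k0.isSelfAdjoint]
    have h3 := re_le_mul (k D.ξ) (Z D.ξ - Q D.ξ)
    have h4 := congrArg Complex.re h2
    simp only [sub_apply, one_apply_eq_self, inner_sub_right, Complex.sub_re, ← sq_eq_re] at h1 h3 h4
    by_contra h5
    nlinarith [norm_nonneg (k D.ξ), sq_nonneg ρ]
  have a3 : ∀ η, η - f η = f (k η) := fun η => by rw [sub_eq_iff_eq_add', f1]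
  have a4 : ∀ η, ‖(1 - f) η‖ ≤ 2 * ‖η‖ := fun η => (norm_sub_le η (f η)).trans (by linarith [f3 η])
  have a5 : ‖Z D.ξ‖ ≤ 2 := by
    have := Q.le_of_opNorm_le ((CStarAlgebra.norm_le_one_iff_of_nonneg Q Q0).2 Q1) D.ξ
    rw [D.unit] at this
    nlinarith [norm_le_norm_add_norm_sub' (Z D.ξ) (Q D.ξ)]
  refine ⟨f, fM, f0, f3, a1, ?_, ?_⟩
  · rw [a3]; exact (a1 _).trans (by nlinarith)
  · have e : ∀ i, u i D.ξ - f (u i D.ξ) =
        ex m • D.r (u i) ((1 - f) D.ξ) - (1 - f) (D.cc m (u i)) := fun i => by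
      simp only [cc, map_sub _ (_ • _), map_smul, r_comm (sub_mem (one_mem _) fM) (hu i)]
      simp
    simp only [e]
    refine (nn_sub _ _).trans (add_le_add ?_ (nn_mono zero_le_two fun i => a4 _))
    rw [D.nn_r fun _ => m]
    refine le_of_sq_le_sq ?_ (by positivity)
    rw [col_re]
    change (⟪_, Z _⟫_ℂ).re ≤ _
    rw [← Z0.star_eq, ← J_r, D.Jinner, ← r_comm (sub_mem (one_mem _) fM) ZM]
    refine (re_le_mul _ _).trans ?_
    have b1 := a4 (D.r Z D.ξ)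
    have b2 : ‖(1 - f) D.ξ‖ ≤ ρ ^ 2 := by simpa [a3] using (f3 _).trans a2
    rw [norm_r_ξ, Z0.star_eq] at b1
    nlinarith [norm_nonneg ((1 - f) D.ξ), norm_nonneg ((1 - f) (D.r Z D.ξ))]

lemma good2 {u : ι → H →L[ℂ] H} (hu : ∀ i, u i ∈ D.M) (m : ℝ) {P Q : H →L[ℂ] H}
    (hP : P ∈ D.M) (P0 : 0 ≤ P) (P1 : P ≤ 1) (P2 : D.r P D.ξ = P D.ξ)
    (hQ : Q ∈ D.M) (Q0 : 0 ≤ Q) (Q1 : Q ≤ 1) (Q2 : D.r Q D.ξ = Q D.ξ) {ρ : ℝ} (ρ0 : 0 ≤ ρ)
    (ρ1 : ρ ≤ 1) (h : ‖col u D.ξ - P D.ξ‖ ≤ ρ ^ 2)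
    (h' : ‖col (fun i => fl m (u i)) D.ξ - Q D.ξ‖ ≤ ρ ^ 2) :
    ∃ w : ι → H →L[ℂ] H, (∀ i, w i ∈ D.M) ∧ Col 1 w ∧ Col 1 (fun i => fl m (w i)) ∧
      nn (fun i => u i D.ξ - w i D.ξ) ≤ 3 * ρ + 2 * nn (fun i => D.cc m (u i)) ∧
      nn (fun i => D.cc m (w i)) ≤ 8 * ρ + 5 * nn fun i => D.cc m (u i) := by
  obtain ⟨f, fM, f0, f1, f2, f3, f4⟩ := good1 hu m hQ Q0 Q1 Q2 ρ0 ρ1 h'
  obtain ⟨g, gM, g0, g1, g2, g3, g4⟩ :=
    good1 (fun i => fl_mem m (hu i)) (-m) hP P0 P1 P2 ρ0 ρ1 (by simpa using h)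
  simp only [fl_fl, nn_congr fun i => D.norm_cc_fl m (u i)] at g2 g3 g4
  have a1 : nn (fun i => u i D.ξ - (f * u i * g) D.ξ) ≤ 3 * ρ + 2 * nn fun i => D.cc m (u i) := by
    refine (nn_tri _ fun i => u i D.ξ - f (u i D.ξ)).trans ?_
    have : nn (fun i => u i D.ξ - (f * u i * g) D.ξ - (u i D.ξ - f (u i D.ξ))) ≤ _ :=
      (nn_le_one fun i => by simpa using f1 (u i (D.ξ - g D.ξ))).trans g3
    linarith
  have e : ∀ i, fl m (f * u i * g) = g * fl m (u i) * f := fun i => by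
    simp [fl, f0.star_eq, g0.star_eq, mul_assoc]
  have a2 : nn (fun i => fl m (u i) D.ξ - (g * fl m (u i) * f) D.ξ) ≤
      3 * ρ + 2 * nn fun i => D.cc m (u i) := by
    refine (nn_tri _ fun i => fl m (u i) D.ξ - g (fl m (u i) D.ξ)).trans ?_
    have : nn (fun i => fl m (u i) D.ξ - (g * fl m (u i) * f) D.ξ -
        (fl m (u i) D.ξ - g (fl m (u i) D.ξ))) ≤ _ :=
      (nn_le_one fun i => by simpa using g1 (fl m (u i) (D.ξ - f D.ξ))).trans f3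
    linarith
  refine ⟨fun i => f * u i * g, fun i => mul_mem (mul_mem fM (hu i)) gM,
    fun η => (nn_le_one fun i => f1 _).trans (by simpa using g2 η), fun η => ?_, a1, ?_⟩
  · simp only [e]
    exact (nn_le_one fun i => g1 _).trans (by simpa using f2 η)
  · refine (nn_tri _ fun i => D.cc m (u i)).trans ?_
    have : nn (fun i => D.cc m (f * u i * g) - D.cc m (u i)) ≤
        (3 * ρ + 2 * nn fun i => D.cc m (u i)) + (3 * ρ + 2 * nn fun i => D.cc m (u i)) := by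
      simp only [← cc_sub]
      refine (nn_sub _ _).trans (add_le_add (le_of_eq_of_le (nn_congr fun i => ?_) a2)
        (le_of_eq_of_le (nn_congr fun i => ?_) a1))
      · rw [← norm_fl_ξ, ← e, norm_sub_rev]; simp [fl, smul_sub]
      · rw [norm_sub_rev]; rfl
    linarith

end Mod

end Vale.Agent.P132
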