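import Vale.Agent.P132.HBA

open scoped InnerProductSpace ComplexConjugate

namespace Vale.Agent.P132

variable {H : Type*} [NormedAddCommGroup H] [InnerProductSpace ℂ H] [CompleteSpace H]

namespace HBAux

variable {E : Type*} [NormedAddCommGroup E] [NormedSpace ℂ E]

/-- Vector functionals. -/
noncomputable def om (j : E →L[ℂ] H →L[ℂ] H) (z η : H) : E →L[ℂ] ℂ :=
  (innerSL ℂ z).comp ((ContinuousLinearMap.apply ℂ H η).comp j)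

omit [CompleteSpace H] in
theorem om_apply (j : E →L[ℂ] H →L[ℂ] H) (z η : H) (y : E) : om j z η y = ⟪z, j y η⟫_ℂ := rfl

theorem rep {N : VonNeumannAlgebra H} {j : E →L[ℂ] H →L[ℂ] H} (hj : ∀ y, j y ∈ N)
    (hn : ∀ y, ‖j y‖ = ‖y‖) (f : (E →L[ℂ] ℂ) →L[ℂ] ℂ) :
    ∃ T ∈ N, ∀ z η, f (om j z η) = ⟪z, T η⟫_ℂ := by
  let B : H →L⋆[ℂ] H →L[ℂ] ℂ := LinearMap.mkContinuous₂
    (LinearMap.mk₂'ₛₗ (starRingEnd ℂ) (RingHom.id ℂ) (fun z η => f (om j z η))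
      (fun z z' η => by
        rw [← map_add]
        congr 1
        ext y
        simp [om_apply])
      (fun c z η => by
        rw [← map_smul]
        congr 1
        ext y
        simp [om_apply, mul_comm])
      (fun z η η' => by
        rw [← map_add]
        congr 1
        ext y
        simp [om_apply])
      (fun c z η => by
        rw [← map_smul]
        congr 1
        ext y
        simp [om_apply])) ‖f‖ fun z η => by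
      refine (f.le_opNorm _).trans ?_
      rw [mul_assoc]
      refine mul_le_mul_of_nonneg_left (ContinuousLinearMap.opNorm_le_bound _ (by positivity)
        fun y => (norm_inner_le_norm z (j y η)).trans ?_) (norm_nonneg _)
      rw [mul_assoc, mul_comm ‖η‖]
      exact mul_le_mul_of_nonneg_left (hn y ▸ (j y).le_opNorm η) (norm_nonneg _)
  have h : ∀ z η, f (om j z η) = ⟪z, star (InnerProductSpace.continuousLinearMapOfBilin B) η⟫_ℂ :=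
    fun z η => by
      rw [inner_star', InnerProductSpace.continuousLinearMapOfBilin_apply]
      rfl
  refine ⟨_, ?_, h⟩
  rw [← N.commutant_commutant, VonNeumannAlgebra.mem_commutant_iff]
  intro a ha
  ext η
  refine ext_inner_left ℂ fun z => ?_
  rw [mul_ap, mul_ap, ← h, ← inner_star a, ← h]
  congr 1
  ext y
  rw [om_apply, om_apply, inner_star, ← mul_ap a,
    ← VonNeumannAlgebra.mem_commutant_iff.1 ha _ (hj y), mul_ap]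

theorem large {N : VonNeumannAlgebra H}
    (hN : ∀ z ∈ N, z ∈ N.commutant → ∃ c : ℂ, z = c • 1) (ξ : H) (hξ : ‖ξ‖ = 1)
    {κ : Type} [Fintype κ] (c : κ → H →L[ℂ] H) (hc : ∀ k, c k ∈ N) (θ : κ → H)
    (hθ : ∀ k, ⟪ξ, θ k⟫_ℂ = 0) (α : κ → ℂ) {d : H →L[ℂ] H} (hd : d ∈ N) {ε : ℝ} (hε : 0 < ε) :
    ∃ (ι : Type) (_ : Fintype ι) (v : ι → H →L[ℂ] H), (∀ i, v i ∈ N) ∧
      (∀ η, ∑ i, ‖v i η‖ ^ 2 ≤ ‖η‖ ^ 2) ∧ (⟪ξ, d ξ⟫_ℂ).re - ε ≤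
        (∑ i, ⟪v i ξ, d (v i ξ)⟫_ℂ + ∑ k, α k * ∑ i, ⟪v i ξ, c k (v i (θ k))⟫_ℂ).re := by
  have h1 : (1 : H →L[ℂ] H) ≠ 0 := fun h => by
    have : ξ = 0 := congrArg (fun t => t ξ) h
    simp [this] at hξ
  obtain ⟨C, hC⟩ : ∃ C, C = 1 + ∑ k, ‖α k‖ * (1 + ‖θ k‖ ^ 2) := ⟨_, rfl⟩
  have hC0 : 0 < C := by rw [hC]; positivity
  obtain ⟨δ, hδ⟩ : ∃ δ, δ = ε / 2 / C := ⟨_, rfl⟩
  have hδ0 : 0 < δ := by rw [hδ]; positivity
  obtain ⟨y, y1, y2, w, y3, y4⟩ := top (one_mem N) h1 hd hδ0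
  obtain ⟨y', z1, z2, z3⟩ := near_all (mul_mem (one_mem N) y1) y2 Finset.univ c hc hδ0
  choose w' hw' using fun k => z3 k (Finset.mem_univ k)
  obtain ⟨C', hC'⟩ : ∃ C', C' = 1 + |w - δ| + ∑ k, ‖α k‖ * (‖w' k‖ * ‖θ k‖) := ⟨_, rfl⟩
  have hC0' : 0 < C' := by rw [hC']; positivity
  obtain ⟨ρ, hρ⟩ : ∃ ρ, ρ = min 1 (ε / 2 / C') := ⟨_, rfl⟩
  have hρ0 : 0 < ρ := by rw [hρ]; positivity
  have hρ1 : ρ ≤ 1 := hρ ▸ min_le_left _ _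
  have hρ2 : ρ * C' ≤ ε / 2 := (le_div_iff₀ hC0').1 (hρ ▸ min_le_right _ _)
  have hB := mul_mem (mul_mem (one_mem N) y1) z1
  obtain ⟨ι, _, x, x1, x2, x3⟩ := mf hN hB z2 ξ (pow_pos hρ0 2)
  refine ⟨ι, inferInstance, fun i => 1 * y * y' * x i, fun i => mul_mem hB (x1 i), x2, ?_⟩
  set v : ι → H →L[ℂ] H := fun i => 1 * y * y' * x i
  have a1 : ∑ i, ‖v i ξ‖ ^ 2 ≤ 1 := (x2 ξ).trans (by rw [hξ, one_pow])
  have a2 : 1 - ∑ i, ‖v i ξ‖ ^ 2 ≤ ρ ^ 2 := by rwa [hξ, one_pow] at x3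
  have a3 : ‖ξ - col v ξ‖ ≤ ρ :=
    le_of_sq_le_sq ((norm_sub_col x2 ξ).trans (by rwa [hξ, one_pow])) hρ0.le
  have a4 : (w - δ) * ∑ i, ‖v i ξ‖ ^ 2 ≤ (∑ i, ⟪v i ξ, d (v i ξ)⟫_ℂ).re := by
    rw [Complex.re_sum, Finset.mul_sum]
    exact Finset.sum_le_sum fun i _ => y4 (y' (x i ξ))
  have a5 : (⟪ξ, d ξ⟫_ℂ).re ≤ w := by simpa [hξ] using y3 ξ
  have a6 : ∀ k, ‖∑ i, ⟪v i ξ, c k (v i (θ k))⟫_ℂ‖ ≤
      δ * (1 + ‖θ k‖ ^ 2) + ρ * (‖w' k‖ * ‖θ k‖) := fun k => by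
    have b1 : ∑ i, ⟪v i ξ, v i (θ k)⟫_ℂ = -⟪ξ - col v ξ, θ k⟫_ℂ := by
      rw [inner_sub_left, hθ, zero_sub, neg_neg, ← inner_conj_symm, inner_col, map_sum]
      simp only [inner_conj_symm]
    have b2 : ‖∑ i, ⟪v i ξ, v i (θ k)⟫_ℂ‖ ≤ ρ * ‖θ k‖ := by
      rw [b1, norm_neg]
      exact (norm_inner_le_norm _ _).trans (mul_le_mul_of_nonneg_right a3 (norm_nonneg _))
    have b3 : ‖∑ i, ⟪v i ξ, c k (v i (θ k))⟫_ℂ - w' k * ∑ i, ⟪v i ξ, v i (θ k)⟫_ℂ‖ ≤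
        δ * (1 + ‖θ k‖ ^ 2) := by
      rw [Finset.mul_sum, ← Finset.sum_sub_distrib]
      refine (norm_sum_le _ _).trans ((Finset.sum_le_sum fun i _ =>
        hw' k (x i ξ) (x i (θ k))).trans ?_)
      rw [← Finset.mul_sum, Finset.sum_add_distrib]
      exact mul_le_mul_of_nonneg_left (add_le_add a1 (x2 (θ k))) hδ0.le
    refine (norm_le_norm_sub_add _ _).trans (add_le_add b3 ?_)
    rw [norm_mul, mul_left_comm]
    exact mul_le_mul_of_nonneg_left b2 (norm_nonneg _)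
  have a7 : ‖∑ k, α k * ∑ i, ⟪v i ξ, c k (v i (θ k))⟫_ℂ‖ ≤
      δ * ∑ k, ‖α k‖ * (1 + ‖θ k‖ ^ 2) + ρ * ∑ k, ‖α k‖ * (‖w' k‖ * ‖θ k‖) := by
    rw [Finset.mul_sum, Finset.mul_sum, ← Finset.sum_add_distrib]
    refine (norm_sum_le _ _).trans (Finset.sum_le_sum fun k _ => ?_)
    rw [norm_mul, mul_left_comm δ, mul_left_comm ρ, ← mul_add]
    exact mul_le_mul_of_nonneg_left (a6 k) (norm_nonneg _)
  have a8 := (abs_le.1 ((Complex.abs_re_le_norm _).trans a7)).1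
  have a9 : δ * C = ε / 2 := by rw [hδ]; field_simp
  have a10 : (w - δ) * (1 - ∑ i, ‖v i ξ‖ ^ 2) ≤ |w - δ| * ρ :=
    (mul_le_mul_of_nonneg_right (le_abs_self _) (by linarith)).trans
      (mul_le_mul_of_nonneg_left (by nlinarith) (abs_nonneg _))
  rw [Complex.add_re]
  rw [hC] at a9
  rw [hC'] at hρ2
  nlinarith

theorem sep {S : Set E} (hS : ∀ x ∈ S, ∀ y ∈ S, ∀ a b : ℝ, 0 ≤ a → 0 ≤ b → a + b = 1 →
    (a : ℂ) • x + (b : ℂ) • y ∈ S) {x : E} (h : x ∉ closure S) :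
    ∃ (f : E →L[ℂ] ℂ) (u : ℝ), (∀ a ∈ S, (f a).re < u) ∧ u < (f x).re := by
  have h1 : Convex ℝ S := fun x hx y hy a b ha hb hab => hS x hx y hy a b ha hb hab
  obtain ⟨f, u, f1, f2⟩ :=
    RCLike.geometric_hahn_banach_closed_point (𝕜 := ℂ) h1.closure isClosed_closure h
  exact ⟨f, u, fun a ha => f1 a (subset_closure ha), f2⟩

theorem coarse' {N : VonNeumannAlgebra H} {j : E →L[ℂ] H →L[ℂ] H} (hj : ∀ y, j y ∈ N)
    (hn : ∀ y, ‖j y‖ = ‖y‖) (hs : ∀ a ∈ N, ∃ y, j y = a)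
    (hN : ∀ z ∈ N, z ∈ N.commutant → ∃ c : ℂ, z = c • 1) (ξ : H) (hξ : ‖ξ‖ = 1)
    {κ : Type} [Fintype κ] (c : κ → H →L[ℂ] H) (hc : ∀ k, c k ∈ N) (θ : κ → H)
    {ε : ℝ} (hε : 0 < ε) :
    ∃ (ι : Type) (_ : Fintype ι) (v : ι → H →L[ℂ] H), (∀ i, v i ∈ N) ∧
      (∀ η, ∑ i, ‖v i η‖ ^ 2 ≤ ‖η‖ ^ 2) ∧
      (∀ y ∈ N, ‖∑ i, ⟪v i ξ, y (v i ξ)⟫_ℂ - ⟪ξ, y ξ⟫_ℂ‖ ≤ ε * ‖y‖) ∧
      ∀ k, ‖∑ i, ⟪v i ξ, c k (v i (θ k))⟫_ℂ - ⟪ξ, c k ξ⟫_ℂ * ⟪ξ, θ k⟫_ℂ‖ ≤ ε := by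
  classical
  let S : Set ((E →L[ℂ] ℂ) × (κ → ℂ)) := {p | ∃ (ι : Type) (_ : Fintype ι) (v : ι → H →L[ℂ] H),
    (∀ i, v i ∈ N) ∧ (∀ η, ∑ i, ‖v i η‖ ^ 2 ≤ ‖η‖ ^ 2) ∧
      p = (∑ i, om j (v i ξ) (v i ξ), fun k => ∑ i, ⟪v i ξ, c k (v i (θ k))⟫_ℂ)}
  have hS : ∀ x ∈ S, ∀ y ∈ S, ∀ a b : ℝ, 0 ≤ a → 0 ≤ b → a + b = 1 →
      (a : ℂ) • x + (b : ℂ) • y ∈ S := by
    rintro _ ⟨ι, _, v, v1, v2, rfl⟩ _ ⟨ι', _, v', w1, w2, rfl⟩ a b ha hb hab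
    have e1 : ∀ {a : ℝ}, 0 ≤ a → ∀ x : H, ‖((√a : ℝ) : ℂ) • x‖ ^ 2 = a * ‖x‖ ^ 2 := fun h x => by
      rw [norm_smul, mul_pow, Complex.norm_real, Real.norm_eq_abs, sq_abs, Real.sq_sqrt h]
    have e2 : ∀ {a : ℝ}, 0 ≤ a → ∀ (x x' : H) (t : H →L[ℂ] H),
        ⟪((√a : ℝ) : ℂ) • x, t (((√a : ℝ) : ℂ) • x')⟫_ℂ = a * ⟪x, t x'⟫_ℂ := fun h x x' t => by
      rw [map_smul, inner_smul_left, inner_smul_right, Complex.conj_ofReal, ← mul_assoc,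
        ← Complex.ofReal_mul, Real.mul_self_sqrt h]
    refine ⟨ι ⊕ ι', inferInstance, Sum.elim (fun i => ((√a : ℝ) : ℂ) • v i)
      fun i => ((√b : ℝ) : ℂ) • v' i, ?_, fun η => ?_, Prod.ext ?_ ?_⟩
    · rintro (i | i)
      · exact smul_mem _ (v1 i)
      · exact smul_mem _ (w1 i)
    · simp only [Fintype.sum_sum_type, Sum.elim_inl, Sum.elim_inr, smul_ap, e1 ha, e1 hb,
        ← Finset.mul_sum]
      nlinarith [mul_le_mul_of_nonneg_left (v2 η) ha, mul_le_mul_of_nonneg_left (w2 η) hb]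
    · ext y
      simp only [Fintype.sum_sum_type, Sum.elim_inl, Sum.elim_inr, smul_ap, Prod.fst_add,
        Prod.smul_fst, add_apply, smul_apply, sum_apply, om_apply, e2 ha, e2 hb, ← Finset.mul_sum,
        smul_eq_mul]
    · ext k
      simp only [Fintype.sum_sum_type, Sum.elim_inl, Sum.elim_inr, smul_ap, Prod.snd_add,
        Prod.smul_snd, Pi.add_apply, Pi.smul_apply, e2 ha, e2 hb, ← Finset.mul_sum,
        smul_eq_mul]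
  have ht : (om j ξ ξ, fun k => ⟪ξ, c k ξ⟫_ℂ * ⟪ξ, θ k⟫_ℂ) ∈ closure S := by
    by_contra h
    obtain ⟨f, u, f1, f2⟩ := sep hS h
    obtain ⟨T, T1, T2⟩ := rep hj hn (f.comp (ContinuousLinearMap.inl ℂ _ _))
    let α : κ → ℂ := fun k => f (0, Pi.single k 1)
    have hf : ∀ p q, f (p, q) = f (p, 0) + ∑ k, α k * q k := fun p q => by
      have : (p, q) = (p, 0) + ∑ k, q k • ((0, Pi.single k 1) : (E →L[ℂ] ℂ) × (κ → ℂ)) := by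
        refine Prod.ext (by ext; simp [Prod.fst_sum]) (funext fun j => ?_)
        simp [Prod.snd_sum, Pi.single_apply]
      rw [this, map_add, map_sum]
      simp only [map_smul, smul_eq_mul, mul_comm, α]
    have hT : ∀ z η, f (om j z η, 0) = ⟪z, T η⟫_ℂ := T2
    obtain ⟨ι, _, v, v1, v2, v3⟩ := large hN ξ hξ c hc (fun k => θ k - ⟪ξ, θ k⟫_ℂ • ξ)
      (fun k => by simp [inner_sub_right, inner_smul_right, inner_self_eq_norm_sq_to_K, hξ]) α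
      (d := T + ∑ k, (α k * ⟪ξ, θ k⟫_ℂ) • c k) (add_mem T1 (sum_mem fun k _ => smul_mem _ (hc k)))
      (sub_pos.2 f2)
    have g1 := f1 _ ⟨ι, inferInstance, v, v1, v2, rfl⟩
    have g2 : f (∑ i, om j (v i ξ) (v i ξ), 0) = ∑ i, ⟪v i ξ, T (v i ξ)⟫_ℂ := by
      simp only [← hT, ← map_sum]
      congr 1
      exact Prod.ext (by simp [Prod.fst_sum]) (by simp [Prod.snd_sum])
    rw [hf, g2] at g1
    rw [hf, hT] at v3
    have g3 : ∀ z, ⟪z, (T + ∑ k, (α k * ⟪ξ, θ k⟫_ℂ) • c k) z⟫_ℂ =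
        ⟪z, T z⟫_ℂ + ∑ k, α k * (⟪z, c k z⟫_ℂ * ⟪ξ, θ k⟫_ℂ) := fun z => by
      simp only [add_ap, sum_apply, smul_ap, inner_add_right, inner_sum, inner_smul_right]
      congr 1
      exact Finset.sum_congr rfl fun k _ => by ring
    have g4 : ∑ i, ⟪v i ξ, (T + ∑ k, (α k * ⟪ξ, θ k⟫_ℂ) • c k) (v i ξ)⟫_ℂ +
        ∑ k, α k * ∑ i, ⟪v i ξ, c k (v i (θ k - ⟪ξ, θ k⟫_ℂ • ξ))⟫_ℂ =
        ∑ i, ⟪v i ξ, T (v i ξ)⟫_ℂ + ∑ k, α k * ∑ i, ⟪v i ξ, c k (v i (θ k))⟫_ℂ := by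
      simp only [g3, Finset.sum_add_distrib, add_assoc, map_sub, map_smul, inner_sub_right,
        inner_smul_right]
      rw [Finset.sum_comm, ← Finset.sum_add_distrib]
      congr 1
      refine Finset.sum_congr rfl fun k _ => ?_
      rw [← Finset.mul_sum, ← mul_add, ← Finset.sum_add_distrib]
      congr 1
      exact Finset.sum_congr rfl fun i _ => by ring
    rw [g4, g3] at v3
    linarith
  obtain ⟨_, ⟨ι, _, v, v1, v2, rfl⟩, h⟩ := Metric.mem_closure_iff.1 ht ε hε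
  rw [dist_comm, dist_eq_norm] at h
  refine ⟨ι, inferInstance, v, v1, v2, fun y hy => ?_, fun k => ?_⟩
  · obtain ⟨y, rfl⟩ := hs y hy
    have := ContinuousLinearMap.le_of_opNorm_le _ ((norm_fst_le _).trans h.le) y
    simpa only [Prod.fst_sub, sub_apply, sum_apply, om_apply, hn] using this
  · exact (norm_le_pi_norm _ k).trans ((norm_snd_le _).trans h.le)

end HBAux

/-- Coarse approximation in a factor, with the left marginal close in norm. -/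
theorem coarse (N : VonNeumannAlgebra H)
    (hN : ∀ z ∈ N, z ∈ N.commutant → ∃ c : ℂ, z = c • 1) (ξ : H) (hξ : ‖ξ‖ = 1)
    {κ : Type} [Fintype κ] (c : κ → H →L[ℂ] H) (hc : ∀ k, c k ∈ N) (θ : κ → H)
    {ε : ℝ} (hε : 0 < ε) :
    ∃ (ι : Type) (_ : Fintype ι) (v : ι → H →L[ℂ] H), (∀ i, v i ∈ N) ∧
      (∀ η, ∑ i, ‖v i η‖ ^ 2 ≤ ‖η‖ ^ 2) ∧
      (∀ y ∈ N, ‖∑ i, ⟪v i ξ, y (v i ξ)⟫_ℂ - ⟪ξ, y ξ⟫_ℂ‖ ≤ ε * ‖y‖) ∧
      ∀ k, ‖∑ i, ⟪v i ξ, c k (v i (θ k))⟫_ℂ - ⟪ξ, c k ξ⟫_ℂ * ⟪ξ, θ k⟫_ℂ‖ ≤ ε :=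
  HBAux.coarse' (j := N.toStarSubalgebra.toSubalgebra.toSubmodule.subtypeL) (fun y => y.2)
    (fun _ => rfl) (fun a ha => ⟨⟨a, ha⟩, rfl⟩) hN ξ hξ c hc θ hε

end Vale.Agent.P132
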