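import Vale.Agent.P132.Mod

open scoped ComplexConjugate

namespace Vale.Agent.P132

namespace Win

open Finset

theorem orth {N : ℕ} {ζ w : ℂ} (hζ : IsPrimitiveRoot ζ N) (hw : conj w * w = 1) (j j' : Fin N) :
    ∑ k : Fin N, conj ((w * ζ ^ (k : ℕ)) ^ (j : ℕ)) * (w * ζ ^ (k : ℕ)) ^ (j' : ℕ) =
      if j = j' then (N : ℂ) else 0 := by
  have hN : N ≠ 0 := (Fin.pos j).ne'
  have h0 : ζ ≠ 0 := hζ.ne_zero hN
  have hc : conj ζ = ζ⁻¹ := (Complex.inv_eq_conj (hζ.norm'_eq_one hN)).symm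
  have e : ∀ k : Fin N, conj ((w * ζ ^ (k : ℕ)) ^ (j : ℕ)) * (w * ζ ^ (k : ℕ)) ^ (j' : ℕ) =
      (conj w ^ (j : ℕ) * w ^ (j' : ℕ)) * ((ζ ^ (j : ℕ))⁻¹ * ζ ^ (j' : ℕ)) ^ (k : ℕ) := fun k => by
    simp only [map_pow, map_mul, hc, mul_pow, ← inv_pow, ← pow_mul, mul_comm (k : ℕ)]
    ring
  simp only [e, ← mul_sum]
  split_ifs with h
  · subst h
    rw [← mul_pow, hw, inv_mul_cancel₀ (pow_ne_zero _ h0)]
    simp
  · have h1 : (ζ ^ (j : ℕ))⁻¹ * ζ ^ (j' : ℕ) ≠ 1 := fun h1 =>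
      h (Fin.ext (hζ.pow_inj j.2 j'.2 (by
        rwa [inv_mul_eq_iff_eq_mul₀ (pow_ne_zero _ h0), mul_one, eq_comm] at h1)))
    have h2 : ((ζ ^ (j : ℕ))⁻¹ * ζ ^ (j' : ℕ)) ^ N = 1 := by
      rw [mul_pow, inv_pow, ← pow_mul, ← pow_mul, mul_comm _ N, mul_comm _ N, pow_mul, pow_mul,
        hζ.pow_eq_one]
      simp
    rw [Fin.sum_univ_eq_sum_range (fun k => ((ζ ^ (j : ℕ))⁻¹ * ζ ^ (j' : ℕ)) ^ k),
      geom_sum_eq h1, h2]
    simp

theorem parseval {N : ℕ} {ζ w : ℂ} (hζ : IsPrimitiveRoot ζ N) (hw : conj w * w = 1)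
    (b : Fin N → ℝ) :
    ∑ k : Fin N, ‖∑ j : Fin N, (b j : ℂ) * (w * ζ ^ (k : ℕ)) ^ (j : ℕ)‖ ^ 2 = N * ∑ j, b j ^ 2 := by
  have e : ∀ k : Fin N, ((‖∑ j : Fin N, (b j : ℂ) * (w * ζ ^ (k : ℕ)) ^ (j : ℕ)‖ ^ 2 : ℝ) : ℂ) =
      ∑ j : Fin N, ∑ j' : Fin N, (b j * b j' : ℂ) *
        (conj ((w * ζ ^ (k : ℕ)) ^ (j : ℕ)) * (w * ζ ^ (k : ℕ)) ^ (j' : ℕ)) := fun k => by
    rw [Complex.ofReal_pow, ← Complex.conj_mul', map_sum, sum_mul_sum]
    refine sum_congr rfl fun j _ => sum_congr rfl fun j' _ => ?_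
    rw [map_mul, Complex.conj_ofReal]
    ring
  apply Complex.ofReal_injective
  rw [Complex.ofReal_sum, sum_congr rfl fun k _ => e k, sum_comm]
  push_cast
  rw [mul_sum]
  refine sum_congr rfl fun j _ => ?_
  rw [sum_comm]
  simp only [← mul_sum, orth hζ hw, mul_ite, mul_zero, sum_ite_eq, mem_univ, if_true]
  ring

theorem shift (c : ℕ → ℝ) (z : ℂ) (n : ℕ) :
    (1 - z) * ∑ j ∈ range (n + 1), (c j : ℂ) * z ^ j =
      ∑ j ∈ range (n + 1), ((c j - c (j - 1) : ℝ) : ℂ) * z ^ j + c 0 - c n * z ^ (n + 1) := by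
  induction n with
  | zero => simp; ring
  | succ n ih =>
    rw [sum_range_succ, mul_add, ih, sum_range_succ _ (n + 1)]
    push_cast
    ring

theorem lower {τ y : ℝ} (h0 : 0 < τ) (h1 : τ ≤ 1) (h : |τ * y| ≤ 3 * Real.pi / 2) :
    τ ^ 2 / 4 * min (y ^ 2) 1 ≤ ‖1 - ch τ y‖ ^ 2 := by
  have e : ‖1 - ch τ y‖ ^ 2 = 2 - 2 * Real.cos (τ * y) := by
    rw [Complex.sq_norm, Complex.normSq_apply, ch]
    simp only [Complex.sub_re, Complex.one_re, Complex.exp_ofReal_mul_I_re, Complex.sub_im,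
      Complex.one_im, Complex.exp_ofReal_mul_I_im]
    nlinarith [Real.sin_sq_add_cos_sq (τ * y)]
  rw [e]
  by_cases h2 : |τ * y| ≤ Real.pi
  · have h3 := Real.cos_le_one_sub_mul_cos_sq h2
    have h4 : 1 / 8 ≤ 2 / Real.pi ^ 2 := by
      rw [div_le_div_iff₀ (by norm_num) (by positivity)]
      nlinarith [Real.pi_le_four, Real.pi_pos]
    have h5 := mul_le_mul_of_nonneg_right h4 (sq_nonneg (τ * y))
    have h6 := mul_le_mul_of_nonneg_left (min_le_left (y ^ 2) 1)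
      (show 0 ≤ τ ^ 2 / 4 by positivity)
    nlinarith
  · have h3 : Real.cos (τ * y) ≤ 0 := by
      rw [← Real.cos_abs]
      exact Real.cos_nonpos_of_pi_div_two_le_of_le (by linarith [Real.pi_pos]) (by linarith)
    have h6 := mul_le_mul_of_nonneg_left (min_le_right (y ^ 2) 1)
      (show 0 ≤ τ ^ 2 / 4 by positivity)
    nlinarith

theorem ch_add (t a b : ℝ) : ch t (a + b) = ch t a * ch t b := by
  simp only [ch, ← Complex.exp_add]
  congr 1
  push_cast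
  ring

theorem ch_pow (t a : ℝ) (j : ℕ) : ch (j * t) a = ch t a ^ j := by
  simp only [ch, ← Complex.exp_nat_mul]
  congr 1
  push_cast
  ring

theorem ch_unit (t a : ℝ) : conj (ch t a) * ch t a = 1 := by
  rw [Complex.conj_mul', ch, Complex.norm_exp_ofReal_mul_I]
  simp

end Win

open Finset Win in
/-- Finite Parseval windows: bounded times, concentrated frequencies. -/
theorem window {θ : ℝ} (hθ : 0 < θ) : ∃ L : ℝ, 0 < L ∧ ∀ R : ℝ,
    ∃ (K J : Type) (_ : Fintype K) (_ : Fintype J) (_ : DecidableEq J)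
      (t : J → ℝ) (m : K → ℝ) (u : K → J → ℂ) (h : J → ℝ),
      (∀ j, t j ∈ Set.Icc 0 L) ∧ (∀ j, 0 ≤ h j) ∧ ∑ j, h j = 1 ∧
      (∀ j j', ∑ k, conj (u k j) * u k j' = if j = j' then (h j : ℂ) else 0) ∧
      ∀ s : ℝ, |s| ≤ R →
        ∑ k, ‖∑ j, u k j * ch (t j) s‖ ^ 2 * min ((s - m k) ^ 2) 1 ≤ θ := by
  set l : ℝ := 20 / θ + 1 with hl
  have hl1 : 1 ≤ l := le_add_of_nonneg_left (by positivity)
  refine ⟨4 * l, by positivity, fun R => ?_⟩
  obtain ⟨q, hq⟩ := exists_nat_ge (l * (|R| + 1))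
  have hR := abs_nonneg R
  have hq1 : l ≤ q := by nlinarith
  have hq0 : (1 : ℝ) ≤ q := hl1.trans hq1
  set τ : ℝ := l / q with hτ
  have τ0 : 0 < τ := by positivity
  have τq : τ * q = l := div_mul_cancel₀ _ (by positivity)
  have τ1 : τ ≤ 1 := (div_le_one (by positivity)).2 hq1
  set c : ℕ → ℝ := fun j => ((min j (4 * q - j) : ℕ) : ℝ) with hc
  set Z : ℝ := ∑ j ∈ range (4 * q + 1), c j ^ 2 with hZ
  have Zq : (q : ℝ) ^ 3 ≤ Z := by
    calc (q : ℝ) ^ 3 = ∑ _j ∈ Ico q (2 * q), (q : ℝ) ^ 2 := by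
          rw [sum_const, Nat.card_Ico, show 2 * q - q = q by omega, nsmul_eq_mul]; ring
      _ ≤ ∑ j ∈ Ico q (2 * q), c j ^ 2 := sum_le_sum fun j hj => by
          have := mem_Ico.1 hj
          exact pow_le_pow_left₀ (by positivity) (Nat.cast_le.2 (by omega)) 2
      _ ≤ Z := sum_le_sum_of_subset_of_nonneg (fun j hj => by
          have := mem_Ico.1 hj
          exact mem_range.2 (by omega)) fun _ _ _ => sq_nonneg _
  have Z0 : 0 < Z := lt_of_lt_of_le (by positivity) Zq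
  set N : ℕ := 4 * q + 1 with hN
  have N0 : (0 : ℝ) < N := by rw [hN]; positivity
  have hζ := Complex.isPrimitiveRoot_exp N (by omega)
  set ζ := Complex.exp (2 * Real.pi * Complex.I / N) with hζ'
  set r : ℝ := (Real.sqrt (N * Z))⁻¹ with hr
  have r2 : r ^ 2 = (N * Z)⁻¹ := by rw [hr, inv_pow, Real.sq_sqrt (by positivity)]
  set m : Fin N → ℝ := fun k => Real.pi / τ - (k : ℕ) * (2 * Real.pi / N) / τ with hm
  have hz : ∀ (s : ℝ) (k : Fin N), ch τ (s - m k) = ch τ (s - Real.pi / τ) * ζ ^ (k : ℕ) := by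
    intro s k
    rw [show s - m k = s - Real.pi / τ + (k : ℕ) * (2 * Real.pi / N) / τ by rw [hm]; ring, ch_add,
      hζ', ← Complex.exp_nat_mul]
    congr 1
    rw [ch, mul_div_cancel₀ _ τ0.ne']
    congr 1
    push_cast
    ring
  refine ⟨Fin N, Fin N, inferInstance, inferInstance, inferInstance, fun j => (j : ℕ) * τ, m,
    fun k j => ((r * c j : ℝ) : ℂ) * ch τ (0 - m k) ^ (j : ℕ), fun j => c j ^ 2 / Z,
    fun j => ⟨by positivity, ?_⟩, fun j => by positivity, ?_, fun j j' => ?_, fun s hs => ?_⟩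
  · have h1 : ((j : ℕ) : ℝ) ≤ 4 * q := by exact_mod_cast Nat.lt_succ_iff.1 j.2
    nlinarith
  · rw [← sum_div, Fin.sum_univ_eq_sum_range (fun j => c j ^ 2), div_self Z0.ne']
  · have e : ∀ k : Fin N, conj (((r * c j : ℝ) : ℂ) * ch τ (0 - m k) ^ (j : ℕ)) *
        (((r * c j' : ℝ) : ℂ) * ch τ (0 - m k) ^ (j' : ℕ)) = ((r ^ 2 * (c j * c j') : ℝ) : ℂ) *
        (conj ((ch τ (0 - Real.pi / τ) * ζ ^ (k : ℕ)) ^ (j : ℕ)) *
          (ch τ (0 - Real.pi / τ) * ζ ^ (k : ℕ)) ^ (j' : ℕ)) := fun k => by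
      rw [map_mul, Complex.conj_ofReal, hz]
      push_cast
      ring
    simp only [e, ← mul_sum, orth hζ (ch_unit _ _)]
    split_ifs with h
    · subst h
      rw [r2, ← Complex.ofReal_natCast, ← Complex.ofReal_mul]
      congr 1
      field_simp
    · simp
  · have e : ∀ k : Fin N, ∑ j : Fin N, ((r * c j : ℝ) : ℂ) * ch τ (0 - m k) ^ (j : ℕ) *
        ch ((j : ℕ) * τ) s = ∑ j ∈ range N, ((r * c j : ℝ) : ℂ) * ch τ (s - m k) ^ j := fun k => by
      rw [← Fin.sum_univ_eq_sum_range (fun j => ((r * c j : ℝ) : ℂ) * ch τ (s - m k) ^ j)]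
      refine sum_congr rfl fun j _ => ?_
      rw [ch_pow, mul_assoc, ← mul_pow, ← ch_add, show 0 - m k + s = s - m k by ring]
    have P := parseval hζ (ch_unit τ (s - Real.pi / τ)) fun j => r * c j - r * c (j - 1)
    have hb : N * ∑ j : Fin N, (r * c j - r * c (j - 1)) ^ 2 ≤ N / Z := by
      have h1 : ∀ j : Fin N, (r * c j - r * c (j - 1)) ^ 2 ≤ r ^ 2 := fun j => by
        have h2 : c j ≤ c (j - 1) + 1 := by simp only [hc]; norm_cast; omega
        have h3 : c (j - 1) ≤ c j + 1 := by simp only [hc]; norm_cast; omega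
        rw [← mul_sub, mul_pow]
        exact mul_le_of_le_one_right (sq_nonneg r) (by nlinarith)
      refine (mul_le_mul_of_nonneg_left (sum_le_sum fun j _ => h1 j) N0.le).trans (le_of_eq ?_)
      rw [sum_const, card_univ, Fintype.card_fin, nsmul_eq_mul, r2]
      field_simp
    have hk : ∀ k : Fin N, τ ^ 2 / 4 * (‖∑ j ∈ range N, ((r * c j : ℝ) : ℂ) *
        ch τ (s - m k) ^ j‖ ^ 2 * min ((s - m k) ^ 2) 1) ≤
        ‖∑ j : Fin N, ((r * c j - r * c (j - 1) : ℝ) : ℂ) *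
          (ch τ (s - Real.pi / τ) * ζ ^ (k : ℕ)) ^ (j : ℕ)‖ ^ 2 := fun k => by
      have h1 := shift (fun j => r * c j) (ch τ (s - m k)) (4 * q)
      have h2 : c 0 = 0 := by simp [hc]
      have h3 : c (4 * q) = 0 := by simp [hc]
      simp only [h2, h3, mul_zero, Complex.ofReal_zero, zero_mul, add_zero, sub_zero] at h1
      rw [← hz, Fin.sum_univ_eq_sum_range
        (fun j => ((r * c j - r * c (j - 1) : ℝ) : ℂ) * ch τ (s - m k) ^ j), ← h1, norm_mul, mul_pow,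
        mul_left_comm, mul_comm (‖1 - _‖ ^ 2)]
      refine mul_le_mul_of_nonneg_left (lower τ0 τ1 ?_) (sq_nonneg _)
      have h4 : τ * (s - m k) = τ * s - Real.pi + (k : ℕ) * (2 * Real.pi / N) := by
        rw [hm]; field_simp; ring
      have h5 : τ * |s| ≤ 1 := by
        have h6 : τ * (l * (|R| + 1)) ≤ l := (mul_le_mul_of_nonneg_left hq τ0.le).trans τq.le
        have h7 := mul_le_mul_of_nonneg_left (hs.trans (le_abs_self R)) τ0.le
        nlinarith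
      have h6 : ((k : ℕ) : ℝ) * (2 * Real.pi / N) ≤ 2 * Real.pi := by
        rw [mul_div_assoc', div_le_iff₀ N0]
        have : ((k : ℕ) : ℝ) ≤ N := by exact_mod_cast k.2.le
        nlinarith [Real.pi_pos]
      have h7 : 0 ≤ ((k : ℕ) : ℝ) * (2 * Real.pi / N) := by have := Real.pi_pos; positivity
      have h8 := mul_le_mul_of_nonneg_left (le_abs_self s) τ0.le
      have h9 := mul_le_mul_of_nonneg_left (neg_abs_le s) τ0.le
      rw [h4, abs_le]
      constructor <;> linarith [Real.two_le_pi]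
    have h1 := sum_le_sum fun k (_ : k ∈ univ) => hk k
    rw [← mul_sum, P] at h1
    simp only [e]
    refine le_of_mul_le_mul_left ((h1.trans hb).trans ?_) (show 0 < τ ^ 2 / 4 by positivity)
    rw [div_le_iff₀ Z0]
    have h2 : (N : ℝ) ≤ 5 * q := by rw [hN]; push_cast; linarith
    have h3 : 20 ≤ l * θ := by rw [hl, add_mul, div_mul_cancel₀ _ hθ.ne']; linarith
    have h4 : τ ^ 2 / 4 * θ * q ^ 3 = l * (l * θ) * q / 4 := by rw [← τq]; ring
    have h5 := mul_le_mul_of_nonneg_left Zq (show 0 ≤ τ ^ 2 / 4 * θ by positivity)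
    have h6 : 20 * q ≤ l * (l * θ) * q := mul_le_mul_of_nonneg_right (by nlinarith) (by positivity)
    linarith

end Vale.Agent.P132
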