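import Vale.Agent.P132.FinB
import Vale.Agent.P132.HB
import Vale.Agent.P132.Win

open scoped InnerProductSpace ComplexConjugate

namespace Vale.Agent.P132

variable {H : Type*} [NormedAddCommGroup H] [InnerProductSpace ℂ H] [CompleteSpace H]

namespace FinAux

open Mod MeasureTheory Filter Topology

lemma avg_le {J : Type*} [Fintype J] {h : J → ℝ} (h0 : ∀ j, 0 ≤ h j) (h1 : ∑ j, h j = 1)
    {x : J → ℂ} {c : ℂ} {B : ℝ} (hx : ∀ j, ‖x j - c‖ ≤ B) : ‖∑ j, h j * x j - c‖ ≤ B := by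
  have e : ∑ j, h j * x j - c = ∑ j, h j * (x j - c) := by
    simp only [mul_sub, Finset.sum_sub_distrib, ← Finset.sum_mul, ← Complex.ofReal_sum, h1]
    simp
  rw [e, ← one_mul B, ← h1, Finset.sum_mul]
  refine (norm_sum_le _ _).trans (Finset.sum_le_sum fun j _ => ?_)
  rw [norm_mul, Complex.norm_real, Real.norm_of_nonneg (h0 j)]
  exact mul_le_mul_of_nonneg_left (hx j) (h0 j)

variable {D : Mod H}

lemma F_sum {J : Type*} (s : Finset J) (u : J → ℂ) (t : J → ℝ) :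
    Cb (fun x => ∑ j ∈ s, u j * ch (t j) x) ∧
      ∀ η, D.F (fun x => ∑ j ∈ s, u j * ch (t j) x) η = ∑ j ∈ s, u j • D.V (t j) η := by
  classical
  induction s using Finset.induction_on with
  | empty => simpa [D.F_const] using Cb.const 0
  | insert j s hj ih =>
    simp only [Finset.sum_insert hj]
    refine ⟨((Cb.const _).mul (.ch _)).add ih.1, fun η => ?_⟩
    rw [D.F_add ((Cb.const _).mul (.ch _)) ih.1, D.F_smul _ (.ch _), add_apply, ih.2]
    rfl

lemma spread (C : D.Core) {a : H →L[ℂ] H} (ha : a ∈ C.N) (h0 : ⟪D.ξ, a D.ξ⟫_ℂ = 0)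
    (hc : Continuous fun t => D.σ t a) {ρ : ℝ} (hρ : 0 < ρ) :
    ∃ (ι : Type) (_ : Fintype ι) (m : ι → ℝ) (z : ι → H →L[ℂ] H), (∀ i, z i ∈ C.N) ∧ Col 1 z ∧
      (∀ y ∈ C.N, ‖∑ i, ⟪z i D.ξ, y (z i D.ξ)⟫_ℂ - ⟪D.ξ, y D.ξ⟫_ℂ‖ ≤ ρ ^ 2 * ‖y‖) ∧
      ‖∑ i, ⟪a (z i D.ξ), z i (a D.ξ)⟫_ℂ‖ ≤ ρ ^ 2 + 2 * ρ * ‖a‖ ∧
      nn (fun i => D.F (qq (m i)) (z i D.ξ)) ≤ ρ := by
  obtain ⟨L, -, hW⟩ := window (show 0 < ρ ^ 2 / 2 by positivity)
  obtain ⟨T, -, hT⟩ := (isCompact_Icc (a := 0) (b := L)).elim_nhds_subcover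
    (fun t => {t' | ‖D.σ (-t') a - D.σ (-t) a‖ < ρ}) fun t _ =>
      (isOpen_lt (by fun_prop) continuous_const).mem_nhds (by simpa using hρ)
  obtain ⟨ι, _, v, vN, v1, v2, v3⟩ := coarse C.N (fac C) D.ξ D.unit
    (fun k : T => star (D.σ (-k) a)) (fun k => star_mem (C.σ_N a ha _))
    (fun k => D.σ (-k) a D.ξ) (show 0 < ρ ^ 2 by positivity)
  have c1 : Col 1 v := fun η => nn_le (by positivity) (by simpa using v1 η)
  obtain ⟨n, hn⟩ : ∃ n : ℕ,
      nn (fun i => v i D.ξ - D.F (bump 0 (n + 1)) (v i D.ξ)) ^ 2 ≤ ρ ^ 2 / 2 := by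
    have := (nn_tendsto (l := atTop) (u := fun _ => (0 : H))
      (v := fun (n : ℕ) i => v i D.ξ - D.F (bump 0 (n + 1)) (v i D.ξ)) fun i => by
      simpa using (tendsto_const_nhds (x := v i D.ξ)).sub (D.cut_tendsto (v i D.ξ))).pow 2
    rw [nn_sq] at this
    exact (this.eventually_le_const (by simpa using pow_pos hρ 2)).exists
  obtain ⟨K, J, _, _, _, t, m, u, h, w1, w2, w3, w4, w5⟩ := hW (n + 1)
  have par : ∀ X Y : ι → J → H, ∑ p : ι × K, ⟪∑ j, u p.2 j • X p.1 j, ∑ j, u p.2 j • Y p.1 j⟫_ℂ =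
      ∑ j, h j * ∑ i, ⟪X i j, Y i j⟫_ℂ := fun X Y => by
    simp only [Fintype.sum_prod_type, parseval w4, Finset.mul_sum]
    exact Finset.sum_comm
  refine ⟨ι × K, inferInstance, fun p => m p.2, fun p => ∑ j, u p.2 j • D.σ (t j) (v p.1),
    fun p => sum_mem fun j _ => vsmul _ (C.σ_N _ (vN _) _), fun η => ?_, fun y hy => ?_, ?_, ?_⟩
  · refine nn_le (by positivity) ?_
    simp only [Fintype.sum_prod_type, sum_apply, smul_apply, parseval_sq w4]
    rw [Finset.sum_comm, one_mul, ← one_mul (‖η‖ ^ 2), ← w3, Finset.sum_mul]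
    refine Finset.sum_le_sum fun j _ => ?_
    rw [← Finset.mul_sum]
    refine mul_le_mul_of_nonneg_left ?_ (w2 j)
    simpa [σ_apply] using v1 (D.V (-t j) η)
  · simp only [sum_apply, smul_apply, map_sum, map_smul]
    rw [par (fun i j => D.σ (t j) (v i) D.ξ) fun i j => y (D.σ (t j) (v i) D.ξ)]
    refine avg_le w2 w3 fun j => ?_
    have := (v2 _ (C.σ_N y hy (-t j))).trans
      (mul_le_mul_of_nonneg_left (D.σ_le _ _) (by positivity))
    simpa [σ_apply, ← V_inner] using this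
  · simp only [sum_apply, smul_apply, map_sum, map_smul]
    rw [par (fun i j => a (D.σ (t j) (v i) D.ξ)) fun i j => D.σ (t j) (v i) (a D.ξ),
      ← sub_zero (∑ j, _)]
    refine avg_le w2 w3 fun j => ?_
    obtain ⟨k, hk, hk'⟩ := Set.mem_iUnion₂.1 (hT (w1 j))
    have h1 := v3 ⟨k, hk⟩
    have h2 : ⟪D.ξ, D.σ (-k) a D.ξ⟫_ℂ = 0 := by rw [σ_ξ, ← V_inner, V_ξ, h0]
    simp only [h2, mul_zero, sub_zero, inner_star_right] at h1
    have h3 := D.σ_le (-k) a
    have h4 := D.σ_le (-t j) a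
    have e : ∀ i, ⟪a (D.σ (t j) (v i) D.ξ), D.σ (t j) (v i) (a D.ξ)⟫_ℂ =
        ⟪D.σ (-t j) a (v i D.ξ), v i (D.σ (-t j) a D.ξ)⟫_ℂ := fun i => by
      simp [σ_apply, V_inner]
    simp only [e, sub_zero]
    change ‖_ - _‖ < ρ at hk'
    generalize D.σ (-t j) a = b at *
    generalize D.σ (-k) a = b' at *
    have e2 : ∑ i, ⟪b (v i D.ξ), v i (b D.ξ)⟫_ℂ = ∑ i, ⟪b' (v i D.ξ), v i (b' D.ξ)⟫_ℂ +
        (∑ i, ⟪(b - b') (v i D.ξ), v i (b D.ξ)⟫_ℂ + ∑ i, ⟪b' (v i D.ξ), v i ((b - b') D.ξ)⟫_ℂ) := by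
      simp only [← Finset.sum_add_distrib, sub_apply, map_sub, inner_sub_left, inner_sub_right]
      exact Finset.sum_congr rfl fun i _ => by ring
    have h5 : ∀ x : H →L[ℂ] H, nn (fun i => x (v i D.ξ)) ≤ ‖x‖ := fun x =>
      (nn_mono (norm_nonneg x) fun i => x.le_opNorm _).trans
        (mul_le_of_le_one_right (norm_nonneg _) (by simpa [D.unit] using c1 D.ξ))
    have h6 : ∀ x : H →L[ℂ] H, nn (fun i => v i (x D.ξ)) ≤ ‖x‖ := fun x =>
      (c1 _).trans (by simpa [D.unit] using x.le_opNorm D.ξ)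
    have h7 := (nn_inner _ _).trans (mul_le_mul ((h5 (b - b')).trans hk'.le) ((h6 b).trans h4)
      (nn_nonneg _) hρ.le)
    have h8 := (nn_inner _ _).trans (mul_le_mul ((h5 b').trans h3) ((h6 (b - b')).trans hk'.le)
      (nn_nonneg _) (norm_nonneg _))
    rw [e2]
    refine (norm_add_le _ _).trans ((add_le_add h1 (norm_add_le _ _)).trans ?_)
    linarith
  · have hb := Cb.bump 0 (show (0 : ℝ) < n + 1 by positivity)
    have hp := fun k => F_sum (D := D) Finset.univ (u k) t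
    refine nn_le hρ.le ?_
    simp only [Fintype.sum_prod_type, sum_apply, smul_apply, σ_ξ, ← (hp _).2,
      ← D.F_mul_apply (cb_qq _) (hp _).1]
    have h1 : ∀ η, ∑ k, ‖D.F (fun s => qq (m k) s * ∑ j, u k j * ch (t j) s) η‖ ^ 2 ≤
        ρ ^ 2 / 2 * ‖η‖ ^ 2 + ‖η - D.F (bump 0 (n + 1)) η‖ ^ 2 := fun η => by
      have i1 := fun k => D.int_sq ((cb_qq (m k)).mul (hp k).1) η
      have i2 := D.int_sq ((Cb.const 1).sub hb) η
      have i3 := (D.int_sq (Cb.const 1) η).const_mul (ρ ^ 2 / 2)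
      have e1 := D.F_sq ((Cb.const 1).sub hb) η
      have e2 := D.F_sq (Cb.const 1) η
      rw [D.F_sub (.const 1) hb, sub_apply] at e1
      rw [D.F_one, one_apply_eq_self] at e1 e2
      simp only [D.F_sq ((cb_qq (m _)).mul (hp _).1)]
      rw [e1, e2, ← integral_finsetSum _ fun k _ => i1 k, ← integral_const_mul,
        ← integral_add i3 i2]
      refine integral_mono (integrable_finsetSum _ fun k _ => i1 k) (i3.add i2) fun s => ?_
      have e3 : ∀ k, ‖qq (m k) s * ∑ j, u k j * ch (t j) s‖ ^ 2 =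
          ‖∑ j, u k j * ch (t j) s‖ ^ 2 * min ((s - m k) ^ 2) 1 := fun k => by
        rw [norm_mul, mul_pow, mul_comm, norm_qq]
        congr 1
        rcases le_total |s - m k| 1 with h | h
        · rw [min_eq_left h, sq_abs, min_eq_left ((sq_le_one_iff_abs_le_one _).2 h)]
        · rw [min_eq_right h, min_eq_right ((one_le_sq_iff_one_le_abs _).2 h), one_pow]
      simp only [e3, norm_one, one_pow, mul_one]
      rcases le_total |s| (n + 1) with hs | hs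
      · exact (w5 s hs).trans (le_add_of_nonneg_right (by positivity))
      · have e4 := parseval_sq (H := ℂ) w4 fun j => ch (t j) s
        simp only [smul_eq_mul, norm_ch, one_pow, mul_one, w3] at e4
        rw [bump_zero (by positivity) (by simpa using hs), sub_zero, norm_one, one_pow]
        refine le_add_of_nonneg_of_le (by positivity) ((Finset.sum_le_sum fun k _ => ?_).trans e4.le)
        exact mul_le_of_le_one_right (by positivity) (min_le_right _ _)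
    refine (Finset.sum_le_sum fun i _ => h1 (v i D.ξ)).trans ?_
    have h2 := v1 D.ξ
    rw [D.unit] at h2
    rw [Finset.sum_add_distrib, ← Finset.mul_sum, ← nn_sq fun i => _ - _]
    nlinarith

lemma zero_of_cont (C : D.Core) (h : ∀ a ∈ C.N, ∀ m, D.Rel m a a) {a : H →L[ℂ] H} (ha : a ∈ C.N)
    (h0 : ⟪D.ξ, a D.ξ⟫_ℂ = 0) (hc : Continuous fun t => D.σ t a) : a D.ξ = 0 := by
  have aM := le_M C ha
  suffices h1 : ‖a D.ξ‖ ^ 2 ≤ 0 by simpa using h1
  refine le_of_small (K := 3 * ‖a‖) one_pos fun ε ε0 _ => ?_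
  obtain ⟨y, hy, y1⟩ := D.exists_r (a D.ξ) ε0
  refine le_of_small (K := ‖a‖ * (‖a‖ + ‖y‖)) one_pos fun l l0 l1 => ?_
  obtain ⟨P, P0, hP⟩ := K4 C h ha (mul_pos l0 ε0)
  refine le_of_small (K := ‖a‖ ^ 2 + 1 + 2 * ‖a‖ + ‖a‖ * (6 * P + 6 * (‖a‖ + ‖y‖))) one_pos
    fun ρ ρ0 ρ1 => ?_
  obtain ⟨ι, _, m, z, zN, z1, z2, z3, z4⟩ := spread C ha h0 hc ρ0
  obtain ⟨x, xN, x1, x2, x3⟩ := smooth C m zN z1 ρ0
  obtain ⟨f, f1, f2, f3, f4, f5⟩ :=
    trunc (w := fun i => (l : ℂ) • x i) (fun i => vsmul _ (le_M C (xN i))) m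
  have fN := f1 _ fun i => vsmul (l : ℂ) (xN i)
  have hl : ‖(l : ℂ)‖ = l := by simp [l0.le]
  have z5 : ∀ b ∈ C.N, |nn (fun i => b (z i D.ξ)) ^ 2 - ‖b D.ξ‖ ^ 2| ≤ ρ ^ 2 * ‖b‖ ^ 2 := by
    intro b hb
    have := (Complex.abs_re_le_norm _).trans (z2 _ (mul_mem (star_mem hb) hb))
    rwa [Complex.sub_re, Complex.re_sum, CStarRing.norm_star_mul_self, ← sq, ← norm_sq_apply,
      Finset.sum_congr rfl fun i _ => (norm_sq_apply b (z i D.ξ)).symm, ← nn_sq] at this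
  have c1 : Col 1 fun i => f * x i := fun η => (nn_le_one fun i => f2 _).trans (x1 η)
  have a1 := hP ι m (fun i => f * ((l : ℂ) • x i)) (fun i => mul_mem fN (vsmul _ (xN i)))
    (fun η => by
      simp only [mul_smul_comm, smul_apply]
      rw [nn_smul, hl]
      exact (mul_le_of_le_one_left (nn_nonneg _) l1).trans (c1 η)) f3
  simp only [cc_smul] at f5
  rw [nn_smul, hl] at f5
  have a2 : nn (fun i => a (f (x i D.ξ)) - f (x i (a D.ξ))) ≤ ε + 6 * P * ρ := by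
    simp only [mul_smul_comm, smul_apply, map_smul, ← smul_sub, mul_apply_eq_comp] at a1 f5
    rw [nn_smul, hl] at a1
    refine le_of_mul_le_mul_left (a1.trans ?_) l0
    have := mul_le_mul_of_nonneg_left (show nn (fun i => D.cc (m i) (x i)) ≤ 2 * ρ by linarith) l0.le
    nlinarith [mul_le_mul_of_nonneg_left f5 P0]
  have a3 : ‖D.ξ - f D.ξ‖ ≤ l + 2 * ρ := by
    refine f4.trans ?_
    have e : ∀ i, ‖fl (m i) ((l : ℂ) • x i) D.ξ‖ = ‖(l : ℂ) • (x i D.ξ + D.cc (m i) (x i))‖ :=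
      fun i => by rw [norm_fl_ξ, cc, add_sub_cancel, r_smul, smul_apply, smul_comm]
    rw [nn_congr e, nn_smul, hl]
    have h1 := nn_add (fun i => x i D.ξ) fun i => D.cc (m i) (x i)
    have h2 := x1 D.ξ
    rw [D.unit] at h2
    nlinarith
  have a4 : nn (fun i => z i D.ξ - f (x i D.ξ)) ≤ l + 6 * ρ := by
    have h1 := (abs_le.1 (z5 _ (sub_mem (one_mem _) fN))).2
    have h2 : ‖1 - f‖ ≤ 2 := ContinuousLinearMap.opNorm_le_bound _ zero_le_two fun ζ =>
      (norm_sub_le ζ (f ζ)).trans (by linarith [f2 ζ])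
    simp only [sub_apply, one_apply_eq_self] at h1
    have h3 : nn (fun i => z i D.ξ - f (z i D.ξ)) ≤ ‖D.ξ - f D.ξ‖ + 2 * ρ := by
      refine le_of_sq_le_sq ?_ (by positivity)
      have := mul_le_mul_of_nonneg_left (pow_le_pow_left₀ (norm_nonneg _) h2 2) (sq_nonneg ρ)
      nlinarith [norm_nonneg (D.ξ - f D.ξ)]
    have h4 : nn (fun i => z i D.ξ - f (x i D.ξ) - (z i D.ξ - f (z i D.ξ))) ≤
        nn fun i => z i D.ξ - x i D.ξ := nn_le_one fun i => by
      rw [sub_sub_sub_cancel_left, ← map_sub]; exact f2 _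
    linarith [nn_tri (fun i => z i D.ξ - f (x i D.ξ)) fun i => z i D.ξ - f (z i D.ξ)]
  have a5 : nn (fun i => a (z i D.ξ) - z i (a D.ξ)) ≤
      ε + 6 * P * ρ + ((‖a‖ + ‖y‖) * (l + 6 * ρ) + 2 * ε) := by
    refine (nn_tri _ fun i => a (f (x i D.ξ)) - f (x i (a D.ξ))).trans (add_le_add a2 ?_)
    set θ := a D.ξ - D.r y D.ξ
    have e : ∀ i, a (z i D.ξ) - z i (a D.ξ) - (a (f (x i D.ξ)) - f (x i (a D.ξ))) =
        (a (z i D.ξ - f (x i D.ξ)) - D.r y (z i D.ξ - f (x i D.ξ))) - (z i θ - f (x i θ)) := by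
      intro i
      simp only [θ, map_sub, r_comm (le_M C (zN i)) hy, r_comm (le_M C (xN i)) hy,
        r_comm (le_M C fN) hy]
      abel
    simp only [e]
    refine (nn_sub _ _).trans (add_le_add ((nn_mono (by positivity) fun i =>
      (norm_sub_le _ _).trans ((add_le_add (a.le_opNorm _) (D.r_le y _)).trans_eq
        (add_mul _ _ _).symm)).trans (by gcongr)) ((nn_sub _ _).trans ?_))
    have h1 := c1 θ
    simp only [mul_apply_eq_comp] at h1
    linarith [z1 θ]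
  have a6 : nn (fun i => a (z i D.ξ)) ≤ ‖a‖ :=
    (nn_mono (norm_nonneg a) fun i => a.le_opNorm _).trans
      (mul_le_of_le_one_right (norm_nonneg _) (by simpa [D.unit] using z1 D.ξ))
  have a7 : nn (fun i => a (z i D.ξ)) ^ 2 = (∑ i, ⟪a (z i D.ξ), z i (a D.ξ)⟫_ℂ).re +
      (∑ i, ⟪a (z i D.ξ), a (z i D.ξ) - z i (a D.ξ)⟫_ℂ).re := by
    simp only [← Complex.add_re, ← Finset.sum_add_distrib, ← inner_add_right, add_sub_cancel]
    simp only [nn_sq, sq_eq_re, Complex.re_sum]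
  have a8 := (Complex.re_le_norm _).trans ((nn_inner _ _).trans
    (mul_le_mul a6 a5 (nn_nonneg _) (norm_nonneg _)))
  have a9 := (Complex.re_le_norm _).trans z3
  have a10 := (abs_le.1 (z5 a ha)).1
  have a11 : ρ ^ 2 ≤ ρ := by nlinarith
  nlinarith [mul_le_mul_of_nonneg_right a11 (sq_nonneg ‖a‖)]

lemma zero_of (C : D.Core) (h : ∀ a ∈ C.N, ∀ m, D.Rel m a a) {a : H →L[ℂ] H} (ha : a ∈ C.N)
    (h0 : ⟪D.ξ, a D.ξ⟫_ℂ = 0) : a D.ξ = 0 := by
  choose S S1 S2 S3 using exists_sint (D.σ_cont a) (fun t => D.σ_le t a)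
  have i1 := fun η u u' => (D.σ_cont a η).intervalIntegrable (μ := volume) u u'
  have e1 : ∀ u u', S 0 u' - S 0 u = S u u' := fun u u' => by
    ext η
    rw [sub_apply, S1, S1, S1, intervalIntegral.integral_interval_sub_left (i1 ..) (i1 ..)]
  have e2 : ∀ u b, D.σ u (S 0 b) = S 0 (u + b) - S 0 u := fun u b => by
    ext η
    rw [e1, S1, σ_apply, S1, ← (D.V u).intervalIntegral_comp_comm (i1 ..)]
    simp only [← σ_apply, σ_σ]
    rw [intervalIntegral.integral_comp_add_left (fun t => D.σ t a η), add_zero]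
  have c1 : Continuous (S 0) := (LipschitzWith.of_dist_le_mul (K := ‖a‖₊) fun u u' => by
    rw [dist_eq_norm, e1]; exact S2 _ _).continuous
  have h1 : ∀ b, ∫ t in (0 : ℝ)..b, D.σ t a D.ξ = 0 := fun b => by
    rw [← S1]
    refine zero_of_cont C h (S3 _ _ _ (C.σ_N a ha)) ?_ (by simp only [e2]; fun_prop)
    rw [S1, ← innerSL_apply_apply, ← (innerSL ℂ D.ξ).intervalIntegral_comp_comm (i1 ..)]
    simp [show ∀ t, ⟪D.ξ, D.V t (a D.ξ)⟫_ℂ = 0 from fun t => by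
      rw [← h0, ← D.V_inner_V t D.ξ (a D.ξ), V_ξ]]
  have h2 := (D.σ_cont a D.ξ).deriv_integral _ 0 0
  simp only [h1] at h2
  simpa using h2.symm

end FinAux

/-- If the bicentralizer flow is trivial, the bicentralizer is trivial. -/
theorem Mod.Core.scalar {D : Mod H} (C : D.Core) (h : ∀ a ∈ C.N, ∀ m, D.Rel m a a)
    {a : H →L[ℂ] H} (ha : a ∈ C.N) : ∃ c : ℂ, a = c • 1 := by
  have h1 := FinAux.zero_of C h (sub_mem ha (vsmul ⟪D.ξ, a D.ξ⟫_ℂ (one_mem _)))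
    (by simp [inner_sub_right, inner_smul_right, D.unit])
  exact ⟨_, Mod.sep (FinAux.le_M C ha) (vsmul _ (one_mem _)) (sub_eq_zero.1 h1)⟩

end Vale.Agent.P132
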