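import Vale.Agent.P132.Core

/-! The bicentralizer is a factor; commutation with families of varying frequency. -/

open MeasureTheory Filter Topology
open scoped InnerProductSpace ComplexConjugate

namespace Vale.Agent.P132

variable {H : Type*} [NormedAddCommGroup H] [InnerProductSpace ℂ H] [CompleteSpace H]

namespace FinAux

open Mod

lemma le_of_small {X Y K r : ℝ} (hr : 0 < r) (h : ∀ δ, 0 < δ → δ ≤ r → X ≤ Y + δ * K) : X ≤ Y := by
  have h1 : Tendsto (fun δ : ℝ => Y + δ * K) (𝓝[>] 0) (𝓝 (Y + 0 * K)) :=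
    (Continuous.tendsto (by fun_prop) _).mono_left nhdsWithin_le_nhds
  rw [zero_mul, add_zero] at h1
  exact ge_of_tendsto h1 (by filter_upwards [Ioc_mem_nhdsGT hr] with δ hδ using h δ hδ.1 hδ.2)

lemma le_nn {E ι : Type*} [NormedAddCommGroup E] [Fintype ι] (v : ι → E) (i : ι) : ‖v i‖ ≤ nn v :=
  PiLp.norm_apply_le (WithLp.toLp 2 v : PiLp 2 fun _ : ι => E) i

lemma nn_small {E ι : Type*} [NormedAddCommGroup E] [Fintype ι] {v : ι → E} {δ : ℝ} (h0 : 0 ≤ δ)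
    (h : ∀ i, ‖v i‖ ≤ δ) : nn v ≤ δ * nn fun _ : ι => (1 : ℝ) :=
  nn_mono h0 (by simpa using h)

variable {D : Mod H}

lemma le_M (C : D.Core) {a : H →L[ℂ] H} (ha : a ∈ C.N) : a ∈ D.M := ((C.mem_N a).1 ha).1

lemma F_zero_of {f g : ℝ → ℂ} (hf : Cb f) (hg : Cb g) (h : ∀ s, f s = 0 → g s = 0) {η : H}
    (h0 : D.F f η = 0) : D.F g η = 0 := by
  have h1 := D.F_sq hf η
  rw [h0, norm_zero, zero_pow two_ne_zero] at h1
  have h2 := (integral_eq_zero_iff_of_nonneg (fun s => by positivity) (D.int_sq hf η)).1 h1.symm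
  rw [← norm_eq_zero, ← pow_eq_zero_iff two_ne_zero, D.F_sq hg]
  refine integral_eq_zero_of_ae ?_
  filter_upwards [h2] with s hs
  simp only [Pi.zero_apply, ne_eq, OfNat.ofNat_ne_zero, not_false_eq_true, pow_eq_zero_iff,
    norm_eq_zero] at hs ⊢
  exact h s hs

lemma inner_FF {f g : ℝ → ℂ} (hf : Cb f) (hg : Cb g) (η ζ : H) :
    ⟪D.F f η, D.F g ζ⟫_ℂ = ⟪η, D.F (fun s => conj (f s) * g s) ζ⟫_ℂ := by
  rw [D.F_mul_apply hf.star hg, D.F_star hf, inner_star_right]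

theorem fac (C : D.Core) (z : H →L[ℂ] H) (hz : z ∈ C.N) (hz' : z ∈ C.N.commutant) :
    ∃ c : ℂ, z = c • 1 := by
  have zM := le_M C hz
  have h1 : ∀ y ∈ C.N, ⟪z D.ξ, y D.ξ⟫_ℂ = ⟪D.r z D.ξ, D.r y D.ξ⟫_ℂ := fun y hy => by
    rw [D.r_ξ, D.r_ξ, D.Jinner, inner_star_left, comm_of_mem hy (star_mem hz'), inner_star_right]
  have h2 : ∀ g, Cb g → ⟪z D.ξ, D.F g (z D.ξ)⟫_ℂ = ⟪D.r z D.ξ, D.F g (D.r z D.ξ)⟫_ℂ := by
    intro g hg
    obtain ⟨y, y1, y2, y3⟩ := D.approx C.N.toStarSubalgebra.toSubalgebra.toSubmodule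
      (fun t x hx => C.σ_N x hx t) hz hg
    exact tendsto_nhds_unique (tendsto_const_nhds.inner y2)
      ((tendsto_const_nhds.inner y3).congr fun n => (h1 _ (y1 n)).symm)
  have h3 : ∀ w, 0 < w → D.F (fun s => (1 - Real.exp s : ℂ) * bump 0 w s) (z D.ξ) = 0 := by
    intro w hw
    have c1 := Cb.bump 0 hw
    have c2 : Cb fun s => (1 - Real.exp s : ℂ) * bump 0 w s := .mul_bump (by fun_prop) 0 hw
    have c3 : Cb fun s => (Real.exp (s / 2) : ℂ) * bump 0 w s := .mul_bump (by fun_prop) 0 hw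
    have c4 : Cb fun s => (Real.exp (s / 2) : ℂ) * ((1 - Real.exp s : ℂ) * bump 0 w s) := by
      simpa only [← mul_assoc] using Cb.mul_bump
        (g := fun s => (Real.exp (s / 2) : ℂ) * (1 - Real.exp s : ℂ)) (by fun_prop) 0 hw
    have h4 := h2 _ (c1.star.mul c2)
    rw [← inner_FF c1 c2 (D.r z D.ξ), F_r zM c1 c3, F_r zM c2 c4, inner_FF c3 c4,
      ← sub_eq_zero, ← inner_sub_right, ← sub_apply, ← D.F_sub (c1.star.mul c2) (c3.star.mul c4)]
      at h4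
    rw [← inner_self_eq_zero (𝕜 := ℂ), inner_FF c2 c2, ← h4]
    congr 3
    ext s
    have e : (Real.exp s : ℂ) = Real.exp (s / 2) * Real.exp (s / 2) := by
      rw [← Complex.ofReal_mul, ← Real.exp_add, add_halves]
    simp only [map_mul, map_sub, map_one, Complex.conj_ofReal]
    rw [e]
    ring
  have h4 : ∀ t, D.V t (z D.ξ) = z D.ξ := fun t => D.eq_of_cut fun w hw => by
    have := F_zero_of (D := D) (g := fun s => bump 0 w s * ch t s - bump 0 w s)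
      (.mul_bump (g := fun s => (1 - Real.exp s : ℂ)) (by fun_prop) 0 hw)
      (((Cb.bump 0 hw).mul (.ch t)).sub (.bump 0 hw)) (fun s hs => by
        rcases mul_eq_zero.1 hs with h | h
        · rw [sub_eq_zero, ← Complex.ofReal_one, Complex.ofReal_inj, eq_comm,
            Real.exp_eq_one_iff] at h
          simp [h]
        · simp [h]) (h3 w hw)
    rwa [D.F_sub ((Cb.bump 0 hw).mul (.ch t)) (.bump 0 hw), sub_apply, sub_eq_zero,
      D.F_mul_apply (.bump 0 hw) (.ch t)] at this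
  refine C.erg z (mem_fix.2 ⟨hz, fun t η => ?_⟩)
  have h5 : D.σ t z = z := sep (σ_mem zM t) zM (by rw [σ_ξ, h4])
  conv_rhs => rw [← h5]
  simp [σ_apply]

lemma fam_vec {m : ℝ} {a : H →L[ℂ] H} (hR : D.Rel m a a) (η : H) {ε : ℝ} (hε : 0 < ε) :
    ∃ δ > 0, ∀ (κ : Type) [Fintype κ] (u : κ → H →L[ℂ] H), (∀ j, u j ∈ D.M) → Col 1 u →
      Col 1 (fun j => fl m (u j)) → nn (fun j => D.cc m (u j)) ≤ δ →
      nn (fun j => a (u j η) - u j (a η)) ≤ ε := by
  obtain ⟨y, hy, h1⟩ := D.exists_r η (show 0 < ε / (4 * (‖a‖ + 1)) by positivity)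
  obtain ⟨P, P0, hP⟩ := hR.fam one_pos (show 0 < ε / (4 * (‖y‖ + 1)) by positivity)
  refine ⟨ε / (4 * (‖y‖ + 1)) / (P + 1), by positivity, fun κ _ u uM c1 c2 hc => ?_⟩
  have h2 := hP κ u uM c1 (by simpa [D.unit] using c2.col_le zero_le_one D.ξ)
  set θ := η - D.r y D.ξ
  have e : ∀ j, a (u j η) - u j (a η) =
      D.r y (a (u j D.ξ) - u j (a D.ξ)) + (a (u j θ) - u j (a θ)) := fun j => by
    simp only [θ, map_sub, r_comm (uM j) hy, r_comm hR.1 hy]
    abel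
  simp only [e]
  have h3 : nn (fun j => D.r y (a (u j D.ξ) - u j (a D.ξ))) ≤ _ :=
    nn_mono (norm_nonneg y) fun j => D.r_le y _
  have h4 : nn (fun j => a (u j θ)) ≤ _ := nn_mono (norm_nonneg a) fun j => a.le_opNorm _
  have h5 := c1 θ
  have h6 := c1 (a θ)
  have h7 := a.le_opNorm θ
  refine (nn_add _ _).trans ((add_le_add h3 (nn_sub _ _)).trans ?_)
  rw [le_div_iff₀ (by positivity)] at h1 hc
  set τ := ε / (4 * (‖y‖ + 1))
  have h8 : τ * (4 * (‖y‖ + 1)) = ε := div_mul_cancel₀ _ (by positivity)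
  have h9 : 0 ≤ τ := by positivity
  have h10 := mul_le_mul_of_nonneg_left
    (show nn (fun j => a (u j D.ξ) - u j (a D.ξ)) ≤ 2 * τ by
      nlinarith [nn_nonneg fun j => D.cc m (u j)]) (norm_nonneg y)
  have h11 := mul_le_mul_of_nonneg_left h5 (norm_nonneg a)
  nlinarith [norm_nonneg θ]

lemma col_near (η : H) {ε : ℝ} (hε : 0 < ε) :
    ∃ δ > 0, ∀ (κ : Type) [Fintype κ] (u : κ → H →L[ℂ] H), (∀ j, u j ∈ D.M) → Col 1 u →
      ‖col u D.ξ - D.ξ‖ ≤ δ → ‖col u η - η‖ ≤ ε := by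
  obtain ⟨L, L0, hL⟩ := D.sep_le η (show 0 < ε / 4 by positivity)
  refine ⟨ε / 2 / (L + 1), by positivity, fun κ _ u uM c1 hc => ?_⟩
  have h1 := hL _ (sub_mem (col_mem uM) (one_mem _))
  have h2 : ‖col u - 1‖ ≤ 2 := ContinuousLinearMap.opNorm_le_bound _ zero_le_two fun ζ =>
    (norm_sub_le (col u ζ) ζ).trans (by linarith [c1.col_le zero_le_one ζ])
  simp only [sub_apply, one_apply_eq_self] at h1
  rw [le_div_iff₀ (by positivity)] at hc
  nlinarith [norm_nonneg (col u D.ξ - D.ξ)]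

lemma good_ex (C : D.Core) {m : ℝ} {a Z : H →L[ℂ] H} (ha : D.Rel (-m) a a) (hZ : D.Rel m Z Z)
    (η θ : H) {ε : ℝ} (hε : 0 < ε) :
    ∃ (κ : Type) (_ : Fintype κ) (u : κ → H →L[ℂ] H), (∀ j, u j ∈ D.M) ∧ Col 1 u ∧
      nn (fun j => D.cc (-m) (u j)) ≤ ε ∧
      ‖∑ j, star (fl (-m) (u j)) (Z (fl (-m) (u j) D.ξ)) - Z D.ξ‖ ≤ 2 * ε ∧
      nn (fun j => a (u j η) - u j (a η)) ≤ ε ∧ ‖θ‖ ≤ nn (fun j => u j θ) + ε := by
  obtain ⟨δ1, d1, h1⟩ := fam_vec ha η hε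
  obtain ⟨δ2, d2, h2⟩ := fam_vec hZ D.ξ hε
  obtain ⟨δ3, d3, h3⟩ := col_near (D := D) θ hε
  obtain ⟨δ4, d4, h4⟩ := col_near (D := D) (Z D.ξ) hε
  obtain ⟨κ, _, u, uM, c1, c2, g1, g2, g3⟩ :=
    C.good (-m) (min (min ε δ1) (min δ2 (min δ3 δ4))) (by positivity)
  simp only [le_min_iff] at g1 g2 g3
  have e : ∀ j, fl m (fl (-m) (u j)) = u j := fun j => by simpa using fl_fl (-m) (u j)
  have e' : ∀ j, ‖D.cc m (fl (-m) (u j))‖ = ‖D.cc (-m) (u j)‖ := fun j => by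
    simpa using D.norm_cc_fl (-m) (u j)
  refine ⟨κ, inferInstance, u, uM, c1, g1.1.1, ?_, h1 κ u uM c1 c2 g1.1.2, ?_⟩
  · have h5 := h2 κ _ (fun j => fl_mem (-m) (uM j)) c2 (by simpa only [e] using c1)
      (by rw [nn_congr e']; exact g1.2.1)
    have h6 := h4 κ _ (fun j => fl_mem (-m) (uM j)) c2 g3.2.2.2
    have h7 := c2.row zero_le_one fun j => Z (fl (-m) (u j) D.ξ) - fl (-m) (u j) (Z D.ξ)
    simp only [map_sub, Finset.sum_sub_distrib, ← col_apply] at h7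
    linarith [norm_sub_le_norm_sub_add_norm_sub
      (∑ j, star (fl (-m) (u j)) (Z (fl (-m) (u j) D.ξ))) (col (fun j => fl (-m) (u j)) (Z D.ξ))
      (Z D.ξ)]
  · have h5 := h3 κ u uM c1 g2.2.2.1
    have h6 := c1.row zero_le_one fun j => u j θ
    rw [← col_apply] at h6
    linarith [norm_le_norm_add_norm_sub (col u θ) θ]

theorem K4 (C : D.Core) (h : ∀ a ∈ C.N, ∀ m, D.Rel m a a) {a : H →L[ℂ] H} (ha : a ∈ C.N)
    {ε : ℝ} (hε : 0 < ε) : ∃ P ≥ 0, ∀ (ι : Type) [Fintype ι] (m : ι → ℝ) (z : ι → H →L[ℂ] H),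
      (∀ i, z i ∈ C.N) → Col 1 z → Col 1 (fun i => fl (m i) (z i)) →
      nn (fun i => a (z i D.ξ) - z i (a D.ξ)) ≤ ε + P * nn fun i => D.cc (m i) (z i) := by
  obtain ⟨P, P0, hP⟩ := (h a ha 0).fam two_pos hε
  refine ⟨P, P0, fun ι _ m z zN c1 c2 => ?_⟩
  have zM := fun i => le_M C (zN i)
  set c := nn fun _ : ι => (1 : ℝ)
  refine le_of_small (r := 1 / (2 * (Fintype.card ι + 1))) (K := P * c + 2 * c) (by positivity)
    fun δ δ0 δ1 => ?_
  choose κ _ u uM u1 u2 u3 u4 u5 using fun i => good_ex C (h a ha (-m i))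
    (h _ (mul_mem (star_mem (fl_mem (m i) (zN i))) (fl_mem (m i) (zN i))) (m i))
    (z i D.ξ) (a (z i D.ξ) - z i (a D.ξ)) δ0
  have h1 := hP (Σ i, κ i) (fun p => u p.1 p.2 * z p.1) (fun p => mul_mem (uM _ _) (zM _))
    (fun η => by
      rw [nn_sigma]
      refine (nn_le_one fun i => ?_).trans ((c1.mono one_le_two) η)
      simpa using u1 i (z i η)) (by
      have e : col (fun p : Σ i, κ i => fl 0 (u p.1 p.2 * z p.1)) D.ξ =
          col (fun i => fl (m i) (z i)) D.ξ + ∑ i, (∑ j, star (fl (-m i) (u i j))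
            ((star (fl (m i) (z i)) * fl (m i) (z i)) (fl (-m i) (u i j) D.ξ)) -
            (star (fl (m i) (z i)) * fl (m i) (z i)) D.ξ) := by
        rw [col_apply, col_apply, Fintype.sum_sigma, ← Finset.sum_add_distrib]
        refine Finset.sum_congr rfl fun i _ => ?_
        rw [mul_apply_eq_comp, add_sub_cancel]
        refine Finset.sum_congr rfl fun j _ => ?_
        rw [show fl 0 (u i j * z i) = fl (m i) (z i) * fl (-m i) (u i j) by
          rw [← fl_mul, neg_add_cancel], star_mul]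
        rfl
      rw [e]
      have h2 := c2.col_le zero_le_one D.ξ
      have h3 := (norm_sum_le Finset.univ _).trans (Finset.sum_le_sum fun i _ => u3 i)
      rw [Finset.sum_const, Finset.card_univ, nsmul_eq_mul] at h3
      rw [le_div_iff₀ (by positivity)] at δ1
      rw [D.unit] at h2
      refine (norm_add_le _ _).trans ?_
      linarith)
  have h2 : nn (fun p : Σ i, κ i => D.cc 0 (u p.1 p.2 * z p.1)) ≤
      δ * c + nn fun i => D.cc (m i) (z i) := by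
    have e : ∀ p : Σ i, κ i, D.cc 0 (u p.1 p.2 * z p.1) = _ := fun p => by
      rw [← neg_add_cancel (m p.1), cc_mul (uM _ _) (zM _)]
    simp only [e]
    refine (nn_add _ _).trans (add_le_add ?_ ?_)
    · rw [nn_sigma]
      refine nn_small δ0.le fun i => ?_
      rw [norm_nn]
      refine (nn_le_one fun j => ?_).trans (u2 i)
      rw [norm_ex_r]
      simpa using (le_nn (fun i' => fl (m i') (z i') (D.J (D.cc (-m i) (u i j)))) i).trans (c2 _)
    · rw [nn_sigma]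
      exact nn_le_one fun i => by simpa using u1 i _
  have h3 : nn (fun i => a (z i D.ξ) - z i (a D.ξ)) ≤
      nn (fun p : Σ i, κ i => u p.1 p.2 (a (z p.1 D.ξ) - z p.1 (a D.ξ))) + δ * c := by
    rw [nn_sigma]
    refine (nn_le_one (v := fun i => nn (fun j => u i j (a (z i D.ξ) - z i (a D.ξ))) + δ)
      fun i => (u5 i).trans (Real.le_norm_self _)).trans ((nn_add _ _).trans ?_)
    gcongr
    exact nn_small δ0.le fun i => (abs_of_pos δ0).le
  have h4 : nn (fun p : Σ i, κ i => a (u p.1 p.2 (z p.1 D.ξ)) - u p.1 p.2 (a (z p.1 D.ξ))) ≤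
      δ * c := by
    rw [nn_sigma]
    exact nn_small δ0.le fun i => by simpa using u4 i
  have h5 := nn_sub (fun p : Σ i, κ i => a ((u p.1 p.2 * z p.1) D.ξ) - (u p.1 p.2 * z p.1) (a D.ξ))
    fun p : Σ i, κ i => a (u p.1 p.2 (z p.1 D.ξ)) - u p.1 p.2 (a (z p.1 D.ξ))
  simp only [mul_apply_eq_comp, sub_sub_sub_cancel_left, ← map_sub] at h1 h5
  nlinarith [mul_le_mul_of_nonneg_left h2 P0]

end FinAux

end Vale.Agent.P132
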