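import Vale.Agent.P132.FinA

/-! Gaussian smoothing of families, by iterated cosine averages. -/

open MeasureTheory Filter Topology
open scoped InnerProductSpace ComplexConjugate

namespace Vale.Agent.P132

variable {H : Type*} [NormedAddCommGroup H] [InnerProductSpace ℂ H] [CompleteSpace H]

namespace FinAux

open Mod

lemma cos_pow_tendsto (u : ℝ) :
    Tendsto (fun n : ℕ => Real.cos ((√n)⁻¹ * u) ^ n) atTop (𝓝 (Real.exp (-u ^ 2 / 2))) := by
  have := Real.tendsto_one_add_pow_exp_of_tendsto (g := fun n : ℕ => Real.cos ((√n)⁻¹ * u) - 1)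
    (t := -u ^ 2 / 2) ?_
  · simpa using this
  rw [tendsto_iff_norm_sub_tendsto_zero]
  refine squeeze_zero' (.of_forall fun _ => norm_nonneg _) ?_
    (by simpa using tendsto_inv_atTop_nhds_zero_nat.const_mul (u ^ 4 * (5 / 96) : ℝ))
  filter_upwards [tendsto_natCast_atTop_atTop.eventually_ge_atTop (u ^ 2 + 1)] with n hn
  have n0 : (0 : ℝ) < n := by nlinarith
  have h1 : ((√n)⁻¹ * u) ^ 2 = u ^ 2 / n := by
    rw [mul_pow, inv_pow, Real.sq_sqrt n0.le]; ring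
  have h2 := Real.cos_bound (x := (√n)⁻¹ * u) (by
    rw [← sq_le_one_iff_abs_le_one, h1, div_le_one n0]; linarith)
  rw [show |(√n)⁻¹ * u| ^ 4 = (((√n)⁻¹ * u) ^ 2) ^ 2 by
    rw [← sq_abs ((√n)⁻¹ * u)]; ring, h1] at h2
  have e : n * (Real.cos ((√n)⁻¹ * u) - 1) - -u ^ 2 / 2 =
      n * (Real.cos ((√n)⁻¹ * u) - (1 - u ^ 2 / n / 2)) := by field_simp; ring
  rw [e, Real.norm_eq_abs, abs_mul, abs_of_pos n0]
  refine (mul_le_mul_of_nonneg_left h2 n0.le).trans (le_of_eq ?_)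
  field_simp

/-- distance to the frequency, cut at one -/
noncomputable def qq (m s : ℝ) : ℂ := (min |s - m| 1 : ℝ)

lemma norm_qq (m s : ℝ) : ‖qq m s‖ = min |s - m| 1 := by
  rw [qq, Complex.norm_real, Real.norm_of_nonneg (by positivity)]

lemma cb_qq (m : ℝ) : Cb (qq m) :=
  ⟨by unfold qq; fun_prop, 1, fun s => (norm_qq m s).trans_le (min_le_right _ _)⟩

lemma gauss1 (u : ℝ) : |1 - Real.exp (-u ^ 2 / 2)| ≤ min |u| 1 := by
  have h1 := Real.add_one_le_exp (-u ^ 2 / 2)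
  have h2 : Real.exp (-u ^ 2 / 2) ≤ 1 := Real.exp_le_one_iff.2 (by nlinarith [sq_nonneg u])
  have h3 := Real.exp_pos (-u ^ 2 / 2)
  rw [abs_of_nonneg (by linarith)]
  rcases le_total |u| 1 with h | h
  · rw [min_eq_left h]; nlinarith [sq_abs u, abs_nonneg u]
  · rw [min_eq_right h]; linarith

lemma gauss2 (u : ℝ) : |(Real.exp (u / 2) - 1) * Real.exp (-u ^ 2 / 2)| ≤ min |u| 1 := by
  have h2 : Real.exp (-u ^ 2 / 2) ≤ 1 := Real.exp_le_one_iff.2 (by nlinarith [sq_nonneg u])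
  have h3 := Real.exp_pos (-u ^ 2 / 2)
  rcases le_total |u| 1 with h | h
  · rw [min_eq_left h, abs_mul, abs_of_pos h3]
    have h4 := Real.abs_exp_sub_one_le (x := u / 2) (by rw [abs_div, abs_two]; linarith)
    rw [abs_div, abs_two] at h4
    nlinarith [abs_nonneg (Real.exp (u / 2) - 1)]
  · rw [min_eq_right h, sub_mul, ← Real.exp_add, one_mul]
    have h4 : Real.exp (u / 2 + -u ^ 2 / 2) ≤ 1 :=
      Real.exp_le_one_iff.2 (by nlinarith [sq_abs u, le_abs_self u])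
    have h5 := Real.exp_pos (u / 2 + -u ^ 2 / 2)
    rw [abs_le]
    constructor <;> linarith

variable {D : Mod H} {ι : Type*} [Fintype ι]

lemma cb_cos (e m : ℝ) (n : ℕ) : Cb fun s => ((Real.cos (e * (s - m)) ^ n : ℝ) : ℂ) :=
  ⟨by fun_prop, 1, fun s => by
    rw [Complex.norm_real, norm_pow]
    exact pow_le_one₀ (norm_nonneg _) (Real.abs_cos_le_one _)⟩

lemma F_cos (e m : ℝ) (n : ℕ) (η : H) :
    D.F (fun s => ((Real.cos (e * (s - m)) ^ (n + 1) : ℝ) : ℂ)) η = (2 : ℂ)⁻¹ •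
      (ch (-e) m • D.V e (D.F (fun s => ((Real.cos (e * (s - m)) ^ n : ℝ) : ℂ)) η) +
        ch e m • D.V (-e) (D.F (fun s => ((Real.cos (e * (s - m)) ^ n : ℝ) : ℂ)) η)) := by
  have c := cb_cos e m n
  rw [V, V, ← D.F_mul_apply (.ch _) c, ← D.F_mul_apply (.ch _) c, ← smul_apply, ← smul_apply,
    ← D.F_smul _ ((Cb.ch _).mul c), ← D.F_smul _ ((Cb.ch _).mul c), ← add_apply,
    ← D.F_add ((Cb.const _).mul ((Cb.ch _).mul c)) ((Cb.const _).mul ((Cb.ch _).mul c)),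
    ← smul_apply, ← D.F_smul _ (((Cb.const _).mul ((Cb.ch _).mul c)).add
      ((Cb.const _).mul ((Cb.ch _).mul c)))]
  congr 2
  ext s
  have h : (Real.cos (e * (s - m)) : ℂ) = 2⁻¹ * (ch (-e) m * ch e s + ch e m * ch (-e) s) := by
    simp only [ch, ← Complex.exp_add, Complex.ofReal_cos, Complex.cos]
    push_cast
    ring_nf
  rw [pow_succ, Complex.ofReal_mul, h]
  ring

lemma iter (C : D.Core) (m : ι → ℝ) {z : ι → H →L[ℂ] H} (zN : ∀ i, z i ∈ C.N) (c1 : Col 1 z)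
    (e : ℝ) (n : ℕ) : ∃ z' : ι → H →L[ℂ] H, (∀ i, z' i ∈ C.N) ∧ Col 1 z' ∧
      (∀ i, z' i D.ξ = D.F (fun s => ((Real.cos (e * (s - m i)) ^ n : ℝ) : ℂ)) (z i D.ξ)) ∧
      ∀ i, D.r (z' i) D.ξ =
        D.F (fun s => ((Real.cos (e * (s - m i)) ^ n : ℝ) : ℂ)) (D.r (z i) D.ξ) := by
  induction n with
  | zero => exact ⟨z, zN, c1, by simp [D.F_one], by simp [D.F_one]⟩
  | succ n ih =>
    obtain ⟨y, yN, y1, y2, y3⟩ := ih
    have hσ : ∀ t t' η, nn (fun i => ch t' (m i) • D.σ t (y i) η) ≤ ‖η‖ := fun t t' η =>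
      (nn_congr (v := fun i => y i (D.V (-t) η)) fun i => by
        simp [norm_smul, σ_apply]).trans_le (by simpa using y1 (D.V (-t) η))
    refine ⟨fun i => (2 : ℂ)⁻¹ • (ch (-e) (m i) • D.σ e (y i) + ch e (m i) • D.σ (-e) (y i)),
      fun i => vsmul _ (add_mem (vsmul _ (C.σ_N _ (yN i) _)) (vsmul _ (C.σ_N _ (yN i) _))),
      fun η => ?_, fun i => ?_, fun i => ?_⟩
    · simp only [smul_apply, add_apply]
      rw [nn_smul, norm_inv, Complex.norm_ofNat]
      linarith [nn_add (fun i => ch (-e) (m i) • D.σ e (y i) η) fun i =>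
        ch e (m i) • D.σ (-e) (y i) η, hσ e (-e) η, hσ (-e) e η]
    · rw [F_cos, ← y2]; simp
    · rw [F_cos, ← y3]; simp [r_smul, r_add, r_σ]

theorem smooth (C : D.Core) (m : ι → ℝ) {z : ι → H →L[ℂ] H} (zN : ∀ i, z i ∈ C.N) (c1 : Col 1 z)
    {θ : ℝ} (hθ : 0 < θ) : ∃ z' : ι → H →L[ℂ] H, (∀ i, z' i ∈ C.N) ∧ Col 1 z' ∧
      nn (fun i => z i D.ξ - z' i D.ξ) ≤ nn (fun i => D.F (qq (m i)) (z i D.ξ)) + θ ∧
      nn (fun i => D.cc (m i) (z' i)) ≤ nn (fun i => D.F (qq (m i)) (z i D.ξ)) + θ := by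
  let g : ι → ℝ → ℂ := fun i s => (Real.exp (-(s - m i) ^ 2 / 2) : ℝ)
  have g1 : ∀ i, Cb (g i) := fun i => ⟨by fun_prop, 1, fun s => by
    rw [Complex.norm_real, Real.norm_of_nonneg (Real.exp_pos _).le]
    exact Real.exp_le_one_iff.2 (by nlinarith [sq_nonneg (s - m i)])⟩
  have g2 : ∀ i, Cb fun s => (Real.exp (s / 2) : ℂ) * g i s := fun i =>
    ⟨by fun_prop, Real.exp (m i / 2 + 1), fun s => by
      beta_reduce
      rw [← Complex.ofReal_mul, ← Real.exp_add, Complex.norm_real,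
        Real.norm_of_nonneg (Real.exp_pos _).le]
      exact Real.exp_le_exp.2 (by nlinarith [sq_nonneg (s - m i - 1)])⟩
  have g3 : ∀ i η, Tendsto (fun n : ℕ =>
      D.F (fun s => ((Real.cos ((√n)⁻¹ * (s - m i)) ^ n : ℝ) : ℂ)) η) atTop (𝓝 (D.F (g i) η)) :=
    fun i η => D.F_tendsto (fun n => cb_cos _ _ _) (g1 i) (C := 1) (fun n s => by
      rw [Complex.norm_real, norm_pow]
      exact pow_le_one₀ (norm_nonneg _) (Real.abs_cos_le_one _))
      (fun s => (Complex.continuous_ofReal.tendsto _).comp (cos_pow_tendsto _)) η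
  choose y yN y1 y2 y3 using fun n : ℕ => iter C m zN c1 (√n)⁻¹ n
  have t1 : Tendsto (fun n => nn fun i => z i D.ξ - y n i D.ξ) atTop
      (𝓝 (nn fun i => z i D.ξ - D.F (g i) (z i D.ξ))) :=
    nn_tendsto fun i => by simpa only [y2] using tendsto_const_nhds.sub (g3 i _)
  have t2 : Tendsto (fun n => nn fun i => D.cc (m i) (y n i)) atTop
      (𝓝 (nn fun i => ex (m i) • D.F (g i) (D.r (z i) D.ξ) - D.F (g i) (z i D.ξ))) :=
    nn_tendsto fun i => by simpa only [cc, y2, y3] using ((g3 i _).const_smul _).sub (g3 i _)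
  have b1 : nn (fun i => z i D.ξ - D.F (g i) (z i D.ξ)) ≤
      nn fun i => D.F (qq (m i)) (z i D.ξ) := nn_le_one fun i => by
    have := D.F_le ((Cb.const 1).sub (g1 i)) (cb_qq (m i)) (fun s => by
      rw [norm_qq, ← Complex.ofReal_one, ← Complex.ofReal_sub, Complex.norm_real]
      exact gauss1 _) (z i D.ξ)
    rwa [D.F_sub (.const 1) (g1 i), D.F_one] at this
  have b2 : nn (fun i => ex (m i) • D.F (g i) (D.r (z i) D.ξ) - D.F (g i) (z i D.ξ)) ≤
      nn fun i => D.F (qq (m i)) (z i D.ξ) := nn_le_one fun i => by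
    rw [F_r (le_M C (zN i)) (g1 i) (g2 i), ← smul_apply, ← D.F_smul _ (g2 i), ← sub_apply,
      ← D.F_sub ((Cb.const _).mul (g2 i)) (g1 i)]
    refine D.F_le (((Cb.const _).mul (g2 i)).sub (g1 i)) (cb_qq (m i)) (fun s => ?_) _
    rw [← mul_assoc, ← sub_one_mul, ex, ← Complex.ofReal_mul, ← Real.exp_add, norm_qq,
      ← Complex.ofReal_one, ← Complex.ofReal_sub, ← Complex.ofReal_mul, Complex.norm_real,
      show -m i / 2 + s / 2 = (s - m i) / 2 by ring]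
    exact gauss2 _
  obtain ⟨n, n1, n2⟩ := ((t1.eventually_le_const (lt_add_of_le_of_pos b1 hθ)).and
    (t2.eventually_le_const (lt_add_of_le_of_pos b2 hθ))).exists
  exact ⟨y n, yN n, y1 n, n1, n2⟩

end FinAux

end Vale.Agent.P132
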