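import Vale.Agent.P132.Beta

/-! Ergodicity and the unitary implementation of the bicentralizer flow. -/

set_option linter.unusedSectionVars false

open Filter Topology
open scoped InnerProductSpace ComplexConjugate

namespace Vale.Agent.P132

variable {H : Type*} [NormedAddCommGroup H] [InnerProductSpace ℂ H] [CompleteSpace H]

lemma exists_ext (G : Submodule ℂ (H × H)) (h : ∀ z ∈ G, ‖z.2‖ ≤ ‖z.1‖) :
    ∃ T : H →L[ℂ] H, (∀ z ∈ G, T z.1 = z.2) ∧ T * pr (Prod.fst '' (G : Set (H × H))) = T ∧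
      ∀ η, ‖T η‖ ≤ ‖pr (Prod.fst '' (G : Set (H × H))) η‖ := by
  set K := (Submodule.span ℂ (Prod.fst '' (G : Set (H × H)))).topologicalClosure
  let e : G →ₗ[ℂ] K := ((LinearMap.fst ℂ H H).comp G.subtype).codRestrict K fun z =>
    Submodule.le_topologicalClosure _ (Submodule.subset_span ⟨z, z.2, rfl⟩)
  let f : G →ₗ[ℂ] H := (LinearMap.snd ℂ H H).comp G.subtype
  have he : DenseRange e := by
    rw [DenseRange, Subtype.dense_iff]
    refine closure_mono fun η hη => ?_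
    obtain ⟨z, hz, rfl⟩ := (Submodule.span_le (p := G.map (LinearMap.fst ℂ H H))).2 le_rfl hη
    exact ⟨_, ⟨⟨z, hz⟩, rfl⟩, rfl⟩
  have hn : ∀ z, ‖f z‖ ≤ 1 * ‖e z‖ := fun z => (h z z.2).trans (one_mul _).ge
  refine ⟨(f.extendOfNorm e).comp K.orthogonalProjectionOnto, fun z hz => ?_, ?_, fun η => ?_⟩
  · have := K.orthogonalProjectionOnto_mem_subspace_eq_self (e ⟨z, hz⟩)
    exact (congrArg _ this).trans (LinearMap.extendOfNorm_eq he ⟨1, hn⟩ ⟨z, hz⟩)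
  · ext η
    exact congrArg _ (K.orthogonalProjectionOnto_mem_subspace_eq_self _)
  · exact (LinearMap.norm_extendOfNorm_apply_le he 1 hn _).trans (one_mul _).le

namespace Mod

variable {D : Mod H}

lemma eq_zero_of_re {k : H →L[ℂ] H} (hk : k ∈ D.M) (k0 : 0 ≤ k) (h : (⟪D.ξ, k D.ξ⟫_ℂ).re = 0) :
    k = 0 := by
  have h1 := norm_sq_apply (CFC.sqrt k) D.ξ
  rw [(CFC.sqrt_nonneg k).isSelfAdjoint.star_eq, CFC.sqrt_mul_sqrt_self k, h] at h1
  refine sep hk (zero_mem _) ?_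
  rw [← CFC.sqrt_mul_sqrt_self k, mul_apply_eq_comp, norm_eq_zero.1 (pow_eq_zero_iff two_ne_zero |>.1 h1)]
  simp

lemma scalar_of_proj {A : VonNeumannAlgebra H} (hA : ∀ x ∈ A, x ∈ D.M)
    (h : ∀ e ∈ A, IsStarProjection e → e ≠ 0 → e = 1) {x : H →L[ℂ] H} (hx : x ∈ A) :
    ∃ c : ℂ, x = c • 1 := by
  have key : ∀ d ∈ A, IsSelfAdjoint d → ∃ c : ℂ, d = c • 1 := fun d hd d0 => by
    set c := (⟪D.ξ, d D.ξ⟫_ℂ).re
    have h1 : d - (c : ℂ) • 1 ∈ A := sub_mem hd (vsmul _ (one_mem _))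
    have h2 : IsSelfAdjoint (d - (c : ℂ) • 1) := d0.sub (by simp [IsSelfAdjoint])
    have h3 : (⟪D.ξ, (d - (c : ℂ) • 1) D.ξ⟫_ℂ).re = 0 := by simp [D.unit, c]
    refine ⟨c, sub_eq_zero.1 ?_⟩
    by_cases h4 : ∃ η, 0 < (⟪η, (d - (c : ℂ) • 1) η⟫_ℂ).re
    · obtain ⟨η, h4⟩ := h4
      obtain ⟨e, he, e1, e2, e3, -⟩ := top_proj h1 h2 h4
      rw [h e he e1 e2] at e3
      exact eq_zero_of_re (hA _ h1) (nonneg_of h2 e3) h3
    · push Not at h4
      exact neg_eq_zero.1 (eq_zero_of_re (neg_mem (hA _ h1)) (nonneg_of h2.neg fun η => by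
        simpa only [neg_apply, inner_neg_right, Complex.neg_re, neg_nonneg] using h4 η)
        (by simpa only [neg_apply, inner_neg_right, Complex.neg_re, neg_eq_zero] using h3))
  obtain ⟨c, hc⟩ := key _ (add_mem hx (star_mem hx)) (by simp [IsSelfAdjoint, add_comm])
  obtain ⟨c', hc'⟩ := key _ (vsmul Complex.I (sub_mem hx (star_mem hx)))
    (by simp [IsSelfAdjoint, ← smul_neg])
  refine ⟨(2 : ℂ)⁻¹ * (c - Complex.I * c'), ?_⟩
  rw [mul_smul, sub_smul, mul_smul, ← hc, ← hc', smul_smul, Complex.I_mul_I]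
  module

lemma erg_NB (hF : D.Full) (hc : D.Fac) {x : H →L[ℂ] H} (hx : x ∈ D.fix D.NB) :
    ∃ c : ℂ, x = c • 1 := by
  refine scalar_of_proj (D := D) (fun x hx => (mem_NB.1 (mem_fix.1 hx).1).1)
    (fun e he e1 e0 => ?_) hx
  by_contra e2
  have h := mem_NB.1 (mem_fix.1 he).1
  have eM : e ∈ D.fix D.M := mem_fix.2 ⟨h.1, (mem_fix.1 he).2⟩
  have c0 : 0 < min ‖e D.ξ‖ ‖(1 - e) D.ξ‖ := lt_min
    (norm_pos_iff.2 fun h0 => e0 (sep h.1 (zero_mem _) h0))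
    (norm_pos_iff.2 fun h0 => e2 (sub_eq_zero.1
      (sep (sub_mem (one_mem _) h.1) (zero_mem _) h0)).symm)
  set c := min ‖e D.ξ‖ ‖(1 - e) D.ξ‖
  obtain ⟨P, P0, hP⟩ := h.fam one_pos (half_pos c0)
  have hε : 0 < c / 2 / (P + 4) := by positivity
  obtain ⟨ι, _, u, w, u1, w1, w2, w3, w4, w5, w6⟩ :=
    exists_fam hF hc eM (sub_mem (one_mem _) eM) e1 e1.one_sub 0 hε
  have a1 := hP ι w w1 w2 (by simpa [D.unit] using w3.col_le zero_le_one D.ξ)
  have a2 : ∀ i, u i D.ξ = (D.r e (u i D.ξ - w i D.ξ) - e (u i D.ξ - w i D.ξ)) -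
      (e (w i D.ξ) - w i (e D.ξ)) := fun i => by
    have b1 : e (u i D.ξ) = 0 := by simpa using congr($((u1 i).2.1) D.ξ)
    have b2 : u i (e D.ξ) = u i D.ξ := congr($((u1 i).2.2) D.ξ)
    rw [map_sub, map_sub, ← r_comm (u1 i).1 h.1, ← r_comm (w1 i) h.1, fix_r eM, b1, b2]
    abel
  have a3 : nn (fun i => u i D.ξ) ≤ _ := (congrArg nn (funext a2)).trans_le
    ((nn_sub _ _).trans (add_le_add_left (nn_sub _ _) _))
  have a4 : nn (fun i => D.r e (u i D.ξ - w i D.ξ)) ≤ _ := nn_le_one fun i =>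
    (D.r_le e _).trans (mul_le_of_le_one_left (norm_nonneg _) e1.norm_le)
  have a5 : nn (fun i => e (u i D.ξ - w i D.ξ)) ≤ _ := nn_le_one fun i =>
    (e.le_opNorm _).trans (mul_le_of_le_one_left (norm_nonneg _) e1.norm_le)
  have a6 := mul_le_mul_of_nonneg_left w4 P0
  have a7 : c / 2 / (P + 4) * (P + 4) = c / 2 := div_mul_cancel₀ _ (by positivity)
  linarith

theorem exists_core (hF : D.Full) (hc : D.Fac) : ∃ C : D.Core, C.N = D.NB := by
  have hG := fun m ε => exists_good hF hc m (ε := ε)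
  set S := {η | ∃ a ∈ D.NB, η = a D.ξ}
  have key : ∀ m, ∃ T : H →L[ℂ] H, (∀ a ∈ D.NB, ∀ b, D.Rel m a b → T (a D.ξ) = b D.ξ) ∧
      T * pr S = T ∧ ∀ η, ‖T η‖ ≤ ‖pr S η‖ := fun m => by
    let G : Submodule ℂ (H × H) :=
      { carrier := {z | ∃ a ∈ D.NB, ∃ b, D.Rel m a b ∧ z = (a D.ξ, b D.ξ)}
        add_mem' := by
          rintro _ _ ⟨a, ha, b, h, rfl⟩ ⟨a', ha', b', h', rfl⟩
          exact ⟨_, add_mem ha ha', _, h.add h', rfl⟩
        zero_mem' := ⟨0, zero_mem _, 0, by simpa using (Rel.one (D := D) m).smul 0, rfl⟩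
        smul_mem' := by
          rintro c _ ⟨a, ha, b, h, rfl⟩
          exact ⟨_, vsmul c ha, _, h.smul c, rfl⟩ }
    obtain ⟨T, T1, T2⟩ := exists_ext G (by rintro _ ⟨a, -, b, h, rfl⟩; exact h.le hG)
    have : Prod.fst '' (G : Set (H × H)) = S := Set.ext fun η =>
      ⟨by rintro ⟨_, ⟨a, ha, b, -, rfl⟩, rfl⟩; exact ⟨a, ha, rfl⟩, by
        rintro ⟨a, ha, rfl⟩
        obtain ⟨b, hb⟩ := (mem_NB.1 ha).push hG m
        exact ⟨_, ⟨a, ha, b, hb, rfl⟩, rfl⟩⟩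
    exact ⟨T, fun a ha b h => T1 _ ⟨a, ha, b, h, rfl⟩, this ▸ T2⟩
  choose U U1 U2 U3 using key
  have U4 : ∀ a ∈ D.NB, ∀ m, ∃ b ∈ D.NB, D.Rel m a b ∧ b D.ξ = U m (a D.ξ) := fun a ha m => by
    obtain ⟨b, hb⟩ := (mem_NB.1 ha).push hG m
    exact ⟨b, mem_NB.2 (hb.pull hG (by simpa using hb)), hb, (U1 m a ha b hb).symm⟩
  have ext : ∀ {X Y : H →L[ℂ] H}, X * pr S = X → Y * pr S = Y →
      (∀ a ∈ D.NB, X (a D.ξ) = Y (a D.ξ)) → X = Y := fun hX hY h => by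
    rw [← hX, ← hY]
    exact pr_ext (by rintro _ ⟨a, ha, rfl⟩; exact h a ha)
  have U0 : U 0 = pr S := ext (U2 0) (pr_proj S).isIdempotentElem.eq fun a ha => by
    rw [U1 0 a ha a (mem_NB.1 ha), pr_fix (S := S) ⟨a, ha, rfl⟩]
  have Ua : ∀ r r', U (r + r') = U r * U r' := fun r r' =>
    ext (U2 _) (by rw [mul_assoc, U2]) fun a ha => by
      obtain ⟨b, hb, b1, b2⟩ := U4 a ha r'
      obtain ⟨c, -, c1, c2⟩ := U4 a ha (r + r')
      rw [mul_apply_eq_comp, ← b2, ← c2, U1 r b hb c (b1.pull hG c1)]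
  have P1 : ∀ η, ‖pr S η‖ ≤ ‖η‖ := fun η => by
    simpa using (pr S).le_of_opNorm_le (pr_proj S).norm_le η
  have Vp : ∀ t, D.V t * pr S = pr S * D.V t := fun t => by
    have : ∀ t, ∀ η ∈ S, pr S (D.V t η) = D.V t η := by
      rintro t _ ⟨a, ha, rfl⟩
      exact pr_fix ⟨_, mem_NB.2 ((mem_NB.1 ha).σ t), (D.σ_ξ t a).symm⟩
    exact pr_comm (this t) (D.star_V t ▸ this (-t))
  have Uc : ∀ η, Tendsto (fun r => U r η) (𝓝 0) (𝓝 (U 0 η)) := fun η => by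
    refine Metric.tendsto_nhds.2 fun ε hε => ?_
    obtain ⟨ζ, h1, h2⟩ := Metric.mem_closure_iff.1 (pr_mem S η) (ε / 3) (by positivity)
    obtain ⟨a, ha, rfl⟩ := (Submodule.span_le (p := D.NS.map
      (ContinuousLinearMap.apply ℂ H D.ξ).toLinearMap)).2 (by
        rintro _ ⟨x, hx, rfl⟩; exact ⟨x, mem_NB.1 hx, rfl⟩) h1
    filter_upwards [Rel.near hG ha (show 0 < ε / 3 by positivity)] with r hr
    obtain ⟨b, -, b1, b2⟩ := U4 a (mem_NB.2 ha) r
    change dist _ (a D.ξ) < _ at h2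
    have e : U r η - U 0 η = U r (pr S η - a D.ξ) + (b D.ξ - a D.ξ) - (pr S η - a D.ξ) := by
      rw [map_sub, b2, U0, ← mul_apply_eq_comp, U2]; abel
    rw [dist_eq_norm] at h2 ⊢
    rw [e]
    linarith [hr b b1, (U3 r (pr S η - a D.ξ)).trans (P1 _),
      norm_sub_le (U r (pr S η - a D.ξ) + (b D.ξ - a D.ξ)) (pr S η - a D.ξ),
      norm_add_le (U r (pr S η - a D.ξ)) (b D.ξ - a D.ξ)]
  refine ⟨⟨D.NB, fun a => mem_NB, fun a ha t => mem_NB.2 ((mem_NB.1 ha).σ t), hG,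
    fun x => erg_NB hF hc, U, U0, Ua, fun r => ?_,
    fun η => continuous_iff_continuousAt.2 fun r => ?_, fun r t η => ?_,
    fun r => U1 r 1 (one_mem _) 1 (.one r), U4⟩, rfl⟩
  · have h1 : star (U r) * U r = pr S := op_ext fun η => by
      have h2 : ‖U r η‖ = ‖pr S η‖ := le_antisymm (U3 r η) (by
        rw [← U0, ← neg_add_cancel r, Ua]
        exact (U3 _ _).trans (P1 _))
      rw [mul_apply_eq_comp, inner_star_right, inner_self_eq_norm_sq_to_K, h2,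
        ← inner_self_eq_norm_sq_to_K, sa_inner (pr_proj S).isSelfAdjoint, ← mul_apply_eq_comp,
        (pr_proj S).isIdempotentElem.eq]
    have h2 : ∀ r, pr S * U r = U r := fun r => by rw [← U0, ← Ua, zero_add]
    have h3 := congrArg star (h2 r)
    rw [star_mul, (pr_proj S).isSelfAdjoint.star_eq, ← U0, ← add_neg_cancel r, Ua, ← mul_assoc, h1,
      h2] at h3
    exact h3.symm
  · have := (Uc (U r η)).comp (tendsto_sub_nhds_zero_iff.2 (tendsto_id (x := 𝓝 r)))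
    simpa [ContinuousAt, Function.comp_def, ← mul_apply_eq_comp, ← Ua] using this
  · have h1 : U r * D.V t = D.V t * U r :=
      ext (by rw [mul_assoc, Vp, ← mul_assoc, U2]) (by rw [mul_assoc, U2]) fun a ha => by
        obtain ⟨b, -, b1, b2⟩ := U4 a ha r
        rw [mul_apply_eq_comp, mul_apply_eq_comp, ← b2, ← σ_ξ, ← σ_ξ,
          U1 r _ (mem_NB.2 ((mem_NB.1 ha).σ t)) _ (b1.σ t)]
    exact congr($h1 η)

end Mod

end Vale.Agent.P132
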