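import Vale.Agent.P132.Mod

open scoped InnerProductSpace ComplexConjugate Topology
open Filter ContinuousLinearMap

namespace Vale.Agent.P132.HBAux

variable {H : Type*} [NormedAddCommGroup H] [InnerProductSpace ℂ H] [CompleteSpace H]
  {N : VonNeumannAlgebra H}

section
omit [CompleteSpace H]
variable (a b : H →L[ℂ] H) (x : H)
theorem mul_ap : (a * b) x = a (b x) := rfl
theorem one_ap : (1 : H →L[ℂ] H) x = x := rfl
theorem sub_ap : (a - b) x = a x - b x := rfl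
theorem add_ap : (a + b) x = a x + b x := rfl
theorem neg_ap : (-a) x = -a x := rfl
theorem smul_ap (c : ℂ) : (c • a) x = c • a x := rfl
theorem re_inner_self : (⟪x, x⟫_ℂ).re = ‖x‖ ^ 2 := inner_self_eq_norm_sq (𝕜 := ℂ) x
end

theorem smul_mem (c : ℂ) {a : H →L[ℂ] H} (h : a ∈ N) : c • a ∈ N :=
  N.toStarSubalgebra.smul_mem h c

theorem inner_star (a : H →L[ℂ] H) (x y : H) : ⟪star a x, y⟫_ℂ = ⟪x, a y⟫_ℂ :=
  adjoint_inner_left a y x

theorem inner_star' (a : H →L[ℂ] H) (x y : H) : ⟪x, star a y⟫_ℂ = ⟪a x, y⟫_ℂ :=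
  adjoint_inner_right a x y

theorem inv_top (hN : ∀ z ∈ N, z ∈ N.commutant → ∃ c : ℂ, z = c • 1) (W : Submodule ℂ H)
    (hW : IsClosed (W : Set H)) (h1 : ∀ a ∈ N, ∀ z ∈ W, a z ∈ W)
    (h2 : ∀ a ∈ N.commutant, ∀ z ∈ W, a z ∈ W) {z : H} (hz : z ∈ W) (h0 : z ≠ 0) (x : H) :
    x ∈ W := by
  have : CompleteSpace W := hW.completeSpace_coe
  have hP := isStarProjection_starProjection (U := W)
  obtain ⟨c, hc⟩ := hN W.starProjection
    ((VonNeumannAlgebra.IsStarProjection.mem_iff hP N).2 fun y hy => by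
      rw [Submodule.range_starProjection]
      exact fun z hz => h2 y hy z hz)
    ((VonNeumannAlgebra.IsStarProjection.mem_iff hP N.commutant).2 fun y hy => by
      rw [Submodule.range_starProjection]
      exact fun z hz => h1 y (by simpa only [VonNeumannAlgebra.commutant_commutant] using hy) z hz)
  have h3 : W.starProjection z = z := Submodule.starProjection_eq_self_iff.2 hz
  rw [hc] at h3
  have h4 : c = 1 := by
    have : (c - 1) • z = 0 := by simpa [sub_smul, sub_eq_zero] using h3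
    exact sub_eq_zero.1 ((smul_eq_zero.1 this).resolve_right h0)
  have := W.starProjection_apply_mem x
  simpa [hc, h4] using this

/-- The column sum of a family. -/
noncomputable def col {ι : Type} [Fintype ι] (v : ι → H →L[ℂ] H) : H →L[ℂ] H := ∑ i, star (v i) * v i

theorem inner_col {ι : Type} [Fintype ι] (v : ι → H →L[ℂ] H) (z η : H) :
    ⟪z, col v η⟫_ℂ = ∑ i, ⟪v i z, v i η⟫_ℂ := by
  simp [col, inner_star']

theorem re_inner_col {ι : Type} [Fintype ι] (v : ι → H →L[ℂ] H) (η : H) :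
    (⟪η, col v η⟫_ℂ).re = ∑ i, ‖v i η‖ ^ 2 := by
  simp only [inner_col, Complex.re_sum, re_inner_self]

theorem norm_sub_col {ι : Type} [Fintype ι] {v : ι → H →L[ℂ] H}
    (h : ∀ η, ∑ i, ‖v i η‖ ^ 2 ≤ ‖η‖ ^ 2) (η : H) :
    ‖η - col v η‖ ^ 2 ≤ ‖η‖ ^ 2 - ∑ i, ‖v i η‖ ^ 2 := by
  have h1 : ‖col v η‖ ^ 2 ≤ (∑ i, ‖v i (col v η)‖ ^ 2 + ∑ i, ‖v i η‖ ^ 2) / 2 := by
    rw [← re_inner_self, inner_col, Complex.re_sum, ← Finset.sum_add_distrib, Finset.sum_div]
    refine Finset.sum_le_sum fun i _ => ?_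
    have := (Complex.re_le_norm _).trans (norm_inner_le_norm (𝕜 := ℂ) (v i (col v η)) (v i η))
    nlinarith [sq_nonneg (‖v i (col v η)‖ - ‖v i η‖)]
  have h2 := h (col v η)
  have h3 := re_inner_col v η
  rw [@norm_sub_sq ℂ]
  simp only [RCLike.re_to_complex]
  linarith

theorem mf (hN : ∀ z ∈ N, z ∈ N.commutant → ∃ c : ℂ, z = c • 1) {b : H →L[ℂ] H} (hb : b ∈ N)
    (h0 : b ≠ 0) (ξ : H) {ε : ℝ} (hε : 0 < ε) :
    ∃ (ι : Type) (_ : Fintype ι) (y : ι → H →L[ℂ] H), (∀ i, y i ∈ N) ∧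
      (∀ η, ∑ i, ‖(b * y i) η‖ ^ 2 ≤ ‖η‖ ^ 2) ∧ ‖ξ‖ ^ 2 - ∑ i, ‖(b * y i) ξ‖ ^ 2 ≤ ε := by
  let R : Set ℝ := {r | ∃ (ι : Type) (_ : Fintype ι) (y : ι → H →L[ℂ] H), (∀ i, y i ∈ N) ∧
      (∀ η, ∑ i, ‖(b * y i) η‖ ^ 2 ≤ ‖η‖ ^ 2) ∧ r = ∑ i, ‖(b * y i) ξ‖ ^ 2}
  have hne : R.Nonempty := ⟨0, Empty, inferInstance, fun i => i.elim, fun i => i.elim,
    fun η => by simp, by simp⟩
  have hbd : BddAbove R := ⟨‖ξ‖ ^ 2, by rintro r ⟨ι, _, y, -, h, rfl⟩; exact h ξ⟩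
  obtain ⟨u, -, hu, hR⟩ := exists_seq_tendsto_sSup hne hbd
  choose ι hι y y1 y2 y3 using hR
  let η : ℕ → H := fun n => ξ - col (fun i => b * y n i) ξ
  have hη : ∀ n, ‖η n‖ ≤ ‖ξ‖ := fun n => by
    have := norm_sub_col (y2 n) ξ
    have h2 : 0 ≤ ∑ i, ‖(b * y n i) ξ‖ ^ 2 := by positivity
    exact le_of_sq_le_sq (show ‖η n‖ ^ 2 ≤ ‖ξ‖ ^ 2 by linarith) (norm_nonneg _)
  have h1 : ∀ a ∈ N, ‖b * a‖ ≤ 1 → Tendsto (fun n => (b * a) (η n)) atTop (𝓝 0) := by
    intro a ha hab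
    have key : ∀ n, ‖(b * a) (η n)‖ ^ 2 ≤ sSup R - u n := fun n => by
      have hA : col (fun i => b * y n i) ∈ N :=
        sum_mem fun i _ => mul_mem (star_mem (mul_mem hb (y1 n i))) (mul_mem hb (y1 n i))
      refine le_sub_iff_add_le.2 (le_csSup hbd ⟨Option (ι n), inferInstance,
        fun o => o.elim (a * (1 - col fun i => b * y n i)) (y n), ?_, fun z => ?_, ?_⟩)
      · rintro (_ | i)
        · exact mul_mem ha (sub_mem (one_mem _) hA)
        · exact y1 n i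
      · have h2 := norm_sub_col (y2 n) z
        have h3 : ‖(b * a) (z - col (fun i => b * y n i) z)‖ ≤ ‖z - col (fun i => b * y n i) z‖ :=
          ((b * a).le_opNorm _).trans (mul_le_of_le_one_left (norm_nonneg _) hab)
        have h4 := pow_le_pow_left₀ (norm_nonneg _) h3 2
        rw [Fintype.sum_option]
        change ‖(b * a) (z - col (fun i => b * y n i) z)‖ ^ 2 + ∑ i, ‖(b * y n i) z‖ ^ 2 ≤ _
        linarith
      · rw [Fintype.sum_option, y3 n]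
        rfl
    have h5 : Tendsto (fun n => sSup R - u n) atTop (𝓝 0) := by
      simpa using (tendsto_const_nhds (x := sSup R)).sub hu
    have h6 := (squeeze_zero (fun n => by positivity) key h5).sqrt
    rw [tendsto_zero_iff_norm_tendsto_zero]
    simpa using h6
  have h2 : ∀ a ∈ N, Tendsto (fun n => (b * a) (η n)) atTop (𝓝 0) := by
    intro a ha
    have hp : (0 : ℝ) < ‖b * a‖ + 1 := by positivity
    have := (h1 (((‖b * a‖ + 1)⁻¹ : ℝ) • a) (smul_mem ((‖b * a‖ + 1)⁻¹ : ℝ) ha) (by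
      rw [mul_smul_comm, norm_smul, Real.norm_of_nonneg (by positivity), inv_mul_le_iff₀ hp]
      linarith)).const_smul (‖b * a‖ + 1)
    simpa [smul_smul, hp.ne'] using this
  let W : Submodule ℂ H :=
    { carrier := {z | ∀ a ∈ N, ∀ a' ∈ N.commutant,
        Tendsto (fun n => ⟪a (a' z), η n⟫_ℂ) atTop (𝓝 0)}
      add_mem' := fun h h' a ha a' ha' => by
        simpa [inner_add_left] using (h a ha a' ha').add (h' a ha a' ha')
      zero_mem' := fun a _ a' _ => by simp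
      smul_mem' := fun c z h a ha a' ha' => by
        simpa only [map_smul, inner_smul_left, mul_zero] using (h a ha a' ha').const_mul (conj c) }
  have hW : IsClosed (W : Set H) := by
    refine isClosed_of_closure_subset fun z hz a ha a' ha' => Metric.tendsto_atTop.2 fun δ hδ => ?_
    have hp : (0 : ℝ) < ‖a * a'‖ * ‖ξ‖ + 1 := by positivity
    obtain ⟨z', h3, h4⟩ := Metric.mem_closure_iff.1 hz (δ / 2 / (‖a * a'‖ * ‖ξ‖ + 1)) (by positivity)
    obtain ⟨n0, hn⟩ := Metric.tendsto_atTop.1 (h3 a ha a' ha') (δ / 2) (by positivity)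
    refine ⟨n0, fun n h => ?_⟩
    have h5 := hn n h
    rw [dist_zero_right] at h5 ⊢
    rw [dist_eq_norm, lt_div_iff₀ hp] at h4
    have h6 : ‖⟪(a * a') (z - z'), η n⟫_ℂ‖ ≤ ‖a * a'‖ * ‖z - z'‖ * ‖ξ‖ :=
      (norm_inner_le_norm _ _).trans (mul_le_mul ((a * a').le_opNorm _) (hη n) (norm_nonneg _)
        (by positivity))
    have h7 : ⟪a (a' z), η n⟫_ℂ = ⟪(a * a') (z - z'), η n⟫_ℂ + ⟪a (a' z'), η n⟫_ℂ := by
      simp
    rw [h7]
    refine (norm_add_le _ _).trans_lt ?_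
    nlinarith [norm_nonneg (z - z')]
  obtain ⟨x, hx⟩ : ∃ x, star b x ≠ 0 := by
    by_contra h
    push Not at h
    exact h0 (star_eq_zero.1 (ContinuousLinearMap.ext h))
  have hξ := inv_top hN W hW (fun c hc z hz a ha a' ha' => by
      have := hz (a * c) (mul_mem ha hc) a' ha'
      have h3 := congrArg (fun t => t z) (VonNeumannAlgebra.mem_commutant_iff.1 ha' c hc)
      simpa only [mul_ap, ← show c (a' z) = a' (c z) from h3] using this)
    (fun c hc z hz a ha a' ha' => hz a ha (a' * c) (mul_mem ha' hc))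
    (z := star b x) (fun a ha a' ha' => by
      have h3 := congrArg (fun t => t x)
        (VonNeumannAlgebra.mem_commutant_iff.1 ha' (star b) (star_mem hb))
      have := (tendsto_const_nhds (x := a' x)).inner (𝕜 := ℂ) (h2 (star a) (star_mem ha))
      simpa only [← show star b (a' x) = a' (star b x) from h3, mul_ap, ← inner_star b,
        inner_star' a, inner_zero_right] using this) hx ξ 1 (one_mem _) 1 (one_mem _)
  have h3 := (Complex.continuous_re.tendsto _).comp hξ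
  obtain ⟨n, hn⟩ := (h3.eventually (gt_mem_nhds (show (0 : ℂ).re < ε from hε))).exists
  refine ⟨ι n, hι n, y n, y1 n, y2 n, ?_⟩
  simp only [Function.comp_apply, one_ap, η, inner_sub_right, Complex.sub_re, re_inner_self,
    re_inner_col] at hn
  exact hn.le

theorem top {b c : H →L[ℂ] H} (hb : b ∈ N) (h0 : b ≠ 0) (hc : c ∈ N) {ε : ℝ} (hε : 0 < ε) :
    ∃ y ∈ N, b * y ≠ 0 ∧ ∃ w : ℝ, (∀ η, (⟪b η, c (b η)⟫_ℂ).re ≤ w * ‖b η‖ ^ 2) ∧
      ∀ η, (w - ε) * ‖b (y η)‖ ^ 2 ≤ (⟪b (y η), c (b (y η))⟫_ℂ).re := by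
  let R : Set ℝ := {r | ∃ η, b η ≠ 0 ∧ r = (⟪b η, c (b η)⟫_ℂ).re / ‖b η‖ ^ 2}
  have hne : R.Nonempty := by
    by_contra h
    exact h0 (ContinuousLinearMap.ext fun η => by_contra fun h' => h ⟨_, η, h', rfl⟩)
  have hbd : BddAbove R := ⟨‖c‖, by
    rintro r ⟨η, h, rfl⟩
    rw [div_le_iff₀ (by positivity)]
    have h1 := (Complex.re_le_norm _).trans (norm_inner_le_norm (𝕜 := ℂ) (b η) (c (b η)))
    have h2 := c.le_opNorm (b η)
    nlinarith [norm_nonneg (b η)]⟩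
  obtain ⟨_, ⟨η0, e1, rfl⟩, e2⟩ := exists_lt_of_lt_csSup hne (show sSup R - ε < sSup R by linarith)
  rw [lt_div_iff₀ (by positivity)] at e2
  let g : H →L[ℂ] H := star b * (c + star c - (2 * (sSup R - ε) : ℝ) • 1) * b
  have hg : IsSelfAdjoint g := by
    simp only [g, IsSelfAdjoint, star_mul, star_star, star_sub, star_add, star_smul, star_one,
      star_trivial, mul_assoc, add_comm]
  have hgN : g ∈ N := mul_mem (mul_mem (star_mem hb) (sub_mem (add_mem hc (star_mem hc))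
    (smul_mem ((2 * (sSup R - ε) : ℝ) : ℂ) (one_mem _)))) hb
  have hgi : ∀ η, (⟪η, g η⟫_ℂ).re =
      2 * ((⟪b η, c (b η)⟫_ℂ).re - (sSup R - ε) * ‖b η‖ ^ 2) := fun η => by
    have h1 : (⟪c (b η), b η⟫_ℂ).re = (⟪b η, c (b η)⟫_ℂ).re := by
      rw [← inner_conj_symm, Complex.conj_re]
    simp only [g, mul_ap, inner_star', sub_ap, add_ap, smul_ap, one_ap,
      inner_sub_right, inner_add_right, Complex.sub_re, Complex.add_re, h1,
      ← Complex.coe_smul, inner_smul_right, Complex.re_ofReal_mul, re_inner_self]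
    ring
  have hk : g⁺ ∈ N := by
    rw [← N.commutant_commutant, VonNeumannAlgebra.mem_commutant_iff]
    exact fun a ha => (Commute.cfcₙ_real (VonNeumannAlgebra.mem_commutant_iff.1 ha g hgN) _).symm.eq
  have hk0 : g⁺ ≠ 0 := fun h => by
    have h1 := ((nonneg_iff_isPositive _).1
      (neg_nonneg.2 ((CFC.posPart_eq_zero_iff g hg).1 h))).re_inner_nonneg_right η0
    have h2 := hgi η0
    simp only [neg_ap, inner_neg_right, RCLike.re_to_complex, Complex.neg_re] at h1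
    linarith
  have hks : IsSelfAdjoint g⁺ := (CFC.posPart_nonneg g).isSelfAdjoint
  have hgk : g * g⁺ = g⁺ * g⁺ := by
    conv_lhs => enter [1]; rw [← CFC.posPart_sub_negPart g hg]
    rw [sub_mul, CFC.negPart_mul_posPart, sub_zero]
  refine ⟨g⁺, hk, fun h => hk0 ?_, sSup R, fun η => ?_, fun η => ?_⟩
  · have : g⁺ * g⁺ = 0 := by rw [← hgk, mul_assoc, h, mul_zero]
    rwa [← CStarRing.star_mul_self_eq_zero_iff, hks.star_eq]
  · by_cases h : b η = 0
    · simp [h]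
    · exact (div_le_iff₀ (by positivity)).1 (le_csSup hbd ⟨η, h, rfl⟩)
  · have h1 := ((nonneg_iff_isPositive _).1 (CFC.posPart_nonneg g)).re_inner_nonneg_right (g⁺ η)
    have h2 := hgi (g⁺ η)
    rw [← mul_ap g, hgk] at h2
    simp only [RCLike.re_to_complex, mul_ap] at h1 h2
    linarith

/-- The numerical range of `c` on the range of `b` is concentrated. -/
def Near (b c : H →L[ℂ] H) (ε : ℝ) : Prop :=
  ∃ w : ℂ, ∀ z η, ‖⟪b z, c (b η)⟫_ℂ - w * ⟪b z, b η⟫_ℂ‖ ≤ ε * (‖b z‖ ^ 2 + ‖b η‖ ^ 2)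

theorem near {b c : H →L[ℂ] H} (hb : b ∈ N) (h0 : b ≠ 0) (hc : c ∈ N) {ε : ℝ} (hε : 0 < ε) :
    ∃ y ∈ N, b * y ≠ 0 ∧ Near (b * y) c ε := by
  obtain ⟨y, y1, y2, w, y3, y4⟩ := top hb h0 hc (half_pos hε)
  obtain ⟨y', z1, z2, w', z3, z4⟩ := top (mul_mem hb y1) y2 (smul_mem (-Complex.I) hc) (half_pos hε)
  refine ⟨y * y', mul_mem y1 z1, by rwa [← mul_assoc], w + w' * Complex.I, fun z η => ?_⟩
  set B := b * (y * y')
  let T : H →L[ℂ] H := star (c - (w + w' * Complex.I) • 1)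
  have h1 : ∀ x x', ⟪T x, x'⟫_ℂ = ⟪x, c x'⟫_ℂ - (w + w' * Complex.I) * ⟪x, x'⟫_ℂ := fun x x' => by
    simp only [T, inner_star, sub_ap, smul_ap, one_ap, inner_sub_right, inner_smul_right]
  have h2 : ∀ η, ‖⟪T (B η), B η⟫_ℂ‖ ≤ ε * ‖B η‖ ^ 2 := fun η => by
    have a1 : (⟪B η, c (B η)⟫_ℂ).re ≤ w * ‖B η‖ ^ 2 := y3 (y (y' η))
    have a2 : (w - ε / 2) * ‖B η‖ ^ 2 ≤ (⟪B η, c (B η)⟫_ℂ).re := y4 (y' η)
    have a3 : (⟪B η, (-Complex.I • c) (B η)⟫_ℂ).re ≤ w' * ‖B η‖ ^ 2 := z3 (y' η)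
    have a4 : (w' - ε / 2) * ‖B η‖ ^ 2 ≤ (⟪B η, (-Complex.I • c) (B η)⟫_ℂ).re := z4 η
    have a5 : (⟪B η, (-Complex.I • c) (B η)⟫_ℂ).re = (⟪B η, c (B η)⟫_ℂ).im := by
      simp [inner_smul_right]
    rw [a5] at a3 a4
    refine (Complex.norm_le_abs_re_add_abs_im _).trans ?_
    rw [h1, inner_self_eq_norm_sq_to_K]
    have a6 : ((‖B η‖ : ℂ) ^ 2) = ((‖B η‖ ^ 2 : ℝ) : ℂ) := by push_cast; rfl
    simp only [Complex.coe_algebraMap, a6, Complex.sub_re, Complex.sub_im, Complex.mul_re,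
      Complex.mul_im, Complex.add_re, Complex.add_im, Complex.ofReal_re, Complex.ofReal_im,
      Complex.I_re, Complex.I_im]
    have b1 : |(⟪B η, c (B η)⟫_ℂ).re - w * ‖B η‖ ^ 2| ≤ ε / 2 * ‖B η‖ ^ 2 :=
      abs_le.2 ⟨by linarith, by nlinarith [sq_nonneg ‖B η‖]⟩
    have b2 : |(⟪B η, c (B η)⟫_ℂ).im - w' * ‖B η‖ ^ 2| ≤ ε / 2 * ‖B η‖ ^ 2 :=
      abs_le.2 ⟨by linarith, by nlinarith [sq_nonneg ‖B η‖]⟩
    convert add_le_add b1 b2 using 2 <;> ring_nf
  rw [← h1]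
  have h3 := inner_map_polarization' (T : H →ₗ[ℂ] H) (B z) (B η)
  simp only [coe_coe, ← map_add, ← map_sub, ← map_smul] at h3
  have c1 := h2 (z + η)
  have c2 := h2 (z - η)
  have c3 := h2 (z + Complex.I • η)
  have c4 := h2 (z - Complex.I • η)
  have d1 := parallelogram_law_with_norm ℂ (B z) (B η)
  have d2 := parallelogram_law_with_norm ℂ (B z) (B (Complex.I • η))
  have d3 : ‖B (Complex.I • η)‖ = ‖B η‖ := by simp [norm_smul]
  simp only [← map_add, ← map_sub, d3] at d1 d2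
  rw [h3, norm_div, Complex.norm_ofNat, div_le_iff₀ (by norm_num)]
  refine (norm_add_le _ _).trans ((add_le_add_left ((norm_sub_le _ _).trans
    (add_le_add_left (norm_sub_le _ _) _)) _).trans ?_)
  simp only [norm_mul, Complex.norm_I, one_mul]
  nlinarith

theorem near_all {b : H →L[ℂ] H} (hb : b ∈ N) (h0 : b ≠ 0) {κ : Type} (s : Finset κ)
    (c : κ → H →L[ℂ] H) (hc : ∀ k, c k ∈ N) {ε : ℝ} (hε : 0 < ε) :
    ∃ y ∈ N, b * y ≠ 0 ∧ ∀ k ∈ s, Near (b * y) (c k) ε := by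
  classical
  induction s using Finset.induction_on with
  | empty => exact ⟨1, one_mem _, by simpa using h0, by simp⟩
  | insert k s _ ih =>
    obtain ⟨y, y1, y2, y3⟩ := ih
    obtain ⟨y', z1, z2, z3⟩ := near (mul_mem hb y1) y2 (hc k) hε
    refine ⟨y * y', mul_mem y1 z1, by rwa [← mul_assoc], fun j hj => ?_⟩
    rcases Finset.mem_insert.1 hj with rfl | hj
    · rwa [← mul_assoc]
    · obtain ⟨w, hw⟩ := y3 j hj
      exact ⟨w, fun z η => hw (y' z) (y' η)⟩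

end Vale.Agent.P132.HBAux
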