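import Vale.Agent.P132.Fam

/-! From single contractions to families, by random phases. -/

set_option linter.unusedSectionVars false

open Filter Topology
open scoped InnerProductSpace ComplexConjugate

namespace Vale.Agent.P132

lemma orth3 {ι : Type} [Fintype ι] [DecidableEq ι] (l : ι → ZMod 3) :
    ∑ g : ι → ZMod 3, ZMod.stdAddChar (l ⬝ᵥ g) =
      if l = 0 then (Fintype.card (ι → ZMod 3) : ℂ) else 0 := by
  split_ifs with h
  · simp [h]
  · obtain ⟨i, hi⟩ := Function.ne_iff.1 h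
    have h1 := Equiv.sum_comp (Equiv.addRight (Pi.single i (1 : ZMod 3) : ι → ZMod 3))
      fun g => ZMod.stdAddChar (l ⬝ᵥ g)
    simp only [Equiv.coe_addRight, dotProduct_add, dotProduct_single, mul_one,
      AddChar.map_add_eq_mul, ← Finset.sum_mul] at h1
    refine (mul_right_eq_self₀.1 h1).resolve_left fun h2 => hi ?_
    exact ZMod.injective_stdAddChar (h2.trans (AddChar.map_zero_eq_one _).symm)

variable {H : Type*} [NormedAddCommGroup H] [InnerProductSpace ℂ H] [CompleteSpace H]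

lemma rand (ι : Type) [Fintype ι] : ∃ (G : Type) (_ : Fintype G) (u : G → ι → ℂ) (c : ℝ), 0 < c ∧
    (∀ a : ℝ, 0 ≤ a → nn (fun _ : G => a) = c * a) ∧
    (∀ X : ι → H, nn (fun g => ∑ i, u g i • X i) = c * nn X) ∧
    ∀ T : ι → ι → H, nn (fun g => ∑ i, ∑ j, (u g i * conj (u g j)) • T i j) ≤
      c * (‖∑ i, T i i‖ + nn fun p : ι × ι => T p.1 p.2) := by
  classical
  set n : ℝ := (Fintype.card (ι → ZMod 3) : ℝ)
  have n0 : 0 < n := by simp [n]
  have hc : ∀ a : ℝ, 0 ≤ a → nn (fun _ : ι → ZMod 3 => a) = √n * a := fun a ha => by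
    rw [← sq_eq_sq₀ (nn_nonneg _) (by positivity), nn_sq, mul_pow, Real.sq_sqrt n0.le]
    simp [n]
  let ψ : AddChar (ZMod 3) ℂ := ZMod.stdAddChar
  have hψ : ∀ a, conj (ψ a) = ψ (-a) := fun a => (AddChar.map_neg_eq_conj ψ a).symm
  refine ⟨ι → ZMod 3, inferInstance, fun g i => ψ (g i), √n, by positivity, hc, fun X => ?_,
    fun T => ?_⟩
  · rw [← sq_eq_sq₀ (nn_nonneg _) (mul_nonneg (by positivity) (nn_nonneg _)), nn_sq, mul_pow,
      Real.sq_sqrt n0.le, nn_sq, Finset.mul_sum]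
    refine parseval_sq (h := fun _ => n) (fun j j' => ?_) X
    have := orth3 (Pi.single j' (1 : ZMod 3) - Pi.single j 1)
    simp only [sub_dotProduct, single_dotProduct, one_mul, sub_eq_zero] at this
    simp only [hψ, ← AddChar.map_add_eq_mul, neg_add_eq_sub]
    rw [this]
    by_cases h : j = j'
    · simp [h, n]
    · rw [if_neg h, if_neg fun h' => ?_]
      simpa [h] using congrFun h' j
  · let v : (ι → ZMod 3) → ι × ι → ℂ := fun g p => if p.1 = p.2 then 0 else ψ (g p.1 - g p.2)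
    have e : ∀ g : ι → ZMod 3, ∑ i, ∑ j, (ψ (g i) * conj (ψ (g j))) • T i j =
        ∑ i, T i i + ∑ p : ι × ι, v g p • T p.1 p.2 := fun g => by
      rw [Fintype.sum_prod_type, ← Finset.sum_add_distrib]
      refine Finset.sum_congr rfl fun i _ => ?_
      rw [← Finset.sum_ite_eq_of_mem Finset.univ i (T i) (Finset.mem_univ _),
        ← Finset.sum_add_distrib]
      refine Finset.sum_congr rfl fun j _ => ?_
      by_cases h : i = j <;> simp [v, h, hψ, ← AddChar.map_add_eq_mul, sub_eq_add_neg]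
    simp only [e]
    refine (nn_add _ _).trans ?_
    rw [mul_add, ← hc _ (norm_nonneg _)]
    refine add_le_add (nn_congr fun _ => (norm_norm _).symm).le ?_
    refine le_of_sq_le_sq ?_ (mul_nonneg (by positivity) (nn_nonneg _))
    rw [nn_sq, mul_pow, Real.sq_sqrt n0.le, nn_sq, Finset.mul_sum,
      parseval_sq (h := fun p : ι × ι => if p.1 = p.2 then 0 else n) (fun p q => ?_)]
    · exact Finset.sum_le_sum fun p _ => by split_ifs <;> simp; positivity
    obtain ⟨i, j⟩ := p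
    obtain ⟨k, l⟩ := q
    by_cases h : i = j
    · simp [v, h]
    by_cases h' : k = l
    · rw [if_neg (by simp only [Prod.mk.injEq]; rintro ⟨rfl, rfl⟩; exact h h')]
      simp [v, h']
    have := orth3 ((Pi.single k (1 : ZMod 3) - Pi.single l 1) - (Pi.single i 1 - Pi.single j 1))
    simp only [sub_dotProduct, single_dotProduct, one_mul, sub_eq_zero] at this
    simp only [v, h, h', if_false, hψ, ← AddChar.map_add_eq_mul, neg_add_eq_sub]
    rw [this]
    by_cases h2 : (i, j) = (k, l)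
    · obtain ⟨rfl, rfl⟩ := h2
      simp [n]
    · rw [if_neg h2, if_neg fun h3 => h2 ?_]
      have a := congrFun h3 i
      have b := congrFun h3 j
      simp only [Pi.sub_apply, Pi.single_apply, h, Ne.symm h, if_true, if_false] at a b
      by_cases h4 : i = k
      · by_cases h5 : j = l
        · rw [h4, h5]
        · rw [if_neg h5, if_neg (h4 ▸ Ne.symm h)] at b
          exact absurd b (by decide)
      · rw [if_neg h4] at a
        split_ifs at a <;> exact absurd a (by decide)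

namespace Mod

variable {D : Mod H}

lemma contr {X : H →L[ℂ] H} (hX : X ∈ D.M) (m : ℝ) : ∃ Y ∈ D.M, ‖Y‖ ≤ 1 ∧
    ‖D.cc m Y‖ ≤ 2 * ‖D.cc m X‖ ∧ (∀ η, ‖X η - Y η‖ ≤ 2 * ‖X η‖) ∧
    ‖X D.ξ - Y D.ξ‖ ≤ ‖ex m‖ * ‖X (star X D.ξ)‖ + 3 * ‖D.cc m X‖ := by
  obtain ⟨a, a0, a1, a2, a3, a4⟩ := exists_res (star_mul_self_nonneg X)
  obtain ⟨b, b0, b1, b2, b3, b4⟩ := exists_res (mul_star_self_nonneg X)
  have aM := a4 _ (mul_mem (star_mem hX) hX)
  have bM := b4 _ (mul_mem hX (star_mem hX))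
  simp only [mul_apply_eq_comp] at a1 a2 b1 b2
  have e : ∀ η, b (X η) = X (a η) := fun η => by
    conv_lhs => rw [← a2 η, map_add, map_add, b1]
  have Y1 : ‖b * X‖ ≤ 1 := ContinuousLinearMap.opNorm_le_bound _ zero_le_one fun η => by
    have h1 := congrArg (fun ζ => (⟪a η, ζ⟫_ℂ).re) (a2 η)
    simp only [inner_add_right, Complex.add_re, inner_star_right, ← sq_eq_re] at h1
    rw [mul_apply_eq_comp, e, one_mul]
    refine le_of_sq_le_sq ?_ (norm_nonneg _)
    nlinarith [re_le_mul (a η) η, a3 η, norm_nonneg η, sq_nonneg ‖a η‖]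
  have YM := mul_mem bM hX
  have Y2 : ‖D.cc m (b * X)‖ ≤ 2 * ‖D.cc m X‖ := by
    have h1 : a + star X * (b * X) = 1 := by ext η; simpa [e] using a2 η
    have h2 : X * a = b * X := by ext η; simp [e]
    have h3 := congr((b * X) (D.r $h1 D.ξ))
    have h4 : D.cc m (b * X) = b (D.r a (D.cc m X)) + (b * X) (D.r (b * X) (D.J (D.cc m X))) := by
      have h5 := b1 (D.r (b * X) D.ξ)
      simp only [r_add, r_mul_apply D (star X), add_apply, map_add, r_one, one_apply_eq_self] at h3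
      simp only [cc, map_sub, map_smul, map_smulₛₗ, conj_ex, J_r, D.Jξ, ← D.r_mul_apply X, h2,
        D.J_apply X, ← r_comm hX aM, ← r_comm (star_mem hX) YM]
      rw [← h3, ← h5]
      simp only [mul_apply_eq_comp, h5]
      conv_lhs => rw [← h5]
      simp only [smul_add]
      abel
    rw [h4, two_mul]
    refine (norm_add_le _ _).trans (add_le_add ((b3 _).trans ((D.r_le _ _).trans ?_)) ?_)
    · exact mul_le_of_le_one_left (norm_nonneg _)
        (ContinuousLinearMap.opNorm_le_bound _ zero_le_one (by simpa using a3))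
    · refine ((b * X).le_of_opNorm_le Y1 _).trans ?_
      simpa using (D.r_le _ (D.J (D.cc m X))).trans (mul_le_of_le_one_left (norm_nonneg _) Y1)
  refine ⟨b * X, YM, Y1, Y2, fun η => (norm_sub_le _ _).trans ?_, ?_⟩
  · linarith [show ‖(b * X) η‖ ≤ _ from b3 (X η)]
  · have h1 : X - b * X = X * star X * (b * X) := by
      ext η; simpa [sub_eq_iff_eq_add'] using (b2 (X η)).symm
    have h2 : X D.ξ - (b * X) D.ξ = ex m • D.r (X - b * X) D.ξ - (D.cc m X - D.cc m (b * X)) := by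
      rw [← cc_sub, cc]; simp
    have h3 := (D.r_le (b * X) (D.r (X * star X) D.ξ)).trans
      (mul_le_of_le_one_left (norm_nonneg _) Y1)
    rw [norm_r_ξ, star_mul, star_star, mul_apply_eq_comp] at h3
    rw [h2, h1, r_mul_apply]
    refine (norm_sub_le _ _).trans (add_le_add ?_ ((norm_sub_le _ _).trans (by linarith)))
    rw [norm_smul]
    gcongr

variable (D) in
/-- `b v` is close to `v a` for approximate eigenoperators `v` of frequency `m` -/
def Rel (m : ℝ) (a b : H →L[ℂ] H) : Prop :=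
  a ∈ D.M ∧ b ∈ D.M ∧ ∀ ε > 0, ∃ P ≥ 0, ∀ v ∈ D.M, ‖v‖ ≤ 1 →
    ‖b (v D.ξ) - v (a D.ξ)‖ ≤ ε + P * ‖D.cc m v‖

lemma Rel.fam {m : ℝ} {a b : H →L[ℂ] H} (h : D.Rel m a b) {C ε : ℝ} (hC : 0 < C) (hε : 0 < ε) :
    ∃ P ≥ 0, ∀ (ι : Type) [Fintype ι] (w : ι → H →L[ℂ] H), (∀ i, w i ∈ D.M) → Col C w →
      ‖col (fun i => fl m (w i)) D.ξ‖ ≤ C →
      nn (fun i => b (w i D.ξ) - w i (a D.ξ)) ≤ ε + P * nn fun i => D.cc m (w i) := by
  obtain ⟨y, hy, h1⟩ := D.exists_r (a D.ξ) (show 0 < ε / (6 * C) by positivity)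
  set θ := a D.ξ - D.r y D.ξ
  have e0 := ex_pos m
  set L := ‖b‖ + ‖y‖
  set B := C / ‖ex m‖ ^ 2
  set K := (L + 1) * ‖ex m‖ * (B + C * (B + 1))
  have K0 : 0 < K := by positivity
  have hκ : 0 < ε / (3 * K) := by positivity
  set κ := ε / (3 * K) with hk
  obtain ⟨P, P0, hP⟩ := h.2.2 (κ * ε / 3) (by positivity)
  refine ⟨2 * P + 3 * L, by positivity, fun ι _ w hw c1 c2 => ?_⟩
  have key : ∀ X ∈ D.M, ‖b (X D.ξ) - X (a D.ξ)‖ ≤ κ * ε / 3 + (2 * P + 3 * L) * ‖D.cc m X‖ +
      (L * ‖ex m‖ * ‖X (star X D.ξ)‖ + 2 * ‖X θ‖) := fun X hX => by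
    obtain ⟨Y, Y0, Y1, Y2, Y3, Y4⟩ := contr hX m
    have e : b (X D.ξ) - X (a D.ξ) = (b (Y D.ξ) - Y (a D.ξ)) +
        (b (X D.ξ - Y D.ξ) - D.r y (X D.ξ - Y D.ξ) - (X θ - Y θ)) := by
      simp only [θ, map_sub, r_comm hX hy, r_comm Y0 hy]; abel
    have h2 := (norm_sub_le _ _).trans
      (add_le_add (b.le_opNorm (X D.ξ - Y D.ξ)) (D.r_le y (X D.ξ - Y D.ξ)))
    rw [← add_mul] at h2
    have h3 := mul_le_mul_of_nonneg_left Y4 (show 0 ≤ L by positivity)
    have h4 := mul_le_mul_of_nonneg_left Y2 P0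
    rw [e]
    refine (norm_add_le _ _).trans ((add_le_add (hP Y Y0 Y1)
      ((norm_sub_le _ _).trans (add_le_add (h2.trans h3) (Y3 θ)))).trans ?_)
    linarith
  obtain ⟨G, _, u, c, c0, r1, r2, r3⟩ := rand (H := H) ι
  let X : G → H →L[ℂ] H := fun g => (κ : ℂ) • ∑ i, u g i • w i
  have XM : ∀ g, X g ∈ D.M := fun g => vsmul _ (sum_mem fun i _ => vsmul _ (hw i))
  have hκ' : ‖(κ : ℂ)‖ = κ := by simp [hκ.le]
  have t1 : nn (fun g => b (X g D.ξ) - X g (a D.ξ)) =
      κ * (c * nn fun i => b (w i D.ξ) - w i (a D.ξ)) := by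
    rw [← r2, ← hκ', ← nn_smul]; simp [X, smul_sub]
  have t2 : nn (fun g => D.cc m (X g)) = κ * (c * nn fun i => D.cc m (w i)) := by
    rw [← r2, ← hκ', ← nn_smul]; simp only [X, cc_smul, cc_sum]
  have t3 : nn (fun g => X g θ) = κ * (c * nn fun i => w i θ) := by
    rw [← r2, ← hκ', ← nn_smul]; simp [X]
  have b1 : ‖∑ i, w i (star (w i) D.ξ)‖ ≤ B := by
    rw [le_div_iff₀ (by positivity), mul_comm]
    simpa [col_apply, fl, smul_smul, ← Finset.smul_sum, norm_smul, sq] using c2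
  have b2 : nn (fun j => star (w j) D.ξ) ≤ B + 1 := by
    have h2 := col_re (fun j => star (w j)) D.ξ
    have h3 := re_le_mul D.ξ (col (fun j => star (w j)) D.ξ)
    simp only [col_apply, star_star, D.unit] at h2 h3
    nlinarith [nn_nonneg fun j => star (w j) D.ξ]
  have t4 : nn (fun g => X g (star (X g) D.ξ)) ≤ κ * (κ * (c * (B + C * (B + 1)))) := by
    have h2 := r3 fun i j => w i (star (w j) D.ξ)
    have h3 : nn (fun p : ι × ι => w p.1 (star (w p.2) D.ξ)) ≤ C * (B + 1) := by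
      rw [nn_prod']
      exact (nn_mono hC.le fun j => by simpa using c1 _).trans (by gcongr)
    have h4 : nn (fun g => X g (star (X g) D.ξ)) = κ * (κ * nn fun g =>
        ∑ i, ∑ j, (u g i * conj (u g j)) • w i (star (w j) D.ξ)) := by
      rw [← hκ', ← nn_smul, ← nn_smul]
      congr 1
      ext g
      rw [Finset.sum_comm]
      simp [X, star_sum, Finset.smul_sum, smul_smul, mul_assoc, mul_left_comm, mul_comm (u g _)]
    rw [h4]
    gcongr
    exact h2.trans (by gcongr)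
  have t5 := nn_le_one (u := fun g => b (X g D.ξ) - X g (a D.ξ)) fun g =>
    (key _ (XM g)).trans (Real.le_norm_self _)
  have t6 := ((nn_add _ _).trans (add_le_add (nn_add _ _) (nn_add _ _))).trans' t5
  have s1 : nn (fun g => (2 * P + 3 * L) * ‖D.cc m (X g)‖) ≤ _ :=
    nn_mono (c := 2 * P + 3 * L) (by positivity) fun g => (abs_of_nonneg (by positivity)).le
  have s2 : nn (fun g => L * ‖ex m‖ * ‖X g (star (X g) D.ξ)‖) ≤ _ :=
    nn_mono (c := L * ‖ex m‖) (by positivity) fun g => (abs_of_nonneg (by positivity)).le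
  have s3 : nn (fun g => 2 * ‖X g θ‖) ≤ _ :=
    nn_mono (c := 2) (by positivity) fun g => (abs_of_nonneg (by positivity)).le
  rw [t1, r1 _ (by positivity)] at t6
  rw [t2] at s1
  rw [t3] at s3
  have s4 : C * ‖θ‖ ≤ ε / 6 := by rw [le_div_iff₀ (by positivity)] at h1; linarith
  have s5 : κ * K = ε / 3 := by rw [hk]; field_simp
  have s6 := mul_le_mul_of_nonneg_left t4 (show 0 ≤ L * ‖ex m‖ by positivity)
  have s7 := mul_le_mul_of_nonneg_left ((c1 θ).trans s4) (mul_pos hκ c0).le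
  have s8 : 0 ≤ κ * c * (κ * (‖ex m‖ * (B + C * (B + 1)))) := by positivity
  refine le_of_mul_le_mul_left ?_ (mul_pos hκ c0)
  have s9 : κ * c * (κ * K) = κ * c * (ε / 3) := by rw [s5]
  simp only [K] at s9
  linarith

end Mod

end Vale.Agent.P132
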