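import Vale.Agent.P132.ResA
import Vale.Agent.P132.ResChar

/-! The bicentralizer flow is trivial. -/

open Filter Topology
open scoped InnerProductSpace ComplexConjugate

namespace Vale.Agent.P132

variable {H : Type*} [NormedAddCommGroup H] [InnerProductSpace ℂ H] [CompleteSpace H]
variable {D : Mod H}

lemma Mod.glue {T : H →L[ℂ] H} (hT : ∀ t η, T (D.V t η) = D.V t (T η)) {β : H} {K : Set ℝ}
    (hK : IsCompact K) (h : ∀ l ∈ K, ∃ d > 0, ∀ g, Cb g → (∀ s, d < |s - l| → g s = 0) →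
      0 ≤ (⟪D.F g β, T (D.F g β)⟫_ℂ).re) {g : ℝ → ℂ} (hg : Cb g) (h0 : ∀ s ∉ K, g s = 0) :
    0 ≤ (⟪D.F g β, T (D.F g β)⟫_ℂ).re := by
  choose! d d0 hd using h
  obtain ⟨t, ht, hc⟩ := hK.elim_nhds_subcover (fun l => Metric.ball l (d l))
    fun l hl => Metric.ball_mem_nhds l (d0 l hl)
  obtain ⟨f, f1, f2, f3, -⟩ := exists_continuous_sum_one_of_isOpen_isCompact
    (s := fun i => Metric.ball (t.equivFin.symm i : ℝ) (d (t.equivFin.symm i)))
    (fun _ => Metric.isOpen_ball) hK fun x hx => by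
      obtain ⟨l, hl, h⟩ := Set.mem_iUnion₂.1 (hc hx)
      exact Set.mem_iUnion.2 ⟨t.equivFin ⟨l, hl⟩, by simpa using h⟩
  have e : ∀ g, Cb g → ⟪D.F g β, T (D.F g β)⟫_ℂ = ⟪β, T (D.F (fun s => conj (g s) * g s) β)⟫_ℂ :=
    fun g hg => by
      rw [D.F_mul_apply hg.star hg, D.comm_F hT hg.star, D.F_star hg, inner_star_right]
  have c : ∀ i, Cb fun s => ((√(f i s) : ℝ) : ℂ) := fun i => ⟨by fun_prop, 1, fun s => by
    rw [Complex.norm_real, Real.norm_of_nonneg (Real.sqrt_nonneg _)]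
    exact Real.sqrt_le_one.2 (f3 i s).2⟩
  have key : ∀ u : Finset (Fin t.card), 0 ≤ (⟪β, T (D.F (fun s => ∑ i ∈ u,
      conj (g s * (√(f i s) : ℝ)) * (g s * (√(f i s) : ℝ))) β)⟫_ℂ).re ∧ Cb fun s => ∑ i ∈ u,
      conj (g s * (√(f i s) : ℝ)) * (g s * (√(f i s) : ℝ)) := fun u => by
    induction u using Finset.induction_on with
    | empty => simp [D.F_const, Cb.const]
    | insert i u hi ih =>
      have c1 := (hg.mul (c i)).star.mul (hg.mul (c i))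
      simp only [Finset.sum_insert hi]
      refine ⟨?_, c1.add ih.2⟩
      rw [D.F_add c1 ih.2, ContinuousLinearMap.add_apply, map_add, inner_add_right, Complex.add_re,
        ← e _ (hg.mul (c i))]
      refine add_nonneg (hd _ (ht _ (t.equivFin.symm i).2) _ (hg.mul (c i)) fun s hs => ?_) ih.1
      rw [image_eq_zero_of_notMem_tsupport fun h => hs.not_gt (f1 i h)]
      simp
  convert (key Finset.univ).1 using 2
  rw [e g hg]
  congr 4; ext s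
  by_cases hs : s ∈ K
  · have : ∑ i, ((f i s : ℝ) : ℂ) = 1 := by exact_mod_cast (by simpa using f2 hs)
    rw [← mul_one (_ * _), ← this, Finset.mul_sum]
    refine Finset.sum_congr rfl fun i _ => ?_
    rw [← Real.mul_self_sqrt (f3 i s).1, map_mul, Complex.conj_ofReal, Real.sqrt_mul_self
      (Real.sqrt_nonneg _)]
    push_cast; ring
  · simp [h0 s hs]

namespace Mod.Core

variable (C : D.Core) {a b a' : H →L[ℂ] H} {s : ℝ}

lemma U_sq (r : ℝ) (η : H) : ⟪C.U r η, C.U r η⟫_ℂ = ⟪η, C.U 0 η⟫_ℂ := by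
  rw [← inner_star_right, C.U_star, ← ContinuousLinearMap.mul_apply, ← C.U_add, neg_add_cancel]

lemma U_le (r : ℝ) (η : H) : ‖C.U r η‖ ≤ ‖η‖ := by
  refine le_of_sq_le_sq ?_ (norm_nonneg _)
  rw [sq_eq_re, C.U_sq, C.U_zero, sq]
  exact (re_le_mul _ _).trans (mul_le_mul_of_nonneg_left
    (Submodule.norm_starProjection_apply_le _ _) (norm_nonneg _))

lemma U_eq (r : ℝ) (ha : a ∈ C.N) : ‖C.U r (a D.ξ)‖ = ‖a D.ξ‖ := by
  rw [← sq_eq_sq₀ (norm_nonneg _) (norm_nonneg _), sq_eq_re, C.U_sq, C.U_zero,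
    pr_fix (S := {η | ∃ a ∈ C.N, η = a D.ξ}) ⟨a, ha, rfl⟩, sq_eq_re]

lemma appr (hb : b ∈ C.N) {g : ℝ → ℂ} (hg : Cb g) : ∃ y : ℕ → H →L[ℂ] H, (∀ n, y n ∈ C.N) ∧
    Tendsto (fun n => y n D.ξ) atTop (𝓝 (D.F g (b D.ξ))) ∧
    Tendsto (fun n => D.r (y n) D.ξ) atTop (𝓝 (D.F g (D.r b D.ξ))) :=
  D.approx C.N.toStarSubalgebra.toSubalgebra.toSubmodule (fun t x hx => C.σ_N x hx t) hb hg

lemma swap (ha : a ∈ C.N) (hb : b ∈ C.N) (ha' : a' ∈ C.N) {μ w ω : ℝ}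
    (h1 : a' D.ξ = C.U μ (a D.ξ)) (hω : ∀ r, |r| ≤ w → ‖C.U r (a D.ξ) - a D.ξ‖ ≤ ω) (hw : 0 < w)
    {γ : ℝ → ℂ} (hγ : Cb γ) (γ1 : ∀ s, ‖γ s‖ ≤ 1) (γ0 : ∀ s, w < |s - μ| → γ s = 0) (hs : s ≠ 0)
    {ε : ℝ} (hε : 0 < ε) : ∀ᶠ n in hyperfilter ℕ,
      an s n (fun t => D.σ t b (a D.ξ) - a' (D.σ t b D.ξ)) ≤
        ω * ‖b D.ξ‖ + 2 * ‖a D.ξ‖ * ‖b D.ξ - D.F γ (b D.ξ)‖ + ε := by
  have ω0 : 0 ≤ ω := (norm_nonneg _).trans (hω 0 (by simpa using hw.le))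
  obtain ⟨δ, δ0, hδ⟩ : ∃ δ > 0, δ * (9 * ‖b D.ξ‖ + 1) ≤ ε :=
    ⟨ε / (9 * ‖b D.ξ‖ + 1), by positivity, (div_mul_cancel₀ _ (by positivity)).le⟩
  obtain ⟨y₀, hy, hθ⟩ := D.exists_r (a D.ξ) δ0
  obtain ⟨T, -, hT⟩ := exists_wlim (hyperfilter ℕ) (norm_nonneg _)
    (D.avσ_le (-s) 0 (star (D.r y₀ - a') * (D.r y₀ - a')))
  have hl := Nat.hyperfilter_le_atTop
  have TV : ∀ t η, T (D.V t η) = D.V t (T η) := fun t η => by
    simpa [ch] using (D.avσ_inv (neg_ne_zero.2 hs) 0 hl hT t η).symm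
  obtain ⟨q, hq⟩ : ∃ q : H → ℝ, q = fun η => √(⟪η, T η⟫_ℂ).re := ⟨_, rfl⟩
  have qc : Continuous q := hq ▸ by fun_prop
  have ql : ∀ η, Tendsto (fun n => an s n fun t => (D.r y₀ - a') (D.V t η)) (hyperfilter ℕ)
      (𝓝 (q η)) := fun η => by
    refine hq ▸ ((Complex.continuous_re.tendsto _).comp (hT η η)).sqrt.congr fun n => ?_
    rw [an_neg (g' := fun t => (D.r y₀ - a') (D.V (-t) η)) (by simp), an_eq, Function.comp_apply,
      D.avσ_inner]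
    simp only [ContinuousLinearMap.mul_apply, inner_star_right]
  have q1 : ∀ g, Cb g → q (D.F g (b D.ξ)) ≤ (2 * ‖a D.ξ‖ + δ) * ‖D.F g (b D.ξ)‖ := fun g hg => by
    obtain ⟨y, y1, y2, -⟩ := C.appr hb hg
    refine le_of_tendsto_of_tendsto' ((qc.tendsto _).comp y2) (y2.norm.const_mul _) fun n => ?_
    refine (le_of_tendsto_of_tendsto' (ql _) (((C.erg3 hs (y1 n) (D.r y₀ D.ξ)).add
      (C.erg4 hs ha' (y n D.ξ))).mono_left hl) fun k => ?_).trans ?_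
    · simpa only [ContinuousLinearMap.sub_apply, ← σ_ξ, r_comm (σ_mem (C.le (y1 n)) _) hy]
        using an_sub
    · have := norm_le_norm_add_norm_sub' (D.r y₀ D.ξ) (a D.ξ)
      rw [norm_sub_rev] at this
      rw [h1, C.U_eq μ ha]
      nlinarith [norm_nonneg (y n D.ξ)]
  have q2 : q (D.F γ (b D.ξ)) ≤ (ω + 5 * δ) * ‖D.F γ (b D.ξ)‖ := by
    have e : ∀ η, (⟪η, ((((ω + 5 * δ) ^ 2 : ℝ) : ℂ) • 1 - T) η⟫_ℂ).re =
        ((ω + 5 * δ) * ‖η‖) ^ 2 - (⟪η, T η⟫_ℂ).re := fun η => by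
      simp only [ContinuousLinearMap.sub_apply, ContinuousLinearMap.smul_apply, inner_sub_right,
        inner_smul_right, Complex.sub_re, Complex.re_ofReal_mul, mul_pow, sq_eq_re η,
        ContinuousLinearMap.one_apply]
    have := D.glue (T := (((ω + 5 * δ) ^ 2 : ℝ) : ℂ) • 1 - T) (by simp [TV]) (β := b D.ξ)
      (isCompact_closedBall μ w) (fun l hl' => ?_) hγ fun s hs => γ0 s (not_le.1 hs)
    · rw [hq]; exact Real.sqrt_le_iff.2 ⟨by positivity, by rwa [e, sub_nonneg] at this⟩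
    obtain ⟨b', b1, b2, b3⟩ := C.U_rel a ha l
    obtain ⟨P, P0, hP⟩ := C.aml b2 hy δ0
    obtain ⟨d, d0, hd⟩ : ∃ d > 0, P * (Real.exp (|d| / 2) - 1) ≤ δ := by
      have : Tendsto (fun d : ℝ => P * (Real.exp (|d| / 2) - 1)) (𝓝[>] 0) (𝓝 0) :=
        tendsto_nhdsWithin_of_tendsto_nhds (Continuous.tendsto' (by fun_prop) _ _ (by simp))
      exact (eventually_mem_nhdsWithin.and (this.eventually_le_const δ0)).exists
    refine ⟨d, d0, fun g hg g0 => ?_⟩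
    rw [e, sub_nonneg, ← Real.sqrt_le_left (by positivity)]
    obtain ⟨y, y1, y2, y3⟩ := C.appr hb hg
    have b4 : ‖(b' - a') D.ξ‖ ≤ ω := by
      have := hω (l - μ) hl'
      rw [ContinuousLinearMap.sub_apply, b3, h1, ← add_sub_cancel μ l, C.U_add,
        ContinuousLinearMap.mul_apply, ← map_sub]
      exact (C.U_le _ _).trans this
    have := le_of_tendsto_of_tendsto' ((qc.tendsto _).comp y2) (((y2.norm.const_mul
      (2 * (‖a D.ξ - D.r y₀ D.ξ‖ + δ))).add (((y3.const_smul (ex l)).sub y2).norm.const_mul P)).add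
      (y2.norm.const_mul ‖(b' - a') D.ξ‖)) fun n => le_of_tendsto_of_tendsto (ql _)
        ((tendsto_const_nhds.add (C.erg4 hs (sub_mem b1 ha') (y n D.ξ))).mono_left hl)
        ((hP _ (y1 n) s hs).filter_mono hl |>.mono fun k hk => le_trans (by
          simpa using an_add (g := fun t => (D.r y₀ - b') (D.V t (y n D.ξ)))
            (g' := fun t => (b' - a') (D.V t (y n D.ξ)))) (add_le_add hk le_rfl))
    have e2 := cc_loc (C.le hb) hg.1 g0
    rw [hq] at this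
    refine this.trans ?_
    have n0 := norm_nonneg (D.F g (b D.ξ))
    nlinarith [mul_le_mul_of_nonneg_left e2 P0, mul_le_mul_of_nonneg_right hd n0,
      mul_le_mul_of_nonneg_right hθ n0, mul_le_mul_of_nonneg_right b4 n0]
  have q3 : q (b D.ξ) ≤ q (D.F γ (b D.ξ)) + q (D.F (fun s => 1 - γ s) (b D.ξ)) :=
    le_of_tendsto_of_tendsto' (ql _) ((ql _).add (ql _)) fun n => le_trans (le_of_eq (by
      simp only [D.F_sub (Cb.const 1) hγ, D.F_one, ← map_add]; simp)) an_add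
  have q4 := q1 _ ((Cb.const 1).sub hγ)
  have q5 := D.F_norm hγ γ1 (b D.ξ)
  have q6 := norm_sub_le (b D.ξ) (D.F γ (b D.ξ))
  rw [D.F_sub (Cb.const 1) hγ, D.F_one, ContinuousLinearMap.sub_apply,
    ContinuousLinearMap.one_apply] at q3 q4
  filter_upwards [((ql (b D.ξ)).add ((C.erg3 hs hb (a D.ξ - D.r y₀ D.ξ)).mono_left hl)
    ).eventually_le_const (lt_add_of_pos_right _ δ0)] with n hn
  refine le_trans (le_trans (le_of_eq ?_) an_add) (hn.trans ?_)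
  · simp [r_comm (σ_mem (C.le hb) _) hy]
  · have n0 := norm_nonneg (b D.ξ)
    nlinarith [mul_le_mul_of_nonneg_left q5 (show 0 ≤ ω + 5 * δ by positivity),
      mul_le_mul_of_nonneg_left hθ n0, mul_le_mul_of_nonneg_left q6 δ0.le,
      mul_le_mul_of_nonneg_left q5 δ0.le]

lemma orth {η : H} (h0 : C.U 0 η = η) (h : ∀ a ∈ C.N, ⟪η, a D.ξ⟫_ℂ = 0) : η = 0 := by
  have := congr($(pr_ext (S := {η | ∃ a ∈ C.N, η = a D.ξ}) (x := InnerProductSpace.rankOne ℂ η η)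
    (y := 0) (by rintro _ ⟨a, ha, rfl⟩; simp [h a ha])) η)
  simpa [← C.U_zero, h0] using this

lemma eig {η : H} {ν : ℝ} (h0 : C.U 0 η = η) (h : ∀ t, D.V t η = ch t ν • η) :
    ∃ c : ℂ, η = c • D.ξ := by
  have cc : ∀ t, ch (-t) ν * ch t ν = 1 := fun t => by rw [← ch_add]; simp
  have key : ∀ a ∈ C.N, ∃ y ∈ C.N, (∀ u η, D.V u (y η) = ch u ν • y (D.V u η)) ∧
      ∀ η, (∀ t, D.V t η = ch t ν • η) → ⟪η, a D.ξ⟫_ℂ = ⟪η, y D.ξ⟫_ℂ := fun a ha => by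
    obtain ⟨y, -, y1, y2, y3⟩ := D.exists_E one_ne_zero ν (C.le ha)
    refine ⟨y, y3 _ (C.σ_N a ha), y1, fun η h => tendsto_nhds_unique
      (tendsto_const_nhds.congr fun n => ?_) (tendsto_const_nhds.inner (y2 D.ξ))⟩
    have : ∀ t, ⟪η, D.V t (a D.ξ)⟫_ℂ = ch t ν * ⟪η, a D.ξ⟫_ℂ := fun t => by
      rw [← neg_neg t, ← V_inner, h, inner_smul_left, conj_ch]
    simp [avσ, av_apply, av_inner, inner_smul_right, this, ← mul_assoc, cc]
  rcases eq_or_ne ν 0 with rfl | hν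
  · refine ⟨⟪D.ξ, η⟫_ℂ, sub_eq_zero.1 (C.orth (by simp [h0, C.U_ξ]) fun a ha => ?_)⟩
    obtain ⟨y, y0, y1, y2⟩ := key a ha
    obtain ⟨c, rfl⟩ := C.erg y (mem_fix.2 ⟨y0, by simpa [ch] using y1⟩)
    rw [y2 _ (by simp [h, ch])]
    simp [inner_smul_right, inner_sub_left, inner_smul_left, D.unit]
  refine ⟨0, (C.orth h0 fun a ha => ?_).trans (zero_smul _ _).symm⟩
  obtain ⟨y, y0, y1, y2⟩ := key a ha
  have y3 : ∀ u η, D.V u (star y η) = ch (-u) ν • star y (D.V u η) := fun u η =>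
    ext_inner_left ℂ fun ζ => by
      have := y1 (-u) ζ
      rw [inner_smul_right, inner_star_right, ← neg_neg u, ← V_inner, ← V_inner, this,
        inner_star_right, inner_smul_left, conj_ch, ← mul_assoc, neg_neg, neg_neg, cc,
        one_mul]
  obtain ⟨c, hc⟩ := C.erg _ (mem_fix.2 ⟨mul_mem (star_mem y0) y0, fun t η => by
    simp [y1, y3, smul_smul, cc]⟩)
  obtain ⟨c', hc'⟩ := C.erg _ (mem_fix.2 ⟨mul_mem y0 (star_mem y0), fun t η => by
    simp [y1, y3, smul_smul, cc, mul_comm (ch t ν)]⟩)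
  have e1 : (c - c') • y D.ξ = 0 := by
    have := congr($(show y * (c • 1) = (c' • 1) * y by rw [← hc, ← hc', mul_assoc]) D.ξ)
    simpa [sub_smul, sub_eq_zero] using this
  have e2 : ‖y D.ξ‖ ^ 2 = c.re := by simp [norm_sq_apply, hc, inner_smul_right, D.unit]
  have e3 : ‖star y D.ξ‖ ^ 2 = c'.re := by simp [norm_sq_apply, hc', inner_smul_right, D.unit]
  rw [← D.norm_r_ξ, eig_r (C.le y0) (ν := ν) (by simp [y1]), norm_smul, Complex.norm_real,
    Real.norm_eq_abs, mul_pow, sq_abs, sq, ← Real.exp_add, add_halves] at e3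
  have : y D.ξ = 0 := (smul_eq_zero.1 e1).elim (fun h => by
    rw [← sub_eq_zero.1 h, ← e2, mul_left_eq_self₀, Real.exp_eq_one_iff] at e3
    simpa using e3.resolve_left hν) id
  rw [y2 η h, this, inner_zero_right]

/-- The bicentralizer flow is trivial. -/
theorem flow_eq (r : ℝ) : C.U r = C.U 0 := by
  refine flow_trivial' D C.U C.U_add C.U_star C.U_cont
    (fun r g hg => ContinuousLinearMap.ext (D.comm_F (C.U_V r) hg)) C.U_ξ (fun η ν => C.eig)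
    {η | ∃ a ∈ C.N, η = a D.ξ} (fun η => ?_) ?_ r
  · refine closure_mono (fun ζ hζ => ?_) (C.U_zero ▸ pr_mem _ η)
    induction hζ using Submodule.span_induction with
    | mem _ h => exact h
    | zero => exact ⟨0, zero_mem _, rfl⟩
    | add _ _ _ _ a b =>
      obtain ⟨x, hx, rfl⟩ := a; obtain ⟨y, hy, rfl⟩ := b; exact ⟨_, add_mem hx hy, rfl⟩
    | smul c _ _ a => obtain ⟨x, hx, rfl⟩ := a; exact ⟨_, vsmul c hx, rfl⟩
  rintro _ ⟨a, ha, rfl⟩ _ ⟨b, hb, rfl⟩ μ ν w A B γ γ' hw hγ hγ' g1 g1' g0 g0' hA hB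
  obtain ⟨a', ha', -, ea⟩ := C.U_rel a ha μ
  obtain ⟨b', hb', -, eb⟩ := C.U_rel b hb ν
  have na := ea ▸ C.U_eq μ ha
  have nb := eb ▸ C.U_eq ν hb
  have e := fun {x y} hx hy => C.erg2 (x := x) (y := y) one_ne_zero hx hy
  have l1 := ((Complex.continuous_re.tendsto _).comp (((e hb hb (a D.ξ) (a D.ξ)).sub
    (e hb' hb (a' D.ξ) (a D.ξ))).sub ((e hb hb' (a D.ξ) (a' D.ξ)).sub
    (e hb' hb' (a' D.ξ) (a' D.ξ))))).sqrt
  have l2 : Tendsto (fun n => an 1 n fun t => D.σ t b (a D.ξ) - D.σ t b' (a' D.ξ)) atTop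
      (𝓝 √(2 * ‖a D.ξ‖ ^ 2 * ‖b D.ξ‖ ^ 2 -
        2 * (⟪b D.ξ, b' D.ξ⟫_ℂ * ⟪a D.ξ, a' D.ξ⟫_ℂ).re)) := by
    convert l1 using 3
    · simp only [an_eq, inner_sub_left, inner_sub_right, av, smul_sub, Finset.sum_sub_distrib,
        Function.comp_apply]
    · rw [← inner_conj_symm (b' D.ξ) (b D.ξ), ← inner_conj_symm (a' D.ξ) (a D.ξ), ← map_mul]
      simp only [inner_self_eq_norm_sq_to_K, na, nb, Complex.sub_re, Complex.conj_re,
        Complex.coe_algebraMap, ← Complex.ofReal_pow, ← Complex.ofReal_mul, Complex.ofReal_re]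
      ring
  rw [← ea, ← eb]
  refine (Real.sqrt_le_iff.1 (le_of_forall_pos_le_add fun ε hε => ?_)).2
  refine le_of_tendsto (l2.mono_left Nat.hyperfilter_le_atTop) ?_
  filter_upwards [C.swap ha hb ha' ea hA hw hγ' g1' g0' one_ne_zero (half_pos hε),
    C.swap hb ha' hb' eb hB hw hγ g1 g0 (neg_ne_zero.2 one_ne_zero) (half_pos hε)] with n h1 h2
  rw [← an_neg (g := fun t => a' (D.σ t b D.ξ) - D.σ t b' (a' D.ξ)) fun t => by
    rw [← D.norm_V (-t), map_sub]; simp [σ_apply, V_V]] at h2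
  have h3 := C.U_le μ (a D.ξ - D.F γ (a D.ξ))
  rw [map_sub, D.comm_F (C.U_V μ) hγ, ← ea] at h3
  refine le_trans (le_trans (le_of_eq (by simp)) an_add) ((add_le_add h1 h2).trans ?_)
  rw [na]
  nlinarith [norm_nonneg (b D.ξ)]

end Mod.Core

end Vale.Agent.P132
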