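import Vale.Agent.P132.Flow
import Vale.Agent.P132.Res
import Vale.Agent.P132.Fin

namespace Vale.Agent.P132

variable {H : Type*} [NormedAddCommGroup H] [InnerProductSpace ℂ H] [CompleteSpace H]

theorem main_abstract (D : Mod H) (a : H →L[ℂ] H) (hF : D.Full) (hc : D.Fac) (ha : D.Bic a) :
    ∃ c : ℂ, a = c • 1 := by
  obtain ⟨C, -⟩ := Mod.exists_core hF hc
  refine C.scalar (fun a ha m => ?_) ((C.mem_N a).2 ha.rel)
  obtain ⟨b, -, h1, h2⟩ := C.U_rel a ha m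
  rw [C.flow_eq, C.U_zero, pr_fix (S := {η | ∃ a ∈ C.N, η = a D.ξ}) ⟨a, ha, rfl⟩] at h2
  exact Mod.sep h1.2.1 h1.1 h2 ▸ h1

end Vale.Agent.P132
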