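import Mathlib

/-!
Abstract modular data of a von Neumann algebra with a cyclic separating unit vector:
the conjugation J, the bounded continuous functional calculus of log Delta with its
spectral measures, and the Tomita-Takesaki theorems.
-/

open MeasureTheory
open scoped InnerProductSpace ComplexConjugate

namespace Vale.Agent.P132

/-- bounded continuous functions on the line -/
def Cb (f : ℝ → ℂ) : Prop := Continuous f ∧ ∃ C : ℝ, ∀ s, ‖f s‖ ≤ C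

/-- the character `s ↦ exp (i t s)` -/
noncomputable def ch (t : ℝ) : ℝ → ℂ := fun s => Complex.exp (((t * s : ℝ) : ℂ) * Complex.I)

variable {H : Type*} [NormedAddCommGroup H] [InnerProductSpace ℂ H] [CompleteSpace H]

/-- `x ↦ J x* J` -/
noncomputable def rJ (J : H →L⋆[ℂ] H) (x : H →L[ℂ] H) : H →L[ℂ] H := J.comp ((star x).comp J)

/-- `F f = f (log Delta)`, `mu η` is the spectral measure of `η`, `J x* ξ = Delta^(1/2) x ξ`. -/
structure Mod (H : Type*) [NormedAddCommGroup H] [InnerProductSpace ℂ H] [CompleteSpace H] where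
  M : VonNeumannAlgebra H
  ξ : H
  unit : ‖ξ‖ = 1
  cyc : Dense {η : H | ∃ x ∈ M, η = x ξ}
  J : H →L⋆[ℂ] H
  JJ : ∀ η, J (J η) = η
  Jinner : ∀ η ζ, ⟪J η, J ζ⟫_ℂ = ⟪ζ, η⟫_ℂ
  Jξ : J ξ = ξ
  r_mem : ∀ x ∈ M, rJ J x ∈ M.commutant
  r_mem' : ∀ x ∈ M.commutant, rJ J x ∈ M
  F : (ℝ → ℂ) → H →L[ℂ] H
  mu : H → Measure ℝ
  mu_fin : ∀ η, IsFiniteMeasure (mu η)
  F_inner : ∀ f, Cb f → ∀ η, ⟪η, F f η⟫_ℂ = ∫ s, f s ∂(mu η)
  F_one : F (fun _ => 1) = 1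
  F_mul : ∀ f g, Cb f → Cb g → F (fun s => f s * g s) = F f * F g
  F_J : ∀ f, Cb f → ∀ η, F f (J η) = J (F (fun s => conj (f (-s))) η)
  F_ξ : ∀ f, Cb f → F f ξ = f 0 • ξ
  sig_mem : ∀ t, ∀ x ∈ M, F (ch t) * x * F (ch (-t)) ∈ M
  half : ∀ f g, Cb f → Cb g → (∀ s : ℝ, g s = (Real.exp (s / 2) : ℂ) * f s) →
    ∀ x ∈ M, F f (J (star x ξ)) = F g (x ξ)

/-- the Connes spectrum is the whole line -/
def Mod.Full (D : Mod H) : Prop :=
  ∀ e ∈ D.M, IsStarProjection e → e ≠ 0 → (∀ t, D.F (ch t) * e = e * D.F (ch t)) →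
    ∀ f, Cb f → f ≠ 0 → D.F f * e * rJ D.J e ≠ 0

/-- trivial centre -/
def Mod.Fac (D : Mod H) : Prop := ∀ x ∈ D.M, x ∈ D.M.commutant → ∃ c : ℂ, x = c • 1

/-- the `L²`-bicentralizer -/
def Mod.Bic (D : Mod H) (a : H →L[ℂ] H) : Prop :=
  a ∈ D.M ∧ ∀ w : ℕ → H →L[ℂ] H, (∀ n, w n ∈ D.M) → (∀ n, ‖w n‖ ≤ 1) →
    Filter.Tendsto (fun n => ‖w n D.ξ - rJ D.J (w n) D.ξ‖) Filter.atTop (nhds 0) →
    Filter.Tendsto (fun n => ‖(a * w n - w n * a) D.ξ‖) Filter.atTop (nhds 0)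

end Vale.Agent.P132
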