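import Vale.Agent.P132.Core

/-! Full spectrum in off-diagonal corners. -/

set_option linter.unusedSectionVars false

open Filter Topology MeasureTheory
open scoped InnerProductSpace ComplexConjugate

namespace Vale.Agent.P132

variable {H : Type*} [NormedAddCommGroup H] [InnerProductSpace ℂ H] [CompleteSpace H]

lemma norm_int_ch {d T : ℝ} (hd : d ≠ 0) : ‖∫ t in (0 : ℝ)..T, ch t d‖ ≤ 2 / |d| := by
  have : ∀ t : ℝ, ch t d = Complex.exp (d * Complex.I * t) := fun t => by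
    rw [ch]; congr 1; push_cast; ring
  simp only [this]
  rw [integral_exp_mul_complex (by simp [hd]), norm_div, ← this, ← this]
  simp only [norm_mul, Complex.norm_real, Complex.norm_I, mul_one, Real.norm_eq_abs]
  gcongr
  exact (norm_sub_le _ _).trans (by simp [one_add_one_eq_two])

lemma int_near {g : ℝ → H} (hg : Continuous g) {T C : ℝ} (hT : 0 < T) {θ : H}
    (h : ∀ t ∈ Set.Icc 0 T, ‖θ - g t‖ ≤ C) : ‖θ - (T⁻¹ : ℂ) • ∫ t in (0 : ℝ)..T, g t‖ ≤ C := by
  have h1 := intervalIntegral.norm_integral_le_of_norm_le_const (a := 0) (b := T)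
    (f := fun t => θ - g t) fun t ht => h t (by
      rw [Set.uIoc_of_le hT.le] at ht; exact Set.Ioc_subset_Icc_self ht)
  rw [intervalIntegral.integral_sub intervalIntegrable_const (hg.intervalIntegrable _ _),
    intervalIntegral.integral_const, sub_zero, abs_of_pos hT] at h1
  have h2 : θ - (T⁻¹ : ℂ) • ∫ t in (0 : ℝ)..T, g t =
      (T⁻¹ : ℂ) • (T • θ - ∫ t in (0 : ℝ)..T, g t) := by
    rw [smul_sub, ← Complex.coe_smul, smul_smul, inv_mul_cancel₀ (by simpa using hT.ne'), one_smul]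
  rw [h2, norm_smul, norm_inv, Complex.norm_real, Real.norm_of_nonneg hT.le, inv_mul_le_iff₀ hT]
  linarith

namespace Mod

variable {D : Mod H}

lemma fac_ne (hc : D.Fac) {p q : H →L[ℂ] H} (hp : p ∈ D.M) (p0 : p ≠ 0)
    (q0 : q ≠ 0) : ∃ y ∈ D.M, q * y * p ≠ 0 := by
  by_contra! h
  set S := {η | ∃ y ∈ D.M, ∃ ζ, η = y (p ζ)}
  have h1 : ∀ x ∈ D.M, ∀ η ∈ S, pr S (x η) = x η := by
    rintro x hx _ ⟨y, hy, ζ, rfl⟩
    exact pr_fix ⟨x * y, mul_mem hx hy, ζ, rfl⟩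
  have h2 : ∀ x ∈ D.M.commutant, ∀ η ∈ S, pr S (x η) = x η := by
    rintro x hx _ ⟨y, hy, ζ, rfl⟩
    exact pr_fix ⟨y, hy, x ζ, by rw [comm_of_mem hp hx, comm_of_mem hy hx]⟩
  obtain ⟨c, hc⟩ := hc (pr S) (mem_of_comm fun x hx => pr_comm (h2 x hx) (h2 _ (star_mem hx)))
    (VonNeumannAlgebra.mem_commutant_iff.2 fun x hx => pr_comm (h1 x hx) (h1 _ (star_mem hx)))
  have h3 : q * pr S = 0 * pr S := pr_ext (by
    rintro _ ⟨y, hy, ζ, rfl⟩
    exact congr($(h y hy) ζ))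
  have h4 : pr S * p = p := ContinuousLinearMap.ext fun ζ => pr_fix ⟨1, one_mem _, ζ, rfl⟩
  rw [hc] at h3 h4
  have : c ≠ 0 := by rintro rfl; simp [p0.symm] at h4
  simp [this, q0] at h3

lemma loc {m w : ℝ} (hw : 0 < w) (θ : H) (t : ℝ) :
    ‖D.V t (D.F (bump m w) θ) - ch t m • D.F (bump m w) θ‖ ≤ |t| * w * ‖D.F (bump m w) θ‖ := by
  have c := Cb.bump m hw
  rw [V, ← D.F_mul_apply (.ch t) c, ← smul_apply, ← D.F_smul _ c, ← sub_apply,
    ← D.F_sub ((Cb.ch t).mul c) ((Cb.const _).mul c)]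
  refine D.F_le' (((Cb.ch t).mul c).sub ((Cb.const _).mul c)) c (by positivity) (fun s => ?_) _
  rcases le_total w |s - m| with h | h
  · simp [bump_zero hw h]
  rw [← sub_mul, norm_mul, show s = m + (s - m) by ring, ch_add', ← mul_sub_one, norm_mul, norm_ch,
    one_mul, ch, mul_comm _ Complex.I]
  gcongr
  refine Real.norm_exp_I_mul_ofReal_sub_one_le.trans ?_
  rw [Real.norm_eq_abs, abs_mul]
  gcongr

lemma exists_bump {θ : H} (h : θ ≠ 0) {w : ℝ} (hw : 0 < w) : ∃ m, D.F (bump m w) θ ≠ 0 := by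
  by_contra! h0
  have h1 : ∀ m : ℚ, ∀ᵐ s ∂D.mu θ, ‖bump m w s‖ ^ 2 = 0 := fun m =>
    (integral_eq_zero_iff_of_nonneg (fun s => by positivity) (D.int_sq (.bump m hw) θ)).1 (by
      rw [← D.F_sq (.bump m hw), h0]; simp)
  have h2 := D.F_sq (.const 1) θ
  rw [integral_congr_ae (g := fun _ => 0) ((ae_all_iff.2 h1).mono fun s hs => ?_)] at h2
  · simp [D.F_one, h] at h2
  obtain ⟨m, h3⟩ := exists_rat_near s hw
  have := hs m
  simp [bump, one_le_div hw, h3.not_ge] at this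

lemma cV (m : ℝ) (η : H) : Continuous fun t => ch (-t) m • D.V t η :=
  .smul (by fun_prop) (D.V_cont η)

lemma cσ (m : ℝ) (x : H →L[ℂ] H) (η : H) : Continuous fun t => (ch (-t) m • D.σ t x) η :=
  .smul (by fun_prop) (D.σ_cont x η)

lemma W_small {m ρ : ℝ} (hρ : 0 < ρ) {θ : H} (h : D.F (bump m ρ) θ = 0) :
    ‖((8 / ρ : ℝ)⁻¹ : ℂ) • ∫ t in (0 : ℝ)..(8 / ρ), ch (-t) m • D.V t θ‖ ≤ ‖θ‖ / 2 := by
  set T := 8 / ρ
  have hT : 0 < T := by positivity
  let a : ℝ → ℂ := fun s => (T⁻¹ : ℂ) * ∫ t in (0 : ℝ)..T, ch t (s - m)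
  have a1 : ∀ s, ‖a s‖ ≤ 1 := fun s => by
    simpa [a] using int_near (H := ℂ) (g := fun t => ch t (s - m)) (by fun_prop) hT (θ := 0) (C := 1)
      fun t _ => by simp
  have a2 : Cb a := ⟨continuous_const.mul
    (intervalIntegral.continuous_parametric_intervalIntegral_of_continuous' (by fun_prop) _ _), 1, a1⟩
  obtain ⟨S, S1, -⟩ := exists_sint (A := fun t => ch (-t) m • D.V t)
    (cV m) (C := 1) (fun t =>
      ContinuousLinearMap.opNorm_le_bound _ zero_le_one fun η => by simp [norm_smul]) 0 T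
  have e : D.F a = (T⁻¹ : ℂ) • S := op_ext fun η => by
    have := (innerSL ℂ η).intervalIntegral_comp_comm (μ := volume) (a := 0) (b := T)
      ((cV (D := D) m η).intervalIntegrable _ _)
    simp only [innerSL_apply_apply] at this
    simp only [D.F_inner _ a2, smul_apply, inner_smul_right, S1, ← this, a, integral_const_mul]
    congr 1
    simp only [V, D.F_inner _ (.ch _), ← integral_const_mul, intervalIntegral.integral_of_le hT.le]
    rw [integral_integral_swap]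
    · simp [sub_eq_add_neg, ch_add', ch_neg, mul_comm]
    · exact .of_bound (Continuous.aestronglyMeasurable (by fun_prop)) 1
        (.of_forall fun _ => (norm_ch _ _).le)
  have h1 : ‖D.F a θ‖ ^ 2 ≤ (‖θ‖ / 2) ^ 2 := by
    have h2 := D.F_sq (.const 1) θ
    have h3 := D.F_sq (.bump m hρ) θ
    have h4 := integral_mono (D.int_sq a2 θ) (((D.int_sq (.const 1) θ).const_mul (1 / 4)).add
      ((D.int_sq (.bump m hρ) θ).const_mul 4)) fun s => by
        rcases le_total |s - m| (ρ / 2) with h | h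
        · have : 1 / 2 ≤ ‖bump m ρ s‖ := by
            rw [bump, Complex.norm_real]
            refine le_trans (le_max_of_le_right ?_) (le_abs_self _)
            linarith [(div_le_iff₀ hρ).2 (show |s - m| ≤ 1 / 2 * ρ by linarith)]
          simp only [Pi.add_apply]
          nlinarith [a1 s, norm_nonneg (a s), sq_nonneg ‖(1 : ℂ)‖]
        · have h0 : 0 < |s - m| := by linarith
          have : ‖a s‖ ≤ 1 / 2 := by
            rw [norm_mul, norm_inv, Complex.norm_real, Real.norm_of_nonneg hT.le,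
              inv_mul_le_iff₀ hT]
            refine (norm_int_ch (abs_pos.1 h0)).trans ?_
            rw [div_le_iff₀ h0]
            have : T * ρ = 8 := by simp [T, hρ.ne']
            nlinarith
          simp only [Pi.add_apply, norm_one]
          nlinarith [norm_nonneg (a s), sq_nonneg ‖bump m ρ s‖]
    simp only [Pi.add_apply] at h4
    rw [integral_add ((D.int_sq (.const 1) θ).const_mul _) ((D.int_sq (.bump m hρ) θ).const_mul _),
      integral_const_mul, integral_const_mul, ← h2, ← h3, ← D.F_sq a2, h, D.F_one] at h4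
    simp only [one_apply_eq_self, norm_zero] at h4
    linarith
  simpa [e, S1] using le_of_sq_le_sq h1 (by positivity)

lemma off_proj (hF : D.Full) (hc : D.Fac) {p q : H →L[ℂ] H} (hp : p ∈ D.fix D.M)
    (hq : q ∈ D.fix D.M) (p1 : IsStarProjection p) (q1 : IsStarProjection q) (p0 : p ≠ 0)
    (q0 : q ≠ 0) (m : ℝ) {ρ : ℝ} (hρ : 0 < ρ) : D.F (bump m ρ) * q * D.r p ≠ 0 := by
  intro h0
  have pM := (mem_fix.1 hp).1
  have qM := (mem_fix.1 hq).1
  have pp : ∀ η, D.r p (D.r p η) = D.r p η := fun η => by rw [← r_mul_apply, p1.isIdempotentElem.eq]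
  have qq : ∀ η, q (q η) = q η := fun η => congr($(q1.isIdempotentElem.eq) η)
  set T := 8 / ρ
  have hT : 0 < T := by positivity
  obtain ⟨y₀, hy₀, h1⟩ := fac_ne hc pM p0 q0
  have e0 : ∀ y ∈ D.M, (q * y * p) D.ξ = q (D.r p (y D.ξ)) := fun y hy => by
    simp [← fix_r hp, r_comm hy pM]
  obtain ⟨m₁, h2⟩ := D.exists_bump (fun h => h1 (sep (mul_mem (mul_mem qM hy₀) pM) (zero_mem _) h))
    (show 0 < (8 * T)⁻¹ by positivity)
  have c1 := Cb.bump m₁ (show 0 < (8 * T)⁻¹ by positivity)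
  set θ := D.F (bump m₁ (8 * T)⁻¹) ((q * y₀ * p) D.ξ) with hθ
  have θ0 := norm_pos_iff.2 h2
  obtain ⟨y, hy, h3⟩ := D.exists_l θ (show 0 < ‖θ‖ / 16 by positivity)
  set x := q * y * p with hx
  have xM : x ∈ D.M := mul_mem (mul_mem qM hy) pM
  have h4 : ‖θ - x D.ξ‖ ≤ ‖θ‖ / 16 := by
    have : θ - x D.ξ = q (D.r p (θ - y D.ξ)) := by
      rw [map_sub, map_sub, e0 y hy, hθ, fix_rF hp c1, fix_F hq c1, e0 y₀ hy₀,
        ← r_comm qM pM (D.r p _), pp, qq]
    rw [this]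
    refine (q.le_of_opNorm_le q1.norm_le _).trans ?_
    linarith [(D.r_le p (θ - y D.ξ)).trans (mul_le_of_le_one_left (norm_nonneg _) p1.norm_le)]
  obtain ⟨S, S1, -, S2⟩ := exists_sint (A := fun t => ch (-t) m₁ • D.σ t x)
    (cσ m₁ x) (C := ‖x‖)
    (fun t => by simpa [norm_smul] using D.σ_le t x) 0 T
  set x' := x - (T⁻¹ : ℂ) • S
  have x'M : x' ∈ D.M := sub_mem xM (vsmul _ (S2 _ fun t => vsmul _ (σ_mem xM t)))
  have x'p : x' * p = x' := by
    have : x * p = x := by rw [hx, mul_assoc, p1.isIdempotentElem.eq]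
    ext η
    simp only [x', mul_apply_eq_comp, sub_apply, smul_apply, S1, σ_apply, (mem_fix.1 hp).2]
    simp only [← mul_apply_eq_comp x p, this]
  have h5 : ‖x' D.ξ‖ ≤ ‖θ‖ / 4 := by
    rw [sub_apply, smul_apply, S1]
    refine int_near (cσ m₁ x _) hT fun t ht => ?_
    have e : x D.ξ - (ch (-t) m₁ • D.σ t x) D.ξ = ch (-t) m₁ • (D.V t (θ - x D.ξ) -
        (D.V t θ - ch t m₁ • θ)) - (θ - x D.ξ) := by
      simp [smul_sub, smul_smul, ← ch_add]
    have h6 := loc (D := D) (m := m₁) (show 0 < (8 * T)⁻¹ by positivity) ((q * y₀ * p) D.ξ) t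
    have h7 : |t| * (8 * T)⁻¹ ≤ 1 / 8 := by
      rw [abs_of_nonneg ht.1, mul_inv_le_iff₀ (by positivity)]; linarith [ht.2]
    rw [e]
    refine (norm_sub_le _ _).trans ?_
    rw [norm_smul, norm_ch, one_mul]
    have h8 := norm_sub_le (D.V t (θ - x D.ξ)) (D.V t θ - ch t m₁ • θ)
    rw [norm_V] at h8
    nlinarith
  set d₀ := star x * x - (8 : ℂ) • (star x' * x')
  have d₁ : ∀ η, (⟪η, d₀ η⟫_ℂ).re = ‖x η‖ ^ 2 - 8 * ‖x' η‖ ^ 2 := fun η => by
    simp [d₀, norm_sq_apply]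
  have d₀M : d₀ ∈ D.M :=
    sub_mem (mul_mem (star_mem xM) xM) (vsmul _ (mul_mem (star_mem x'M) x'M))
  obtain ⟨E, -, E1, E2, E3⟩ := D.exists_E one_ne_zero 0 d₀M
  have E4 : ∀ η ζ, Tendsto (fun n => av 1 n fun t => ⟪D.V (-t) η, d₀ (D.V (-t) ζ)⟫_ℂ) atTop
      (𝓝 ⟪η, E ζ⟫_ℂ) := fun η ζ => by
    simpa only [avσ_inner] using (tendsto_const_nhds (x := η)).inner (𝕜 := ℂ) (E2 ζ)
  have d₂ : IsSelfAdjoint d₀ := by simp [IsSelfAdjoint, d₀]
  have E5 : IsSelfAdjoint E := sa_of fun η ζ => by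
    refine tendsto_nhds_unique ?_ (E4 η ζ)
    have := (Complex.continuous_conj.tendsto _).comp (E4 ζ η)
    rw [inner_conj_symm] at this
    refine this.congr fun n => ?_
    simp [av, sa_inner d₂, map_ofNat]
  have E6 : p * E = E := by
    have : p * d₀ = d₀ := by
      have h := congrArg star x'p
      rw [star_mul, p1.isSelfAdjoint.star_eq] at h
      simp [d₀, mul_sub, ← mul_assoc, h, hx, p1.isSelfAdjoint.star_eq, p1.isIdempotentElem.eq]
    ext η
    refine ext_inner_left ℂ fun ζ => tendsto_nhds_unique ?_ (E4 ζ η)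
    rw [mul_apply_eq_comp, ← sa_inner p1.isSelfAdjoint]
    simpa only [(mem_fix.1 hp).2, sa_inner p1.isSelfAdjoint, ← mul_apply_eq_comp p d₀, this]
      using E4 (p ζ) η
  set c := ‖θ‖ ^ 2 / 4
  have EM : E ∈ D.fix D.M := mem_fix.2 ⟨E3 _ (σ_mem d₀M), by simpa using E1⟩
  have pre : ∀ η, (⟪η, (E - (c : ℂ) • p) η⟫_ℂ).re = (⟪η, E η⟫_ℂ).re - c * (⟪η, p η⟫_ℂ).re :=
    fun η => by simp
  obtain ⟨e, he, e1, e2, e3, e4⟩ := top_proj (sub_mem EM (vsmul (c : ℂ) hp))
    (E5.sub (by simp [IsSelfAdjoint, p1.isSelfAdjoint.star_eq])) (η₀ := D.ξ) (by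
      have h6 : _ = ⟪D.ξ, d₀ D.ξ⟫_ℂ := tendsto_nhds_unique (E4 D.ξ D.ξ) (by simp)
      have h7 := (re_le_mul D.ξ (p D.ξ)).trans
        (mul_le_mul_of_nonneg_left (p.le_of_opNorm_le p1.norm_le _) (norm_nonneg _))
      have h8 := norm_le_norm_add_norm_sub' θ (x D.ξ)
      rw [pre, h6, d₁]
      rw [D.unit] at h7
      simp only [c]
      nlinarith [norm_nonneg (x' D.ξ)])
  have e5 : p * e = e := e4 p (by simp [mul_sub, E6, p1.isIdempotentElem.eq])
  have e6 : e * p = e := by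
    simpa [p1.isSelfAdjoint.star_eq, e1.isSelfAdjoint.star_eq] using congrArg star e5
  set w := ‖θ‖ / (8 * T * (‖x‖ + 1)) with hw
  have w0 : 0 < w := by positivity
  have c2 := Cb.bump (m - m₁) w0
  obtain ⟨ζ₀, h6⟩ := ContinuousLinearMap.exists_ne_zero (hF e (mem_fix.1 he).1 e1 e2
    (fun t => ContinuousLinearMap.ext ((mem_fix.1 he).2 t)) _ c2 fun h => by
      simpa using congrFun h (m - m₁))
  change D.F _ (e (D.r e ζ₀)) ≠ 0 at h6
  set η := D.F (bump (m - m₁) w) (e (D.r e ζ₀)) with hη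
  have η1 : e η = η := by rw [hη, fix_F he c2, ← mul_apply_eq_comp e e, e1.isIdempotentElem.eq]
  have η2 : D.r p η = η := by rw [hη, fix_rF hp c2, ← r_comm (mem_fix.1 he).1 pM, ← r_mul_apply, e6]
  have η3 : p η = η := by rw [← η1, ← mul_apply_eq_comp, e5]
  have key : ∀ u, (⟪D.V u η, d₀ (D.V u η)⟫_ℂ).re ≤ c / 2 * ‖η‖ ^ 2 := fun u => by
    set ζ := D.V u η
    have z1 : q (D.r p (x ζ)) = x ζ := by
      rw [← r_comm xM pM, show D.r p ζ = ζ from (fix_rF hp (.ch u) η).trans (congrArg _ η2)]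
      simp [hx, qq]
    have z2 := W_small hρ (show D.F (bump m ρ) (x ζ) = 0 from z1 ▸ congr($h0 (x ζ)))
    have z3 := int_near (θ := 0) (C := ‖θ‖ / 8 * ‖η‖)
      (g := fun t => ch (-t) m • D.V t (x ζ) - (ch (-t) m₁ • D.σ t x) ζ)
      ((cV m _).sub (cσ m₁ x _)) hT
      fun t ht => by
        have e : ch (-t) m • D.V t (x ζ) - (ch (-t) m₁ • D.σ t x) ζ =
            ch (-t) m • D.σ t x (D.V u (D.V t η - ch t (m - m₁) • η)) := by
          simp [σ_apply, smul_sub, smul_smul, ζ, V_V, add_comm u t, sub_eq_add_neg m, ch_add',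
            ← mul_assoc, ← ch_add, ch_neg]
        rw [zero_sub, norm_neg, e, norm_smul, norm_ch, one_mul]
        refine ((D.σ t x).le_of_opNorm_le (D.σ_le t x) _).trans ?_
        rw [norm_V]
        refine (mul_le_mul_of_nonneg_left (loc w0 _ t) (norm_nonneg _)).trans ?_
        rw [← mul_assoc, abs_of_nonneg ht.1]
        gcongr
        have : w * (8 * T * (‖x‖ + 1)) = ‖θ‖ := by rw [hw]; field_simp
        nlinarith [mul_nonneg w0.le (mul_nonneg (norm_nonneg x) (sub_nonneg.2 ht.2)), mul_pos w0 hT]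
    rw [zero_sub, norm_neg, intervalIntegral.integral_sub
      ((cV m _).intervalIntegrable _ _) ((cσ m₁ x _).intervalIntegrable _ _), ← S1, smul_sub] at z3
    have z4 := norm_le_norm_add_norm_sub' (x ζ) (x' ζ)
    have z5 := norm_le_norm_add_norm_sub ((T⁻¹ : ℂ) • ∫ t in (0 : ℝ)..T, ch (-t) m • D.V t (x ζ))
      ((T⁻¹ : ℂ) • S ζ)
    rw [show x ζ - x' ζ = (T⁻¹ : ℂ) • S ζ by simp [x']] at z4
    rw [d₁]
    simp only [c]
    nlinarith [norm_nonneg (x ζ), sq_nonneg (‖x' ζ‖ - ‖θ‖ / 8 * ‖η‖), norm_nonneg (x' ζ)]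
  have h7 : (⟪η, E η⟫_ℂ).re ≤ c / 2 * ‖η‖ ^ 2 :=
    le_of_tendsto' ((Complex.continuous_re.tendsto _).comp (E4 η η)) fun n => by
      have := Finset.sum_le_sum fun (k : Fin (4 ^ n)) (_ : k ∈ Finset.univ) => key (-tm 1 n k)
      simp only [Function.comp, av, show ((4 : ℂ) ^ n)⁻¹ = (((4 : ℝ) ^ n)⁻¹ : ℝ) by simp,
        smul_eq_mul, Complex.re_ofReal_mul, Complex.re_sum]
      rw [inv_mul_le_iff₀ (by positivity)]
      simpa using this
  have h8 := e3 η
  rw [η1, pre, η3, ← sq_eq_re] at h8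
  have : 0 < c * ‖η‖ ^ 2 := by have := norm_pos_iff.2 h6; positivity
  linarith

lemma nz (hF : D.Full) (hc : D.Fac) {a b : H →L[ℂ] H} (ha : a ∈ D.fix D.M)
    (hb : b ∈ D.fix D.M) (a1 : IsSelfAdjoint a) (a0 : a ≠ 0) (b0 : b ≠ 0) (m : ℝ) {δ : ℝ}
    (hδ : 0 < δ) : ∃ y ∈ D.M, ‖D.cc m (b * y * a)‖ < δ * ‖(b * y * a) D.ξ‖ := by
  have aM := (mem_fix.1 ha).1
  have bM := (mem_fix.1 hb).1
  set w := 2 * Real.log (1 + δ / 2)
  have w0 : 0 < w := mul_pos two_pos (Real.log_pos (by linarith))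
  have c := Cb.bump m w0
  obtain ⟨p, hp, p1, p2, p3⟩ := exists_rp ha
  obtain ⟨q, hq, q1, q2, q3⟩ := exists_rp hb
  have h1 : ∃ y ∈ D.M, D.F (bump m w) (b (D.r a (y D.ξ))) ≠ 0 := by
    by_contra! h
    refine off_proj hF hc hp hq p1 q1 (by rintro rfl; simp [a0.symm] at p2)
      (by rintro rfl; simp [b0.symm] at q2) m w0 (ContinuousLinearMap.ext fun η => ?_)
    have h2 : ∀ η, D.F (bump m w) (b (D.r a η)) = 0 := fun η =>
      closure_minimal (t := {η | D.F (bump m w) (b (D.r a η)) = 0})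
        (by rintro _ ⟨y, hy, rfl⟩; exact h y hy) (isClosed_eq (by fun_prop) continuous_const)
        (D.cyc η)
    have h3 : ∀ η, D.F (bump m w) (D.r a (q η)) = 0 := fun η =>
      closure_minimal (t := {η | D.F (bump m w) (D.r a η) = 0})
        (by rintro _ ⟨y, rfl⟩; simpa [r_comm bM aM] using h2 y)
        (isClosed_eq (by fun_prop) continuous_const) (q3 η)
    refine closure_minimal (t := {η | D.F (bump m w) (q (D.J η)) = 0}) ?_
      (isClosed_eq (by fun_prop) continuous_const) (p1.isSelfAdjoint.star_eq.symm ▸ p3 (D.J η))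
    rintro _ ⟨y, rfl⟩
    simpa [J_apply, a1.star_eq, r_comm (mem_fix.1 hq).1 aM] using h3 (D.J y)
  obtain ⟨y₀, hy₀, h1⟩ := h1
  obtain ⟨y, y1, y2, y3⟩ := D.approx D.M.toStarSubalgebra.toSubmodule
    (fun t x hx => σ_mem hx t) hy₀ c
  have e1 : ∀ y ∈ D.M, (b * y * a) D.ξ = b (D.r a (y D.ξ)) := fun y hy => by
    simp [← fix_r ha, r_comm hy aM]
  have e2 : ∀ y ∈ D.M, D.r (b * y * a) D.ξ = b (D.r a (D.r y D.ξ)) := fun y hy => by
    rw [r_mul_apply, r_mul_apply, fix_r hb, ← r_comm bM hy, r_comm bM aM]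
  have L : Continuous fun η => b (D.r a η) := by fun_prop
  have t1 := (L.tendsto _).comp y2
  have t2 := (((L.tendsto _).comp y3).const_smul (ex m)).sub t1
  have h2 := cc_loc (mul_mem (mul_mem bM hy₀) aM) (continuous_bump m w)
    fun s hs => bump_zero w0 hs.le
  rw [e1 _ hy₀, e2 _ hy₀, abs_of_pos w0, mul_div_cancel_left₀ _ two_ne_zero,
    Real.exp_log (by linarith)] at h2
  simp only [fix_rF ha c, fix_F hb c] at t1 t2
  obtain ⟨n, hn⟩ := (t2.norm.eventually_lt (t1.norm.const_mul δ)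
    (by nlinarith [norm_pos_iff.2 h1])).exists
  exact ⟨y n, y1 n, by rwa [cc, e1 _ (y1 n), e2 _ (y1 n)]⟩

end Mod

end Vale.Agent.P132
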