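import Vale.Agent.P132.Core

/-! Averaged norms, ergodicity and the asymptotic module law. -/

open Filter Topology
open scoped InnerProductSpace ComplexConjugate

namespace Vale.Agent.P132

variable {H : Type*} [NormedAddCommGroup H] [InnerProductSpace ℂ H]

/-- averaged norm -/
noncomputable def an (s : ℝ) (n : ℕ) (g : ℝ → H) : ℝ :=
  nn fun k : Fin (4 ^ n) => ((2 : ℂ) ^ n)⁻¹ • g (tm s n k)

variable {s : ℝ} {n : ℕ} {g g' : ℝ → H}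

lemma an_nonneg : 0 ≤ an s n g := nn_nonneg _

lemma an_le {C : ℝ} (h : ∀ t, ‖g t‖ ≤ C) : an s n g ≤ C := nn_av_le s n h

lemma an_add : an s n (fun t => g t + g' t) ≤ an s n g + an s n g' := by
  simpa only [an, smul_add] using nn_add _ _

lemma an_sub : an s n (fun t => g t - g' t) ≤ an s n g + an s n g' := by
  simpa only [an, smul_sub] using nn_sub _ _

lemma an_neg (h : ∀ t, ‖g t‖ = ‖g' (-t)‖) : an s n g = an (-s) n g' :=
  nn_congr fun k => by rw [norm_smul, norm_smul, h, tm, tm, neg_mul, neg_div]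

lemma an_smul (c : ℂ) : an s n (fun t => c • g t) = ‖c‖ * an s n g := by
  simpa only [an, smul_comm _ c] using nn_smul c _

lemma an_eq : an s n g = √(av s n fun t => ⟪g t, g t⟫_ℂ).re := by
  rw [← Real.sqrt_sq (an_nonneg (g := g)), an, nn_av]
  simp only [inner_self_eq_norm_sq_to_K, Complex.ofReal_pow, Complex.coe_algebraMap]

variable [CompleteSpace H] {D : Mod H}

namespace Mod.Core

variable (C : D.Core) {a b x y : H →L[ℂ] H}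

lemma le (hx : x ∈ C.N) : x ∈ D.M := ((C.mem_N x).1 hx).1

lemma erg1 (hs : s ≠ 0) (hx : x ∈ C.N) (η : H) :
    Tendsto (fun n => D.avσ s 0 x n η) atTop (𝓝 (⟪D.ξ, x D.ξ⟫_ℂ • η)) := by
  obtain ⟨y, -, h1, h2, h3⟩ := D.exists_E hs 0 (C.le hx)
  obtain ⟨c, rfl⟩ := C.erg y (mem_fix.2 ⟨h3 _ (C.σ_N x hx), by simpa [ch] using h1⟩)
  have := tendsto_nhds_unique (tendsto_const_nhds.inner (h2 D.ξ))
    (tendsto_const_nhds.congr fun n => (by simp [D.avσ_inner] :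
      ⟪D.ξ, x D.ξ⟫_ℂ = ⟪D.ξ, D.avσ s 0 x n D.ξ⟫_ℂ))
  simpa [← this, inner_smul_right, D.unit] using h2 η

lemma erg2 (hs : s ≠ 0) (hx : x ∈ C.N) (hy : y ∈ C.N) (η ζ : H) :
    Tendsto (fun n => av s n fun t => ⟪D.σ t x η, D.σ t y ζ⟫_ℂ) atTop
      (𝓝 (⟪x D.ξ, y D.ξ⟫_ℂ * ⟪η, ζ⟫_ℂ)) := by
  have := (tendsto_const_nhds (x := η)).inner (𝕜 := ℂ) (C.erg1 hs (mul_mem (star_mem hx) hy) ζ)
  simpa [avσ, av_apply, av_inner, ch, σ_mul, σ_star, inner_star_right, inner_smul_right] using this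

lemma erg3 (hs : s ≠ 0) (hx : x ∈ C.N) (η : H) :
    Tendsto (fun n => an s n fun t => D.σ t x η) atTop (𝓝 (‖x D.ξ‖ * ‖η‖)) := by
  have := ((Complex.continuous_re.tendsto _).comp (C.erg2 hs hx hx η η)).sqrt
  simp only [inner_self_eq_norm_sq_to_K (x D.ξ), inner_self_eq_norm_sq_to_K η, ← mul_pow,
    Complex.coe_algebraMap, ← Complex.ofReal_mul, ← Complex.ofReal_pow, Complex.ofReal_re,
    Real.sqrt_sq (mul_nonneg (norm_nonneg (x D.ξ)) (norm_nonneg η))] at this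
  simpa only [an_eq] using! this

lemma erg4 (hs : s ≠ 0) (hx : x ∈ C.N) (η : H) :
    Tendsto (fun n => an s n fun t => x (D.V t η)) atTop (𝓝 (‖x D.ξ‖ * ‖η‖)) :=
  (C.erg3 (neg_ne_zero.2 hs) hx η).congr fun n => (an_neg fun t => by simp [σ_apply]).symm

lemma aml1 {l : ℝ} (h : D.Rel l a b) {y₀ : H →L[ℂ] H} (hy : y₀ ∈ D.M) {ε : ℝ} (hε : 0 < ε) :
    ∃ P ≥ 0, ∀ x ∈ C.N, ‖x D.ξ‖ = 1 / 2 → ∀ s ≠ 0, ∀ᶠ n in atTop,
      an s n (fun t => (D.r y₀ - b) (D.V t (x D.ξ))) ≤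
        ‖a D.ξ - D.r y₀ D.ξ‖ + ε + P * ‖D.cc l x‖ := by
  obtain ⟨P, P0, hP⟩ := h.fam one_pos (half_pos hε)
  set B := ‖D.r y₀ - b‖
  have B0 : 0 ≤ B := norm_nonneg _
  refine ⟨5 * P + 2 * B, by positivity, fun x hx h1 s hs => ?_⟩
  have c0 := norm_nonneg (D.cc l x)
  by_cases hc : 1 / 2 ≤ ‖D.cc l x‖
  · refine .of_forall fun n => (an_le (C := B * (1 / 2)) fun t => ?_).trans ?_
    · simpa [h1] using (D.r y₀ - b).le_opNorm (D.V t (x D.ξ))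
    · nlinarith [norm_nonneg (a D.ξ - D.r y₀ D.ξ), mul_nonneg P0 c0]
  have hf : ‖fl l x D.ξ‖ ≤ 1 := by
    have := norm_le_norm_add_norm_sub' (ex l • D.r x D.ξ) (x D.ξ)
    rw [D.norm_fl_ξ]; rw [← cc] at this; linarith
  obtain ⟨ρ, ρ0, ρ1, ρ2⟩ : ∃ ρ : ℝ, 0 < ρ ∧ ρ ≤ 1 ∧ (8 * P + 3 * B) * ρ ≤ ε / 2 :=
    ⟨min 1 (ε / 2 / (8 * P + 3 * B + 1)), by positivity, min_le_left _ _, by
      refine (mul_le_mul_of_nonneg_left (min_le_right _ _) (by positivity)).trans ?_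
      rw [← mul_div_assoc, div_le_iff₀ (by positivity)]; nlinarith⟩
  have sc : ∀ y ∈ C.N, ‖y D.ξ‖ ≤ 1 → ∃ Q ∈ D.M, 0 ≤ Q ∧ Q ≤ 1 ∧ D.r Q D.ξ = Q D.ξ ∧ ∀ᶠ n in atTop,
      ‖col (fun k : Fin (4 ^ n) => ((2 : ℂ) ^ n)⁻¹ • D.σ (tm s n k) y) D.ξ - Q D.ξ‖ ≤ ρ ^ 2 :=
    fun y hy h => by
      refine ⟨((‖y D.ξ‖ ^ 2 : ℝ) : ℂ) • 1, vsmul _ (one_mem _), ?_, ?_, by simp [r_smul], ?_⟩
      · rw [Complex.coe_smul]; exact smul_nonneg (by positivity) zero_le_one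
      · rw [Complex.coe_smul]
        exact smul_le_of_le_one_left zero_le_one (pow_le_one₀ (norm_nonneg _) h)
      · filter_upwards [(tendsto_iff_norm_sub_tendsto_zero.1 (C.erg1 hs (mul_mem (star_mem hy) hy)
          D.ξ)).eventually_le_const (pow_pos ρ0 2)] with n hn
        have e1 : (col fun k : Fin (4 ^ n) => ((2 : ℂ) ^ n)⁻¹ • D.σ (tm s n k) y) =
            D.avσ s 0 (star y * y) n := by
          simp only [col, avσ, av, star_smul, smul_mul_smul_comm, ← Finset.smul_sum, σ_mul, σ_star]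
          simp [ch, ← mul_inv, ← mul_pow]; norm_num
        simpa [e1, inner_star_right] using hn
  obtain ⟨Q, q1, q2, q3, q4, q5⟩ := sc x hx (by linarith)
  obtain ⟨Q', p1, p2, p3, p4, p5⟩ := sc _ (fl_mem l hx) hf
  filter_upwards [q5, p5] with n q5 p5
  obtain ⟨w, w1, w2, w3, w4, w5⟩ := good2 (fun k => vsmul _ (σ_mem (C.le hx) _)) l q1 q2 q3 q4
    p1 p2 p3 p4 ρ0.le ρ1 q5 (by
      convert p5 using 5
      simp [fl, σ, smul_comm (ex l), mul_assoc, star_V])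
  have e1 : nn (fun k : Fin (4 ^ n) => D.cc l (((2 : ℂ) ^ n)⁻¹ • D.σ (tm s n k) x)) ≤ ‖D.cc l x‖ := by
    simpa only [cc_smul, cc_σ] using nn_av_le s n (g := fun t => D.V t (D.cc l x)) fun t => by simp
  have e2 := hP _ w w1 w2 (by simpa [D.unit] using w3.col_le zero_le_one D.ξ)
  have e3 := w2 (a D.ξ - D.r y₀ D.ξ)
  have e4 := nn_mono B0 fun k : Fin (4 ^ n) =>
    (D.r y₀ - b).le_opNorm ((((2 : ℂ) ^ n)⁻¹ • D.σ (tm s n k) x) D.ξ - w k D.ξ)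
  have e5 := nn_add (fun k => b (w k D.ξ) - w k (a D.ξ)) fun k => w k (a D.ξ - D.r y₀ D.ξ)
  have e6 := nn_sub (fun k : Fin (4 ^ n) =>
    (D.r y₀ - b) ((((2 : ℂ) ^ n)⁻¹ • D.σ (tm s n k) x) D.ξ - w k D.ξ))
    fun k => b (w k D.ξ) - w k (a D.ξ) + w k (a D.ξ - D.r y₀ D.ξ)
  refine le_trans (le_of_eq ?_) (e6.trans ?_)
  · simp [an, r_comm (w1 _) hy]
    congr 1; ext k; module
  · nlinarith [mul_le_mul_of_nonneg_left w4 B0, mul_le_mul_of_nonneg_left w5 P0,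
      mul_le_mul_of_nonneg_left e1 B0, mul_le_mul_of_nonneg_left e1 P0]

lemma aml {l : ℝ} (h : D.Rel l a b) {y₀ : H →L[ℂ] H} (hy : y₀ ∈ D.M) {ε : ℝ} (hε : 0 < ε) :
    ∃ P ≥ 0, ∀ x ∈ C.N, ∀ s ≠ 0, ∀ᶠ n in atTop,
      an s n (fun t => (D.r y₀ - b) (D.V t (x D.ξ))) ≤
        2 * (‖a D.ξ - D.r y₀ D.ξ‖ + ε) * ‖x D.ξ‖ + P * ‖D.cc l x‖ := by
  obtain ⟨P, P0, hP⟩ := C.aml1 h hy hε
  refine ⟨P, P0, fun x hx s hs => ?_⟩
  rcases (norm_nonneg (x D.ξ)).eq_or_lt with h0 | h0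
  · refine .of_forall fun n => (an_le (C := 0) fun t => ?_).trans (by positivity)
    simp [norm_eq_zero.1 h0.symm]
  have hc : ‖(((2 * ‖x D.ξ‖)⁻¹ : ℝ) : ℂ)‖ = (2 * ‖x D.ξ‖)⁻¹ := by
    rw [Complex.norm_real, Real.norm_of_nonneg (by positivity)]
  filter_upwards [hP _ (vsmul ((2 * ‖x D.ξ‖)⁻¹ : ℝ) hx) (by
    rw [ContinuousLinearMap.smul_apply, norm_smul, hc]; field_simp) s hs] with n hn
  simp only [ContinuousLinearMap.smul_apply, map_smul, an_smul, cc_smul, norm_smul, hc] at hn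
  rw [inv_mul_le_iff₀ (by positivity)] at hn
  refine hn.trans_eq ?_
  field_simp

end Mod.Core

end Vale.Agent.P132
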