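import Vale.Agent.P132.Mod

/-! Bounded continuous functional calculus on the line with spectral measures. -/

open MeasureTheory Filter Topology
open scoped InnerProductSpace ComplexConjugate

namespace Vale.Agent.P132.T

variable {H : Type*} [NormedAddCommGroup H] [InnerProductSpace ℂ H] [CompleteSpace H]

lemma cb_const (c : ℂ) : Cb fun _ => c := ⟨continuous_const, ‖c‖, fun _ => le_rfl⟩

lemma cb_add {f g : ℝ → ℂ} (hf : Cb f) (hg : Cb g) : Cb fun s => f s + g s :=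
  let ⟨C, hC⟩ := hf.2
  let ⟨D, hD⟩ := hg.2
  ⟨hf.1.add hg.1, C + D, fun s => (norm_add_le _ _).trans (add_le_add (hC s) (hD s))⟩

lemma cb_mul {f g : ℝ → ℂ} (hf : Cb f) (hg : Cb g) : Cb fun s => f s * g s :=
  let ⟨C, hC⟩ := hf.2
  let ⟨D, hD⟩ := hg.2
  ⟨hf.1.mul hg.1, C * D, fun s => (norm_mul_le _ _).trans
    (mul_le_mul (hC s) (hD s) (norm_nonneg _) ((norm_nonneg _).trans (hC s)))⟩

lemma cb_sub {f g : ℝ → ℂ} (hf : Cb f) (hg : Cb g) : Cb fun s => f s - g s := by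
  simpa [sub_eq_add_neg] using cb_add hf (cb_mul (cb_const (-1)) hg)

lemma cb_conj {f : ℝ → ℂ} (hf : Cb f) : Cb fun s => conj (f s) :=
  let ⟨C, hC⟩ := hf.2
  ⟨Complex.continuous_conj.comp hf.1, C, fun s => by simpa using hC s⟩

lemma cb_neg {f : ℝ → ℂ} (hf : Cb f) : Cb fun s => f (-s) :=
  let ⟨C, hC⟩ := hf.2
  ⟨hf.1.comp continuous_neg, C, fun _ => hC _⟩

lemma norm_ch (t s : ℝ) : ‖ch t s‖ = 1 := Complex.norm_exp_ofReal_mul_I _

lemma cont_ch : Continuous fun p : ℝ × ℝ => ch p.1 p.2 := by unfold ch; fun_prop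

lemma cb_ch (t : ℝ) : Cb (ch t) := ⟨by unfold ch; fun_prop, 1, fun s => (norm_ch t s).le⟩

lemma cb_int {f : ℝ → ℂ} (hf : Cb f) (μ : Measure ℝ) [IsFiniteMeasure μ] : Integrable f μ :=
  let ⟨C, hC⟩ := hf.2
  Integrable.of_bound hf.1.aestronglyMeasurable C (ae_of_all _ hC)

lemma star_left (x : H →L[ℂ] H) (η ζ : H) : ⟪(star x) η, ζ⟫_ℂ = ⟪η, x ζ⟫_ℂ :=
  ContinuousLinearMap.adjoint_inner_left _ _ _

lemma star_right (x : H →L[ℂ] H) (η ζ : H) : ⟪η, (star x) ζ⟫_ℂ = ⟪x η, ζ⟫_ℂ :=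
  ContinuousLinearMap.adjoint_inner_right _ _ _

omit [CompleteSpace H] in
lemma ext_diag {S T : H →ₗ[ℂ] H} (h : ∀ η, ⟪η, S η⟫_ℂ = ⟪η, T η⟫_ℂ) (η : H) : S η = T η := by
  rw [(ext_inner_map S T).1 fun x => by rw [← inner_conj_symm, h, inner_conj_symm]]

omit [CompleteSpace H] in
lemma ext_diag' {S T : H →L[ℂ] H} (h : ∀ η, ⟪η, S η⟫_ℂ = ⟪η, T η⟫_ℂ) : S = T :=
  ContinuousLinearMap.ext (ext_diag (S := S.toLinearMap) (T := T.toLinearMap) h)

/-- functional calculus with spectral measures -/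
structure Calc (H : Type*) [NormedAddCommGroup H] [InnerProductSpace ℂ H] [CompleteSpace H] where
  F : (ℝ → ℂ) → H →L[ℂ] H
  mu : H → Measure ℝ
  mu_fin : ∀ η, IsFiniteMeasure (mu η)
  F_inner : ∀ f, Cb f → ∀ η, ⟪η, F f η⟫_ℂ = ∫ s, f s ∂(mu η)
  F_one : F (fun _ => 1) = 1
  F_mul : ∀ f g, Cb f → Cb g → F (fun s => f s * g s) = F f * F g

namespace Calc

variable (c : Calc H) {f g : ℝ → ℂ}

instance (η : H) : IsFiniteMeasure (c.mu η) := c.mu_fin η

lemma add (hf : Cb f) (hg : Cb g) : c.F (fun s => f s + g s) = c.F f + c.F g :=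
  ext_diag' fun η => by
    simp [inner_add_right, c.F_inner, hf, hg, cb_add, integral_add (cb_int hf _) (cb_int hg _)]

lemma sub (hf : Cb f) (hg : Cb g) : c.F (fun s => f s - g s) = c.F f - c.F g :=
  ext_diag' fun η => by
    simp [inner_sub_right, c.F_inner, hf, hg, cb_sub, integral_sub (cb_int hf _) (cb_int hg _)]

lemma smul (a : ℂ) (hf : Cb f) : c.F (fun s => a * f s) = a • c.F f :=
  ext_diag' fun η => by
    simp [inner_smul_right, c.F_inner, hf, cb_mul, cb_const, integral_const_mul]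

lemma const (a : ℂ) : c.F (fun _ => a) = a • 1 := by
  simpa [c.F_one] using c.smul a (cb_const 1)

lemma star_eq (hf : Cb f) : star (c.F f) = c.F fun s => conj (f s) :=
  ext_diag' fun η => by
    rw [star_right, ← inner_conj_symm, c.F_inner _ hf, c.F_inner _ (cb_conj hf), integral_conj]

lemma mul_ap (hf : Cb f) (hg : Cb g) (η : H) : c.F f (c.F g η) = c.F (fun s => f s * g s) η := by
  rw [c.F_mul _ _ hf hg]; rfl

lemma comm (hf : Cb f) (hg : Cb g) (η : H) : c.F f (c.F g η) = c.F g (c.F f η) := by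
  simp only [c.mul_ap, hf, hg, mul_comm]

lemma norm_sq (hf : Cb f) (η : H) : ‖c.F f η‖ ^ 2 = ∫ s, ‖f s‖ ^ 2 ∂(c.mu η) := by
  have : ⟪c.F f η, c.F f η⟫_ℂ = ∫ s, ((‖f s‖ ^ 2 : ℝ) : ℂ) ∂(c.mu η) := by
    rw [← star_right, c.star_eq hf, c.mul_ap (cb_conj hf) hf, c.F_inner _ (cb_mul (cb_conj hf) hf)]
    simp [Complex.conj_mul']
  rw [integral_complex_ofReal, inner_self_eq_norm_sq_to_K] at this
  exact Complex.ofReal_injective (by simpa using this)

lemma int_sq (hf : Cb f) (η : H) : Integrable (fun s => ‖f s‖ ^ 2) (c.mu η) := by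
  simpa [sq] using (cb_int (cb_mul hf hf) (c.mu η)).norm

lemma mass (η : H) : (c.mu η).real Set.univ = ‖η‖ ^ 2 := by
  simpa [c.F_one] using (c.norm_sq (cb_const 1) η).symm

lemma norm_le (hf : Cb f) {C : ℝ} (h : ∀ s, ‖f s‖ ≤ C) (η : H) : ‖c.F f η‖ ≤ C * ‖η‖ := by
  have hC := (norm_nonneg _).trans (h 0)
  refine le_of_sq_le_sq ?_ (by positivity)
  rw [c.norm_sq hf, mul_pow, ← c.mass, mul_comm, ← smul_eq_mul, ← integral_const]
  exact integral_mono (c.int_sq hf η) (integrable_const _) fun s => by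
    dsimp only; gcongr; exact h s

lemma zero_of (hf : Cb f) (hg : Cb g) {η : H} (h : c.F g η = 0) (h0 : ∀ s, g s = 0 → f s = 0) :
    c.F f η = 0 := by
  have h1 := c.norm_sq hg η
  rw [h, norm_zero, eq_comm, zero_pow two_ne_zero, integral_eq_zero_iff_of_nonneg
    (fun _ => by positivity) (c.int_sq hg η)] at h1
  rw [← norm_eq_zero, ← pow_eq_zero_iff two_ne_zero, c.norm_sq hf]
  refine integral_eq_zero_of_ae (h1.mono fun s hs => ?_)
  simpa using h0 s (by simpa using hs)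

lemma inj (hg : Cb g) (h0 : ∀ s, g s ≠ 0) {η : H} (h : c.F g η = 0) : η = 0 := by
  simpa [c.F_one] using c.zero_of (cb_const 1) hg h fun s hs => (h0 s hs).elim

variable {u : ℝ → ℝ → ℂ} {C : ℝ}

lemma cb_sec (hu : Continuous u.uncurry) (hC : ∀ t s, ‖u t s‖ ≤ C) (t : ℝ) : Cb (u t) :=
  ⟨hu.uncurry_left t, C, hC t⟩

lemma cont (hu : Continuous u.uncurry) (hC : ∀ t s, ‖u t s‖ ≤ C) (η : H) :
    Continuous fun t => c.F (u t) η := by
  refine continuous_iff_continuousAt.2 fun t₀ => ?_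
  have h1 : Continuous fun t => ∫ s, ‖u t s - u t₀ s‖ ^ 2 ∂(c.mu η) := by
    refine continuous_of_dominated (bound := fun _ => (C + C) ^ 2) (fun t => ?_) (fun t => ?_)
      (integrable_const _) (ae_of_all _ fun s => ?_)
    · exact (((hu.uncurry_left t).sub (hu.uncurry_left t₀)).norm.pow 2).aestronglyMeasurable
    · refine ae_of_all _ fun s => ?_
      rw [norm_pow, norm_norm]
      gcongr
      exact (norm_sub_le _ _).trans (add_le_add (hC _ _) (hC _ _))
    · exact (((hu.uncurry_right s).sub continuous_const).norm.pow 2)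
  have h2 := (h1.tendsto t₀).sqrt
  simp only [← c.norm_sq (cb_sub (cb_sec hu hC _) (cb_sec hu hC _)), Real.sqrt_sq (norm_nonneg _),
    c.sub (cb_sec hu hC _) (cb_sec hu hC _), sub_self] at h2
  exact tendsto_iff_norm_sub_tendsto_zero.2 (by simpa using h2)

lemma int_vec {k : ℝ → ℂ} (hk : Integrable k) {v : ℝ → H} (hv : Continuous v) {C : ℝ}
    (hC : ∀ t, ‖v t‖ ≤ C) : Integrable fun t => k t • v t :=
  hk.smul_bdd C hv.aestronglyMeasurable (ae_of_all _ hC)

lemma cb_integral {k : ℝ → ℂ} (hk : Integrable k) (hu : Continuous u.uncurry)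
    (hC : ∀ t s, ‖u t s‖ ≤ C) : Cb fun s => ∫ t, k t * u t s := by
  have hb : ∀ s t, ‖k t * u t s‖ ≤ ‖k t‖ * C := fun s t => by rw [norm_mul]; gcongr; exact hC _ _
  refine ⟨continuous_of_dominated (fun s => hk.1.mul (hu.uncurry_right s).aestronglyMeasurable)
    (fun s => ae_of_all _ (hb s)) (hk.norm.mul_const C) (ae_of_all _ fun t =>
      continuous_const.mul (hu.uncurry_left t)), ∫ t, ‖k t‖ * C, fun s => ?_⟩
  exact norm_integral_le_of_norm_le (hk.norm.mul_const C) (ae_of_all _ (hb s))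

lemma fubini {k : ℝ → ℂ} (hk : Integrable k) (hu : Continuous u.uncurry)
    (hC : ∀ t s, ‖u t s‖ ≤ C) (η : H) :
    ∫ t, k t • c.F (u t) η = c.F (fun s => ∫ t, k t * u t s) η := by
  have hi : ∀ η, Integrable fun t => k t • c.F (u t) η := fun η =>
    int_vec hk (c.cont hu hC η) fun t => c.norm_le (cb_sec hu hC t) (hC t) η
  let W : H →ₗ[ℂ] H :=
    { toFun := fun η => ∫ t, k t • c.F (u t) η
      map_add' := fun a b => by simp [integral_add (hi a) (hi b)]
      map_smul' := fun a b => by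
        simp only [map_smul, RingHom.id_apply, ← integral_smul, smul_comm a] }
  refine ext_diag (S := W) (T := (c.F _).toLinearMap) (fun η => ?_) η
  change ⟪η, ∫ t, k t • c.F (u t) η⟫_ℂ = ⟪η, c.F _ η⟫_ℂ
  rw [← integral_inner (hi η), c.F_inner _ (cb_integral hk hu hC), ← integral_integral_swap]
  · simp only [inner_smul_right, c.F_inner _ (cb_sec hu hC _), integral_const_mul]
  · exact ((hk.comp_fst (c.mu η)).mul_bdd hu.aestronglyMeasurable (ae_of_all _ fun p => hC _ _))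

end Calc

end Vale.Agent.P132.T
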