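import Vale.Agent.P132.TCalc

/-! Construction of the calculus of `log ((1 - A) / A)`. -/

open MeasureTheory Filter Topology
open scoped InnerProductSpace ComplexConjugate CompactlySupported

namespace Vale.Agent.P132.T

variable {H : Type*} [NormedAddCommGroup H] [InnerProductSpace ℂ H] [CompleteSpace H]

lemma intertwine (X : H →L⋆[ℂ] H) {A B : H →L[ℂ] H} (hA : IsSelfAdjoint A) (hB : IsSelfAdjoint B)
    (h : ∀ η, X (A η) = B (X η)) {f : ℂ → ℂ} (hf : Continuous f) (η : H) :
    X (cfc f A η) = cfc (fun z => conj (f z)) B (X η) := by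
  let s := spectrum ℂ A ∪ spectrum ℂ B
  have : CompactSpace s := isCompact_iff_compactSpace.1
    ((spectrum.isCompact A).union (spectrum.isCompact B))
  have hs : star (ContinuousMap.restrict s (.id ℂ)) = .restrict s (.id ℂ) :=
    ContinuousMap.ext fun z => by
      have : (z : ℂ) = (z.1.re : ℝ) := z.2.elim hA.mem_spectrum_eq_re hB.mem_spectrum_eq_re
      change star (z : ℂ) = z
      rw [this]; simp
  let φ := cfcHomSuperset hA.isStarNormal (Set.subset_union_left : _ ⊆ s)
  let ψ := cfcHomSuperset hB.isStarNormal (Set.subset_union_right : _ ⊆ s)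
  have hid : ∀ η, X (φ (.restrict s (.id ℂ)) η) = ψ (star (.restrict s (.id ℂ))) (X η) := by
    rw [hs, show φ _ = A from cfcHomSuperset_id .., show ψ _ = B from cfcHomSuperset_id ..]
    exact h
  have key : ∀ g : C(s, ℂ), ∀ η, X (φ g η) = ψ (star g) (X η) := fun g => by
    induction g using ContinuousMap.induction_on_of_compact with
    | const r =>
      intro η
      rw [show ContinuousMap.const s r = algebraMap ℂ _ r from rfl, ← algebraMap_star_comm,
        AlgHomClass.commutes, AlgHomClass.commutes]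
      simp [Algebra.algebraMap_eq_smul_one]
    | id => exact hid
    | star_id => rwa [hs]
    | add f g hf hg => intro η; simp [hf, hg]
    | mul f g hf hg => intro η; simp [hf, hg, star_mul']
    | frequently f hf =>
      intro η
      have c1 : Continuous φ := cfcHomSuperset_continuous _ _
      have c2 : Continuous ψ := cfcHomSuperset_continuous _ _
      exact (hf.mono fun g hg => hg η).mem_of_closed (s := {g | X (φ g η) = ψ (star g) (X η)})
        (isClosed_eq (by fun_prop) (by fun_prop))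
  rw [cfc_apply f A hA.isStarNormal, cfc_apply _ B hB.isStarNormal]
  exact key (ContinuousMap.restrict s ⟨f, hf⟩) η

lemma dense_of_inj {T : H →L[ℂ] H} (h : ∀ η, star T η = 0 → η = 0) : DenseRange T := by
  have : (LinearMap.range T.toLinearMap).topologicalClosure = ⊤ := by
    rw [Submodule.topologicalClosure_eq_top_iff, Submodule.eq_bot_iff]
    exact fun η hη => h η (ext_inner_left ℂ fun ζ => by
      rw [star_right, inner_zero_right]; exact hη _ ⟨ζ, rfl⟩)
  exact Submodule.dense_iff_topologicalClosure_eq_top.2 this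

omit [CompleteSpace H] in
lemma strong_of_dense {α : Type*} {l : Filter α} {x : α → H →L[ℂ] H} {C : ℝ}
    (hx : ∀ n, ‖x n‖ ≤ C) {D : Set H} (hD : Dense D)
    (h : ∀ η ∈ D, Tendsto (fun n => x n η) l (𝓝 0)) (η : H) : Tendsto (fun n => x n η) l (𝓝 0) := by
  refine NormedAddGroup.tendsto_nhds_zero.2 fun ε hε => ?_
  obtain ⟨ζ, hζ, h1⟩ := hD.exists_dist_lt η (show 0 < ε / 2 / (|C| + 1) by positivity)
  filter_upwards [NormedAddGroup.tendsto_nhds_zero.1 (h ζ hζ) _ (half_pos hε)] with n hn
  rw [dist_eq_norm, lt_div_iff₀ (by positivity)] at h1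
  have h2 := (x n).le_of_opNorm_le ((hx n).trans (le_abs_self C)) (η - ζ)
  have h3 := norm_le_norm_add_norm_sub' (x n η) (x n ζ)
  rw [← map_sub] at h3
  nlinarith [norm_nonneg (η - ζ)]

/-- calculus for complex functions of a real variable -/
noncomputable def cf (A : H →L[ℂ] H) (g : ℝ → ℂ) : H →L[ℂ] H := cfc (fun z : ℂ => g z.re) A

variable {A : H →L[ℂ] H} {f g : ℝ → ℂ}

lemma cf_mul (hf : Continuous f) (hg : Continuous g) (η : H) :
    cf A f (cf A g η) = cf A (fun s => f s * g s) η := by
  unfold cf; rw [cfc_mul ..]; rfl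

lemma cf_id (hA : IsSelfAdjoint A) : cf A (fun s => s) = A := by
  have := hA.isStarNormal
  rw [cf, cfc_congr (g := id) fun z hz => (hA.mem_spectrum_eq_re hz).symm, cfc_id ..]

lemma cf_one (hA : IsSelfAdjoint A) : cf A (fun _ => 1) = 1 := by
  have := hA.isStarNormal
  exact cfc_const_one ..

lemma cf_sub (hf : Continuous f) (hg : Continuous g) :
    cf A (fun s => f s - g s) = cf A f - cf A g := by
  unfold cf; rw [cfc_sub ..]

lemma cf_star : star (cf A f) = cf A (fun s => conj (f s)) := (cfc_star _ _).symm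

lemma cf_le {C : ℝ} (h : ∀ s, ‖f s‖ ≤ C) : ‖cf A f‖ ≤ C :=
  norm_cfc_le ((norm_nonneg _).trans (h 0)) fun _ _ => h _

lemma exists_nu (hA : IsSelfAdjoint A) (η : H) : ∃ ν : Measure ℝ, IsFiniteMeasure ν ∧
    ∀ g : ℝ → ℂ, Continuous g → Integrable g ν ∧ ⟪η, cf A g η⟫_ℂ = ∫ s, g s ∂ν := by
  have hn := hA.isStarNormal
  let φ := cfcHom (R := ℂ) hn
  let τ : C(ℝ, ℂ) := ⟨(↑), Complex.continuous_ofReal⟩
  let L0 : C_c(spectrum ℂ A, ℝ) →ₗ[ℝ] ℝ :=
    { toFun := fun g => (⟪η, φ (τ.comp g.toContinuousMap) η⟫_ℂ).re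
      map_add' := fun f g => by
        rw [← Complex.add_re, ← inner_add_right, ← ContinuousLinearMap.add_apply, ← map_add]
        congr 4; ext; simp [τ]
      map_smul' := fun c f => by
        rw [show τ.comp (c • f).toContinuousMap = (c : ℂ) • τ.comp f.toContinuousMap by
          ext; simp [τ]]
        simp [inner_smul_right] }
  let Λ : C_c(spectrum ℂ A, ℝ) →ₚ[ℝ] ℝ := PositiveLinearMap.mk₀ L0 fun f hf => by
    let r : C(spectrum ℂ A, ℂ) := ⟨fun x => (√(f x) : ℝ), by fun_prop⟩
    have : τ.comp f.toContinuousMap = star r * r := by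
      ext x
      simp [τ, r, ← Complex.ofReal_mul,
        Real.mul_self_sqrt (CompactlySupportedContinuousMap.le_def.1 hf x)]
    change 0 ≤ (⟪η, φ (τ.comp f.toContinuousMap) η⟫_ℂ).re
    rw [this, map_mul, map_star, ContinuousLinearMap.mul_apply, star_right]
    exact inner_self_nonneg (𝕜 := ℂ)
  have hr : ∀ g : C(spectrum ℂ A, ℝ), ⟪η, φ (τ.comp g) η⟫_ℂ =
      (∫ x, g x ∂(RealRMK.rieszMeasure Λ) : ℝ) := fun g => by
    rw [show ∫ x, g x ∂(RealRMK.rieszMeasure Λ) = (⟪η, φ (τ.comp g) η⟫_ℂ).re from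
      RealRMK.integral_rieszMeasure Λ ⟨g, HasCompactSupport.of_compactSpace _⟩, eq_comm,
      ← Complex.conj_eq_iff_re, inner_conj_symm, ← star_right, ← map_star]
    congr 3; ext; simp [τ]
  have hm : Continuous fun x : spectrum ℂ A => x.1.re := by fun_prop
  refine ⟨(RealRMK.rieszMeasure Λ).map fun x => x.1.re, inferInstance, fun g hg => ?_⟩
  have hi : Integrable (fun x : spectrum ℂ A => g x.1.re) (RealRMK.rieszMeasure Λ) :=
    (hg.comp hm).integrable_of_hasCompactSupport (HasCompactSupport.of_compactSpace _)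
  refine ⟨(integrable_map_measure hg.aestronglyMeasurable hm.aemeasurable).2 hi, ?_⟩
  rw [integral_map hm.aemeasurable hg.aestronglyMeasurable, ← integral_re_add_im hi, cf,
    cfc_apply (fun z : ℂ => g z.re) A hn (hg.comp Complex.continuous_re).continuousOn]
  let g1 : C(spectrum ℂ A, ℝ) := ⟨fun x => (g x.1.re).re, by fun_prop⟩
  let g2 : C(spectrum ℂ A, ℝ) := ⟨fun x => (g x.1.re).im, by fun_prop⟩
  have := congr($(hr g1) + Complex.I * $(hr g2))
  rw [← inner_smul_right, ← inner_add_right, ← ContinuousLinearMap.smul_apply,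
    ← ContinuousLinearMap.add_apply, ← map_smul, ← map_add, mul_comm] at this
  refine Eq.trans ?_ this
  congr 3
  ext x; simp [τ, g1, g2, mul_comm Complex.I]

/-- the function `(1 + e^s)⁻¹` -/
noncomputable def aa (s : ℝ) : ℂ := ((1 + Real.exp s)⁻¹ : ℝ)

/-- its inverse -/
noncomputable def LL (a : ℝ) : ℝ := Real.log ((1 - a) / a)

/-- the damping function -/
noncomputable def bb (a : ℝ) : ℂ := a - a * a

lemma cont_bb : Continuous bb := by unfold bb; fun_prop

lemma cb_aa : Cb aa := ⟨Complex.continuous_ofReal.comp (Continuous.inv₀ (by fun_prop)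
  fun _ => by positivity), 1, fun s => by
    rw [aa, Complex.norm_real, Real.norm_of_nonneg (by positivity)]
    exact inv_le_one_of_one_le₀ (by linarith [Real.exp_pos s])⟩

lemma cont_bf (hf : Cb f) : Continuous fun a => bb a * f (LL a) := by
  refine continuous_iff_continuousAt.2 fun a => ?_
  by_cases h : bb a = 0
  · obtain ⟨C, hC⟩ := hf.2
    rw [ContinuousAt, h, zero_mul]
    refine squeeze_zero_norm (a := fun x => ‖bb x‖ * C) (fun x => ?_) ?_
    · rw [norm_mul]; gcongr; exact hC _
    · simpa [h] using (cont_bb.tendsto a).norm.mul_const C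
  · have h0 : a ≠ 0 := by rintro rfl; simp [bb] at h
    have h1 : 1 - a ≠ 0 := fun h1 => by obtain rfl : 1 = a := sub_eq_zero.1 h1; simp [bb] at h
    exact cont_bb.continuousAt.mul (hf.1.continuousAt.comp
      (ContinuousAt.log (by fun_prop (disch := assumption)) (div_ne_zero h1 h0)))

lemma cf_sq (hA : IsSelfAdjoint A) (hg : Continuous g) (η : H) :
    ‖cf A g η‖ ^ 2 = ∫ s, ‖g s‖ ^ 2 ∂(exists_nu hA η).choose := by
  have : ⟪cf A g η, cf A g η⟫_ℂ = ∫ s, ((‖g s‖ ^ 2 : ℝ) : ℂ) ∂(exists_nu hA η).choose := by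
    rw [← star_right, cf_star, cf_mul (by fun_prop) hg,
      ((exists_nu hA η).choose_spec.2 _ (by fun_prop)).2]
    simp [Complex.conj_mul']
  rw [integral_complex_ofReal, inner_self_eq_norm_sq_to_K] at this
  exact Complex.ofReal_injective (by simpa using this)

/-- the extended calculus -/
noncomputable def FF (A : H →L[ℂ] H) (f : ℝ → ℂ) : H →L[ℂ] H :=
  (cf A fun a => bb a * f (LL a)).toLinearMap.extendOfNorm (cf A bb).toLinearMap

omit [CompleteSpace H] in
lemma dext {B S T : H → H} (hd : DenseRange B) (hS : Continuous S) (hT : Continuous T)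
    (h : ∀ η, S (B η) = T (B η)) (η : H) : S η = T η :=
  congrFun (hd.equalizer hS hT (funext h)) η

section
variable (hA : IsSelfAdjoint A) (hd : DenseRange (cf A bb))
include hA hd

lemma FB (hf : Cb f) : ∀ η, FF A f (cf A bb η) = cf A (fun a => bb a * f (LL a)) η := by
  obtain ⟨C, hC⟩ := hf.2
  have := (norm_nonneg _).trans (hC 0)
  refine LinearMap.extendOfNorm_eq hd ⟨C, fun η => le_of_sq_le_sq ?_ (by positivity)⟩
  simp only [ContinuousLinearMap.coe_coe]
  rw [mul_pow, cf_sq hA (cont_bf hf), cf_sq hA cont_bb, ← integral_const_mul]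
  refine integral_mono_of_nonneg (.of_forall fun _ => by positivity) (Integrable.const_mul ?_ _)
    (.of_forall fun s => ?_)
  · simpa [sq] using ((exists_nu hA η).choose_spec.2 _ (cont_bb.mul cont_bb)).1.norm
  · dsimp only; rw [norm_mul, mul_comm, mul_pow]; gcongr; exact hC _

lemma Fc (hf : Cb f) (hg : Continuous g) : ∀ η, FF A f (cf A g η) = cf A g (FF A f η) :=
  dext hd (by fun_prop) (by fun_prop) fun η => by
    rw [FB hA hd hf, cf_mul hg cont_bb, cf_mul hg (cont_bf hf),
      ← funext fun s => mul_comm (bb s) _, ← cf_mul cont_bb hg, FB hA hd hf, cf_mul (cont_bf hf) hg]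
    simp only [mul_comm]

lemma FF_mul (hf : Cb f) (hg : Cb g) : FF A (fun s => f s * g s) = FF A f * FF A g := by
  ext η
  refine dext hd (by fun_prop) (by fun_prop) (fun η => ?_) η
  refine dext hd (S := fun η => FF A _ (cf A bb η)) (T := fun η => FF A f (FF A g (cf A bb η)))
    (by fun_prop) (by fun_prop) (fun η => ?_) η
  rw [FB hA hd (cb_mul hf hg), Fc hA hd hg cont_bb, FB hA hd hg, FB hA hd hf,
    cf_mul (cont_bf hf) (cont_bf hg), cf_mul (cont_bf (cb_mul hf hg)) cont_bb]
  congr 2; ext; ring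

lemma FF_inner (hf : Cb f) (η : H) :
    ⟪η, FF A f η⟫_ℂ = ∫ a in {a | bb a ≠ 0}, f (LL a) ∂(exists_nu hA η).choose := by
  obtain ⟨fin, int⟩ := (exists_nu hA η).choose_spec
  let ε : ℕ → ℝ := fun n => 1 / ((n : ℝ) + 1)
  have ε0 : ∀ n, 0 < ε n := fun n => by positivity
  have εt : Tendsto ε atTop (𝓝 0) := tendsto_one_div_add_atTop_nhds_zero_nat
  clear_value ε
  let d : ℕ → ℝ → ℂ := fun n a => conj (bb a) / ((‖bb a‖ ^ 2 + ε n : ℝ) : ℂ)
  have ne : ∀ n a, ((‖bb a‖ ^ 2 + ε n : ℝ) : ℂ) ≠ 0 := fun n a =>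
    Complex.ofReal_ne_zero.2 (by have := ε0 n; positivity)
  have hdc : ∀ n, Continuous (d n) := fun n =>
    Continuous.div (by have := cont_bb; fun_prop) (by have := cont_bb; fun_prop) (ne n)
  have e1 : ∀ n a, bb a * d n a = (‖bb a‖ ^ 2 / (‖bb a‖ ^ 2 + ε n) : ℝ) := fun n a => by
    simp [d, ← mul_div_assoc, Complex.mul_conj']
  have e2 : ∀ n a, 1 - bb a * d n a = (ε n / (‖bb a‖ ^ 2 + ε n) : ℝ) := fun n a => by
    have := ne n a
    rw [e1]; push_cast at this ⊢; field_simp; ring
  clear_value d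
  have hc : ∀ n, Continuous fun a => bb a * d n a := fun n => cont_bb.mul (hdc n)
  have t1 : Tendsto (fun n => cf A (fun a => 1 - bb a * d n a) η) atTop (𝓝 0) := by
    refine strong_of_dense (C := 1) (fun n => cf_le fun a => ?_) hd ?_ η
    · have := ε0 n
      rw [e2, Complex.norm_real, Real.norm_of_nonneg (by positivity), div_le_one (by positivity)]
      nlinarith
    · rintro _ ⟨ζ, rfl⟩
      refine squeeze_zero_norm (a := fun n => √(ε n) * ‖ζ‖) (fun n => ?_) ?_
      · rw [cf_mul (continuous_const.fun_sub (hc n)) cont_bb]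
        refine ContinuousLinearMap.le_of_opNorm_le _ (cf_le fun a => ?_) _
        have := ε0 n
        rw [e2, norm_mul, Complex.norm_real, Real.norm_of_nonneg (by positivity),
          div_mul_eq_mul_div, div_le_iff₀ (by positivity)]
        nlinarith [Real.mul_self_sqrt this.le, Real.sqrt_nonneg (ε n), norm_nonneg (bb a),
          mul_nonneg (Real.sqrt_nonneg (ε n)) (sq_nonneg (‖bb a‖ - √(ε n)))]
      · simpa using εt.sqrt.mul_const ‖ζ‖
  have t2 := (tendsto_const_nhds (x := η)).inner (𝕜 := ℂ)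
    ((((FF A f).continuous.tendsto _).comp t1).const_sub (FF A f η))
  obtain ⟨C, hC⟩ := hf.2
  have hm : MeasurableSet {a | bb a ≠ 0} := cont_bb.measurable (measurableSet_singleton 0).compl
  rw [← integral_indicator hm]
  rw [map_zero, sub_zero] at t2
  refine tendsto_nhds_unique t2 ?_
  have e3 : ∀ n, ⟪η, FF A f η - FF A f (cf A (fun a => 1 - bb a * d n a) η)⟫_ℂ =
      ∫ a, bb a * d n a * f (LL a) ∂(exists_nu hA η).choose := fun n => by
    rw [cf_sub continuous_const (hc n), cf_one hA, ← map_sub, ContinuousLinearMap.sub_apply,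
      ContinuousLinearMap.one_apply, sub_sub_cancel, ← cf_mul cont_bb (hdc n), FB hA hd hf,
      cf_mul (cont_bf hf) (hdc n), (int _ ((cont_bf hf).fun_mul (hdc n))).2]
    simp only [mul_right_comm]
  simp only [Function.comp_def, e3]
  refine tendsto_integral_of_dominated_convergence (fun _ => C) (fun n => ?_) (integrable_const _)
    (fun n => .of_forall fun a => ?_) (.of_forall fun a => ?_)
  · simpa only [mul_right_comm] using ((cont_bf hf).fun_mul (hdc n)).aestronglyMeasurable
  · have := ε0 n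
    rw [e1, norm_mul, Complex.norm_real, Real.norm_of_nonneg (by positivity)]
    exact (mul_le_of_le_one_left (norm_nonneg _) (div_le_one_of_le₀ (by linarith)
      (by positivity))).trans (hC _)
  · by_cases h : bb a = 0
    · simp [h]
    · have := ((tendsto_const_nhds (x := ‖bb a‖ ^ 2)).div (εt.const_add (‖bb a‖ ^ 2))
        (by simpa using h)).ofReal.mul_const (f (LL a))
      simpa [e1, h] using this

end

theorem exists_calc (h0 : 0 ≤ A) (h1 : A ≤ 1) (hinj : ∀ η, A η - A (A η) = 0 → η = 0) :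
    ∃ c : Calc H, c.F aa = A ∧ (∀ X f, Cb f → X * A = A * X → X * c.F f = c.F f * X) ∧
      ∀ (X : H →L⋆[ℂ] H) f, Cb f → (∀ η, X (A η) = X η - A (X η)) →
        ∀ η, X (c.F (fun s => conj (f (-s))) η) = c.F f (X η) := by
  have hA := h0.isSelfAdjoint
  have hn := hA.isStarNormal
  have hB : ∀ η, cf A bb η = A η - A (A η) := fun η => by
    unfold bb
    rw [cf_sub (by fun_prop) (by fun_prop), ContinuousLinearMap.sub_apply,
      ← cf_mul (by fun_prop) (by fun_prop), cf_id hA]
  have hd : DenseRange (cf A bb) := dense_of_inj fun η h => hinj η (by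
    rw [cf_star] at h; rw [← hB, ← h]; congr; ext; simp [bb])
  have hL : Measurable LL := by unfold LL; fun_prop
  refine ⟨⟨FF A, fun η => ((exists_nu hA η).choose.restrict {a | bb a ≠ 0}).map LL,
    fun η => have := (exists_nu hA η).choose_spec.1; inferInstance,
    fun f hf η => ?_, ?_, fun f g => FF_mul hA hd⟩, ?_, fun X f hf hX => ?_, fun X f hf hX => ?_⟩
  · rw [integral_map hL.aemeasurable hf.1.aestronglyMeasurable, FF_inner hA hd hf]
  · ext η
    exact dext hd (by fun_prop) continuous_id (fun η => by simpa using FB hA hd (cb_const 1) η) η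
  · ext η
    refine dext hd (S := FF A aa) (by fun_prop) (by fun_prop) (fun η => ?_) η
    rw [FB hA hd cb_aa]
    nth_rw 2 [← cf_id hA]
    rw [cf_mul (by fun_prop) cont_bb]
    congr 1
    refine cfc_congr fun z hz => ?_
    have hz' : z.re ∈ spectrum ℝ A := by
      rw [← spectrum.algebraMap_mem_iff ℂ]; simpa [← hA.mem_spectrum_eq_re hz] using hz
    have a0 := spectrum_nonneg_of_nonneg h0 hz'
    have a1 := (CFC.le_one_iff (R := ℝ) A).1 h1 _ hz'
    rcases a0.eq_or_lt with h | a0
    · simp [bb, ← h]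
    rcases a1.eq_or_lt with h | a1
    · simp [bb, h]
    have : (1 + (1 - z.re) / z.re)⁻¹ = z.re := by field_simp; ring
    simp only [aa, LL, Real.exp_log (div_pos (sub_pos.2 a1) a0), this, mul_comm]
  · have hc : ∀ g η, X (cf A g η) = cf A g (X η) := fun g η =>
      congr($(((Commute.symm hX).cfc (by rw [hA.star_eq]; exact .symm hX) _).eq) η).symm
    ext η
    refine dext hd (S := fun η => X (FF A f η)) (T := fun η => FF A f (X η)) (by fun_prop)
      (by fun_prop) (fun η => ?_) η
    rw [FB hA hd hf, hc, hc, FB hA hd hf]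
  · have hc : ∀ g η, Continuous g → X (cf A g η) = cf A (fun s => conj (g (1 - s))) (X η) :=
      fun g η hg => by
        have e : (1 : H →L[ℂ] H) - A = cfc (fun z : ℂ => 1 - z) A := by
          rw [cfc_sub .., cfc_const_one .., cfc_id' ..]
        rw [cf, intertwine X hA ((IsSelfAdjoint.one _).sub hA) hX (by fun_prop), e,
          ← cfc_comp' ..]
        simp [cf]
    have hb : ∀ s, conj (bb (1 - s)) = bb s := fun s => by simp [bb]; ring
    refine dext hd (S := fun η => X (FF A (fun s => conj (f (-s))) η))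
      (T := fun η => FF A f (X η)) (by fun_prop) (by fun_prop) fun η => ?_
    rw [FB hA hd (cb_conj (cb_neg hf)), hc _ _ (cont_bf (cb_conj (cb_neg hf))), hc _ _ cont_bb]
    simp only [hb, FB hA hd hf, map_mul, Complex.conj_conj, LL, ← Real.log_inv, inv_div,
      sub_sub_cancel]

end Vale.Agent.P132.T
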