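import Vale.Agent.P132.TCons

/-! The graph of the Tomita map, its projection, and a Radon-Nikodym type lemma. -/

open Filter Topology
open scoped InnerProductSpace ComplexConjugate

namespace Vale.Agent.P132.T

section real
variable {E : Type*} [NormedAddCommGroup E] [InnerProductSpace ℝ E] [CompleteSpace E]

lemma proj_sub (D : Submodule ℝ E) (w : E) :
    ∃ g ∈ closure (D : Set E), ∀ y ∈ D, ⟪y, w⟫_ℝ = ⟪y, g⟫_ℝ :=
  ⟨D.topologicalClosure.starProjection w, D.topologicalClosure.starProjection_apply_mem _, fun y hy => by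
    rw [← sub_eq_zero, ← inner_sub_right]
    exact Submodule.sub_starProjection_mem_orthogonal w y (D.le_topologicalClosure hy)⟩

lemma proj_conv (D : Submodule ℝ E) {K : Set E} (hK : K ⊆ D) (hc : IsClosed K) (hv : Convex ℝ K)
    {C : ℝ} (hC : ∀ c ∈ K, ‖c‖ ≤ C) {w : E}
    (h : ∀ y ∈ D, ∀ ε > 0, ∃ c ∈ K, ⟪y, w⟫_ℝ ≤ ⟪y, c⟫_ℝ + ε) :
    ∃ c ∈ K, ∀ y ∈ D, ⟪y, w⟫_ℝ = ⟪y, c⟫_ℝ := by
  obtain ⟨g, hg, hw⟩ := proj_sub D w
  obtain ⟨c₁, h₁, -⟩ := h 0 D.zero_mem 1 one_pos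
  obtain ⟨c, hcK, hm⟩ := exists_norm_eq_iInf_of_complete_convex ⟨c₁, h₁⟩ hc.isComplete hv g
  rw [norm_eq_iInf_iff_real_inner_le_zero hv hcK] at hm
  suffices g = c from ⟨c, hcK, this ▸ hw⟩
  have hh : g - c ∈ closure (D : Set E) :=
    D.topologicalClosure.sub_mem hg (D.le_topologicalClosure (hK hcK))
  have hC0 := (norm_nonneg _).trans (hC c hcK)
  rw [← sub_eq_zero, ← norm_eq_zero, ← pow_eq_zero_iff two_ne_zero]
  refine le_antisymm (le_of_forall_pos_le_add fun ε hε => ?_) (by positivity)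
  obtain ⟨y, hy, hd⟩ := Metric.mem_closure_iff.1 hh (ε / 2 / (‖g‖ + C + 1)) (by positivity)
  obtain ⟨c', hc', h'⟩ := h y hy _ (half_pos hε)
  rw [dist_eq_norm, lt_div_iff₀ (by positivity)] at hd
  have e1 := real_inner_le_norm (g - c - y) (g - c')
  have e2 := (norm_sub_le g c').trans (add_le_add le_rfl (hC c' hc'))
  have e3 := hm c' hc'
  rw [hw y hy] at h'
  rw [← real_inner_self_eq_norm_sq]
  simp only [inner_sub_left, inner_sub_right] at e1 e3 ⊢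
  nlinarith [norm_nonneg (g - c - y), norm_nonneg (g - c')]

end real

variable {H : Type*} [NormedAddCommGroup H] [InnerProductSpace ℂ H] [CompleteSpace H]

lemma exists_wlim {α : Type*} (U : Ultrafilter α) {x : α → H →L[ℂ] H} {C : ℝ} (hC : 0 ≤ C)
    (hx : ∀ n, ‖x n‖ ≤ C) :
    ∃ y : H →L[ℂ] H, ‖y‖ ≤ C ∧ ∀ η ζ, Tendsto (fun n => ⟪η, x n ζ⟫_ℂ) U (𝓝 ⟪η, y ζ⟫_ℂ) := by
  have key : ∀ ξ : H, ∃ ζ : H, ‖ζ‖ ≤ C * ‖ξ‖ ∧
      ∀ η, Tendsto (fun n => ⟪x n ξ, η⟫_ℂ) U (𝓝 ⟪ζ, η⟫_ℂ) := fun ξ => by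
    obtain ⟨_, ⟨g, hg, rfl⟩, h⟩ := (ContinuousLinearMap.isCompact_image_coe_closedBall
      (0 : StrongDual ℂ H) (C * ‖ξ‖)).ultrafilter_le_nhds' (U.map fun n => innerSL ℂ (x n ξ))
      (Ultrafilter.mem_map.2 (univ_mem' fun n => ⟨_, by
        simpa using (x n).le_of_opNorm_le (hx n) ξ, rfl⟩))
    exact ⟨(InnerProductSpace.toDual ℂ H).symm g, by simpa using hg, fun η => by
      simpa using tendsto_pi_nhds.1 (show Tendsto (fun n => ⇑(innerSL ℂ (x n ξ))) U _ from h) η⟩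
  choose y h1 h2 using key
  refine ⟨LinearMap.mkContinuous ⟨⟨y, fun a b => ext_inner_right ℂ fun η => ?_⟩,
    fun c a => ext_inner_right ℂ fun η => ?_⟩ C h1, LinearMap.mkContinuous_norm_le _ hC _,
    fun η ξ => ?_⟩
  · exact tendsto_nhds_unique (h2 _ η) (by simpa [inner_add_left] using (h2 a η).add (h2 b η))
  · exact tendsto_nhds_unique (h2 _ η) (by
      simpa only [map_smul, inner_smul_left, RingHom.id_apply] using (h2 a η).const_mul _)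
  · simpa [Function.comp_def] using (Complex.continuous_conj.tendsto _).comp (h2 ξ η)

lemma mem_of_comm {M : VonNeumannAlgebra H} {x : H →L[ℂ] H}
    (h : ∀ y ∈ M.commutant, y * x = x * y) : x ∈ M := by
  rw [← M.commutant_commutant]; exact VonNeumannAlgebra.mem_commutant_iff.2 h

lemma comm_of_mem {M : VonNeumannAlgebra H} {x y : H →L[ℂ] H} (hx : x ∈ M) (hy : y ∈ M.commutant)
    (η : H) : x (y η) = y (x η) :=
  congr($(VonNeumannAlgebra.mem_commutant_iff.1 hy x hx) η)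

lemma mem_of_wlim {M : VonNeumannAlgebra H} {α : Type*} {l : Filter α} [l.NeBot]
    {x : α → H →L[ℂ] H} {y : H →L[ℂ] H} (hx : ∀ n, x n ∈ M)
    (h : ∀ η ζ, Tendsto (fun n => ⟪η, x n ζ⟫_ℂ) l (𝓝 ⟪η, y ζ⟫_ℂ)) : y ∈ M :=
  mem_of_comm fun c hc => ContinuousLinearMap.ext fun ζ => ext_inner_left ℂ fun η => by
    refine tendsto_nhds_unique ?_ (h η (c ζ))
    simpa only [star_left, comm_of_mem (hx _) hc] using! h (star c η) ζ

lemma vsmul {M : VonNeumannAlgebra H} {x : H →L[ℂ] H} (c : ℂ) (hx : x ∈ M) : c • x ∈ M :=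
  M.toStarSubalgebra.smul_mem hx c

lemma cfc_mem_vn {M : VonNeumannAlgebra H} {x : H →L[ℂ] H} (hx : x ∈ M) (f : ℝ → ℝ) :
    cfc f x ∈ M :=
  mem_of_comm fun y hy => (Commute.cfc_real (VonNeumannAlgebra.mem_commutant_iff.1 hy x hx) f).symm

/-- the pair map -/
noncomputable def pr (ξ₁ ξ₂ : H) : (H →L[ℂ] H) →ₗ[ℝ] WithLp 2 (H × H) where
  toFun x := WithLp.toLp 2 (x ξ₁, star x ξ₂)
  map_add' x y := by simp [← WithLp.toLp_add]
  map_smul' r x := by simp [← WithLp.toLp_smul]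

/-- real subspace of the algebra -/
noncomputable def rs (M : VonNeumannAlgebra H) : Submodule ℝ (H →L[ℂ] H) :=
  M.toStarSubalgebra.toSubalgebra.toSubmodule.restrictScalars ℝ

lemma of_re {M : VonNeumannAlgebra H} {ξ₁ ξ₂ w g₁ g₂ : H}
    (h : ∀ y ∈ M, (⟪y ξ₁, w⟫_ℂ).re = (⟪y ξ₁, g₁⟫_ℂ).re + (⟪star y ξ₂, g₂⟫_ℂ).re) :
    ∀ y ∈ M, ⟪w, y ξ₁⟫_ℂ = ⟪g₁, y ξ₁⟫_ℂ + ⟪star y ξ₂, g₂⟫_ℂ := fun y hy => by
  have h1 := h y hy
  have h2 := h _ (vsmul Complex.I hy)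
  rw [← inner_conj_symm w, ← inner_conj_symm g₁]
  simp only [star_smul, ContinuousLinearMap.smul_apply, inner_smul_left] at h2
  refine Complex.ext (by simpa only [Complex.add_re, Complex.conj_re] using h1) ?_
  simp only [Complex.add_im, Complex.conj_im]
  simp at h2
  linarith

/-- the closed graph -/
def gr (M : VonNeumannAlgebra H) (ξ : H) : Set (H × H) :=
  closure {p | ∃ x ∈ M, p = (x ξ, star x ξ)}

lemma gr_ind {M : VonNeumannAlgebra H} {ξ : H} {P : H × H → Prop} (hP : IsClosed {q | P q})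
    (h : ∀ x ∈ M, P (x ξ, star x ξ)) : ∀ q ∈ gr M ξ, P q := fun _ hq =>
  closure_minimal (t := {q | P q}) (by rintro _ ⟨x, hx, rfl⟩; exact h x hx) hP hq

lemma exists_gr (M : VonNeumannAlgebra H) (ξ w : H) :
    ∃ g ∈ gr M ξ, ∀ q ∈ gr M ξ, ⟪w, q.1⟫_ℂ = ⟪g.1, q.1⟫_ℂ + ⟪q.2, g.2⟫_ℂ := by
  letI : InnerProductSpace ℝ H := InnerProductSpace.complexToReal
  obtain ⟨g, hg, h⟩ := proj_sub ((rs M).map (pr ξ ξ)) (WithLp.toLp 2 (w, 0))
  refine ⟨g.ofLp, map_mem_closure (WithLp.prod_continuous_ofLp 2 H H) hg ?_, 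
    gr_ind (isClosed_eq (by fun_prop) (by fun_prop)) (of_re fun y hy => ?_)⟩
  · rintro _ ⟨x, hx, rfl⟩; exact ⟨x, hx, rfl⟩
  · simpa [WithLp.prod_inner_apply] using! h _ ⟨y, hy, rfl⟩

lemma exists_rn (M : VonNeumannAlgebra H) {ξ₁ ξ₂ w : H} (h : ∀ y ∈ M, ∀ ε > 0, ∃ x ∈ M, ‖x‖ ≤ 1 ∧
      (⟪y ξ₁, w⟫_ℂ).re ≤ (⟪y ξ₁, x ξ₁⟫_ℂ).re + (⟪star y ξ₂, star x ξ₂⟫_ℂ).re + ε) :
    ∃ x ∈ M, ∀ y ∈ M, ⟪w, y ξ₁⟫_ℂ = ⟪x ξ₁, y ξ₁⟫_ℂ + ⟪star y ξ₂, star x ξ₂⟫_ℂ := by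
  letI : InnerProductSpace ℝ H := InnerProductSpace.complexToReal
  have := proj_conv ((rs M).map (pr ξ₁ ξ₂))
    (K := pr ξ₁ ξ₂ '' (rs M ∩ Metric.closedBall 0 1)) (Set.image_mono Set.inter_subset_left) ?_
    (((rs M).convex.inter (convex_closedBall _ _)).linear_image _) (C := ‖ξ₁‖ + ‖ξ₂‖) ?_
    (w := WithLp.toLp 2 (w, 0)) ?_
  · obtain ⟨_, ⟨x, hx, rfl⟩, h⟩ := this
    refine ⟨x, hx.1, of_re fun y hy => ?_⟩
    simpa [WithLp.prod_inner_apply] using! h _ ⟨y, hy, rfl⟩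
  · refine isSeqClosed_iff_isClosed.1 fun u p hu hp => ?_
    choose x hx hxu using hu
    obtain ⟨y, h1, h2⟩ := exists_wlim (hyperfilter ℕ) (x := x) zero_le_one
      fun n => by simpa using (hx n).2
    have hp' := (((WithLp.prod_continuous_ofLp 2 H H).tendsto _).comp hp).mono_left
      Nat.hyperfilter_le_atTop
    simp only [Function.comp_def, ← hxu] at hp'
    refine ⟨y, ⟨mem_of_wlim (M := M) (fun n => (hx n).1) h2, by simpa⟩,
      WithLp.ofLp_injective 2 (Prod.ext (ext_inner_left ℂ fun η => ?_)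
        (ext_inner_right ℂ fun η => ?_))⟩
    · exact tendsto_nhds_unique (h2 η ξ₁) (tendsto_const_nhds.inner hp'.fst_nhds)
    · exact tendsto_nhds_unique (by simpa only [← star_left] using! h2 ξ₂ η)
        (hp'.snd_nhds.inner tendsto_const_nhds)
  · rintro _ ⟨x, hx, rfl⟩
    have h1 : ‖x‖ ≤ 1 := by simpa using hx.2
    have h2 := x.le_of_opNorm_le h1 ξ₁
    have h3 := (star x).le_of_opNorm_le ((norm_star x).trans_le h1) ξ₂
    refine le_of_sq_le_sq ?_ (by positivity)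
    rw [WithLp.prod_norm_sq_eq_of_L2]
    change ‖x ξ₁‖ ^ 2 + ‖star x ξ₂‖ ^ 2 ≤ _
    nlinarith [norm_nonneg (x ξ₁), norm_nonneg (star x ξ₂), norm_nonneg ξ₁, norm_nonneg ξ₂]
  · rintro _ ⟨y, hy, rfl⟩ ε hε
    obtain ⟨x, hx, h1, h2⟩ := h y hy ε hε
    exact ⟨_, ⟨x, ⟨hx, by simpa⟩, rfl⟩, by simpa [WithLp.prod_inner_apply] using! h2⟩

end Vale.Agent.P132.T
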