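import Vale.Agent.P132.TCalc

/-! Double operator integrals. -/

open MeasureTheory Filter Topology InnerProductSpace
open scoped InnerProductSpace ComplexConjugate

namespace Vale.Agent.P132.T

variable {H : Type*} [NormedAddCommGroup H] [InnerProductSpace ℂ H] [CompleteSpace H]

lemma approx {S : Set H} (hS : TopologicalSpace.IsSeparable S) : ∃ p : ℕ → H →L[ℂ] H,
    (∀ n, ‖p n‖ ≤ 1) ∧ (∀ β ∈ S, Tendsto (fun n => p n β) atTop (𝓝 β)) ∧
      ∀ n (x : H →L[ℂ] H), x * p n ∈ Submodule.span ℂ {y | ∃ a b, y = rankOne ℂ a b} := by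
  obtain ⟨c, hc, hS⟩ := hS
  obtain ⟨d, hd⟩ := (hc.insert 0).exists_eq_range (Set.insert_nonempty _ _)
  let U : ℕ → Submodule ℂ H := fun n => Submodule.span ℂ (d '' Set.Iio n)
  have : ∀ n, FiniteDimensional ℂ (U n) := fun n =>
    FiniteDimensional.span_of_finite ℂ ((Set.finite_Iio n).image d)
  refine ⟨fun n => (U n).starProjection, fun n => (U n).starProjection_norm_le, fun β hβ => ?_,
    fun n x => ?_⟩
  · have := Submodule.starProjection_tendsto_closure_iSup U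
      (fun m n h => Submodule.span_mono (Set.image_mono (Set.Iio_subset_Iio h))) β
    rwa [Submodule.starProjection_eq_self_iff.2] at this
    refine closure_mono (fun y hy => ?_) (hS hβ)
    obtain ⟨n, rfl⟩ : y ∈ Set.range d := hd ▸ Set.mem_insert_of_mem _ hy
    exact Submodule.mem_iSup_of_mem (n + 1) (Submodule.subset_span ⟨n, n.lt_succ_self, rfl⟩)
  · simp only [(stdOrthonormalBasis ℂ (U n)).starProjection_eq_sum_rankOne, Finset.mul_sum]
    exact Submodule.sum_mem _ fun i _ => Submodule.subset_span ⟨_, _, comp_rankOne _ _ _⟩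

namespace Calc

variable (c : Calc H) {u v f₁ g₁ f₂ g₂ : ℝ → ℝ → ℂ} {C : ℝ} {k p q : ℝ → ℂ}

lemma fubini' (hk : Integrable k) (hu : Continuous u.uncurry) (hC : ∀ t s, ‖u t s‖ ≤ C) (η ζ : H) :
    ∫ t, k t * ⟪η, c.F (u t) ζ⟫_ℂ = ⟪η, c.F (fun s => ∫ t, k t * u t s) ζ⟫_ℂ := by
  rw [← c.fubini hk hu hC, ← integral_inner
    (int_vec hk (c.cont hu hC ζ) fun t => c.norm_le (cb_sec hu hC t) (hC t) ζ)]
  simp only [inner_smul_right]

/-- jointly continuous and bounded -/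
def B2 (u : ℝ → ℝ → ℂ) : Prop := Continuous u.uncurry ∧ ∃ C, ∀ t s, ‖u t s‖ ≤ C

lemma B2.cb (hu : B2 u) (t : ℝ) : Cb (u t) := cb_sec hu.1 hu.2.choose_spec t

lemma B2.mul (hu : B2 u) (hv : B2 v) : B2 fun t s => u t s * v t s :=
  let ⟨C, hC⟩ := hu.2
  let ⟨D, hD⟩ := hv.2
  ⟨hu.1.mul hv.1, C * D, fun t s => (norm_mul_le _ _).trans
    (mul_le_mul (hC t s) (hD t s) (norm_nonneg _) ((norm_nonneg _).trans (hC t s)))⟩

lemma B2.add (hu : B2 u) (hv : B2 v) : B2 fun t s => u t s + v t s :=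
  let ⟨C, hC⟩ := hu.2
  let ⟨D, hD⟩ := hv.2
  ⟨hu.1.add hv.1, C + D, fun t s => (norm_add_le _ _).trans (add_le_add (hC t s) (hD t s))⟩

lemma B2.left (hp : Cb p) : B2 fun t _ => p t :=
  ⟨hp.1.comp continuous_fst, hp.2.imp fun _ h t _ => h t⟩

lemma B2.right (hp : Cb p) : B2 fun _ s => p s :=
  ⟨hp.1.comp continuous_snd, hp.2.imp fun _ h _ s => h s⟩

lemma B2.sec (hu : B2 u) (s : ℝ) : Cb fun t => u t s :=
  ⟨hu.1.uncurry_right s, hu.2.imp fun _ h t => h t s⟩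

lemma B2.bd (hu : B2 u) : ∃ C, 0 ≤ C ∧ ∀ t η, ‖c.F (u t) η‖ ≤ C * ‖η‖ :=
  let ⟨C, hC⟩ := hu.2
  ⟨C, (norm_nonneg _).trans (hC 0 0), fun t => c.norm_le (hu.cb t) (hC t)⟩

lemma bd2 (hu : B2 u) (hv : B2 v) (η ζ : H) :
    ∃ K, ∀ (x : H →L[ℂ] H) t, ‖⟪η, c.F (u t) (x (c.F (v t) ζ))⟫_ℂ‖ ≤ K * ‖x‖ := by
  obtain ⟨C, h0, hC⟩ := hu.bd c
  obtain ⟨D, h1, hD⟩ := hv.bd c
  refine ⟨‖η‖ * C * (D * ‖ζ‖), fun x t => (norm_inner_le_norm _ _).trans ?_⟩
  calc _ ≤ ‖η‖ * (C * (‖x‖ * (D * ‖ζ‖))) := by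
        gcongr
        refine (hC _ _).trans ?_
        gcongr
        refine (x.le_opNorm _).trans ?_
        gcongr
        exact hD _ _
    _ = _ := by ring

lemma cb2 (hu : B2 u) (hv : B2 v) (η ζ : H) (x : H →L[ℂ] H) :
    Cb fun t => ⟪η, c.F (u t) (x (c.F (v t) ζ))⟫_ℂ := by
  refine ⟨?_, (c.bd2 hu hv η ζ).imp' (· * ‖x‖) fun _ h => h x⟩
  obtain ⟨C, hC⟩ := hu.2
  simp only [← star_left (c.F (u _)), c.star_eq (hu.cb _)]
  exact (c.cont (u := fun t s => conj (u t s)) (Complex.continuous_conj.comp hu.1) (C := C)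
    (by simpa using hC) η).inner (x.continuous.comp (c.cont hv.1 hv.2.choose_spec ζ))

lemma int_cb (hk : Integrable k) (hp : Cb p) : Integrable fun t => k t * p t :=
  hk.mul_bdd hp.1.aestronglyMeasurable (ae_of_all _ hp.2.choose_spec)

theorem joint (hk : Integrable k) (hf₁ : B2 f₁) (hg₁ : B2 g₁) (hf₂ : B2 f₂) (hg₂ : B2 g₂)
    (hp : Cb p) (hq : Cb q)
    (h : ∀ s s', ∫ t, k t * (f₁ t s * g₁ t s' + f₂ t s * g₂ t s') = p s * q s') (η ζ : H)
    (x : H →L[ℂ] H) :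
    ∫ t, k t * (⟪η, c.F (f₁ t) (x (c.F (g₁ t) ζ))⟫_ℂ + ⟪η, c.F (f₂ t) (x (c.F (g₂ t) ζ))⟫_ℂ) =
      ⟪η, c.F p (x (c.F q ζ))⟫_ℂ := by
  have hi := fun x => int_cb hk (cb_add (c.cb2 hf₁ hg₁ η ζ x) (c.cb2 hf₂ hg₂ η ζ x))
  have fin : ∀ x ∈ Submodule.span ℂ {y : H →L[ℂ] H | ∃ a b, y = rankOne ℂ a b},
      ∫ t, k t * (⟪η, c.F (f₁ t) (x (c.F (g₁ t) ζ))⟫_ℂ + ⟪η, c.F (f₂ t) (x (c.F (g₂ t) ζ))⟫_ℂ) =
      ⟪η, c.F p (x (c.F q ζ))⟫_ℂ := fun x hx => by
    induction hx using Submodule.span_induction with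
    | mem x hx =>
      obtain ⟨a, b, rfl⟩ := hx
      have φ : ∀ {g}, B2 g → Cb fun t => ⟪b, c.F (g t) ζ⟫_ℂ := fun hg => by
        simpa [c.F_one] using c.cb2 (.right (cb_const 1)) hg b ζ 1
      have hu := ((B2.left (φ hg₁)).mul hf₁).add ((B2.left (φ hg₂)).mul hf₂)
      have e := c.fubini' hk hu.1 hu.2.choose_spec η a
      have e2 : ∀ s, ∫ t, k t * (⟪b, c.F (g₁ t) ζ⟫_ℂ * f₁ t s + ⟪b, c.F (g₂ t) ζ⟫_ℂ * f₂ t s) =
          ⟪b, c.F q ζ⟫_ℂ * p s := fun s => by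
        have hv := ((B2.left (hf₁.sec s)).mul hg₁).add ((B2.left (hf₂.sec s)).mul hg₂)
        have := c.fubini' hk hv.1 hv.2.choose_spec b ζ
        simp only [h, c.smul, c.add, cb_mul, cb_const, hg₁.cb, hg₂.cb, hq, inner_add_right,
          ContinuousLinearMap.add_apply, ContinuousLinearMap.smul_apply, inner_smul_right] at this
        simpa only [mul_comm] using this
      simpa only [e2, c.smul, c.add, cb_mul, cb_const, hf₁.cb, hf₂.cb, hp, inner_add_right,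
        ContinuousLinearMap.add_apply, ContinuousLinearMap.smul_apply, inner_smul_right,
        rankOne_apply, map_smul] using e
    | zero => simp
    | add x y _ _ hx hy =>
      simp only [ContinuousLinearMap.add_apply, map_add, inner_add_right, ← hx, ← hy,
        ← integral_add (hi x) (hi y)]
      congr 1; ext; ring
    | smul a x _ hx =>
      simp only [ContinuousLinearMap.smul_apply, map_smul, inner_smul_right, ← hx,
        ← integral_const_mul]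
      congr 1; ext; ring
  obtain ⟨P, h1, h2, h3⟩ := approx (((TopologicalSpace.isSeparable_range
    (c.cont hg₁.1 hg₁.2.choose_spec ζ)).union (TopologicalSpace.isSeparable_range
    (c.cont hg₂.1 hg₂.2.choose_spec ζ))).union (Set.finite_singleton (c.F q ζ)).isSeparable)
  have lim : ∀ (T : H →L[ℂ] H) {β}, Tendsto (fun n => P n β) atTop (𝓝 β) →
      Tendsto (fun n => ⟪η, T ((x * P n) β)⟫_ℂ) atTop (𝓝 ⟪η, T (x β)⟫_ℂ) := fun T β hβ =>
    tendsto_const_nhds.inner (((T * x).continuous.tendsto β).comp hβ)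
  refine tendsto_nhds_unique ?_ ((lim _ (h2 _ (.inr rfl))).congr fun n => (fin _ (h3 n x)).symm)
  obtain ⟨K₁, k1⟩ := c.bd2 hf₁ hg₁ η ζ
  obtain ⟨K₂, k2⟩ := c.bd2 hf₂ hg₂ η ζ
  refine tendsto_integral_of_dominated_convergence (fun t => ‖k t‖ * (|K₁| * ‖x‖ + |K₂| * ‖x‖))
    (fun n => (hi _).1) (hk.norm.mul_const _) (fun n => .of_forall fun t => ?_)
    (.of_forall fun t => ((lim _ (h2 _ (.inl (.inl ⟨t, rfl⟩)))).add
      (lim _ (h2 _ (.inl (.inr ⟨t, rfl⟩))))).const_mul _)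
  have hx : ‖x * P n‖ ≤ ‖x‖ := (norm_mul_le _ _).trans (mul_le_of_le_one_right (norm_nonneg _) (h1 n))
  rw [norm_mul]
  gcongr
  refine (norm_add_le _ _).trans (add_le_add ((k1 _ _).trans ?_) ((k2 _ _).trans ?_)) <;>
    gcongr <;> exact le_abs_self _

end Calc

end Vale.Agent.P132.T
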