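import Vale.Agent.P132.TStd
import Vale.Agent.P132.TJoint

/-! The Tomita-Takesaki theorem. -/

open MeasureTheory Filter Topology Real
open scoped InnerProductSpace ComplexConjugate FourierTransform

namespace Vale.Agent.P132.T

variable {H : Type*} [NormedAddCommGroup H] [InnerProductSpace ℂ H] [CompleteSpace H]
variable {M : VonNeumannAlgebra H} {ξ : H}

lemma exists_km {d : H →L[ℂ] H} (hd : 0 ≤ d) (hM : d ∈ M) {ρ : ℝ} (hρ : 0 < ρ) :
    ∃ k m : H →L[ℂ] H, IsSelfAdjoint k ∧ IsSelfAdjoint m ∧ m ∈ M ∧ m * k = 1 ∧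
      ‖k * k - d * (m * m)‖ ≤ ρ ∧ ‖m * m * d * (m * m)‖ ≤ 1 := by
  have hs := hd.isSelfAdjoint
  let k : ℝ → ℝ := fun t => √√(ρ ^ 2 + |t|)
  have k0 : ∀ t, 0 < k t := fun t => by positivity
  have kk : ∀ t, k t * k t = √(ρ ^ 2 + |t|) := fun t => mul_self_sqrt (sqrt_nonneg _)
  have k4 : ∀ t, k t * k t * (k t * k t) = ρ ^ 2 + |t| := fun t => by
    rw [kk, mul_self_sqrt (by positivity)]
  have kρ : ∀ t, ρ ≤ k t * k t := fun t => by
    rw [kk]; exact le_sqrt_of_sq_le (le_add_of_nonneg_right (abs_nonneg t))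
  have hk : Continuous k := by fun_prop
  clear_value k
  obtain ⟨m, hm, mk⟩ : ∃ m : ℝ → ℝ, Continuous m ∧ ∀ t, m t = (k t)⁻¹ :=
    ⟨_, hk.inv₀ fun t => (k0 t).ne', fun _ => rfl⟩
  refine ⟨cfc k d, cfc m d, .cfc, .cfc, cfc_mem_vn hM _, ?_, ?_, ?_⟩
  · rw [← cfc_mul .., ← cfc_one ℝ d]
    exact cfc_congr fun t _ => mk t ▸ inv_mul_cancel₀ (k0 t).ne'
  · nth_rw 3 [← cfc_id' ℝ d]
    rw [← cfc_mul .., ← cfc_mul .., ← cfc_mul .., ← cfc_sub ..]
    refine norm_cfc_le hρ.le fun t ht => ?_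
    have h4 := k4 t
    have := k0 t
    rw [abs_of_nonneg (spectrum_nonneg_of_nonneg hd ht)] at h4
    rw [mk, show k t * k t - t * ((k t)⁻¹ * (k t)⁻¹) = ρ ^ 2 / (k t * k t) by field_simp; linarith,
      norm_of_nonneg (by positivity), div_le_iff₀ (by positivity)]
    nlinarith [kρ t]
  · nth_rw 3 [← cfc_id' ℝ d]
    rw [← cfc_mul .., ← cfc_mul .., ← cfc_mul ..]
    refine norm_cfc_le zero_le_one fun t ht => ?_
    have h4 := k4 t
    have := k0 t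
    have h0 := spectrum_nonneg_of_nonneg hd ht
    rw [abs_of_nonneg h0] at h4
    rw [mk, norm_of_nonneg (by positivity)]
    field_simp
    nlinarith

lemma rn1 {x' : H →L[ℂ] H} (hx : x' ∈ M.commutant) (h1 : ‖x'‖ ≤ 1) (ξ : H) {r : ℝ} (hr : 0 < r) :
    ∃ x ∈ M, ∀ y ∈ M, ⟪x' ξ, y ξ⟫_ℂ =
      r ^ 2 * ⟪x ξ, y ξ⟫_ℂ + (r ^ 2 : ℂ)⁻¹ * ⟪star y ξ, star x ξ⟫_ℂ := by
  have hr' : (r : ℂ) ≠ 0 := Complex.ofReal_ne_zero.2 hr.ne'
  obtain ⟨x, hx, h⟩ := exists_rn M (ξ₁ := (r : ℂ) • ξ) (ξ₂ := ((r⁻¹ : ℝ) : ℂ) • ξ)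
    (w := ((r⁻¹ : ℝ) : ℂ) • x' ξ) fun y hy ε hε => by
      obtain ⟨k, m, hk, hm, hM, e1, e2, e3⟩ := exists_km (star_mul_self_nonneg y)
        (mul_mem (star_mem hy) hy) (show 0 < ε / (‖(r : ℂ) • ξ‖ ^ 2 + 1) by positivity)
      refine ⟨y * (m * m), mul_mem hy (mul_mem hM hM), ?_, ?_⟩
      · refine le_of_sq_le_sq ?_ zero_le_one
        rw [sq, ← CStarRing.norm_star_mul_self]
        simpa only [star_mul, hm.star_eq, mul_assoc, one_pow] using e3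
      set ξ₁ := (r : ℂ) • ξ
      set ξ₂ := ((r⁻¹ : ℝ) : ℂ) • ξ
      have a1 : ⟪y ξ₁, ((r⁻¹ : ℝ) : ℂ) • x' ξ⟫_ℂ = ⟪k ξ₁, x' (m (star y ξ₂))⟫_ℂ := by
        rw [← map_smul, ← comm_of_mem hM hx, ← comm_of_mem (star_mem hy) hx, ← star_left m,
          hm.star_eq, ← ContinuousLinearMap.mul_apply m, e1, star_right]
        rfl
      have a2 : (⟪star y ξ₂, star (y * (m * m)) ξ₂⟫_ℂ).re = ‖m (star y ξ₂)‖ ^ 2 := by
        simp only [star_mul, hm.star_eq, ContinuousLinearMap.mul_apply]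
        rw [← star_left, hm.star_eq]
        exact inner_self_eq_norm_sq (𝕜 := ℂ) _
      have a3 : (⟪ξ₁, (k * k - star y * y * (m * m)) ξ₁⟫_ℂ).re =
          ‖k ξ₁‖ ^ 2 - (⟪y ξ₁, (y * (m * m)) ξ₁⟫_ℂ).re := by
        simp only [ContinuousLinearMap.sub_apply, inner_sub_right, ContinuousLinearMap.mul_apply,
          star_right, Complex.sub_re]
        rw [← star_left, hk.star_eq]
        exact congrArg (· - _) (inner_self_eq_norm_sq (𝕜 := ℂ) _)
      have a4 := (re_inner_le_norm (𝕜 := ℂ) ξ₁ _).trans (mul_le_mul_of_nonneg_left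
        (ContinuousLinearMap.le_of_opNorm_le _ e2 ξ₁) (norm_nonneg _))
      have a5 := (re_inner_le_norm (𝕜 := ℂ) (k ξ₁) _).trans (mul_le_mul_of_nonneg_left
        (ContinuousLinearMap.le_of_opNorm_le _ h1 (m (star y ξ₂))) (norm_nonneg _))
      have a6 : ‖ξ₁‖ * (ε / (‖ξ₁‖ ^ 2 + 1) * ‖ξ₁‖) ≤ ε := by
        rw [mul_left_comm, div_mul_eq_mul_div, div_le_iff₀ (by positivity)]; nlinarith
      simp only [RCLike.re_to_complex] at a4 a5
      rw [a1, a2]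
      nlinarith [sq_nonneg (‖k ξ₁‖ - ‖m (star y ξ₂)‖), sq_nonneg ‖k ξ₁‖, sq_nonneg ‖m (star y ξ₂)‖]
  refine ⟨x, hx, fun y hy => ?_⟩
  have := h y hy
  simp only [map_smul, inner_smul_left, inner_smul_right, Complex.conj_ofReal] at this
  push_cast at this
  field_simp at this ⊢
  linear_combination this

lemma rn {x' : H →L[ℂ] H} (hx : x' ∈ M.commutant) (ξ : H) {r : ℝ} (hr : 0 < r) :
    ∃ x ∈ M, ∀ y ∈ M, ⟪x' ξ, y ξ⟫_ℂ =
      r ^ 2 * ⟪x ξ, y ξ⟫_ℂ + (r ^ 2 : ℂ)⁻¹ * ⟪star y ξ, star x ξ⟫_ℂ := by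
  have h0 : 0 < ‖x'‖ + 1 := by positivity
  obtain ⟨x, hx, h⟩ := rn1 (vsmul ((‖x'‖ + 1)⁻¹ : ℝ) hx) (by
    rw [norm_smul, Complex.norm_real, norm_of_nonneg (by positivity), inv_mul_le_iff₀ h0]
    linarith) ξ hr
  refine ⟨_, vsmul (‖x'‖ + 1 : ℝ) hx, fun y hy => ?_⟩
  have := h y hy
  have h1 := Complex.ofReal_ne_zero.2 h0.ne'
  simp only [star_smul, ContinuousLinearMap.smul_apply, inner_smul_left, inner_smul_right,
    Complex.conj_ofReal, RCLike.star_def, Complex.ofReal_inv, map_inv₀] at this ⊢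
  rw [inv_mul_eq_iff_eq_mul₀ h1] at this
  rw [this]; ring

lemma ch_add (t a b : ℝ) : ch t (a + b) = ch t a * ch t b := by
  simp only [ch, ← Complex.exp_add]; congr 1; push_cast; ring

lemma ch_neg (t a : ℝ) : ch (-t) a = ch t (-a) := by simp [ch]

lemma conj_ch (t a : ℝ) : conj (ch t a) = ch (-t) a := by
  simp [ch, ← Complex.exp_conj]

lemma b2_ch : Calc.B2 ch := ⟨cont_ch, 1, fun t s => (norm_ch t s).le⟩

lemma b2_ch' : Calc.B2 fun t => ch (-t) :=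
  ⟨cont_ch.comp (f := fun p : ℝ × ℝ => (-p.1, p.2)) (by fun_prop), 1, fun _ _ => (norm_ch _ _).le⟩

lemma four_uniq {h : ℝ → ℂ} (hc : Continuous h) (hi : Integrable h)
    (h0 : ∀ u, ∫ t, h t * ch t u = 0) (t : ℝ) : h t = 0 := by
  have : 𝓕 h = 0 := funext fun w => by
    rw [fourier_real_eq_integral_exp_smul, Pi.zero_apply, ← h0 (-2 * π * w)]
    congr 1; ext t; rw [smul_eq_mul, mul_comm, ch]; congr 4; ring
  rw [← hc.fourierInv_fourier_eq hi (this ▸ integrable_zero _ _ _), this]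
  simp [fourierInv_eq]

lemma r_ap (J : H →L⋆[ℂ] H) (x : H →L[ℂ] H) (η : H) : rJ J x η = J (star x (J η)) := rfl

namespace Pre

variable (P : Pre M ξ)

lemma J_tau (η : H) : P.J (P.F tau η) = P.F tau (P.J η) := by
  simp only [P.F_J tau cb_tau, tau_neg, conj_tau]

lemma op_eq {x' : H →L[ℂ] H} (hx : x' ∈ M.commutant) {r : ℝ} (hr : 0 < r) : ∃ x ∈ M, ∀ η ζ,
    ⟪P.F tau η, P.J (x' (P.J (P.F tau ζ)))⟫_ℂ = r ^ 2 * ⟪η - P.F aa η, x (P.F aa ζ)⟫_ℂ +
      (r ^ 2 : ℂ)⁻¹ * ⟪P.F aa η, x (ζ - P.F aa ζ)⟫_ℂ := by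
  obtain ⟨x, hM, h⟩ := rn hx ξ hr
  have key : ∀ η ∈ {η : H | ∃ x ∈ M.commutant, η = x ξ}, ∃ a ∈ M, P.F aa η = a ξ ∧
      P.J (P.F tau η) = star a ξ := by
    rintro _ ⟨a', ha', rfl⟩
    obtain ⟨a, ha, h⟩ := rn ha' ξ one_pos
    exact ⟨a, ha, Prod.ext_iff.1 ((P.sol _).uniq ⟨gr_mem ha, gr_ind
      (isClosed_eq (by fun_prop) (by fun_prop)) (by simpa using h)⟩)⟩
  refine ⟨star x, star_mem hM, fun η ζ => ?_⟩
  refine (P.cyc'.prod P.cyc').induction (P := fun p : H × H =>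
    ⟪P.F tau p.1, P.J (x' (P.J (P.F tau p.2)))⟫_ℂ = r ^ 2 * ⟪p.1 - P.F aa p.1,
      star x (P.F aa p.2)⟫_ℂ + (r ^ 2 : ℂ)⁻¹ * ⟪P.F aa p.1, star x (p.2 - P.F aa p.2)⟫_ℂ) ?_
    (isClosed_eq (by fun_prop) (by fun_prop)) (η, ζ)
  rintro ⟨η, ζ⟩ ⟨hη, hζ⟩
  obtain ⟨b, hb, b1, b2⟩ := key η hη
  obtain ⟨a, ha, a1, a2⟩ := key ζ hζ
  have e1 := (P.sol η).2 _ (gr_mem (mul_mem (star_mem hM) ha))
  have e2 := congrArg conj ((P.sol ζ).2 _ (gr_mem (mul_mem hM hb)))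
  have e3 := h _ (mul_mem ha (star_mem hb))
  simp only [star_mul, star_star, ContinuousLinearMap.mul_apply, map_add, inner_conj_symm, a1, a2,
    b1, b2] at e1 e2 e3
  rw [star_left a] at e1
  rw [← star_right x, ← star_right x, star_right b] at e2
  simp only [P.Jadj (P.F tau η), a1, a2, b1, b2, inner_sub_left, map_sub, inner_sub_right,
    ← comm_of_mem (star_mem ha) hx]
  rw [star_left a, e3, e1, e2]
  ring

lemma sig {x' : H →L[ℂ] H} (hx : x' ∈ M.commutant) (t : ℝ) :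
    P.F (ch t) * rJ P.J x' * P.F (ch (-t)) ∈ M := by
  set z := rJ P.J x'
  have hg : ∀ η ζ, Cb fun t => ⟪η, P.F (ch t) (z (P.F (ch (-t)) ζ))⟫_ℂ := fun η ζ =>
    P.cb2 b2_ch b2_ch' η ζ z
  have hi : ∀ u η ζ, Integrable fun t =>
      tau (2 * π * t) * ⟪η, P.F (ch t) (z (P.F (ch (-t)) ζ))⟫_ℂ * ch t u := fun u η ζ => by
    simpa only [mul_assoc] using Calc.int_cb int_sech (cb_mul (hg η ζ) (b2_ch.sec u))
  have hd : DenseRange (P.F tau) := dense_of_inj fun η hη =>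
    P.inj cb_tau tau_ne (ext_inner_left ℂ fun ζ => by
      rw [← P.sa cb_tau conj_tau, ← star_right, hη])
  have main : ∀ u, ∃ x ∈ M, ∀ η ζ, ∫ t, tau (2 * π * t) *
      ⟪η, P.F (ch t) (z (P.F (ch (-t)) ζ))⟫_ℂ * ch t u = ⟪η, x ζ⟫_ℂ := fun u => by
    obtain ⟨x, hM, h⟩ := P.op_eq (star_mem hx) (exp_pos (u / 4))
    refine ⟨x, hM, fun η ζ => hd.induction_on₂ (p := fun η ζ => ∫ t, tau (2 * π * t) *
      ⟪η, P.F (ch t) (z (P.F (ch (-t)) ζ))⟫_ℂ * ch t u = ⟪η, x ζ⟫_ℂ)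
      (isClosed_eq ?_ (by fun_prop)) (fun η ζ => ?_) η ζ⟩
    · refine continuous_iff_continuousAt.2 fun p => continuousAt_of_dominated
        (bound := fun t => ‖tau (2 * π * t)‖ * ((‖p.1‖ + 1) * (‖z‖ * (‖p.2‖ + 1))))
        (.of_forall fun q => (hi u _ _).1) ?_ (int_sech.norm.mul_const _)
        (.of_forall fun t => by fun_prop)
      filter_upwards [(continuous_fst.norm.tendsto p).eventually_le_const (lt_add_one _),
        (continuous_snd.norm.tendsto p).eventually_le_const (lt_add_one _)] with q h1 h2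
      refine .of_forall fun t => ?_
      have hU := fun t η => (P.norm_le (cb_ch t) (fun s => (norm_ch t s).le) η).trans_eq (one_mul _)
      rw [norm_mul, norm_mul, norm_ch, mul_one]
      gcongr
      refine (norm_inner_le_norm _ _).trans ?_
      gcongr
      exact (hU _ _).trans ((z.le_opNorm _).trans (by gcongr; exact (hU _ _).trans h2))
    have hb := cb_sub (cb_const 1) cb_aa
    have := P.joint int_sech
      (((Calc.B2.left (cb_mul (cb_const ((exp (u / 4) : ℂ) ^ 2)) (b2_ch.sec u))).mul b2_ch).mul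
        (.right hb)) ((Calc.B2.right cb_aa).mul b2_ch')
      (((Calc.B2.left (cb_mul (cb_const ((exp (u / 4) : ℂ) ^ 2)⁻¹) (b2_ch.sec u))).mul b2_ch).mul
        (.right cb_aa)) ((Calc.B2.right hb).mul b2_ch') cb_tau cb_tau (fun s s' => ?_) η ζ x
    · rw [P.sa cb_tau conj_tau η (x _), ← this]
      congr 1; ext t
      have hU : ∀ η ζ, ⟪η, P.F (ch t) ζ⟫_ℂ = ⟪P.F (ch (-t)) η, ζ⟫_ℂ := fun η ζ => by
        rw [← star_left, P.star_eq (cb_ch t)]; simp only [conj_ch]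
      have h := h (P.F (ch (-t)) η) (P.F (ch (-t)) ζ)
      rw [← P.one_sub, ← P.one_sub, P.sa hb (by simp [aa, ← Complex.exp_conj]), P.sa_aa, ← hU, ← hU] at h
      simp only [mul_assoc, P.smul _ (cb_mul (cb_const _) (cb_mul (cb_ch _) hb)),
        P.smul _ (cb_mul (cb_const _) (cb_mul (cb_ch _) cb_aa)), P.smul _ (cb_mul (cb_ch _) hb),
        P.smul _ (cb_mul (cb_ch _) cb_aa), ← P.mul_ap (cb_ch _) hb, ← P.mul_ap (cb_ch _) cb_aa,
        ← P.mul_ap hb (cb_ch _), ← P.mul_ap cb_aa (cb_ch _),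
        ContinuousLinearMap.smul_apply, inner_smul_right]
      rw [hU, P.comm (cb_ch _) cb_tau, P.comm (cb_ch _) cb_tau]
      congr 1
      erw [h]
      ring
    · have e : ∀ t, tau (2 * π * t) * ((exp (u / 4) : ℂ) ^ 2 * ch t u * ch t s * (1 - aa s) *
          (aa s' * ch (-t) s') + ((exp (u / 4) : ℂ) ^ 2)⁻¹ * ch t u * ch t s * aa s *
          ((1 - aa s') * ch (-t) s')) = tau (2 * π * t) * ch t (u + s + -s') *
          ((exp (u / 4) : ℂ) ^ 2 * (1 - aa s) * aa s' +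
            ((exp (u / 4) : ℂ) ^ 2)⁻¹ * aa s * (1 - aa s')) := fun t => by
        rw [ch_add, ch_add, ch_neg]; ring
      simp only [e, integral_mul_const, sech]
      simp only [tau, aa]
      norm_cast
      have e2 : ∀ s, exp s = exp (s / 2) ^ 2 := fun s => by rw [sq, ← exp_add]; simp
      have e3 : exp ((u + s + -s') / 2) = exp (u / 4) ^ 2 * exp (s / 2) / exp (s' / 2) := by
        rw [sq, ← exp_add, ← exp_add, ← exp_sub]; congr 1; ring
      rw [e2 (u + s + -s'), e3, e2 s, e2 s']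
      field_simp
      ring
  refine mem_of_comm fun y hy => ContinuousLinearMap.ext fun ζ => ext_inner_left ℂ fun η => ?_
  have := four_uniq (h := fun t => tau (2 * π * t) * (⟪star y η, P.F (ch t) (z (P.F (ch (-t)) ζ))⟫_ℂ
    - ⟪η, P.F (ch t) (z (P.F (ch (-t)) (y ζ)))⟫_ℂ))
    ((cb_tau.1.comp (by fun_prop)).mul (cb_sub (hg _ _) (hg _ _)).1)
    (Calc.int_cb int_sech (cb_sub (hg _ _) (hg _ _))) (fun u => ?_) t
  · simpa [tau_ne, sub_eq_zero, star_left] using this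
  · obtain ⟨x, hM, h⟩ := main u
    simp only [mul_sub, sub_mul, integral_sub (hi _ _ _) (hi _ _ _), h]
    rw [star_left, comm_of_mem hM hy, sub_self]

lemma ch0 : P.F (ch 0) = 1 := by rw [← P.F_one]; congr; ext; simp [ch]

lemma r_mem' {x' : H →L[ℂ] H} (hx : x' ∈ M.commutant) : rJ P.J x' ∈ M := by
  simpa [P.ch0] using P.sig hx 0

lemma Jξ : P.J ξ = ξ := P.fix P.aa_ξ (by simpa using gr_mem (ξ := ξ) (one_mem M))

lemma sym {p q : H × H} (hp : p ∈ gr M ξ) (hq : q ∈ gr M ξ) :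
    ⟪P.J p.1, q.1⟫_ℂ = ⟪q.2, P.J p.2⟫_ℂ := by
  have e : ∀ {p : H × H}, p ∈ gr M ξ → P.F aa (P.J p.1) = P.F tau p.2 := fun {p} hp => by
    have := congrArg P.J (P.key hp)
    rw [P.J_tau, P.JJ] at this
    rw [this, ← P.one_sub, P.F_J aa cb_aa]
    congr; ext s
    simp only [aa, Complex.conj_ofReal, exp_neg]
    norm_cast; field_simp; ring
  have e1 := (P.sol (P.J p.1)).2 q hq
  have e2 := congrArg conj ((P.sol (P.J p.2)).2 _ (gr_swap hq))
  have e3 := e (gr_swap hp)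
  simp only [P.J_tau, P.JJ, e hp, map_add, inner_conj_symm, Prod.fst_swap, Prod.snd_swap] at e1 e2 e3
  rw [e1, e2, e3, add_comm]

lemma star_r (x : H →L[ℂ] H) : star (rJ P.J x) = rJ P.J (star x) :=
  ContinuousLinearMap.ext fun η => ext_inner_left ℂ fun ζ => by
    rw [star_right, r_ap, r_ap, star_star, P.Jadj ζ, ← inner_conj_symm, P.Jadj, inner_conj_symm,
      star_right]

lemma r_mem {y : H →L[ℂ] H} (hy : y ∈ M) : rJ P.J y ∈ M.commutant := by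
  have key : ∀ x ∈ M, rJ P.J y (x ξ) = x (rJ P.J y ξ) := fun x hx => by
    refine eq_of_dense P.cyc' ?_
    rintro _ ⟨c, hc, rfl⟩
    have := P.sym (gr_mem hx) (gr_mem (mul_mem hy (P.r_mem' (star_mem hc))))
    simp only [star_mul, P.star_r, ContinuousLinearMap.mul_apply, r_ap, star_star, P.Jξ,
      P.Jinner] at this
    rw [← star_left y, P.Jadj, star_left x, comm_of_mem hx (star_mem hc), star_right c] at this
    rw [← inner_conj_symm, r_ap, this, inner_conj_symm, r_ap, P.Jξ]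
  refine VonNeumannAlgebra.mem_commutant_iff.2 fun x hx => ContinuousLinearMap.ext fun η => ?_
  refine P.cyc.induction (P := fun η => (x * rJ P.J y) η = (rJ P.J y * x) η) ?_
    (isClosed_eq (by fun_prop) (by fun_prop)) η
  rintro _ ⟨w, hw, rfl⟩
  simpa [key w hw] using (key _ (mul_mem hx hw)).symm

lemma r_r (x : H →L[ℂ] H) : rJ P.J (rJ P.J x) = x :=
  ContinuousLinearMap.ext fun η => by rw [r_ap, P.star_r, r_ap, P.JJ, P.JJ, star_star]

/-- the modular data -/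
noncomputable def mod (h : ‖ξ‖ = 1) : Mod H where
  M := M
  ξ := ξ
  unit := h
  cyc := P.cyc
  J := P.J
  JJ := P.JJ
  Jinner := P.Jinner
  Jξ := P.Jξ
  r_mem _ := P.r_mem
  r_mem' _ := P.r_mem'
  F := P.F
  mu := P.mu
  mu_fin := P.mu_fin
  F_inner := P.F_inner
  F_one := P.F_one
  F_mul := P.F_mul
  F_J := P.F_J
  F_ξ _ := P.eig P.aa_ξ
  sig_mem t x hx := by simpa only [P.r_r] using P.sig (P.r_mem hx) t
  half _ _ hf hg h _ hx := P.half hf hg h (gr_mem hx)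

end Pre

end Vale.Agent.P132.T
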