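import Vale.Agent.P132.TCons

/-! The Fourier transform of the hyperbolic secant, from the Beta integral. -/

open MeasureTheory Real
open scoped ComplexConjugate

namespace Vale.Agent.P132.T

/-- the function `1 / (2 cosh (s / 2))` -/
noncomputable def tau (s : ℝ) : ℂ := (exp (s / 2) / (1 + exp s) : ℝ)

lemma tau_ne (s : ℝ) : tau s ≠ 0 := Complex.ofReal_ne_zero.2 (by positivity)

lemma aa_tau (s : ℝ) : aa s * (exp (s / 2) : ℝ) = tau s := by
  simp [aa, tau, div_eq_inv_mul]

lemma tau_exp (s : ℝ) : tau s * (exp (s / 2) : ℝ) = 1 - aa s := by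
  have : exp (s / 2) / (1 + exp s) * exp (s / 2) = 1 - (1 + exp s)⁻¹ := by
    field_simp; rw [sq, ← exp_add]; simp
  rw [tau, aa]; exact_mod_cast this

lemma tau_sq (s : ℝ) : tau s * tau s = aa s - aa s * aa s := by
  linear_combination aa s * tau_exp s - tau s * aa_tau s

lemma conj_tau (s : ℝ) : conj (tau s) = tau s := Complex.conj_ofReal _

lemma tau_neg (s : ℝ) : tau (-s) = tau s := by
  unfold tau; congr 1
  have h : exp s = exp (s / 2) ^ 2 := by rw [sq, ← exp_add]; simp
  rw [neg_div, exp_neg, exp_neg, h]; field_simp; ring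

lemma cb_tau : Cb tau := ⟨Complex.continuous_ofReal.comp (Continuous.div (by fun_prop)
  (by fun_prop) fun _ => by positivity), 1, fun s => by
    have h : exp s = exp (s / 2) ^ 2 := by rw [sq, ← exp_add]; simp
    rw [tau, Complex.norm_real, Real.norm_of_nonneg (by positivity), div_le_one (by positivity), h]
    nlinarith [sq_nonneg (exp (s / 2) - 1), exp_pos (s / 2)]⟩

lemma sech (v : ℝ) : ∫ t, tau (2 * π * t) * ch t v = tau v := by
  set a : ℂ := 1 / 2 + v / (2 * π) * Complex.I with ha
  have hπ : (π : ℂ) ≠ 0 := Complex.ofReal_ne_zero.2 pi_ne_zero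
  have re : a.re = 1 / 2 := by
    rw [show a = 1 / 2 + (v / (2 * π) : ℝ) * Complex.I by simp [ha]]
    simp only [Complex.add_re, Complex.re_ofReal_mul, Complex.I_re]; norm_num
  have h1 := Complex.Gamma_mul_Gamma_eq_betaIntegral (s := a) (t := 1 - a) (by simp [re])
    (by simp [re]; norm_num)
  have im : sigmoid ∘ HMul.hMul (2 * π) '' Set.univ = Set.Ioo 0 1 := by
    rw [Set.image_univ, ← range_sigmoid]
    exact (mul_left_surjective₀ two_pi_pos.ne').range_comp sigmoid
  rw [Complex.Gamma_mul_Gamma_one_sub, add_sub_cancel, Complex.Gamma_one, one_mul,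
    Complex.betaIntegral, intervalIntegral.integral_of_le zero_le_one,
    integral_Ioc_eq_integral_Ioo, ← im, integral_image_eq_integral_abs_deriv_smul .univ
      (fun t _ => ((hasDerivAt_sigmoid (2 * π * t)).comp t
        ((hasDerivAt_id t).const_mul (2 * π))).hasDerivWithinAt)
      (fun s _ t _ h => mul_left_cancel₀ two_pi_pos.ne' (sigmoid_injective h)),
    Measure.restrict_univ] at h1
  have h2 : ∀ w : ℝ, ((sigmoid w * (1 - sigmoid w) : ℝ) : ℂ) * ((sigmoid w : ℂ) ^ (a - 1) *
      (1 - (sigmoid w : ℂ)) ^ (1 - a - 1)) = tau w * Complex.exp (w * (a - 1 / 2)) := fun w => by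
    have p := exp_pos w
    have e1 : sigmoid w = exp (w - log (1 + exp w)) := by
      rw [exp_sub, exp_log (by positivity), sigmoid_def, exp_neg]; field_simp; ring
    have e2 : 1 - sigmoid w = exp (- log (1 + exp w)) := by
      rw [exp_neg, exp_log (by positivity), sigmoid_def, exp_neg]; field_simp; ring
    have e3 : tau w = exp (w / 2 - log (1 + exp w)) := by
      rw [exp_sub, exp_log (by positivity), tau]
    have e4 : ∀ (r : ℝ) (z : ℂ), ((exp r : ℝ) : ℂ) ^ z = Complex.exp (r * z) := fun r z => by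
      rw [Complex.cpow_def_of_ne_zero (by simp), ← Complex.ofReal_log (exp_pos r).le, log_exp]
    rw [← Complex.ofReal_one, ← Complex.ofReal_sub, e2, e1, e3, e4, e4]
    simp only [Complex.ofReal_mul, Complex.ofReal_exp, ← Complex.exp_add]
    congr 1; push_cast; ring
  have h3 : ∫ t, tau (2 * π * t) * ch t v = π / Complex.sin (π * a) / (2 * π) := by
    rw [h1, ← integral_div]
    congr 1; ext t
    rw [abs_of_pos (by have := sigmoid_pos (2 * π * t); have := sigmoid_lt_one (2 * π * t); bound),
      Complex.real_smul, Complex.ofReal_mul, mul_right_comm _ ((2 * π * 1 : ℝ) : ℂ),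
      Function.comp_apply, h2, ch, ha, mul_div_assoc, mul_assoc (tau _)]
    push_cast
    rw [mul_one, div_self (by simpa), mul_one]
    congr 2; field_simp; ring
  have h4 : π * a = (v / 2 : ℝ) * Complex.I + π / 2 := by rw [ha]; push_cast; field_simp; ring
  rw [h3, h4, Complex.sin_add_pi_div_two, Complex.cos_mul_I, ← Complex.ofReal_cosh, tau]
  have h : exp v = exp (v / 2) ^ 2 := by rw [sq, ← exp_add]; simp
  rw [cosh_eq, exp_neg, h]
  norm_cast
  field_simp; ring

lemma ch_zero (t : ℝ) : ch t 0 = 1 := by simp [ch]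

lemma int_sech : Integrable fun t => tau (2 * π * t) :=
  Integrable.of_integral_ne_zero (by simpa [ch_zero] using (sech 0).trans_ne (tau_ne 0))

end Vale.Agent.P132.T
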