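import Vale.Agent.P132.TGraph
import Vale.Agent.P132.TSech

/-! The operators `(1 + Delta)⁻¹`, `S (1 + Delta)⁻¹` and `J`. -/

open Filter Topology
open scoped InnerProductSpace ComplexConjugate

namespace Vale.Agent.P132.T

variable {H : Type*} [NormedAddCommGroup H] [InnerProductSpace ℂ H] [CompleteSpace H]
variable {M : VonNeumannAlgebra H} {ξ : H}

lemma gr_mem {x : H →L[ℂ] H} (hx : x ∈ M) : (x ξ, star x ξ) ∈ gr M ξ := subset_closure ⟨x, hx, rfl⟩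

lemma gr_add {p q : H × H} (hp : p ∈ gr M ξ) (hq : q ∈ gr M ξ) : p + q ∈ gr M ξ :=
  map_mem_closure₂ continuous_add hp hq (by
    rintro _ ⟨x, hx, rfl⟩ _ ⟨y, hy, rfl⟩; exact ⟨x + y, add_mem hx hy, by simp⟩)

lemma gr_smul (a : ℂ) {p : H × H} (hp : p ∈ gr M ξ) : (a • p.1, conj a • p.2) ∈ gr M ξ :=
  map_mem_closure (f := fun p : H × H => (a • p.1, conj a • p.2)) (by fun_prop) hp (by
    rintro _ ⟨x, hx, rfl⟩; exact ⟨a • x, vsmul a hx, by simp⟩)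

lemma gr_swap {p : H × H} (hp : p ∈ gr M ξ) : p.swap ∈ gr M ξ :=
  map_mem_closure continuous_swap hp (by
    rintro _ ⟨x, hx, rfl⟩; exact ⟨star x, star_mem hx, by simp⟩)

/-- the projection equations -/
def Sol (M : VonNeumannAlgebra H) (ξ w : H) (g : H × H) : Prop :=
  g ∈ gr M ξ ∧ ∀ q ∈ gr M ξ, ⟪w, q.1⟫_ℂ = ⟪g.1, q.1⟫_ℂ + ⟪q.2, g.2⟫_ℂ

lemma Sol.add {v w : H} {g h : H × H} (hg : Sol M ξ v g) (hh : Sol M ξ w h) :
    Sol M ξ (v + w) (g + h) :=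
  ⟨gr_add hg.1 hh.1, fun q hq => by
    simp only [Prod.fst_add, Prod.snd_add, inner_add_left, inner_add_right, hg.2 q hq, hh.2 q hq]
    ring⟩

lemma Sol.smul (a : ℂ) {w : H} {g : H × H} (hg : Sol M ξ w g) :
    Sol M ξ (a • w) (a • g.1, conj a • g.2) :=
  ⟨gr_smul a hg.1, fun q hq => by
    simp only [inner_smul_left, inner_smul_right, hg.2 q hq]; ring⟩

lemma Sol.bound {w : H} {g : H × H} (hg : Sol M ξ w g) : ‖g.1‖ ≤ 1 * ‖w‖ ∧ ‖g.2‖ ≤ 1 * ‖w‖ := by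
  have h1 := congrArg Complex.re (hg.2 g hg.1)
  have h2 := re_inner_le_norm (𝕜 := ℂ) w g.1
  have h3 := inner_self_eq_norm_sq (𝕜 := ℂ) g.1
  have h4 := inner_self_eq_norm_sq (𝕜 := ℂ) g.2
  simp only [RCLike.re_to_complex, Complex.add_re] at *
  constructor <;> refine le_of_sq_le_sq ?_ (by positivity) <;>
    nlinarith [sq_nonneg (‖w‖ - ‖g.1‖), sq_nonneg ‖g.2‖, sq_nonneg ‖g.1‖]

lemma Sol.uniq {w : H} {g h : H × H} (hg : Sol M ξ w g) (hh : Sol M ξ w h) : g = h := by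
  have := (hg.add (hh.smul (-1))).bound
  simp only [neg_smul, one_smul, add_neg_cancel, norm_zero, mul_zero, norm_le_zero_iff, map_neg,
    map_one, Prod.fst_add, Prod.snd_add, add_neg_eq_zero] at this
  exact Prod.ext this.1 this.2

lemma exists_AC (M : VonNeumannAlgebra H) (ξ : H) :
    ∃ (A : H →L[ℂ] H) (C : H →L⋆[ℂ] H), ‖A‖ ≤ 1 ∧ ∀ w, Sol M ξ w (A w, C w) := by
  choose g hg using show ∀ w, ∃ g, Sol M ξ w g from exists_gr M ξ
  have ha := fun v w => (hg _).uniq ((hg v).add (hg w))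
  have hs := fun a w => (hg _).uniq ((hg w).smul a)
  exact ⟨LinearMap.mkContinuous ⟨⟨fun w => (g w).1, fun v w => by simp [ha]⟩,
    fun a w => by simp [hs]⟩ 1 fun w => (hg w).bound.1,
    LinearMap.mkContinuous ⟨⟨fun w => (g w).2, fun v w => by simp [ha]⟩,
    fun a w => by simp [hs]⟩ 1 fun w => (hg w).bound.2,
    LinearMap.mkContinuous_norm_le _ zero_le_one _, hg⟩

omit [CompleteSpace H] in
lemma eq_of_dense {D : Set H} (hD : Dense D) {a b : H} (h : ∀ η ∈ D, ⟪a, η⟫_ℂ = ⟪b, η⟫_ℂ) :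
    a = b :=
  ext_inner_right ℂ fun η => hD.induction (P := fun η => ⟪a, η⟫_ℂ = ⟪b, η⟫_ℂ) h
    (isClosed_eq (by fun_prop) (by fun_prop)) η

/-- modular data before the commutation theorem -/
structure Pre (M : VonNeumannAlgebra H) (ξ : H) extends Calc H where
  cyc : Dense {η : H | ∃ x ∈ M, η = x ξ}
  cyc' : Dense {η : H | ∃ x ∈ M.commutant, η = x ξ}
  J : H →L⋆[ℂ] H
  sol : ∀ w, Sol M ξ w (F aa w, J (F tau w))
  JJ : ∀ η, J (J η) = η
  Jinner : ∀ η ζ, ⟪J η, J ζ⟫_ℂ = ⟪ζ, η⟫_ℂ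
  F_J : ∀ f, Cb f → ∀ η, F f (J η) = J (F (fun s => conj (f (-s))) η)
  F_comm : ∀ X f, Cb f → X * F aa = F aa * X → X * F f = F f * X

theorem exists_pre (cyc : Dense {η : H | ∃ x ∈ M, η = x ξ})
    (cyc' : Dense {η : H | ∃ x ∈ M.commutant, η = x ξ}) : Nonempty (Pre M ξ) := by
  obtain ⟨A, C, hA1, h⟩ := exists_AC M ξ
  have e1 : ∀ v w, ⟪w, A v⟫_ℂ = ⟪A w, A v⟫_ℂ + ⟪C v, C w⟫_ℂ := fun v w => (h w).2 _ (h v).1
  have e2 : ∀ v w, ⟪w, C v⟫_ℂ = ⟪A w, C v⟫_ℂ + ⟪A v, C w⟫_ℂ := fun v w =>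
    (h w).2 _ (gr_swap (h v).1)
  have sa : ∀ v w, ⟪A w, v⟫_ℂ = ⟪w, A v⟫_ℂ := fun v w => by
    rw [← inner_conj_symm, e1, e1 v, map_add, inner_conj_symm, inner_conj_symm]
  have sc : ∀ v w, ⟪w, C v⟫_ℂ = ⟪v, C w⟫_ℂ := fun v w => by rw [e2 v w, e2 w v, add_comm]
  have cc : ∀ v, C (C v) = A v - A (A v) := fun v => ext_inner_left ℂ fun w => by
    rw [sc, inner_sub_right, e1 v w, ← sa (A v), add_sub_cancel_left]
  have ca : ∀ v, C (A v) = C v - A (C v) := fun v => ext_inner_left ℂ fun w => by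
    rw [sc, inner_sub_right, e2 v w, ← sa (C v), add_sub_cancel_left]
  have h0 : 0 ≤ A := (ContinuousLinearMap.nonneg_iff_isPositive A).2 ⟨fun v w => sa w v, fun v => by
    rw [ContinuousLinearMap.reApplyInnerSelf, sa, e1, map_add]
    exact add_nonneg inner_self_nonneg inner_self_nonneg⟩
  obtain ⟨c, rfl, hc, hC⟩ := exists_calc h0 ((CStarAlgebra.norm_le_one_iff_of_nonneg A h0).1 hA1)
    fun η hη => by
      have h1 : C η = 0 := by rw [← inner_self_eq_zero (𝕜 := ℂ), sc, cc, hη, inner_zero_right]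
      have h2 : A η = 0 := eq_of_dense cyc' (by
        rintro _ ⟨y, hy, rfl⟩
        have := gr_ind (P := fun q => ⟪q.1, y ξ⟫_ℂ = ⟪star y ξ, q.2⟫_ℂ)
          (isClosed_eq (by fun_prop) (by fun_prop)) (fun x hx => by
            rw [star_left, ← comm_of_mem (star_mem hx) hy, star_right]) _ (h η).1
        simpa [h1] using this)
      refine eq_of_dense cyc ?_
      rintro _ ⟨x, hx, rfl⟩
      simpa [h1, h2] using (h η).2 _ (gr_mem hx)
  have ct : ∀ η, C (c.F tau η) = c.F tau (C η) := fun η => by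
    simpa only [tau_neg, conj_tau] using hC C tau cb_tau ca η
  have st : ∀ v w, ⟪c.F tau w, v⟫_ℂ = ⟪w, c.F tau v⟫_ℂ := fun v w => by
    rw [← star_left, c.star_eq cb_tau]; simp only [conj_tau]
  have tt : ∀ v, c.F tau (c.F tau v) = C (C v) := fun v => by
    simp only [cc, c.mul_ap cb_tau cb_tau, tau_sq, c.sub cb_aa (cb_mul cb_aa cb_aa),
      c.mul_ap cb_aa cb_aa, ContinuousLinearMap.sub_apply]
  have ti : ∀ v w, ⟪C v, C w⟫_ℂ = ⟪c.F tau w, c.F tau v⟫_ℂ := fun v w => by rw [sc, st, tt]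
  have hd : DenseRange (c.F tau) := dense_of_inj fun η hη =>
    c.inj cb_tau tau_ne (ext_inner_left ℂ fun ζ => by rw [← st, ← star_right, hη])
  let J : H →L⋆[ℂ] H := C.toLinearMap.extendOfNorm (c.F tau).toLinearMap
  have jt : ∀ η, J (c.F tau η) = C η := LinearMap.extendOfNorm_eq hd ⟨1, fun η => by
    simp only [norm_eq_sqrt_re_inner (𝕜 := ℂ) (E := H), ContinuousLinearMap.coe_coe, ti, one_mul,
      le_refl]⟩
  clear_value J
  have jc : ∀ η, J (C η) = c.F tau η := dext hd (by fun_prop) (by fun_prop) fun η => by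
    rw [ct, jt, tt]
  refine ⟨⟨c, cyc, cyc', J, fun w => jt w ▸ h w, dext hd (by fun_prop) continuous_id fun η => ?_,
    fun η ζ => ?_, fun f hf => dext hd (by fun_prop) (by fun_prop) fun η => ?_, hc⟩⟩
  · rw [jt, jc]
  · refine hd.induction_on₂ (p := fun η ζ => ⟪J η, J ζ⟫_ℂ = ⟪ζ, η⟫_ℂ)
      (isClosed_eq (by fun_prop) (by fun_prop)) (fun v w => ?_) η ζ
    rw [jt, jt, ti]
  · rw [jt, c.comm (cb_conj (cb_neg hf)) cb_tau, jt, hC C f hf ca]

namespace Pre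

variable (P : Pre M ξ)

lemma Jadj (η ζ : H) : ⟪η, P.J ζ⟫_ℂ = ⟪ζ, P.J η⟫_ℂ := by rw [← P.Jinner (P.J η), P.JJ]

lemma sa {f : ℝ → ℂ} (hf : Cb f) (h : ∀ s, conj (f s) = f s) (η ζ : H) :
    ⟪P.F f η, ζ⟫_ℂ = ⟪η, P.F f ζ⟫_ℂ := by
  rw [← star_left, P.star_eq hf]; simp only [h]

lemma one_sub (η : H) : P.F (fun s => 1 - aa s) η = η - P.F aa η := by
  rw [P.sub (cb_const 1) cb_aa, P.F_one]; rfl

lemma sa_aa (η ζ : H) : ⟪P.F aa η, ζ⟫_ℂ = ⟪η, P.F aa ζ⟫_ℂ :=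
  P.sa cb_aa (fun _ => Complex.conj_ofReal _) η ζ

lemma key {q : H × H} (hq : q ∈ gr M ξ) : P.F tau (P.J q.2) = q.1 - P.F aa q.1 :=
  ext_inner_left ℂ fun w => by
    rw [← P.sa cb_tau conj_tau, P.Jadj, inner_sub_right, (P.sol w).2 q hq, P.sa_aa,
      add_sub_cancel_left]

lemma half {f g : ℝ → ℂ} (hf : Cb f) (hg : Cb g) (h : ∀ s : ℝ, g s = (Real.exp (s / 2) : ℂ) * f s)
    {q : H × H} (hq : q ∈ gr M ξ) : P.F f (P.J q.2) = P.F g q.1 := by
  refine sub_eq_zero.1 (P.inj cb_tau tau_ne ?_)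
  rw [map_sub, P.comm cb_tau hf, P.key hq, ← P.one_sub, P.mul_ap hf (cb_sub (cb_const 1) cb_aa),
    P.mul_ap cb_tau hg, sub_eq_zero]
  congr 2; ext s; rw [h, ← tau_exp]; ring

lemma eig {η : H} (h : P.F aa η = (1 / 2 : ℂ) • η) {f : ℝ → ℂ} (hf : Cb f) :
    P.F f η = f 0 • η := by
  have := P.zero_of (cb_sub hf (cb_const (f 0))) (cb_sub cb_aa (cb_const (1 / 2))) (η := η)
    (by simp [P.sub cb_aa (cb_const _), P.const, h]) fun s hs => by
      have : (1 + Real.exp s)⁻¹ = 1 / 2 := Complex.ofReal_injective (by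
        rw [sub_eq_zero] at hs; simpa [aa] using hs)
      rw [one_div, inv_inj] at this
      rw [Real.exp_eq_one_iff s |>.1 (by linarith), sub_self]
  simpa [P.sub hf (cb_const _), P.const, sub_eq_zero] using this

lemma aa_ξ : P.F aa ξ = (1 / 2 : ℂ) • ξ := by
  refine congrArg Prod.fst ((P.sol ξ).uniq (h := ((1 / 2 : ℂ) • ξ, (1 / 2 : ℂ) • ξ))
    ⟨by simpa [map_ofNat] using gr_smul (1 / 2) (gr_mem (ξ := ξ) (one_mem M)),
    gr_ind (isClosed_eq (by fun_prop) (by fun_prop)) fun x _ => ?_⟩)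
  simp only [inner_smul_left, inner_smul_right, star_left, map_div₀, map_one, map_ofNat]
  ring

lemma fix {η : H} (h : P.F aa η = (1 / 2 : ℂ) • η) (hq : (η, η) ∈ gr M ξ) : P.J η = η := by
  refine sub_eq_zero.1 (P.inj cb_tau tau_ne ?_)
  rw [map_sub, P.key hq, P.eig h cb_tau, h, tau]
  norm_num
  module

end Pre

end Vale.Agent.P132.T
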