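import Vale.Agent.P132.WGns

/-! An infinite projection of a factor with a separating vector is equivalent to one. -/

open Filter Topology
open scoped InnerProductSpace ComplexConjugate

namespace Vale.Agent.P132.T

variable {K : Type*} [NormedAddCommGroup K] [InnerProductSpace ℂ K] [CompleteSpace K]
variable {N : VonNeumannAlgebra K} {ξ : K} {e : K →L[ℂ] K}

lemma polar {x : K →L[ℂ] K} (hx : x ∈ N) (hi : ∀ η, x η = 0 → η = 0) (h : e * x = x) :
    ∃ w ∈ N, star w * w = 1 ∧ e * w = w := by
  obtain ⟨a, hN, ha, h2⟩ := exists_sq (star_mul_self_nonneg x) (mul_mem (star_mem hx) hx)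
  have ip : ∀ η ζ, ⟪x η, x ζ⟫_ℂ = ⟪a η, a ζ⟫_ℂ := fun η ζ => by
    rw [← star_right, ← star_right a, ha.star_eq, ← ContinuousLinearMap.mul_apply a, h2]; rfl
  have hn : ∀ η, ‖x η‖ = ‖a η‖ := fun η => by
    simp only [norm_eq_sqrt_re_inner (𝕜 := ℂ) (E := K), ip]
  have hd : DenseRange a := dense_of_inj fun η hη => hi η (by
    rw [← norm_eq_zero, hn, ← ha.star_eq, hη, norm_zero])
  obtain ⟨w, hw⟩ : ∃ w : K →L[ℂ] K, ∀ η, w (a η) = x η :=
    ⟨_, LinearMap.extendOfNorm_eq (f := x.toLinearMap) (e := a.toLinearMap) hd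
      ⟨1, fun η => by simp [hn]⟩⟩
  refine ⟨w, mem_of_comm fun y hy => ContinuousLinearMap.ext (dext hd (by fun_prop) (by fun_prop)
    fun η => ?_), ContinuousLinearMap.ext fun ζ => ext_inner_left ℂ fun η => ?_,
    ContinuousLinearMap.ext (dext hd (by fun_prop) (by fun_prop) fun η => ?_)⟩
  · simp only [ContinuousLinearMap.mul_apply, ← comm_of_mem hN hy, hw, comm_of_mem hx hy]
  · rw [ContinuousLinearMap.mul_apply, star_right]
    exact hd.induction_on₂ (p := fun η ζ => ⟪w η, w ζ⟫_ℂ = ⟪η, ζ⟫_ℂ)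
      (isClosed_eq (by fun_prop) (by fun_prop)) (fun η ζ => by rw [hw, hw, ip]) η ζ
  · rw [ContinuousLinearMap.mul_apply, hw, ← ContinuousLinearMap.mul_apply, h]

lemma bernstein (he : IsStarProjection e) (hN : e ∈ N) {w : K →L[ℂ] K} (hw : w ∈ N)
    (h1 : star w * w = 1) (h2 : e * w = w) : ∃ v ∈ N, star v * v = 1 ∧ v * star v = e := by
  let S : Set K := {η | ∃ (n : ℕ) (κ : K), η = (w ^ n * (1 - e)) κ}
  have hp := pr_proj S
  have key : ∀ T ∈ N.commutant, ∀ η ∈ S, P132.pr S (T η) = T η := by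
    rintro T hT _ ⟨n, κ, rfl⟩
    exact pr_fix ⟨n, T κ,
      (comm_of_mem (mul_mem (pow_mem hw n) (sub_mem (one_mem N) hN)) hT κ).symm⟩
  have pN : P132.pr S ∈ N := mem_of_comm fun T hT => pr_comm (key T hT) (key _ (star_mem hT))
  have a1 : P132.pr S * (1 - e) = 1 - e := ContinuousLinearMap.ext fun κ => pr_fix ⟨0, κ, by simp⟩
  have a0 : ∀ η ∈ S, P132.pr S η = η := fun η => pr_fix
  have a2 : P132.pr S * w * P132.pr S = w * P132.pr S := pr_ext (by
    rintro _ ⟨n, κ, rfl⟩
    exact pr_fix ⟨n + 1, κ, by simp [pow_succ']⟩)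
  have h3 : star w * e = star w := by simpa [he.isSelfAdjoint.star_eq] using congrArg star h2
  have a3 : (1 - e + w * P132.pr S * star w) * P132.pr S = 1 * P132.pr S := pr_ext (by
    rintro _ ⟨n, κ, rfl⟩
    rcases n with _ | n
    · have : (1 - e + w * P132.pr S * star w) * (1 - e) = 1 - e := by
        simp [add_mul, mul_assoc, mul_sub, h3, he.one_sub.isIdempotentElem.eq, sub_mul,
          he.isIdempotentElem.eq]
      simpa using congr($this κ)
    · have : (1 - e + w * P132.pr S * star w) * w = w * P132.pr S := by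
        simp [add_mul, mul_assoc, h1, sub_mul, h2]
      have := congr($this ((w ^ n * (1 - e)) κ))
      rw [ContinuousLinearMap.mul_apply w, a0 _ ⟨n, κ, rfl⟩] at this
      simpa [pow_succ'] using this)
  generalize P132.pr S = p at *
  have hs := hp.isSelfAdjoint.star_eq
  have pp := hp.isIdempotentElem.eq
  have a4 : p * (1 - e + w * p * star w) = 1 - e + w * p * star w := by
    rw [mul_add, a1, ← mul_assoc, ← mul_assoc, a2]
  have a5 : p = 1 - e + w * p * star w := by
    have := congrArg star a3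
    simp only [star_mul, star_add, star_sub, star_one, hs, he.isSelfAdjoint.star_eq, star_star,
      mul_one, ← mul_assoc, a4] at this
    exact this.symm
  have a6 : p * star w * p = p * star w := by
    simpa only [star_mul, hs, mul_assoc] using congrArg star a2
  refine ⟨w * p + (1 - p), add_mem (mul_mem hw pN) (sub_mem (one_mem N) pN), ?_, ?_⟩
  · simp only [star_add, star_mul, star_sub, star_one, hs]
    calc _ = p * (star w * w) * p + (p * star w - p * star w * p) + (w * p - p * w * p) + 1 - p - p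
          + p * p := by noncomm_ring
      _ = 1 := by rw [h1, mul_one, pp, a6, a2]; abel
  · simp only [star_add, star_mul, star_sub, star_one, hs]
    calc _ = w * (p * p) * star w + w * (p - p * p) + (p - p * p) * star w + 1 - p - p + p * p := by
          noncomm_ring
      _ = e := by rw [pp]; nth_rw 6 [a5]; simp; abel

theorem equiv_one (cyc' : Dense {η | ∃ x ∈ N.commutant, η = x ξ})
    (fac : ∀ x ∈ N, x ∈ N.commutant → ∃ c : ℂ, x = c • 1) (he : IsStarProjection e) (hN : e ∈ N)
    {v : K →L[ℂ] K} (hv : v ∈ N) (h1 : star v * v = e) (h2 : e * v = v) (h3 : v * star v ≠ e) :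
    ∃ v ∈ N, star v * v = 1 ∧ v * star v = e := by
  have ee := he.isIdempotentElem.eq
  have es := he.isSelfAdjoint.star_eq
  have h4 : v * e = v := by
    rw [← sub_eq_zero, ← CStarRing.star_mul_self_eq_zero_iff]
    simp only [star_sub, star_mul, es, sub_mul, mul_sub, mul_assoc, ← mul_assoc (star v) v, h1, ee,
      sub_self]
  have h5 : star v * e = star v := by simpa [es] using congrArg star h2
  obtain ⟨q, hq⟩ : ∃ q, q = e - v * star v := ⟨_, rfl⟩
  have qN : q ∈ N := hq ▸ sub_mem hN (mul_mem hv (star_mem hv))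
  have qs : star q = q := by simp [hq, es]
  have qv : q * v = 0 := by rw [hq, sub_mul, mul_assoc, h1, h2, h4, sub_self]
  have eq : e * q = q := by rw [hq, mul_sub, ← mul_assoc, ee, h2]
  have qq : q * q = q := by
    nth_rw 2 [hq]
    rw [mul_sub, ← mul_assoc, qv, zero_mul, sub_zero, ← qs, ← es, ← star_mul, eq]
  have eu : ∀ n : ℕ, e * (v ^ n * q) = v ^ n * q := fun n => by
    rcases n with _ | n
    · simpa
    · rw [pow_succ', mul_assoc, ← mul_assoc, h2]
  have uu : ∀ m n : ℕ, star (v ^ m * q) * (v ^ n * q) = if m = n then q else 0 := fun m => by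
    induction m with
    | zero =>
      rintro (_ | n)
      · simp [qs, qq]
      · simp [qs, pow_succ', ← mul_assoc, qv]
    | succ m ih =>
      rintro (_ | n)
      · have : star v * q = 0 := by simpa [qs] using congrArg star qv
        simp [pow_succ', mul_assoc, this]
      · rw [pow_succ', pow_succ', mul_assoc v, mul_assoc v, star_mul, mul_assoc,
          ← mul_assoc (star v), h1, eu, ih]
        simp
  let S : Set K := {η | ∃ y ∈ N, ∃ κ, η = y (q κ)}
  have S1 : P132.pr S = 1 := by
    have k1 : ∀ T ∈ N.commutant, ∀ η ∈ S, P132.pr S (T η) = T η := by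
      rintro T hT _ ⟨y, hy, κ, rfl⟩
      exact pr_fix ⟨y, hy, T κ, by rw [comm_of_mem qN hT, comm_of_mem hy hT]⟩
    have k2 : ∀ T ∈ N, ∀ η ∈ S, P132.pr S (T η) = T η := by
      rintro T hT _ ⟨y, hy, κ, rfl⟩
      exact pr_fix ⟨_, mul_mem hT hy, κ, rfl⟩
    obtain ⟨c, hc⟩ := fac _ (mem_of_comm fun T hT => pr_comm (k1 T hT) (k1 _ (star_mem hT)))
      (VonNeumannAlgebra.mem_commutant_iff.2 fun T hT => pr_comm (k2 T hT) (k2 _ (star_mem hT)))
    have : (c - 1) • q = 0 := ContinuousLinearMap.ext fun κ => by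
      simpa [hc, sub_smul, sub_eq_zero] using pr_fix (S := S) ⟨1, one_mem N, κ, rfl⟩
    rw [hc, sub_eq_zero.1 ((smul_eq_zero.1 this).resolve_right
      fun h => h3 (sub_eq_zero.1 (hq ▸ h)).symm), one_smul]
  obtain ⟨s, hs, hl⟩ := mem_closure_iff_seq_limit.1 (pr_one S1 ξ)
  choose T hT hsT using fun n => Submodule.mem_span_finite_of_mem_span (hs n)
  obtain ⟨d, hd⟩ := ((Set.countable_iUnion fun n => (T n).countable_toSet).insert 0).exists_eq_range
    (Set.insert_nonempty _ _)
  have : ∀ n, d n ∈ S := fun n => by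
    rcases hd.ge ⟨n, rfl⟩ with h | ⟨_, ⟨m, rfl⟩, h⟩
    · exact ⟨0, zero_mem N, 0, h⟩
    · exact hT m h
  choose y hy κ hκ using this
  let a : ℕ → K →L[ℂ] K := fun n => v ^ n * q * star (y n)
  let c : ℕ → ℂ := fun n => ((1 / 2) ^ n / (‖a n‖ + 1) : ℝ)
  have hsum : Summable fun n => c n • a n := .of_norm_bounded summable_geometric_two fun n => by
    rw [norm_smul, Complex.norm_real, Real.norm_of_nonneg (by positivity), div_mul_eq_mul_div,
      div_le_iff₀ (by positivity)]
    gcongr; linarith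
  have xN : ∑' n, c n • a n ∈ N := mem_of_comm fun T hT => by
    rw [← hsum.tsum_mul_left, ← hsum.tsum_mul_right]
    exact tsum_congr fun n => (VonNeumannAlgebra.mem_commutant_iff.1 hT _
      (vsmul _ (mul_mem (mul_mem (pow_mem hv n) qN) (star_mem (hy n))))).symm
  suffices ∀ η, (∑' n, c n • a n) η = 0 → η = 0 by
    obtain ⟨w, hw, w1, w2⟩ := polar (e := e) xN this (by
      rw [← hsum.tsum_mul_left]; simp only [a, mul_smul_comm, ← mul_assoc e (_ * q), eu])
    exact bernstein he hN hw w1 w2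
  intro η hη
  have k : ∀ η, (∑' n, c n • a n) η = 0 → ⟪ξ, η⟫_ℂ = 0 := fun η hη => by
    have : ∀ n, ⟪d n, η⟫_ℂ = 0 := fun n => by
      have e1 : star (v ^ n * q) * ∑' n, c n • a n = c n • (q * star (y n)) := by
        rw [← hsum.tsum_mul_left, tsum_eq_single n fun m hm => ?_] <;>
          simp only [a, mul_smul_comm, ← mul_assoc (star _) (_ * q), uu]
        · simp
        · simp [hm.symm]
      have e2 := congr($e1 η)
      rw [ContinuousLinearMap.mul_apply, hη, map_zero, ContinuousLinearMap.smul_apply, eq_comm,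
        smul_eq_zero] at e2
      rw [hκ, ← star_right, ← star_right, qs]
      exact (congrArg _ (e2.resolve_left (Complex.ofReal_ne_zero.2 (by positivity)))).trans
        (inner_zero_right _)
    refine tendsto_nhds_unique (hl.inner tendsto_const_nhds) (tendsto_const_nhds.congr fun n => ?_)
    refine (Submodule.span_le (p := (Submodule.span ℂ {η})ᗮ) |>.2 (fun ζ hζ => ?_) (hsT n)
      |> Submodule.mem_orthogonal_singleton_iff_inner_left.1).symm
    obtain ⟨m, rfl⟩ : ζ ∈ Set.range d := hd.le (.inr (Set.mem_iUnion.2 ⟨n, hζ⟩))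
    exact Submodule.mem_orthogonal_singleton_iff_inner_left.2 (this m)
  refine eq_of_dense cyc' ?_
  rintro _ ⟨T, hT, rfl⟩
  rw [inner_zero_left, ← inner_conj_symm, ← star_right, k _ (by
    rw [comm_of_mem xN (star_mem hT), hη, map_zero]), map_zero]

end Vale.Agent.P132.T
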