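import Vale.Agent.P132.WEquiv
import Vale.Agent.P132.Calc

/-! From the invariant `S` to the fullness of the spectrum of all corners. -/

open Filter Topology
open scoped InnerProductSpace ComplexConjugate

namespace Vale.Agent.P132.T

universe u

variable {K : Type u} [NormedAddCommGroup K] [InnerProductSpace ℂ K] [CompleteSpace K]
variable {N : VonNeumannAlgebra K} {ξ : K}

lemma exists_inv {f : ℝ → ℂ} (hf : Cb f) {s₀ : ℝ} (h0 : f s₀ ≠ 0) : ∃ g h : ℝ → ℂ, Cb g ∧ Cb h ∧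
    ∀ s, g s * (1 - (1 + (Real.exp s₀ : ℝ)) * aa s) = 1 - h s * f s := by
  let u : ℝ → ℝ := fun s => 1 - (1 + Real.exp s₀) * (1 + Real.exp s)⁻¹
  have hu : Continuous u := continuous_const.sub (continuous_const.mul
    (Continuous.inv₀ (by fun_prop) fun _ => by positivity))
  have mono : StrictMono u := fun s t h => by
    have := Real.exp_lt_exp.2 h
    simp only [u]; gcongr
  have u0 : u s₀ = 0 := by simp only [u]; field_simp; simp
  obtain ⟨r, hr, h1⟩ := Metric.continuousAt_iff.1 hf.1.continuousAt _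
    (half_pos (norm_pos_iff.2 h0))
  obtain ⟨δ, δ0, hδ⟩ : ∃ δ : ℝ, 0 < δ ∧ ∀ s, δ ≤ |u s| ∨ δ ≤ ‖f s‖ := by
    have a1 : 0 < u (s₀ + r) := u0 ▸ mono (by linarith)
    have a2 : u (s₀ - r) < 0 := u0 ▸ mono (by linarith)
    refine ⟨min (‖f s₀‖ / 2) (min (u (s₀ + r)) (-u (s₀ - r))), lt_min (half_pos (norm_pos_iff.2 h0))
      (lt_min a1 (by linarith)), fun s => ?_⟩
    simp only [min_le_iff, le_abs]
    by_cases h : dist s s₀ < r
    · have := h1 h
      rw [dist_eq_norm, norm_sub_rev] at this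
      exact .inr (.inl (by linarith [norm_le_norm_add_norm_sub' (f s₀) (f s)]))
    · rcases le_abs.1 (not_lt.1 h) with h | h
      · exact .inl (.inl (.inr (.inl (mono.monotone (by linarith)))))
      · exact .inl (.inr (.inr (.inr (neg_le_neg (mono.monotone (by linarith))))))
  have hD : ∀ s, δ * (|u s| + ‖f s‖) ≤ 2 * (u s ^ 2 + ‖f s‖ ^ 2) ∧ 0 < u s ^ 2 + ‖f s‖ ^ 2 :=
    fun s => by
      rw [← sq_abs]
      have := abs_nonneg (u s); have := norm_nonneg (f s)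
      rcases hδ s with h | h <;> constructor <;> nlinarith [sq_nonneg (|u s| - ‖f s‖)]
  have hc : Continuous fun s => ((u s ^ 2 + ‖f s‖ ^ 2 : ℝ) : ℂ) := by have := hf.1; fun_prop
  have ne : ∀ s, ((u s ^ 2 + ‖f s‖ ^ 2 : ℝ) : ℂ) ≠ 0 := fun s => Complex.ofReal_ne_zero.2 (hD s).2.ne'
  refine ⟨fun s => u s / ((u s ^ 2 + ‖f s‖ ^ 2 : ℝ) : ℂ),
    fun s => conj (f s) / ((u s ^ 2 + ‖f s‖ ^ 2 : ℝ) : ℂ), ⟨.div (by fun_prop) hc ne, 2 / δ,
    fun s => ?_⟩, ⟨.div (cb_conj hf).1 hc ne, 2 / δ, fun s => ?_⟩, fun s => ?_⟩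
  iterate 2
    rw [norm_div, Complex.norm_real (_ + _), Real.norm_of_nonneg (hD s).2.le,
      div_le_div_iff₀ (hD s).2 δ0]
    simp only [Complex.norm_real, Real.norm_eq_abs, Complex.norm_conj]
    nlinarith [(hD s).1, abs_nonneg (u s), norm_nonneg (f s)]
  have := ne s
  rw [show 1 - (1 + (Real.exp s₀ : ℝ)) * aa s = u s by simp [u, aa], div_mul_eq_mul_div (conj _),
    Complex.conj_mul']
  push_cast at this ⊢
  field_simp
  ring

lemma gap (P : Pre N ξ) {p : K →L[ℂ] K} (hp : IsStarProjection p)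
    (hgr : ∀ q ∈ gr N ξ, (p q.1, p q.2) ∈ gr N ξ) {L : Submodule ℂ K} (hL : ∀ η, η ∈ L ↔ p η = η)
    {G : Set (L × L)} (hG : ∀ q, q ∈ G ↔ (q.1.1, q.2.1) ∈ gr N ξ) {f : ℝ → ℂ} (hf : Cb f) {s₀ : ℝ}
    (h0 : f s₀ ≠ 0) (hz : P.F f * p = 0) : ((Real.exp s₀ : ℝ) : ℂ) ∉ graphSpectrum
      {x : L × L | ∃ s, (x.1, s) ∈ G ∧ ∀ q ∈ G, ⟪x.2, q.1⟫_ℂ = ⟪q.2, s⟫_ℂ} := by
  have ps : ∀ η ζ, ⟪p η, ζ⟫_ℂ = ⟪η, p ζ⟫_ℂ := sa_inner hp.isSelfAdjoint
  have pp : ∀ η, p η ∈ L := fun η => (hL _).2 congr($(hp.isIdempotentElem.eq) η)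
  have pl : ∀ η : L, p η = η := fun η => (hL _).1 η.2
  have e1 : ∀ w, (P.F aa (p w), P.J (P.F tau (p w))) = (p (P.F aa w), p (P.J (P.F tau w))) :=
    fun w => (P.sol _).uniq ⟨hgr _ (P.sol w).1, fun q hq => by
      simpa only [ps] using (P.sol w).2 _ (hgr q hq)⟩
  have hc : ∀ g, Cb g → ∀ η, p (P.F g η) = P.F g (p η) := fun g hg η =>
    congr($(P.F_comm p g hg (ContinuousLinearMap.ext fun w => (congrArg Prod.fst (e1 w)).symm)) η)
  have key : ∀ x : L × L, (∃ s, (x.1, s) ∈ G ∧ ∀ q ∈ G, ⟪x.2, q.1⟫_ℂ = ⟪q.2, s⟫_ℂ) ↔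
      P.F aa (x.1 + x.2) = x.1 := fun x => by
    refine ⟨fun ⟨s, h1, h2⟩ => congrArg Prod.fst ((P.sol _).uniq (h := (x.1.1, s.1))
      ⟨(hG _).1 h1, fun q hq => ?_⟩), fun h => ⟨⟨_, pp (P.J (P.F tau (x.1 + x.2)))⟩, ?_, ?_⟩⟩
    · have := h2 (⟨_, pp q.1⟩, ⟨_, pp q.2⟩) ((hG _).2 (hgr q hq))
      simp only [Submodule.coe_inner] at this
      rw [ps q.2, pl, ← ps x.2, pl] at this
      rw [inner_add_left, this]
    · simpa only [hG, h, pl] using hgr _ (P.sol (x.1 + x.2)).1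
    · intro q hq
      have := (P.sol (x.1 + x.2)).2 _ ((hG q).1 hq)
      simp only [h, inner_add_left, add_right_inj] at this
      simp only [Submodule.coe_inner, ← ps, pl, this]
  obtain ⟨g, h, hg, hh, e⟩ := exists_inv hf h0
  generalize ((Real.exp s₀ : ℝ) : ℂ) = l at *
  have hb := cb_sub (cb_const 1) (cb_mul (cb_const (1 + l)) cb_aa)
  have b1 : ∀ η, P.F (fun s => 1 - (1 + l) * aa s) η = η - (1 + l) • P.F aa η := fun η => by
    rw [P.sub (cb_const 1) (cb_mul (cb_const _) cb_aa), P.smul _ cb_aa, P.F_one]; rfl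
  have b2 : ∀ η : L, P.F g (P.F (fun s => 1 - (1 + l) * aa s) η) = η := fun η => by
    have : P.F f η = 0 := by simpa [pl] using congr($hz η)
    simp only [P.mul_ap hg hb, e, P.sub (cb_const 1) (cb_mul hh hf), ContinuousLinearMap.sub_apply,
      ← P.mul_ap hh hf, this, P.F_one, map_zero, sub_zero, ContinuousLinearMap.one_apply]
  refine fun H => H ⟨((P.F aa * P.F g) ∘L L.subtypeL).codRestrict L fun η => (hL _).2 ?_,
    fun η => (key _).2 ?_, fun x hx => Subtype.ext ?_⟩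
  · simp [hc _ cb_aa, hc _ hg, pl]
  · have := b2 η
    rw [P.comm hg hb, b1] at this
    simp only [ContinuousLinearMap.coe_codRestrict_apply, ContinuousLinearMap.comp_apply,
      Submodule.subtypeL_apply, ContinuousLinearMap.mul_apply, Submodule.coe_add,
      Submodule.coe_smul]
    congr 1
    linear_combination (norm := module) -this
  · have h1 := (key x).1 hx
    have h2 := b2 x.1
    simp only [ContinuousLinearMap.coe_codRestrict_apply, ContinuousLinearMap.comp_apply,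
      Submodule.subtypeL_apply, ContinuousLinearMap.mul_apply, Submodule.coe_sub,
      Submodule.coe_smul]
    rw [P.comm cb_aa hg]
    refine Eq.trans ?_ h2
    rw [b1]
    congr 1
    rw [map_add] at h1
    rw [map_sub, map_smul]
    linear_combination (norm := module) h1

variable {H : Type u} [NormedAddCommGroup H] [InnerProductSpace ℂ H] [CompleteSpace H]
variable {M : VonNeumannAlgebra H} {φ : (H →L[ℂ] H) → ℂ} {ρ : (H →L[ℂ] H) → K →L[ℂ] K}

lemma Rep.fac (R : Rep M φ N ξ ρ) (hM : IsFactor M) :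
    ∀ x ∈ N, x ∈ N.commutant → ∃ c : ℂ, x = c • 1 := fun y hy hy' => by
  obtain ⟨x, hx, rfl, -⟩ := R.onto y hy
  obtain ⟨c, rfl⟩ := hM x hx (VonNeumannAlgebra.mem_commutant_iff.2 fun z hz =>
    R.inj _ (mul_mem hz hx) _ (mul_mem hx hz) (by
      rw [R.mul _ hz _ hx, R.mul _ hx _ hz]
      exact VonNeumannAlgebra.mem_commutant_iff.1 hy' _ (R.mem _ hz)))
  exact ⟨c, R.smul c⟩

lemma Rep.equiv (R : Rep M φ N ξ ρ) (hM : IsFactor M) (h3 : IsTypeIII M) {e : K →L[ℂ] K}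
    (he : e ∈ N) (hp : IsStarProjection e) (h0 : e ≠ 0) :
    ∃ v ∈ N, star v * v = 1 ∧ v * star v = e := by
  obtain ⟨e, hm, rfl, -⟩ := R.onto e he
  have hp' : IsStarProjection e := ⟨R.inj _ (mul_mem hm hm) _ hm
    (R.mul _ hm _ hm ▸ hp.isIdempotentElem.eq), R.inj _ (star_mem hm) _ hm
    (R.adj _ hm ▸ hp.isSelfAdjoint.star_eq)⟩
  have := mt (h3 e hm hp') fun h => h0 (by simpa [h] using R.smul 0)
  simp only [IsFiniteProj, not_forall] at this
  obtain ⟨f, hf, hfp, hle, ⟨v, hv, h1, rfl⟩, hne⟩ := this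
  have h4 : v * e = v := by
    rw [← sub_eq_zero, ← CStarRing.star_mul_self_eq_zero_iff]
    simp only [star_sub, star_mul, hp'.isSelfAdjoint.star_eq, sub_mul, mul_sub, mul_assoc,
      ← mul_assoc (star v) v, h1, hp'.isIdempotentElem.eq, sub_self]
  have h5 : e * v = v := by
    have := congr($((hfp.le_iff_mul_eq_right hp').1 hle) * v)
    simpa only [mul_assoc, h1, h4] using this
  refine equiv_one R.cyc' (R.fac hM) hp he (R.mem _ hv) ?_ ?_ fun h => hne (R.inj _ hf _ hm ?_)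
  · rw [← R.adj _ hv, ← R.mul _ (star_mem hv) _ hv, h1]
  · rw [← R.mul _ hm _ hv, h5]
  · rw [R.mul _ hv _ (star_mem hv), R.adj _ hv, h]

theorem Rep.full (R : Rep M φ N ξ ρ) (hφ : IsFNState M φ) (hM : IsFactor M) (h3 : IsTypeIII M)
    (hS : ∀ s : ℝ, ((Real.exp s : ℝ) : ℂ) ∈ stateS M) (P : Pre N ξ) : (P.mod R.unit).Full := by
  intro e he hp h0 hU f hf f0 hz
  change e ∈ N at he
  change P.F f * e * rJ P.J e = 0 at hz
  obtain ⟨s₀, hs⟩ := Function.ne_iff.1 f0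
  obtain ⟨v, hv, v1, v2⟩ := R.equiv hM h3 he hp h0
  have es := hp.isSelfAdjoint.star_eq
  have je : P.J (e ξ) = e ξ := P.fix (by
    rw [← map_smul e, ← P.aa_ξ]
    exact ((P.mod R.unit).comm_F (fun t η => congr($(hU t) η).symm) cb_aa ξ).symm)
    (by simpa [es] using gr_mem (ξ := ξ) he)
  have re := P.r_mem he
  have pξ : ∀ y ∈ N, (e * rJ P.J e) (y ξ) = (e * y * e) ξ := fun y hy => by
    simp only [ContinuousLinearMap.mul_apply, ← comm_of_mem hy re, r_ap, es, P.Jξ, je]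
  have hp2 : IsStarProjection (e * rJ P.J e) := hp.mul ⟨ContinuousLinearMap.ext fun η => by
    simp only [ContinuousLinearMap.mul_apply, r_ap, es, P.JJ]
    rw [← ContinuousLinearMap.mul_apply e, hp.isIdempotentElem.eq], by
      rw [IsSelfAdjoint, P.star_r, es]⟩ (VonNeumannAlgebra.mem_commutant_iff.1 re e he)
  have c0 : 0 < ‖e ξ‖ := norm_pos_iff.2 fun h => h0 (Mod.sep (D := P.mod R.unit) he (zero_mem _) h)
  have c1 : ((‖e ξ‖ : ℝ) : ℂ) ≠ 0 := Complex.ofReal_ne_zero.2 c0.ne'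
  obtain ⟨w, hw, hW, -⟩ := R.onto _ (vsmul ((‖e ξ‖ : ℝ) : ℂ)⁻¹ (star_mem hv))
  have vv : ∀ η ζ, ⟪v η, v ζ⟫_ℂ = ⟪η, ζ⟫_ℂ := fun η ζ => by
    rw [← star_right, ← ContinuousLinearMap.mul_apply, v1]; rfl
  have st : ∀ x ∈ M, φ (star w * x * w) = ⟪ρ w ξ, ρ x (ρ w ξ)⟫_ℂ := fun x hx => by
    rw [← R.state _ (mul_mem (mul_mem (star_mem hw) hx) hw), R.mul _ (mul_mem (star_mem hw) hx) _ hw,
      R.mul _ (star_mem hw) _ hx, R.adj _ hw, ← star_right]
    rfl
  have hψ : IsFNState M fun x => φ (star w * x * w) := by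
    obtain ⟨ζ, h⟩ := hφ.normal
    refine ⟨⟨fun n => w (ζ n), fun x hx => ?_⟩, ?_, fun x hx h => ?_⟩
    · simpa only [ContinuousLinearMap.mul_apply, star_right] using
        h _ (mul_mem (mul_mem (star_mem hw) hx) hw)
    · rw [st _ (one_mem M), show ρ 1 = 1 by simpa using R.smul 1, ← vv, hW]
      simp only [ContinuousLinearMap.one_apply, ContinuousLinearMap.smul_apply, map_smul,
        ← ContinuousLinearMap.mul_apply v, v2, inner_self_eq_norm_sq_to_K]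
      simp [norm_smul, c1]
    · have := congrArg (ρ · * v) (hφ.faithful _ (mul_mem hx hw) (by simpa [mul_assoc] using h))
      rw [R.mul _ hx _ hw, hW, mul_assoc, smul_mul_assoc, v1, mul_smul_comm, mul_one,
        show ρ 0 = 0 by simpa using R.smul 0, zero_mul, smul_eq_zero] at this
      exact R.inj _ hx _ (zero_mem M) ((this.resolve_left (inv_ne_zero c1)).trans
        (by simpa using (R.smul 0).symm))
  let L : Submodule ℂ K := (e * rJ P.J e - 1).ker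
  have hL : ∀ η, η ∈ L ↔ (e * rJ P.J e) η = η := fun η => by simp [L, sub_eq_zero]
  let Q : K →L[ℂ] L := (e * rJ P.J e).codRestrict L fun η =>
    (hL _).2 congr($hp2.isIdempotentElem.eq η)
  have QL : ∀ η : L, Q η = η := fun η => Subtype.ext ((hL _).1 η.2)
  let Y : (H →L[ℂ] H) → K →L[ℂ] K := fun x => v * ρ x * ρ w
  have YN : ∀ x ∈ M, Y x ∈ N := fun x hx => mul_mem (mul_mem hv (R.mem x hx)) (R.mem w hw)
  have ev : e * v = v := by rw [← v2, mul_assoc, v1, mul_one]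
  have ve : star v * e = star v := by rw [← v2, ← mul_assoc, v1, one_mul]
  have Y1 : ∀ x ∈ M, (Q (Y x ξ) : K) = Y x ξ := fun x hx => (pξ _ (YN x hx)).trans (by
    simp only [Y, hW, ← mul_assoc, ev, mul_smul_comm, smul_mul_assoc, mul_assoc _ (star v), ve])
  have Y2 : ∀ x ∈ M, Y (star x) = star (Y x) := fun x hx => by
    simp [Y, hW, R.adj x hx, mul_assoc]
  have Y3 : ∀ y ∈ N, ∃ x ∈ M, Q (Y x ξ) = Q (y ξ) ∧ Q (Y (star x) ξ) = Q (star y ξ) :=
    fun y hy => by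
      obtain ⟨x, hx, h, -⟩ := R.onto _
        (vsmul ((‖e ξ‖ : ℝ) : ℂ) (mul_mem (mul_mem (star_mem hv) hy) hv))
      have : Y x = e * y * e := by
        simp only [Y, hW, h, mul_smul_comm, smul_mul_assoc, smul_smul, inv_mul_cancel₀ c1, one_smul]
        simp only [← v2, mul_assoc]
      refine ⟨x, hx, Subtype.ext ?_, Subtype.ext ?_⟩
      · rw [Y1 x hx, this]; exact (pξ y hy).symm
      · rw [Y1 _ (star_mem hx), Y2 x hx, this, star_mul, star_mul, es, ← mul_assoc]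
        exact (pξ _ (star_mem hy)).symm
  refine gap P hp2 (gr_ind (isClosed_closure.preimage (by fun_prop)) fun y hy => ?_) hL
    (G := graphS M fun x => Q (Y x ξ)) (fun q => ⟨fun hq => ?_, fun hq => ?_⟩) hf hs
    (by rw [← mul_assoc, hz]) (hS s₀ _ hψ L (fun x => Q (Y x ξ)) ⟨fun x hx y hy => ?_, fun η => ?_⟩)
  · simpa only [pξ y hy, pξ _ (star_mem hy), star_mul, es, mul_assoc] using
      gr_mem (ξ := ξ) (mul_mem (mul_mem he hy) he)
  · refine map_mem_closure (f := fun q : L × L => (q.1.1, q.2.1)) (by fun_prop) hq ?_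
    rintro _ ⟨x, hx, rfl⟩
    exact ⟨_, YN x hx, by simp only [Y1 x hx, Y1 _ (star_mem hx), ← Y2 x hx]⟩
  · have := map_mem_closure (f := fun q : K × K => (Q q.1, Q q.2)) (by fun_prop) hq
      (t := {p | ∃ x ∈ M, p = (Q (Y x ξ), Q (Y (star x) ξ))}) (by
        rintro _ ⟨y, hy, rfl⟩
        obtain ⟨x, hx, h1, h2⟩ := Y3 y hy
        exact ⟨x, hx, by rw [h1, h2]⟩)
    simpa only [QL] using! this
  · beta_reduce
    rw [Submodule.coe_inner, Y1 x hx, Y1 y hy, st _ (mul_mem (star_mem hx) hy),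
      R.mul _ (star_mem hx) _ hy, R.adj x hx, ContinuousLinearMap.mul_apply (star _), star_right]
    exact vv _ _
  · rw [← QL η]
    refine map_mem_closure Q.continuous (R.cyc η) ?_
    rintro _ ⟨y, hy, rfl⟩
    obtain ⟨x, hx, h1, -⟩ := Y3 y hy
    exact ⟨x, hx, h1⟩

theorem reduce (main : ∀ (K : Type u) [NormedAddCommGroup K] [InnerProductSpace ℂ K]
      [CompleteSpace K] (D : Mod K) (a : K →L[ℂ] K), D.Full → D.Fac → D.Bic a → ∃ c : ℂ, a = c • 1)
    (hφ : IsFNState M φ) (hM : IsFactor M) (h3 : IsTypeIII M)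
    (hS : ∀ s : ℝ, ((Real.exp s : ℝ) : ℂ) ∈ stateS M) :
    bicentralizer M φ = Set.range fun c : ℂ => c • (1 : H →L[ℂ] H) := by
  refine Set.Subset.antisymm (fun a ⟨ha, h⟩ => ?_) ?_
  swap
  · rintro _ ⟨c, rfl⟩
    exact ⟨vsmul c (one_mem M), fun w _ _ _ η => by simp⟩
  obtain ⟨K, _, _, _, N, ξ, ρ, R⟩ := exists_rep hφ
  obtain ⟨P⟩ := exists_pre R.cyc R.cyc'
  refine (main K (P.mod R.unit) (ρ a) (R.full hφ hM h3 hS P) (R.fac hM)
    ⟨R.mem a ha, fun w hw h1 h2 => ?_⟩).imp fun c hc =>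
      R.inj _ (vsmul c (one_mem M)) _ ha ((R.smul c).trans hc.symm)
  choose x hx hρ hn using fun n => R.onto _ (hw n)
  change Tendsto (fun n => ‖w n ξ - rJ P.J (w n) ξ‖) atTop (𝓝 0) at h2
  change Tendsto (fun n => ‖(ρ a * w n - w n * ρ a) ξ‖) atTop (𝓝 0)
  have h4 := h x hx ⟨1, fun n => (hn n).trans (h1 n)⟩ fun ε hε => ?_
  · obtain ⟨ζ, hζ⟩ := hφ.normal
    let z := fun n => a * x n - x n * a
    have hz : ∀ n, z n ∈ M := fun n => sub_mem (mul_mem ha (hx n)) (mul_mem (hx n) ha)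
    have hs : ∀ y ∈ M, HasSum (fun k => ‖y (ζ k)‖ ^ 2) (‖ρ y ξ‖ ^ 2) := fun y hy => by
      have := Complex.hasSum_re (hζ _ (mul_mem (star_mem hy) hy))
      rw [← R.state _ (mul_mem (star_mem hy) hy), R.mul _ (star_mem hy) _ hy, R.adj _ hy] at this
      simpa only [norm_sq_apply] using! this
    have := (tendsto_tsum_of_dominated_convergence (f := fun n k => ‖z n (ζ k)‖ ^ 2)
      (g := fun _ => 0) (bound := fun k => (‖a‖ + ‖a‖) ^ 2 * ‖ζ k‖ ^ 2)
      ((hs 1 (one_mem M)).summable.mul_left _) (fun k => by simpa [z] using (h4 (ζ k)).norm.pow 2)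
      (.of_forall fun n k => ?_)).sqrt
    · simpa only [(hs _ (hz _)).tsum_eq, Real.sqrt_sq (norm_nonneg _), tsum_zero, Real.sqrt_zero, z,
        R.sub _ (mul_mem ha (hx _)) _ (mul_mem (hx _) ha), R.mul _ ha _ (hx _),
        R.mul _ (hx _) _ ha, hρ] using this
    · have h5 := (hn n).trans (h1 n)
      rw [norm_pow, norm_norm, ← mul_pow]
      gcongr
      refine (z n).le_of_opNorm_le ((norm_sub_le _ _).trans (add_le_add ((norm_mul_le _ _).trans ?_)
        ((norm_mul_le _ _).trans ?_))) _ <;> nlinarith [norm_nonneg a]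
  · filter_upwards [h2.eventually_le_const (half_pos hε)] with n hn y hy
    have hy' := R.le y hy
    have e : φ (y * x n) - φ (x n * y) = ⟪ξ, ρ y (w n ξ - rJ P.J (w n) ξ)⟫_ℂ +
        ⟪P.J (w n ξ - rJ P.J (w n) ξ), ρ y ξ⟫_ℂ := by
      rw [← R.state _ (mul_mem hy (hx n)), ← R.state _ (mul_mem (hx n) hy), R.mul _ hy _ (hx n),
        R.mul _ (hx n) _ hy, hρ]
      simp only [map_sub, inner_sub_left, inner_sub_right, ContinuousLinearMap.mul_apply]
      rw [comm_of_mem (R.mem y hy) (P.r_mem (hw n)), ← star_left (rJ _ _), P.star_r, r_ap, r_ap,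
        P.JJ, P.Jξ, star_star, star_left]
      ring
    have hJ : ∀ η, ‖P.J η‖ = ‖η‖ := fun η => by
      simp only [norm_eq_sqrt_re_inner (𝕜 := ℂ) (E := K), P.Jinner]
    have b1 := norm_inner_le_norm (𝕜 := ℂ) ξ (ρ y (w n ξ - rJ P.J (w n) ξ))
    have b2 := norm_inner_le_norm (𝕜 := ℂ) (P.J (w n ξ - rJ P.J (w n) ξ)) (ρ y ξ)
    have b3 := (ρ y).le_of_opNorm_le hy' (w n ξ - rJ P.J (w n) ξ)
    have b4 := (ρ y).le_of_opNorm_le hy' ξ
    rw [hJ] at b2
    rw [R.unit] at b1 b4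
    rw [e]
    refine (norm_add_le _ _).trans ?_
    nlinarith [norm_nonneg y, norm_nonneg (w n ξ - rJ P.J (w n) ξ), norm_nonneg (ρ y ξ)]

end Vale.Agent.P132.T
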