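import Vale.Agent.P132.Defs
import Vale.Agent.P132.Basic
import Vale.Agent.P132.TMain
import Vale.Agent.P104.Basic

/-! The GNS representation of a faithful normal state maps `M` onto a von Neumann algebra. -/

open Filter Topology
open scoped InnerProductSpace ComplexConjugate ComplexOrder

namespace Vale.Agent.P132.T

universe u

variable {H : Type u} [NormedAddCommGroup H] [InnerProductSpace ℂ H] [CompleteSpace H]
variable {M : VonNeumannAlgebra H} {φ : (H →L[ℂ] H) → ℂ}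

theorem exists_gns (hφ : IsFNState M φ) : ∃ (K : Type u) (_ : NormedAddCommGroup K)
    (_ : InnerProductSpace ℂ K) (_ : CompleteSpace K) (π : M.toStarSubalgebra →⋆ₐ[ℂ] (K →L[ℂ] K))
    (ξ : K), (∀ x, ⟪ξ, π x ξ⟫_ℂ = φ x) ∧ DenseRange fun x => π x ξ := by
  obtain ⟨ξ, h⟩ := hφ.normal
  letI := CStarAlgebra.spectralOrder M.toStarSubalgebra
  haveI := CStarAlgebra.spectralOrderedRing M.toStarSubalgebra
  let L : M.toStarSubalgebra →ₗ[ℂ] ℂ :=
    { toFun := fun x => φ x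
      map_add' := fun x y => (h _ (x + y).2).unique (by
        simpa [inner_add_right] using (h _ x.2).add (h _ y.2))
      map_smul' := fun c x => (h _ (c • x).2).unique (by
        simpa [inner_smul_right] using (h _ x.2).mul_left c) }
  let f : M.toStarSubalgebra →ₚ[ℂ] ℂ := PositiveLinearMap.mk₀ L fun a ha => by
    obtain ⟨b, rfl⟩ := CStarAlgebra.nonneg_iff_eq_star_mul_self.1 ha
    refine (h _ (star b * b).2).nonneg fun n => ?_
    change 0 ≤ ⟪ξ n, star b.1 (b.1 (ξ n))⟫_ℂ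
    rw [star_right, inner_self_eq_norm_sq_to_K]
    exact pow_nonneg (Complex.zero_le_real.2 (norm_nonneg (b.1 (ξ n)))) 2
  have e : ∀ x, f.gnsStarAlgHom x (f.toPreGNS 1 : f.PreGNS) = (f.toPreGNS x : f.PreGNS) :=
    fun x => (f.gnsNonUnitalStarAlgHom_apply_coe ..).trans (congrArg _ (mul_one x))
  refine ⟨f.GNS, inferInstance, inferInstance, inferInstance, f.gnsStarAlgHom,
    (f.toPreGNS 1 : f.PreGNS), fun x => ?_, ?_⟩
  · rw [e, UniformSpace.Completion.inner_coe, f.preGNS_inner_def]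
    exact congrArg φ (by simp)
  · exact funext e ▸ (UniformSpace.Completion.denseRange_coe (α := f.PreGNS))

variable {K : Type*} [NormedAddCommGroup K] [InnerProductSpace ℂ K] [CompleteSpace K]

lemma pr_one {S : Set K} (h : P132.pr S = 1) : Dense (Submodule.span ℂ S : Set K) := fun η => by
  simpa [h] using pr_mem S η

lemma exists_sq {N : VonNeumannAlgebra K} {d : K →L[ℂ] K} (h : 0 ≤ d) (hd : d ∈ N) :
    ∃ z ∈ N, IsSelfAdjoint z ∧ z * z = d :=
  let ⟨z, h1, h2, h3⟩ := P104.exists_sqrt h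
  ⟨z, mem_of_comm fun y hy => (h3 y (VonNeumannAlgebra.mem_commutant_iff.1 hy d hd)).symm,
    h1.isSelfAdjoint, h2⟩

lemma induce {I : Type*} (V : I → K →L[ℂ] H) {N : VonNeumannAlgebra K}
    (hV : ∀ i j, ContinuousLinearMap.adjoint (V i) ∘L V j ∈ N.commutant)
    (S1 : P132.pr {η | ∃ i κ, η = V i κ} = 1) {y : K →L[ℂ] K} (hy : y ∈ N) :
    ∃ x : H →L[ℂ] H, ‖x‖ ≤ ‖y‖ ∧ ∀ i κ, x (V i κ) = V i (y κ) := by
  let e : (I →₀ K) →ₗ[ℂ] H := Finsupp.lsum ℂ fun i => (V i).toLinearMap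
  have he : DenseRange e := (pr_one S1).mono (Submodule.span_le (p := LinearMap.range e) |>.2 (by
    rintro _ ⟨V, κ, rfl⟩; exact ⟨Finsupp.single V κ, by simp [e]⟩))
  have hz : 0 ≤ algebraMap ℝ _ (‖y‖ ^ 2) - star y * y :=
    sub_nonneg.2 CStarAlgebra.star_mul_le_algebraMap_norm_sq
  obtain ⟨z, z1, z0, z2⟩ := exists_sq hz (sub_mem (by
    rw [Algebra.algebraMap_eq_smul_one, ← Complex.coe_smul]; exact vsmul _ (one_mem _))
      (mul_mem (star_mem hy) hy))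
  have q : ∀ a ∈ N, ∀ i j κ κ',
      ⟪V i (a κ), V j (a κ')⟫_ℂ = ⟪V i κ, V j ((star a * a) κ')⟫_ℂ := fun a ha i j κ κ' => by
    rw [← (V i).adjoint_inner_right, ← (V i).adjoint_inner_right, ← star_right]
    exact congrArg _ (comm_of_mem (star_mem ha) (hV i j) _)
  have bd : ∀ g, ‖(e ∘ₗ Finsupp.mapRange.linearMap y.toLinearMap) g‖ ≤ ‖y‖ * ‖e g‖ := fun g => by
    have e1 : (e ∘ₗ Finsupp.mapRange.linearMap y.toLinearMap) g = ∑ i ∈ g.support, V i (y (g i)) :=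
      Finsupp.sum_mapRange_index (hf := map_zero _) (h := fun i κ => V i κ) fun _ => map_zero _
    have e2 : ⟪∑ i ∈ g.support, V i (y (g i)), ∑ i ∈ g.support, V i (y (g i))⟫_ℂ +
        ⟪∑ i ∈ g.support, V i (z (g i)), ∑ i ∈ g.support, V i (z (g i))⟫_ℂ =
        (‖y‖ ^ 2 : ℝ) * ⟪e g, e g⟫_ℂ := by
      rw [show e g = ∑ i ∈ g.support, V i (g i) from rfl]
      simp only [sum_inner, inner_sum, q y hy, q z z1, z0.star_eq, z2, ← Finset.sum_add_distrib,
        Finset.mul_sum]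
      refine Finset.sum_congr rfl fun V _ => Finset.sum_congr rfl fun W _ => ?_
      simp [Algebra.algebraMap_eq_smul_one, inner_sub_right, ← Complex.coe_smul, inner_smul_right]
    have e3 := congrArg Complex.re e2
    rw [Complex.add_re, Complex.re_ofReal_mul, ← sq_eq_re, ← sq_eq_re, ← sq_eq_re] at e3
    refine le_of_sq_le_sq ?_ (by positivity)
    rw [e1, mul_pow, ← e3]
    exact le_add_of_nonneg_right (by positivity)
  exact ⟨_, LinearMap.opNorm_extendOfNorm_le he (norm_nonneg _) bd, fun V κ => by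
    simpa [e] using LinearMap.extendOfNorm_eq he ⟨_, bd⟩ (Finsupp.single V κ)⟩

theorem onto (hφ : IsFNState M φ) (π : M.toStarSubalgebra →⋆ₐ[ℂ] (K →L[ℂ] K)) {ξ : K}
    (h1 : ∀ x, ⟪ξ, π x ξ⟫_ℂ = φ x) (hd : DenseRange fun x => π x ξ) {y : K →L[ℂ] K}
    (hy : y ∈ (vnOf (Set.range π)).commutant) : ∃ x, π x = y ∧ ‖x‖ ≤ ‖y‖ := by
  obtain ⟨v, h⟩ := hφ.normal
  have hs : ∀ x : M.toStarSubalgebra, HasSum (fun n => ‖x.1 (v n)‖ ^ 2) (‖π x ξ‖ ^ 2) := fun x => by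
    have := Complex.hasSum_re (h _ (star x * x).2)
    rw [← h1, map_mul, map_star] at this
    simpa only [norm_sq_apply] using! this
  let ev : M.toStarSubalgebra →ₗ[ℂ] K := ⟨⟨fun x => π x ξ, by simp⟩, by simp⟩
  have hc : ∀ n, ∃ c : K →L[ℂ] H, ∀ x, c (π x ξ) = x.1 (v n) := fun n =>
    ⟨LinearMap.extendOfNorm ⟨⟨fun x : M.toStarSubalgebra => x.1 (v n), by simp⟩, by simp⟩ ev,
      LinearMap.extendOfNorm_eq (e := ev) hd ⟨1, fun x => le_of_sq_le_sq
        ((le_hasSum (hs x) n fun _ _ => by positivity).trans_eq (by simp [ev])) (by positivity)⟩⟩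
  choose c hc using hc
  let I := {V : K →L[ℂ] H // ∀ x κ, V (π x κ) = x.1 (V κ)}
  have ci : ∀ n x κ, c n (π x κ) = x.1 (c n κ) := fun n x κ =>
    hd.induction_on (p := fun κ => c n (π x κ) = x.1 (c n κ)) κ
      (isClosed_eq (by fun_prop) (by fun_prop)) fun a => by
        rw [← ContinuousLinearMap.mul_apply, ← map_mul, hc, hc]; rfl
  have sep : ∀ κ, (∀ n, c n κ = 0) → κ = 0 := fun κ hκ => by
    have b : ∀ (s : Finset ℕ) η, ∑ n ∈ s, ‖c n η‖ ^ 2 ≤ ‖η‖ ^ 2 := fun s η =>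
      hd.induction_on (p := fun η => ∑ n ∈ s, ‖c n η‖ ^ 2 ≤ ‖η‖ ^ 2) η
        (isClosed_le (by fun_prop) (by fun_prop)) fun x => by
          simpa only [hc] using sum_le_hasSum s (fun _ _ => by positivity) (hs x)
    have := hd.induction_on (p := fun η => ‖η‖ ^ 2 ≤ ‖η - κ‖ ^ 2) κ
      (isClosed_le (by fun_prop) (by fun_prop)) fun x => hasSum_le_of_sum_le (hs x) fun s => by
        simpa only [map_sub, hκ, sub_zero, hc] using b s (π x ξ - κ)
    rw [sub_self, norm_zero] at this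
    exact norm_le_zero_iff.1 (le_of_sq_le_sq this le_rfl)
  let S : Set H := {η | ∃ V : I, ∃ κ, η = V.1 κ}
  have ST : ∀ T ∈ M.commutant, ∀ V : I, ∃ W : I, ∀ κ, W.1 κ = T (V.1 κ) := fun T hT V =>
    ⟨⟨T ∘L V.1, fun x κ => by simp [V.2, comm_of_mem x.2 hT]⟩, fun _ => rfl⟩
  have S1 : P132.pr S = 1 := by
    have key : ∀ T ∈ M.commutant, ∀ η ∈ S, P132.pr S (T η) = T η := by
      rintro T hT _ ⟨V, κ, rfl⟩
      obtain ⟨W, hW⟩ := ST T hT V
      exact pr_fix ⟨W, κ, (hW κ).symm⟩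
    have hm : 1 - P132.pr S ∈ M := sub_mem (one_mem M)
      (mem_of_comm fun T hT => pr_comm (key T hT) (key _ (star_mem hT)))
    refine (sub_eq_zero.1 (hφ.faithful _ hm ((h _ (mul_mem (star_mem hm) hm)).unique ?_))).symm
    have : ∀ n, P132.pr S (v n) = v n := fun n =>
      pr_fix ⟨⟨c n, ci n⟩, ξ, by simpa using (hc n 1).symm⟩
    simpa [this] using hasSum_zero
  obtain ⟨x, hn, hx⟩ := induce (fun V : I => V.1) (fun V W => by
    have : ∀ x, π x * (ContinuousLinearMap.adjoint V.1 ∘L W.1) =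
        (ContinuousLinearMap.adjoint V.1 ∘L W.1) * π x := fun x =>
      ContinuousLinearMap.ext fun a => ext_inner_left ℂ fun b => by
        simp [← star_left (π x), ← map_star, ContinuousLinearMap.adjoint_inner_right, V.2, W.2,
          star_left]
    rw [VonNeumannAlgebra.commutant_commutant, mem_vnOf]
    rintro _ ⟨x, rfl⟩
    exact ⟨this x, map_star π x ▸ this _⟩) S1 hy
  refine ⟨⟨x, mem_of_comm fun T hT => ?_⟩, ContinuousLinearMap.ext fun κ =>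
    sub_eq_zero.1 (sep _ fun n => ?_), hn⟩
  · simpa [S1] using pr_ext (S := S) (x := T * x) (y := x * T) (by
      rintro _ ⟨V, κ, rfl⟩
      obtain ⟨W, hW⟩ := ST T hT V
      simp only [ContinuousLinearMap.mul_apply, hx, ← hW])
  · rw [map_sub, ci, hx ⟨c n, ci n⟩, sub_self]

lemma dense_of_sep {N : VonNeumannAlgebra K} {ξ : K} (h : ∀ x ∈ N, x ξ = 0 → x = 0) :
    Dense {η | ∃ x ∈ N.commutant, η = x ξ} := by
  have key : ∀ T ∈ N.commutant, ∀ η ∈ {η | ∃ x ∈ N.commutant, η = x ξ},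
      P132.pr {η | ∃ x ∈ N.commutant, η = x ξ} (T η) = T η := by
    rintro T hT _ ⟨x, hx, rfl⟩
    exact pr_fix ⟨_, mul_mem hT hx, rfl⟩
  refine (pr_one (sub_eq_zero.1 (h _ (sub_mem (mem_of_comm fun T hT =>
    pr_comm (key T hT) (key _ (star_mem hT))) (one_mem N)) ?_))).mono fun η hη => ?_
  · simpa [sub_eq_zero] using key 1 (one_mem _) ξ ⟨1, one_mem _, rfl⟩
  · induction hη using Submodule.span_induction with
    | mem _ h => exact h
    | zero => exact ⟨0, zero_mem _, rfl⟩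
    | add _ _ _ _ a b =>
      obtain ⟨x, hx, rfl⟩ := a; obtain ⟨y, hy, rfl⟩ := b; exact ⟨_, add_mem hx hy, rfl⟩
    | smul c _ _ a => obtain ⟨x, hx, rfl⟩ := a; exact ⟨_, vsmul c hx, rfl⟩

/-- standard form of a faithful normal state -/
structure Rep (M : VonNeumannAlgebra H) (φ : (H →L[ℂ] H) → ℂ) (N : VonNeumannAlgebra K) (ξ : K)
    (ρ : (H →L[ℂ] H) → K →L[ℂ] K) : Prop where
  mem : ∀ x ∈ M, ρ x ∈ N
  mul : ∀ x ∈ M, ∀ y ∈ M, ρ (x * y) = ρ x * ρ y
  sub : ∀ x ∈ M, ∀ y ∈ M, ρ (x - y) = ρ x - ρ y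
  adj : ∀ x ∈ M, ρ (star x) = star (ρ x)
  smul : ∀ c : ℂ, ρ (c • 1) = c • 1
  onto : ∀ y ∈ N, ∃ x ∈ M, ρ x = y ∧ ‖x‖ ≤ ‖y‖
  le : ∀ x ∈ M, ‖ρ x‖ ≤ ‖x‖
  inj : ∀ x ∈ M, ∀ y ∈ M, ρ x = ρ y → x = y
  state : ∀ x ∈ M, ⟪ξ, ρ x ξ⟫_ℂ = φ x
  unit : ‖ξ‖ = 1
  cyc : Dense {η | ∃ x ∈ N, η = x ξ}
  cyc' : Dense {η | ∃ x ∈ N.commutant, η = x ξ}

theorem exists_rep (hφ : IsFNState M φ) : ∃ (K : Type u) (_ : NormedAddCommGroup K)
    (_ : InnerProductSpace ℂ K) (_ : CompleteSpace K) (N : VonNeumannAlgebra K) (ξ : K)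
    (ρ : (H →L[ℂ] H) → K →L[ℂ] K), Rep M φ N ξ ρ := by
  classical
  obtain ⟨K, _, _, _, π, ξ, h1, hd⟩ := exists_gns hφ
  let ρ : (H →L[ℂ] H) → K →L[ℂ] K := fun x => if h : x ∈ M then π ⟨x, h⟩ else 0
  have e : ∀ x (h : x ∈ M), ρ x = π ⟨x, h⟩ := fun x h => dif_pos h
  have hm : ∀ x, π x ∈ (vnOf (Set.range π)).commutant := fun x =>
    VonNeumannAlgebra.mem_commutant_iff.2 fun g hg => ((mem_vnOf.1 hg) _ ⟨x, rfl⟩).1.symm
  have sep : ∀ x, π x ξ = 0 → x = 0 := fun x hx => Subtype.ext (hφ.faithful _ x.2 (by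
    simpa [hx] using (h1 (star x * x)).symm))
  refine ⟨K, _, _, _, (vnOf (Set.range π)).commutant, ξ, ρ, fun x hx => e x hx ▸ hm _,
    fun x hx y hy => ?_, fun x hx y hy => ?_, fun x hx => ?_, fun c => ?_, fun y hy => ?_,
    fun x hx => e x hx ▸ NonUnitalStarAlgHom.norm_apply_le π _,
    fun x hx y hy h => ?_, fun x hx => e x hx ▸ h1 _, ?_, hd.mono ?_, dense_of_sep fun y hy h => ?_⟩
  · rw [e _ hx, e _ hy, e _ (mul_mem hx hy), ← map_mul]; rfl
  · rw [e _ hx, e _ hy, e _ (sub_mem hx hy), ← map_sub]; rfl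
  · rw [e _ hx, e _ (star_mem hx), ← map_star]; rfl
  · rw [e _ (vsmul c (one_mem M)), ← map_one π, ← map_smul]; rfl
  · obtain ⟨x, rfl, h⟩ := onto hφ π h1 hd hy
    exact ⟨x, x.2, e _ x.2, h⟩
  · rw [e _ hx, e _ hy, ← sub_eq_zero, ← map_sub] at h
    exact sub_eq_zero.1 (congrArg Subtype.val (sep _ (by rw [h]; rfl)))
  · have := congrArg Complex.re ((h1 1).trans hφ.unital)
    rw [map_one, ContinuousLinearMap.one_apply, ← sq_eq_re, Complex.one_re] at this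
    nlinarith [norm_nonneg ξ]
  · rintro _ ⟨x, rfl⟩; exact ⟨_, hm x, rfl⟩
  · obtain ⟨x, rfl, -⟩ := onto hφ π h1 hd hy
    rw [sep x h, map_zero]

end Vale.Agent.P132.T
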